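import Vale.Agent.P199.NC

/-!
P199, part (A), A1: `B<<t_i>>` has no zero divisors if `B` has none.
-/

namespace Vale.P199.NC

variable {I B : Type} [Ring B]

/-- a nonzero series has a word of minimal length with nonzero coefficient -/
theorem exists_min {f : NC I B} (hf : f ≠ 0) :
    ∃ w, f w ≠ 0 ∧ ∀ v : List I, v.length < w.length → f v = 0 := by
  classical
  have h : ∃ n : ℕ, ∃ w : List I, w.length = n ∧ f w ≠ 0 := by
    by_contra hcon
    push Not at hcon
    exact hf (NC.ext fun w => hcon w.length w rfl)
  obtain ⟨w, hw, hfw⟩ := Nat.find_spec h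
  refine ⟨w, hfw, fun v hv => ?_⟩
  by_contra hne
  exact Nat.find_min h (hw ▸ hv) ⟨v, rfl, hne⟩

instance instNoZeroDivisors [NoZeroDivisors B] : NoZeroDivisors (NC I B) where
  eq_zero_or_eq_zero_of_mul_eq_zero := by
    intro f g hfg
    by_contra hcon
    rw [not_or] at hcon
    obtain ⟨w, hw, hwm⟩ := exists_min hcon.1
    obtain ⟨w', hw', hwm'⟩ := exists_min hcon.2
    have h1 : (f * g) (w ++ w') = 0 := by rw [hfg]; rfl
    rw [mul_apply, Finset.sum_eq_single w.length] at h1
    · rw [List.take_left, List.drop_left] at h1
      rcases mul_eq_zero.1 h1 with h2 | h2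
      · exact hw h2
      · exact hw' h2
    · intro k hk hne
      rw [Finset.mem_range, List.length_append] at hk
      rcases Nat.lt_or_gt_of_ne hne with h2 | h2
      · rw [hwm _ (by rw [List.length_take, List.length_append]; omega), zero_mul]
      · rw [hwm' _ (by rw [List.length_drop, List.length_append]; omega), mul_zero]
    · intro h2
      exact absurd (Finset.mem_range.2 (by rw [List.length_append]; omega)) h2

instance instNontrivial [Nontrivial B] : Nontrivial (NC I B) :=
  ⟨⟨0, 1, fun h => by
    have := congrArg (fun f : NC I B => f []) h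
    simp only [zero_apply, one_nil] at this
    exact zero_ne_one this⟩⟩

end Vale.P199.NC
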