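import Vale.Agent.P199.Defs

/-!
# P199, A2: the initial stage
-/

namespace Vale.P199

open Polynomial

theorem hasRoots_algebraicClosure : HasRoots (AlgebraicClosure ℚ) := by
  intro r hr
  have : NeZero (r : AlgebraicClosure ℚ) := ⟨by exact_mod_cast hr.ne'⟩
  obtain ⟨ζ, hζ⟩ := IsAlgClosed.exists_root (cyclotomic r (AlgebraicClosure ℚ)) (by
    rw [degree_cyclotomic]
    exact_mod_cast (Nat.totient_pos.mpr hr).ne')
  exact ⟨ζ, isRoot_cyclotomic_iff.mp hζ⟩

/-- the initial state: `K = B` the algebraic closure of `ℚ`, two letters `X = t₀`, `Y = t₁`. -/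
noncomputable def initStage : Stage where
  K := AlgebraicClosure ℚ
  B := AlgebraicClosure ℚ
  I := Fin 2
  roots := hasRoots_algebraicClosure
  central := fun a _ => ⟨a, rfl⟩
  X := NC.T 0
  Y := NC.T 1
  gen := by
    rw [eq_top_iff]
    intro x _
    exact Subalgebra.algebraMap_mem _ x
  e := Equiv.refl _
  ind := by
    intro a b h
    obtain ⟨y, h1, h2⟩ := h
    have c1 : ∀ z : AlgebraicClosure ℚ, y * z - z * y = 0 := fun z => by ring
    have e1 := h1.trans (c1 _)
    have e2 := h2.trans (c1 _)
    simp only [State.lin, NC.T, NC.mk_apply, Fin.sum_univ_two] at e1 e2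
    simp at e1 e2
    exact ⟨e1, e2⟩

theorem initStage_finrank :
    Module.finrank initStage.K initStage.B = 1 := Module.finrank_self (AlgebraicClosure ℚ)

end Vale.P199
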