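import Vale.Agent.P199.Tower

/-!
# P199, part A, row A3 : the bookkeeping (existence of the tower of stages)
-/

namespace Vale.P199

open Cardinal Polynomial

namespace A3

/-- the coefficients in `k`, as elements of the series ring, and the two generators -/
def gens (S : State) (k : Subfield S.K) : Set (NC S.I S.B) :=
  (fun c : S.K => NC.C (algebraMap S.K S.B c)) '' (k : Set S.K) ∪ {S.X, S.Y}

/-- the subring of `B<<I>>` generated by the (central) field `k` and by `X`, `Y` -/
def adj (S : State) (k : Subfield S.K) : Subring (NC S.I S.B) := Subring.closure (gens S k)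

theorem countable_closure {R : Type} [Ring R] {s : Set R} (hs : s.Countable) :
    (Subring.closure s : Set R).Countable := by
  have h : (Subring.closure s : Set R) = (Algebra.adjoin ℤ s : Set R) := by
    ext x
    constructor
    · intro hx
      have : Subring.closure s ≤ (Algebra.adjoin ℤ s).toSubring := by
        rw [Subring.closure_le]
        exact Algebra.subset_adjoin
      exact this hx
    · intro hx
      refine Algebra.adjoin_induction (p := fun x _ => x ∈ Subring.closure s) ?_ ?_ ?_ ?_ hx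
      · intro y hy; exact Subring.subset_closure hy
      · intro r; simp
      · intro a b _ _ ha hb; exact add_mem ha hb
      · intro a b _ _ ha hb; exact mul_mem ha hb
  rw [h, ← Cardinal.le_aleph0_iff_set_countable]
  refine (Algebra.cardinalMk_adjoin_le ℤ s).trans ?_
  refine max_le (max_le ?_ ?_) le_rfl
  · exact Cardinal.mk_le_aleph0
  · exact Cardinal.le_aleph0_iff_set_countable.mpr hs

theorem countable_subfield {K : Type} [Field K] {s : Set K} (hs : s.Countable) :
    (Subfield.closure s : Set K).Countable := by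
  rw [← Cardinal.le_aleph0_iff_set_countable]
  exact (Subfield.cardinalMk_closure_le_max s).trans
    (max_le (Cardinal.le_aleph0_iff_set_countable.mpr hs) le_rfl)

theorem countable_adj (S : State) (k : Subfield S.K) (hk : (k : Set S.K).Countable) :
    (adj S k : Set (NC S.I S.B)).Countable := by
  apply countable_closure
  refine (hk.image _).union ?_
  exact (Set.countable_singleton _).insert _

theorem adj_enum (S : State) (k : Subfield S.K) (hk : (k : Set S.K).Countable) :
    ∃ e : ℕ → NC S.I S.B, (∀ q, e q ∈ adj S k) ∧ ∀ f ∈ adj S k, ∃ l, e l = f := by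
  obtain ⟨e, he⟩ := (countable_adj S k hk).exists_eq_range ⟨0, zero_mem _⟩
  refine ⟨e, ?_, ?_⟩
  · intro q
    have : e q ∈ (adj S k : Set _) := by rw [he]; exact ⟨q, rfl⟩
    exact this
  · intro f hf
    have : f ∈ (adj S k : Set _) := hf
    rw [he] at this
    exact this

theorem adj_le (S : State) (k : Subfield S.K) {f : NC S.I S.B} (hf : f ∈ adj S k) :
    f ∈ Algebra.adjoin S.K {S.X, S.Y} := by
  have : adj S k ≤ (Algebra.adjoin S.K {S.X, S.Y}).toSubring := by
    unfold adj
    rw [Subring.closure_le]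
    rintro x (⟨c, _, rfl⟩ | hx)
    · exact (Algebra.adjoin S.K {S.X, S.Y}).algebraMap_mem c
    · exact Algebra.subset_adjoin hx
  exact this hf

theorem map_adjoin {S S' : State} (m : Mor S S') {f : NC S.I S.B}
    (hf : f ∈ Algebra.adjoin S.K {S.X, S.Y}) : m.Ψ f ∈ Algebra.adjoin S'.K {S'.X, S'.Y} := by
  refine Algebra.adjoin_induction
    (p := fun x _ => m.Ψ x ∈ Algebra.adjoin S'.K {S'.X, S'.Y}) ?_ ?_ ?_ ?_ hf
  · rintro x (rfl | hx)
    · rw [m.hX]; exact Algebra.subset_adjoin (by simp)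
    · rw [Set.mem_singleton_iff] at hx
      subst hx
      rw [m.hY]; exact Algebra.subset_adjoin (by simp)
  · intro r
    rw [NC.algebraMap_eq, m.hC]
    exact (Algebra.adjoin S'.K {S'.X, S'.Y}).algebraMap_mem (m.j r)
  · intro a b _ _ ha hb; rw [map_add]; exact add_mem ha hb
  · intro a b _ _ ha hb; rw [map_mul]; exact mul_mem ha hb

/-- a stage with a countable coefficient field and a list of elements to be frozen -/
structure Aug where
  S : Stage
  k : Subfield S.K
  ck : (k : Set S.K).Countable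
  en : ℕ → NC S.I S.B
  hen : ∀ q, en q ∈ Algebra.adjoin S.K {S.X, S.Y}

theorem step_ex (H : KeyLemma) (n : ℕ) (A : Aug) :
    ∃ (A' : Aug) (m : Mor A.S.toState A'.S.toState),
      Module.finrank A.S.K A.S.B < Module.finrank A'.S.K A'.S.B ∧
      (∀ c ∈ A.k, m.j c ∈ A'.k) ∧
      (∃ P : Polynomial A'.S.K, P.Monic ∧ (∀ i, P.coeff i ∈ A'.k) ∧
        Polynomial.aeval (m.Ψ (A.en n)) P = 0) ∧
      (∀ i l, i ≤ n → A'.en (Nat.pair i l) = m.Ψ (A.en (Nat.pair i l))) ∧
      (∀ f ∈ adj A'.S.toState A'.k, ∃ l, A'.en (Nat.pair (n + 1) l) = f) := by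
  obtain ⟨S', m, hfin, P, hP0, hP⟩ := H A.S (A.en n) (A.hen n)
  set Q : Polynomial S'.K := P * C (P.leadingCoeff)⁻¹ with hQ
  have hQm : Q.Monic := Polynomial.monic_mul_leadingCoeff_inv hP0
  have hQa : Polynomial.aeval (m.Ψ (A.en n)) Q = 0 := by
    rw [hQ, map_mul, hP, zero_mul]
  set s : Set S'.K := (m.j '' (A.k : Set A.S.K)) ∪ Set.range (fun i => Q.coeff i) with hs
  have hsc : s.Countable := (A.ck.image _).union (Set.countable_range _)
  set k' : Subfield S'.K := Subfield.closure s with hk'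
  have hkc : (k' : Set S'.K).Countable := countable_subfield hsc
  obtain ⟨e, he1, he2⟩ := adj_enum S'.toState k' hkc
  let en' : ℕ → NC S'.I S'.B := fun q =>
    if (Nat.unpair q).1 ≤ n then m.Ψ (A.en q) else e (Nat.unpair q).2
  have hen' : ∀ q, en' q ∈ Algebra.adjoin S'.K {S'.X, S'.Y} := by
    intro q
    by_cases h : (Nat.unpair q).1 ≤ n
    · simp only [en', if_pos h]
      exact map_adjoin m (A.hen q)
    · simp only [en', if_neg h]
      exact adj_le _ _ (he1 _)
  refine ⟨⟨S', k', hkc, en', hen'⟩, m, hfin, ?_, ⟨Q, hQm, ?_, hQa⟩, ?_, ?_⟩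
  · intro c hc
    exact Subfield.subset_closure (Or.inl ⟨c, hc, rfl⟩)
  · intro i
    exact Subfield.subset_closure (Or.inr ⟨i, rfl⟩)
  · intro i l hi
    show en' (Nat.pair i l) = _
    simp only [en', Nat.unpair_pair]
    rw [if_pos hi]
  · intro f hf
    obtain ⟨l, hl⟩ := he2 f hf
    refine ⟨l, ?_⟩
    show en' (Nat.pair (n + 1) l) = f
    simp only [en', Nat.unpair_pair]
    rw [if_neg (by omega), hl]

theorem start_ex (S : Stage) : ∃ A : Aug, ∀ f ∈ adj A.S.toState A.k, ∃ l, A.en (Nat.pair 0 l) = f := by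
  have hkc : ((Subfield.closure (∅ : Set S.K) : Subfield S.K) : Set S.K).Countable :=
    countable_subfield Set.countable_empty
  obtain ⟨e, he1, he2⟩ := adj_enum S.toState _ hkc
  refine ⟨⟨S, _, hkc, fun q => e (Nat.unpair q).2, fun q => adj_le _ _ (he1 _)⟩, ?_⟩
  intro f hf
  obtain ⟨l, hl⟩ := he2 f hf
  refine ⟨l, ?_⟩
  show e (Nat.unpair (Nat.pair 0 l)).2 = f
  rw [Nat.unpair_pair]; exact hl

/-- pushing forward `d` stages -/
def push (S : ℕ → Stage) (m : ∀ n, Mor (S n).toState (S (n + 1)).toState) (n : ℕ) :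
    (d : ℕ) → NC (S n).I (S n).B →+* NC (S (n + d)).I (S (n + d)).B
  | 0 => RingHom.id _
  | d + 1 => (m (n + d)).Ψ.comp (push S m n d)

noncomputable def aug (H : KeyLemma) (S₀ : Stage) : ℕ → Aug
  | 0 => (start_ex S₀).choose
  | n + 1 => (step_ex H n (aug H S₀ n)).choose

theorem seq_ex (H : KeyLemma) (S₀ : Stage) :
    ∃ (a : ℕ → Aug) (m : ∀ n, Mor (a n).S.toState (a (n + 1)).S.toState),
      (∀ f ∈ adj (a 0).S.toState (a 0).k, ∃ l, (a 0).en (Nat.pair 0 l) = f) ∧
      (∀ n, Module.finrank (a n).S.K (a n).S.B < Module.finrank (a (n + 1)).S.K (a (n + 1)).S.B) ∧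
      (∀ n, ∀ c ∈ (a n).k, (m n).j c ∈ (a (n + 1)).k) ∧
      (∀ n, ∃ P : Polynomial (a (n + 1)).S.K, P.Monic ∧ (∀ i, P.coeff i ∈ (a (n + 1)).k) ∧
        Polynomial.aeval ((m n).Ψ ((a n).en n)) P = 0) ∧
      (∀ n i l, i ≤ n → (a (n + 1)).en (Nat.pair i l) = (m n).Ψ ((a n).en (Nat.pair i l))) ∧
      (∀ n, ∀ f ∈ adj (a (n + 1)).S.toState (a (n + 1)).k,
        ∃ l, (a (n + 1)).en (Nat.pair (n + 1) l) = f) := by
  have hstep := fun n => (step_ex H n (aug H S₀ n)).choose_spec
  choose m h1 h2 h3 h4 h5 using hstep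
  exact ⟨aug H S₀, m, (start_ex S₀).choose_spec, h1, h2, h3, h4, h5⟩

theorem exists_tower (H : KeyLemma) (S₀ : Stage) :
    ∃ (S : ℕ → Stage) (m : ∀ n, Mor (S n).toState (S (n + 1)).toState)
      (k : ∀ n, Subfield (S n).K),
      (∀ n, ∀ c ∈ k n, (m n).j c ∈ k (n + 1)) ∧
      (∀ n, Module.finrank (S n).K (S n).B < Module.finrank (S (n + 1)).K (S (n + 1)).B) ∧
      (∀ n, ∀ f ∈ adj (S n).toState (k n), ∃ d : ℕ, ∃ P : Polynomial (S (n + (d + 1))).K,
        P.Monic ∧ (∀ i, P.coeff i ∈ k (n + (d + 1))) ∧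
        Polynomial.aeval (push S m n (d + 1) f) P = 0) := by
  obtain ⟨a, m, h0, h1, h2, h3, h4, h5⟩ := seq_ex H S₀
  refine ⟨fun n => (a n).S, m, fun n => (a n).k, h2, h1, ?_⟩
  intro n f hf
  -- the index of `f` in the list of stage `n`
  have hl : ∃ l, (a n).en (Nat.pair n l) = f := by
    cases n with
    | zero => exact h0 f hf
    | succ n => exact h5 n f hf
  obtain ⟨l, hl⟩ := hl
  have hpush : ∀ d, (a (n + d)).en (Nat.pair n l) = push (fun n => (a n).S) m n d f := by
    intro d
    induction d with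
    | zero => exact hl
    | succ d ih =>
      have := h4 (n + d) n l (by omega)
      show (a (n + d + 1)).en (Nat.pair n l) = (m (n + d)).Ψ (push (fun n => (a n).S) m n d f)
      rw [← ih]
      exact this
  have hle : n ≤ Nat.pair n l := Nat.left_le_pair n l
  obtain ⟨d, hd⟩ := Nat.exists_eq_add_of_le hle
  obtain ⟨P, hP1, hP2, hP3⟩ := h3 (n + d)
  refine ⟨d, P, hP1, hP2, ?_⟩
  have e1 : (a (n + d)).en (n + d) = push (fun n => (a n).S) m n d f := by
    rw [← hpush d]
    congr 1
    exact hd.symm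
  rw [e1] at hP3
  exact hP3

theorem push_eq_tr (S : ℕ → Stage) (m : ∀ n, Mor (S n).toState (S (n + 1)).toState) (n : ℕ) :
    ∀ (d : ℕ) (f : NC (S n).I (S n).B), push S m n d f =
      Chain.tr (R := fun n => NC (S n).I (S n).B) (fun n => (m n).Ψ) (Nat.le_add_right n d) f
  | 0, f => by
    rw [Chain.tr_self]
    rfl
  | d + 1, f => by
    rw [Chain.tr_succ (R := fun n => NC (S n).I (S n).B) (fun n => (m n).Ψ)
      (Nat.le_add_right n d), ← push_eq_tr S m n d f]
    rfl

end A3

/-- A3: the key lemma gives a tower. -/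
theorem exists_tower (H : KeyLemma) (S₀ : Stage) : Nonempty Tower := by
  obtain ⟨S, m, k, hk, hr, ha⟩ := A3.exists_tower H S₀
  refine ⟨⟨fun n => (S n).toState, m, k, hk, ?_, ?_⟩⟩
  · intro n
    induction n with
    | zero => exact Nat.zero_le _
    | succ n ih => exact lt_of_le_of_lt ih (hr n)
  · intro n f hf
    obtain ⟨d, P, hP1, hP2, hP3⟩ := ha n f hf
    refine ⟨n + (d + 1), Nat.le_add_right _ _, P, hP1, hP2, ?_⟩
    rw [A3.push_eq_tr] at hP3
    exact hP3

end Vale.P199
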