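import Mathlib

/-!
# P199, A5: an algebraic algebra without zero divisors over a field is a division ring
-/

namespace Vale.P199

open Polynomial

/-- A nonzero algebraic element of a domain (not necessarily commutative) is invertible. -/
theorem isUnit_of_algebraic {k A : Type*} [Field k] [Ring A] [Nontrivial A] [NoZeroDivisors A]
    [Algebra k A] (a : A) (ha : IsAlgebraic k a) (h0 : a ≠ 0) : IsUnit a := by
  -- choose a nonzero annihilating polynomial of minimal degree
  obtain ⟨p, hp0, hp⟩ := ha
  have key : ∀ n : ℕ, ∀ p : k[X], p.natDegree = n → p ≠ 0 → aeval a p = 0 → IsUnit a := by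
    intro n
    induction n with
    | zero =>
      intro p hd hp0 hp
      exfalso
      rw [eq_C_of_natDegree_eq_zero hd] at hp hp0
      rw [aeval_C] at hp
      have := (algebraMap k A).injective
      rw [← map_zero (algebraMap k A)] at hp
      exact hp0 (by rw [this hp, C_0])
    | succ n ih =>
      intro p hd hp0 hp
      by_cases hc : p.coeff 0 = 0
      · -- p = X * q
        obtain ⟨q, rfl⟩ := X_dvd_iff.mpr hc
        have hq0 : q ≠ 0 := right_ne_zero_of_mul hp0
        rw [map_mul, aeval_X] at hp
        have hq := (mul_eq_zero.mp hp).resolve_left h0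
        refine ih q ?_ hq0 hq
        rw [natDegree_X_mul hq0] at hd
        omega
      · -- the constant term is nonzero
        have h1 := divX_mul_X_add p
        set q := p.divX with hq
        set c := p.coeff 0 with hc'
        rw [← h1, map_add, map_mul, aeval_X, aeval_C] at hp
        have h2 : aeval a q * a = algebraMap k A (-c) := by
          rw [map_neg]; exact eq_neg_of_add_eq_zero_left hp
        have h3 : a * aeval a q = algebraMap k A (-c) := by
          rw [← h2]
          have : aeval a (X * q) = aeval a (q * X) := by rw [mul_comm]
          simpa [map_mul] using this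
        have hc2 : (-c : k) ≠ 0 := neg_ne_zero.mpr hc
        refine ⟨⟨a, aeval a q * algebraMap k A (-c)⁻¹, ?_, ?_⟩, rfl⟩
        · rw [← mul_assoc, h3, ← map_mul, mul_inv_cancel₀ hc2, map_one]
        · rw [mul_assoc, Algebra.commutes, ← mul_assoc, h2, ← map_mul, mul_inv_cancel₀ hc2,
            map_one]
  exact key _ p rfl hp0 hp

/-- A5: an algebraic algebra without zero divisors over a field is a division ring. -/
noncomputable abbrev divisionRingOfAlgebraic (k A : Type*) [Field k] [Ring A] [Nontrivial A]
    [NoZeroDivisors A] [Algebra k A] (h : ∀ a : A, IsAlgebraic k a) : DivisionRing A :=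
  DivisionRing.ofIsUnitOrEqZero fun a => by
    by_cases h0 : a = 0
    · exact Or.inr h0
    · exact Or.inl (isUnit_of_algebraic a (h a) h0)

end Vale.P199
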