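import Vale.Agent.P199.Tower

/-!
P199, part (A), A6: the algebra `A = kk[x,y]` of a tower is algebraic over `kk`.
-/

namespace Vale.P199

open Polynomial

namespace Tower

variable (W : Tower)

theorem cst_mem_adj (n : ℕ) (c : W.k n) : W.cst n c ∈ (W.S n).adj (W.k n) :=
  Subring.subset_closure (Or.inl ⟨c, c.2, rfl⟩)

theorem X_mem_adj (n : ℕ) : (W.S n).X ∈ (W.S n).adj (W.k n) :=
  Subring.subset_closure (Or.inr (Or.inl rfl))

theorem Y_mem_adj (n : ℕ) : (W.S n).Y ∈ (W.S n).adj (W.k n) :=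
  Subring.subset_closure (Or.inr (Or.inr rfl))

theorem tr_mem_adj {n m : ℕ} (h : n ≤ m) (f : W.R n) (hf : f ∈ (W.S n).adj (W.k n)) :
    W.tr h f ∈ (W.S m).adj (W.k m) := by
  unfold State.adj at hf
  induction hf using Subring.closure_induction with
  | mem f hf =>
    rcases hf with ⟨c, hc, rfl⟩ | hf | hf
    · have h1 : (NC.C (algebraMap (W.S n).K (W.S n).B c) : W.R n) = W.cst n ⟨c, hc⟩ := rfl
      simp only
      rw [h1, W.tr_cst h]
      exact W.cst_mem_adj m _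
    · rw [hf, W.tr_X h]
      exact W.X_mem_adj m
    · rw [hf, W.tr_Y h]
      exact W.Y_mem_adj m
  | zero => rw [map_zero]; exact Subring.zero_mem _
  | one => rw [map_one]; exact Subring.one_mem _
  | add f g _ _ hf hg => rw [map_add]; exact Subring.add_mem _ hf hg
  | neg f _ hf => rw [map_neg]; exact Subring.neg_mem _ hf
  | mul f g _ _ hf hg => rw [map_mul]; exact Subring.mul_mem _ hf hg

/-- every element of `A` comes from a finite stage (as far as one wants) -/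
theorem mem_A {a : W.L} (ha : a ∈ W.A) (N : ℕ) :
    ∃ n, N ≤ n ∧ ∃ f ∈ (W.S n).adj (W.k n), W.ι n f = a := by
  unfold A at ha
  induction ha using Algebra.adjoin_induction generalizing N with
  | mem a ha =>
    rcases ha with ha | ha
    · exact ⟨N, le_rfl, (W.S N).X, W.X_mem_adj N, by rw [W.ι_X, ha]⟩
    · exact ⟨N, le_rfl, (W.S N).Y, W.Y_mem_adj N, by rw [W.ι_Y, ha]⟩
  | algebraMap c =>
    obtain ⟨n, c, rfl⟩ := W.exists_κ c
    refine ⟨max N n, le_max_left _ _, W.cst _ (W.ktr (le_max_right _ _) c), W.cst_mem_adj _ _, ?_⟩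
    rw [← W.algebraMap_κ, W.κ_ktr]
  | add a b _ _ ha hb =>
    obtain ⟨n, hn, f, hf, rfl⟩ := ha N
    obtain ⟨m, hm, g, hg, rfl⟩ := hb n
    refine ⟨m, hn.trans hm, W.tr hm f + g, Subring.add_mem _ (W.tr_mem_adj hm f hf) hg, ?_⟩
    rw [map_add, Chain.ι_tr]
  | mul a b _ _ ha hb =>
    obtain ⟨n, hn, f, hf, rfl⟩ := ha N
    obtain ⟨m, hm, g, hg, rfl⟩ := hb n
    refine ⟨m, hn.trans hm, W.tr hm f * g, Subring.mul_mem _ (W.tr_mem_adj hm f hf) hg, ?_⟩
    rw [map_mul, Chain.ι_tr]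

/-- every element of `A` is algebraic over `kk` -/
theorem isAlgebraic_of_mem {a : W.L} (ha : a ∈ W.A) : ∃ Q : Polynomial W.kk, Q.Monic ∧ aeval a Q = 0 := by
  obtain ⟨n, -, f, hf, rfl⟩ := W.mem_A ha 0
  obtain ⟨N, h, P, hP, hPk, hPf⟩ := W.alg n f hf
  have hl : P ∈ Polynomial.lifts (W.k N).subtype := by
    rw [Polynomial.lifts_iff_coeff_lifts]
    intro i
    exact ⟨⟨P.coeff i, hPk i⟩, rfl⟩
  obtain ⟨P', hP'⟩ := (Polynomial.mem_lifts _).1 hl
  have hmon : P'.Monic := by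
    refine Polynomial.monic_of_injective (f := (W.k N).subtype) Subtype.val_injective ?_
    rw [hP']
    exact hP
  refine ⟨P'.map (W.κ N), hmon.map _, ?_⟩
  have h1 : (algebraMap W.kk W.L).comp (W.κ N) = (W.ι N).comp (W.cst N) :=
    RingHom.ext fun c => W.algebraMap_κ N c
  have h2 : W.ι N (W.tr h f) = W.ι n f := Chain.ι_tr _ _ _
  rw [Polynomial.aeval_def, Polynomial.eval₂_map, h1, ← h2, ← Polynomial.hom_eval₂]
  have h3 : eval₂ (W.cst N) (W.tr h f) P' = aeval (W.tr h f) P := by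
    rw [← hP', Polynomial.aeval_def, Polynomial.eval₂_map]
    rfl
  rw [h3]
  have h4 : aeval (W.tr h f) P = 0 := hPf
  rw [h4, map_zero]

instance : Algebra.IsAlgebraic W.kk W.A := by
  refine ⟨fun a => ?_⟩
  obtain ⟨Q, hQ, ha⟩ := W.isAlgebraic_of_mem a.2
  refine ⟨Q, hQ.ne_zero, ?_⟩
  apply Subtype.ext
  have : ((aeval a Q : W.A) : W.L) = aeval (a : W.L) Q := by
    have := Polynomial.aeval_algHom_apply W.A.val a Q
    exact this.symm
  rw [this, ha]
  rfl

instance : Algebra.FiniteType W.kk W.A :=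
  (Subalgebra.fg_iff_finiteType W.A).1
    (Subalgebra.fg_def.2 ⟨{W.x, W.y}, Set.toFinite _, rfl⟩)

end Tower

end Vale.P199
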