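import Vale.Agent.P199.A6

/-!
P199, part (A), A7: the algebra `A = kk[x,y]` of a tower is infinite-dimensional over `kk`.

If it were spanned by `d` elements then finitely many relations expressing `1`, `x e_i`, `y e_i` through
the `e_j` would hold at a finite stage, hence at all later ones; taking constant terms gives
`dim_K B ≤ d` at all later stages.
-/

namespace Vale.P199

open Polynomial

/-- a finitely generated algebra is spanned by any finite family which spans `1` and is stable under
left multiplication by the generators -/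
theorem span_eq_top_of_closed {K B : Type} [Field K] [Ring B] [Algebra K B] (s : Set B)
    (hs : Algebra.adjoin K s = ⊤) (V : Submodule K B) (h1 : (1 : B) ∈ V)
    (hV : ∀ x ∈ s, ∀ v ∈ V, x * v ∈ V) : V = ⊤ := by
  have key : ∀ b ∈ Algebra.adjoin K s, ∀ v ∈ V, b * v ∈ V := by
    intro b hb
    induction hb using Algebra.adjoin_induction with
    | mem x hx => exact hV x hx
    | algebraMap c =>
      intro v hv
      rw [← Algebra.smul_def]
      exact V.smul_mem c hv
    | add a b _ _ ha hb =>
      intro v hv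
      rw [add_mul]
      exact V.add_mem (ha v hv) (hb v hv)
    | mul a b _ _ ha hb =>
      intro v hv
      rw [mul_assoc]
      exact ha _ (hb v hv)
  rw [eq_top_iff]
  intro b _
  have := key b (by rw [hs]; trivial) 1 h1
  rwa [mul_one] at this

namespace Chain

variable {R : ℕ → Type} [∀ n, Ring (R n)] (g : ∀ n, R n →+* R (n + 1))

/-- finitely many elements of the limit come from one stage -/
theorem exists_ι_fin {J : Type} [Finite J] (r : J → Lim g) (N : ℕ) :
    ∃ n, N ≤ n ∧ ∃ x : J → R n, ∀ j, ι g n (x j) = r j := by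
  classical
  cases nonempty_fintype J
  choose n hn x hx using fun j => exists_ι_ge g (r j) N
  refine ⟨max N (Finset.univ.sup n), le_max_left _ _, fun j =>
    tr g ((Finset.le_sup (Finset.mem_univ j)).trans (le_max_right _ _)) (x j), fun j => ?_⟩
  rw [ι_tr, hx]

/-- finitely many relations hold at one stage -/
theorem exists_tr_zero {J : Type} [Finite J] {N : ℕ} (r : J → R N) (hr : ∀ j, ι g N (r j) = 0) :
    ∃ n, ∃ h : N ≤ n, ∀ j, tr g h (r j) = 0 := by
  classical
  cases nonempty_fintype J
  choose n hn h0 using fun j => (ι_eq_zero g (r j)).1 (hr j)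
  refine ⟨max N (Finset.univ.sup n), le_max_left _ _, fun j => ?_⟩
  rw [← tr_trans g (hn j) ((Finset.le_sup (Finset.mem_univ j)).trans (le_max_right _ _)), h0,
    map_zero]

end Chain

namespace Tower

variable (W : Tower)

/-- finitely many elements of the limit field come from one stage -/
theorem exists_κ_fin {J : Type} [Finite J] (r : J → W.kk) :
    ∃ n, ∃ x : J → W.k n, ∀ j, W.κ n (x j) = r j := by
  classical
  cases nonempty_fintype J
  choose n x hx using fun j => W.exists_κ (r j)
  refine ⟨Finset.univ.sup n, fun j =>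
    W.ktr (Finset.le_sup (Finset.mem_univ j)) (x j), fun j => ?_⟩
  rw [κ_ktr, hx]

/-- `d` elements of stage `n` whose span contains `1` and is stable under `X`, `Y` -/
def Rel (d n : ℕ) : Prop :=
  ∃ (f : Fin d → W.R n) (a b : Fin d → Fin d → W.k n) (c : Fin d → W.k n),
    (∀ i, (W.S n).X * f i = ∑ j, W.cst n (a i j) * f j) ∧
    (∀ i, (W.S n).Y * f i = ∑ j, W.cst n (b i j) * f j) ∧
    (1 : W.R n) = ∑ j, W.cst n (c j) * f j

theorem rel_mono {d n m : ℕ} (h : n ≤ m) (H : W.Rel d n) : W.Rel d m := by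
  obtain ⟨f, a, b, c, h1, h2, h3⟩ := H
  refine ⟨fun i => W.tr h (f i), fun i j => W.ktr h (a i j), fun i j => W.ktr h (b i j),
    fun j => W.ktr h (c j), fun i => ?_, fun i => ?_, ?_⟩
  · have := congrArg (W.tr h) (h1 i)
    rw [map_mul, W.tr_X h, map_sum] at this
    rw [this]
    refine Finset.sum_congr rfl fun j _ => ?_
    rw [map_mul, W.tr_cst h]
  · have := congrArg (W.tr h) (h2 i)
    rw [map_mul, W.tr_Y h, map_sum] at this
    rw [this]
    refine Finset.sum_congr rfl fun j _ => ?_
    rw [map_mul, W.tr_cst h]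
  · have := congrArg (W.tr h) h3
    rw [map_one, map_sum] at this
    rw [this]
    refine Finset.sum_congr rfl fun j _ => ?_
    rw [map_mul, W.tr_cst h]

theorem rel_finrank {d n : ℕ} (H : W.Rel d n) : Module.finrank (W.S n).K (W.S n).B ≤ d := by
  obtain ⟨f, a, b, c, h1, h2, h3⟩ := H
  let e : Fin d → (W.S n).B := fun i => f i []
  have hc : ∀ (u : Fin d → W.k n),
      (∑ j, W.cst n (u j) * f j : W.R n) [] = ∑ j, (u j : (W.S n).K) • e j := by
    intro u
    have : (∑ j, W.cst n (u j) * f j : W.R n) [] = NC.ε (∑ j, W.cst n (u j) * f j : W.R n) := rfl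
    rw [this, map_sum]
    refine Finset.sum_congr rfl fun j _ => ?_
    rw [map_mul, Algebra.smul_def]
    rfl
  have hmem : ∀ (u : Fin d → W.k n),
      (∑ j, W.cst n (u j) * f j : W.R n) [] ∈ Submodule.span (W.S n).K (Set.range e) := by
    intro u
    rw [hc]
    exact Submodule.sum_mem _ fun j _ => Submodule.smul_mem _ _ (Submodule.subset_span ⟨j, rfl⟩)
  have htop : Submodule.span (W.S n).K (Set.range e) = ⊤ := by
    apply span_eq_top_of_closed _ (W.S n).gen
    · have : (1 : (W.S n).B) = (1 : W.R n) [] := NC.one_nil.symm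
      rw [this, h3]
      exact hmem c
    · intro x hx v hv
      induction hv using Submodule.span_induction with
      | mem v hv =>
        obtain ⟨i, rfl⟩ := hv
        rcases hx with hx | hx
        · have : x * e i = ((W.S n).X * f i) [] := by rw [NC.mul_nil, hx]
          rw [this, h1]
          exact hmem _
        · have : x * e i = ((W.S n).Y * f i) [] := by rw [NC.mul_nil, hx]
          rw [this, h2]
          exact hmem _
      | zero => rw [mul_zero]; exact Submodule.zero_mem _
      | add u v _ _ hu hv => rw [mul_add]; exact Submodule.add_mem _ hu hv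
      | smul r u _ hu => rw [mul_smul_comm]; exact Submodule.smul_mem _ _ hu
  calc Module.finrank (W.S n).K (W.S n).B
      = Module.finrank (W.S n).K (⊤ : Submodule (W.S n).K (W.S n).B) := (finrank_top _ _).symm
    _ = Module.finrank (W.S n).K (Submodule.span (W.S n).K (Set.range e)) := by rw [htop]
    _ ≤ Fintype.card (Fin d) := finrank_range_le_card e
    _ = d := Fintype.card_fin d

theorem exists_rel (H : Module.Finite W.kk W.A) : ∃ d n, W.Rel d n := by
  obtain ⟨d, s, hs⟩ := Module.Finite.exists_fin (R := W.kk) (M := W.A)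
  have hspan : ∀ a : W.L, a ∈ W.A → ∃ c : Fin d → W.kk, a = ∑ j, c j • (s j : W.L) := by
    intro a ha
    have h1 : (⟨a, ha⟩ : W.A) ∈ Submodule.span W.kk (Set.range s) := by rw [hs]; trivial
    obtain ⟨c, hc⟩ := (Submodule.mem_span_range_iff_exists_fun _).1 h1
    refine ⟨c, ?_⟩
    have h2 := congrArg (fun a : W.A => (a : W.L)) hc
    simp only [AddSubmonoidClass.coe_finsetSum, SetLike.val_smul] at h2
    exact h2.symm
  have hx : W.x ∈ W.A := Algebra.subset_adjoin (Or.inl rfl)
  have hy : W.y ∈ W.A := Algebra.subset_adjoin (Or.inr rfl)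
  choose a ha using fun i => hspan (W.x * s i) (W.A.mul_mem hx (s i).2)
  choose b hb using fun i => hspan (W.y * s i) (W.A.mul_mem hy (s i).2)
  obtain ⟨c, hc⟩ := hspan 1 W.A.one_mem
  let r : (Fin d × Fin d) ⊕ (Fin d × Fin d) ⊕ Fin d → W.kk :=
    Sum.elim (fun p => a p.1 p.2) (Sum.elim (fun p => b p.1 p.2) c)
  obtain ⟨n, x, hx'⟩ := W.exists_κ_fin r
  obtain ⟨m, hm, f, hf⟩ := Chain.exists_ι_fin (R := W.R) W.g (fun j => (s j : W.L)) n
  let a' : Fin d → Fin d → W.k m := fun i j => W.ktr hm (x (Sum.inl (i, j)))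
  let b' : Fin d → Fin d → W.k m := fun i j => W.ktr hm (x (Sum.inr (Sum.inl (i, j))))
  let c' : Fin d → W.k m := fun j => W.ktr hm (x (Sum.inr (Sum.inr j)))
  have ha' : ∀ i j, W.κ m (a' i j) = a i j := fun i j => by
    rw [W.κ_ktr hm, hx']; rfl
  have hb' : ∀ i j, W.κ m (b' i j) = b i j := fun i j => by
    rw [W.κ_ktr hm, hx']; rfl
  have hc' : ∀ j, W.κ m (c' j) = c j := fun j => by
    rw [W.κ_ktr hm, hx']; rfl
  have hcomb : ∀ u : Fin d → W.k m, ∀ v : Fin d → W.kk, (∀ j, W.κ m (u j) = v j) →
      W.ι m (∑ j, W.cst m (u j) * f j) = ∑ j, v j • (s j : W.L) := by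
    intro u v huv
    rw [map_sum]
    refine Finset.sum_congr rfl fun j _ => ?_
    rw [map_mul, ← W.algebraMap_κ, huv, Algebra.smul_def]
    congr 1
    exact hf j
  let z : Fin d ⊕ Fin d ⊕ Unit → W.R m :=
    Sum.elim (fun i => (W.S m).X * f i - ∑ j, W.cst m (a' i j) * f j)
      (Sum.elim (fun i => (W.S m).Y * f i - ∑ j, W.cst m (b' i j) * f j)
        (fun _ => 1 - ∑ j, W.cst m (c' j) * f j))
  have hz : ∀ p, W.ι m (z p) = 0 := by
    rintro (i | i | _)
    · show W.ι m ((W.S m).X * f i - ∑ j, W.cst m (a' i j) * f j) = 0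
      rw [map_sub, map_mul, W.ι_X, hcomb _ _ (ha' i), ← ha i, sub_eq_zero]
      congr 1
      exact hf i
    · show W.ι m ((W.S m).Y * f i - ∑ j, W.cst m (b' i j) * f j) = 0
      rw [map_sub, map_mul, W.ι_Y, hcomb _ _ (hb' i), ← hb i, sub_eq_zero]
      congr 1
      exact hf i
    · show W.ι m (1 - ∑ j, W.cst m (c' j) * f j) = 0
      rw [map_sub, map_one, hcomb _ _ hc', ← hc, sub_self]
  obtain ⟨l, hl, h0⟩ := Chain.exists_tr_zero (R := W.R) W.g z hz
  refine ⟨d, l, fun i => W.tr hl (f i), fun i j => W.ktr hl (a' i j), fun i j => W.ktr hl (b' i j),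
    fun j => W.ktr hl (c' j), fun i => ?_, fun i => ?_, ?_⟩
  · have h1 : W.tr hl ((W.S m).X * f i - ∑ j, W.cst m (a' i j) * f j) = 0 := h0 (Sum.inl i)
    rw [map_sub, map_mul, W.tr_X hl, map_sum, sub_eq_zero] at h1
    rw [h1]
    refine Finset.sum_congr rfl fun j _ => ?_
    rw [map_mul, W.tr_cst hl]
  · have h1 : W.tr hl ((W.S m).Y * f i - ∑ j, W.cst m (b' i j) * f j) = 0 := h0 (Sum.inr (Sum.inl i))
    rw [map_sub, map_mul, W.tr_Y hl, map_sum, sub_eq_zero] at h1
    rw [h1]
    refine Finset.sum_congr rfl fun j _ => ?_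
    rw [map_mul, W.tr_cst hl]
  · have h1 : W.tr hl (1 - ∑ j, W.cst m (c' j) * f j) = 0 := h0 (Sum.inr (Sum.inr ()))
    rw [map_sub, map_one, map_sum, sub_eq_zero] at h1
    rw [h1]
    refine Finset.sum_congr rfl fun j _ => ?_
    rw [map_mul, W.tr_cst hl]

/-- A7 : the algebra `A` is infinite-dimensional over `kk` -/
theorem not_finite : ¬ Module.Finite W.kk W.A := by
  intro H
  obtain ⟨d, n, h⟩ := W.exists_rel H
  have h1 := W.rel_finrank (W.rel_mono (le_max_left n (d + 1)) h)
  have h2 := W.rank (max n (d + 1))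
  have h3 := le_max_right n (d + 1)
  omega

end Tower

end Vale.P199
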