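import Vale.Agent.P199.A7

/-!
P199, part (A), A8 (Artin–Tate): a finitely generated algebraic algebra over a field which is
infinite-dimensional over the field is infinite-dimensional over its centre.
-/

namespace Vale.P199

theorem not_finite_center (k A : Type) [Field k] [Ring A] [Algebra k A]
    [Algebra.IsAlgebraic k A] [Algebra.FiniteType k A] (h : ¬ Module.Finite k A) :
    ¬ Module.Finite (Subring.center A) A := by
  intro hF
  apply h
  obtain ⟨d, e, he⟩ := Module.Finite.exists_fin (R := Subring.center A) (M := A)
  obtain ⟨S, hS⟩ := ‹Algebra.FiniteType k A›.out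
  -- the centre as a `k`-algebra
  let F := Subalgebra.center k A
  have hspan : ∀ a : A, ∃ c : Fin d → F, a = ∑ j, (c j : A) * e j := by
    intro a
    have h1 : a ∈ Submodule.span (Subring.center A) (Set.range e) := by rw [he]; trivial
    obtain ⟨c, hc⟩ := (Submodule.mem_span_range_iff_exists_fun _).1 h1
    refine ⟨fun j => ⟨c j, Subalgebra.mem_center_iff.2 (Subring.mem_center_iff.1 (c j).2)⟩, ?_⟩
    rw [← hc]
    rfl
  choose c hc using hspan
  -- structure constants
  let T : Set F := Set.range (fun p : S × Fin d × Fin d => c (p.1 * e p.2.1) p.2.2) ∪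
    Set.range (c 1)
  have hT : T.Finite := (Set.finite_range _).union (Set.finite_range _)
  have hint : ∀ x ∈ T, IsIntegral k x := by
    intro x _
    have h1 : IsIntegral k (x : A) := (Algebra.IsAlgebraic.isAlgebraic (x : A)).isIntegral
    exact (isIntegral_algHom_iff F.val Subtype.val_injective).1 h1
  have hfg := fg_adjoin_of_finite hT hint
  let F0 := Algebra.adjoin k T
  have hF0 : F0.toSubmodule.FG := hfg
  let φ : Fin d → F →ₗ[k] A := fun j => (LinearMap.mulRight k (e j)).comp F.val.toLinearMap
  have hφ : ∀ j (f : F), φ j f = (f : A) * e j := fun j f => rfl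
  let V : Submodule k A := ⨆ j, F0.toSubmodule.map (φ j)
  have hV : V.FG := Submodule.fg_iSup _ fun j => hF0.map _
  have hmem : ∀ (f : Fin d → F), (∀ j, f j ∈ F0) → ∑ j, (f j : A) * e j ∈ V := by
    intro f hf
    refine Submodule.sum_mem _ fun j _ => ?_
    exact Submodule.mem_iSup_of_mem j ⟨f j, hf j, rfl⟩
  have hVtop : V = ⊤ := by
    refine span_eq_top_of_closed (S : Set A) hS V ?_ ?_
    · rw [hc 1]
      exact hmem _ fun j => Algebra.subset_adjoin (Or.inr ⟨j, rfl⟩)
    · intro x hx v hv
      refine Submodule.iSup_induction _ (motive := fun v => x * v ∈ V) hv ?_ ?_ ?_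
      · rintro i _ ⟨f, hf, rfl⟩
        rw [hφ, ← mul_assoc, Subalgebra.mem_center_iff.1 f.2 x, mul_assoc, hc (x * e i),
          Finset.mul_sum]
        have h2 : ∀ j, (f : A) * ((c (x * e i) j : A) * e j) = ((f * c (x * e i) j : F) : A) * e j := by
          intro j
          rw [← mul_assoc]
          rfl
        simp only [h2]
        refine hmem _ fun j => F0.mul_mem hf ?_
        exact Algebra.subset_adjoin (Or.inl ⟨(⟨x, hx⟩, i, j), rfl⟩)
      · rw [mul_zero]
        exact V.zero_mem
      · intro u v hu hv
        rw [mul_add]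
        exact V.add_mem hu hv
  exact Module.finite_def.2 (hVtop ▸ hV)

end Vale.P199
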