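import Vale.Agent.P199.Der

/-!
# P199, T1: the trace form of a finite-dimensional division algebra (char 0)
`tr K B : B →ₗ[K] K` is the trace of left multiplication (the same map as `DerAux.τ`).
-/

namespace Vale.P199

open Module

/-- trace of left multiplication -/
noncomputable abbrev tr (K B : Type*) [Field K] [DivisionRing B] [Algebra K B] : B →ₗ[K] K :=
  DerAux.τ K B

namespace Tr

variable {K B : Type*} [Field K] [DivisionRing B] [Algebra K B]

theorem tr_mul_comm (x y : B) : tr K B (x * y) = tr K B (y * x) := DerAux.τ_comm x y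

theorem tr_one [FiniteDimensional K B] : tr K B 1 = (finrank K B : K) := DerAux.τ_one

/-- cyclicity for three factors -/
theorem tr_mul_comm₃ (x y z : B) : tr K B (x * y * z) = tr K B (y * z * x) := by
  rw [mul_assoc, tr_mul_comm, mul_assoc]

theorem tr_one_ne [CharZero K] [FiniteDimensional K B] : tr K B 1 ≠ 0 := by
  rw [tr_one]
  have : 0 < finrank K B := finrank_pos
  exact_mod_cast this.ne'

theorem tr_mul_inv_ne [CharZero K] [FiniteDimensional K B] {x : B} (hx : x ≠ 0) :
    tr K B (x * x⁻¹) ≠ 0 := by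
  rw [mul_inv_cancel₀ hx]; exact tr_one_ne

/-- the trace form is nondegenerate on every subset closed under inverses -/
theorem nondeg_of_inv_mem [CharZero K] [FiniteDimensional K B] {Z : Set B}
    (hZ : ∀ z ∈ Z, z⁻¹ ∈ Z) {x : B} (hx : x ∈ Z) (h : ∀ y ∈ Z, tr K B (x * y) = 0) : x = 0 := by
  by_contra hne
  exact tr_mul_inv_ne hne (h _ (hZ x hx))

theorem nondeg [CharZero K] [FiniteDimensional K B] {x : B} (h : ∀ y, tr K B (x * y) = 0) :
    x = 0 :=
  nondeg_of_inv_mem (Z := Set.univ) (fun _ _ => trivial) trivial (fun y _ => h y)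

/-- the inner derivation `x ↦ a x - x a` -/
def ad (K : Type*) {B : Type*} [Field K] [DivisionRing B] [Algebra K B] (a : B) : B →ₗ[K] B where
  toFun x := a * x - x * a
  map_add' x y := by rw [mul_add, add_mul]; abel
  map_smul' c x := by
    simp only [mul_smul_comm, smul_mul_assoc, RingHom.id_apply, smul_sub]

@[simp] theorem ad_apply (a x : B) : ad K a x = a * x - x * a := rfl

/-- the centralizer of `a` as a `K`-subspace -/
def cen (K : Type*) {B : Type*} [Field K] [DivisionRing B] [Algebra K B] (a : B) :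
    Submodule K B := LinearMap.ker (ad K a)

theorem mem_cen {a x : B} : x ∈ cen K a ↔ a * x = x * a := by
  rw [cen, LinearMap.mem_ker, ad_apply, sub_eq_zero]

theorem self_mem_cen (a : B) : a ∈ cen K a := mem_cen.mpr rfl

theorem one_mem_cen (a : B) : (1 : B) ∈ cen K a := mem_cen.mpr (by simp)

theorem mul_mem_cen {a x y : B} (hx : x ∈ cen K a) (hy : y ∈ cen K a) : x * y ∈ cen K a := by
  rw [mem_cen] at *
  rw [← mul_assoc, hx, mul_assoc, hy, mul_assoc]

theorem inv_mem_cen {a x : B} (hx : x ∈ cen K a) : x⁻¹ ∈ cen K a := by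
  rw [mem_cen] at *
  by_cases h : x = 0
  · simp [h]
  · have h1 : x⁻¹ * (a * x) * x⁻¹ = x⁻¹ * (x * a) * x⁻¹ := by rw [hx]
    have h2 : x⁻¹ * (a * x) * x⁻¹ = x⁻¹ * a := by
      rw [mul_assoc, mul_assoc a, mul_inv_cancel₀ h, mul_one]
    have h3 : x⁻¹ * (x * a) * x⁻¹ = a * x⁻¹ := by
      rw [← mul_assoc x⁻¹, inv_mul_cancel₀ h, one_mul]
    rw [h2, h3] at h1
    exact h1.symm

theorem pow_mem_cen {a x : B} (hx : x ∈ cen K a) (n : ℕ) : x ^ n ∈ cen K a := by
  induction n with
  | zero => simpa using one_mem_cen (K := K) a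
  | succ n ih => rw [pow_succ]; exact mul_mem_cen ih hx

/-- the trace pairing between `b` and a commutator `[a,x]` -/
theorem tr_mul_ad (a b x : B) : tr K B (b * (a * x - x * a)) = - tr K B ((a * b - b * a) * x) := by
  have h1 : tr K B (b * (x * a)) = tr K B (a * b * x) := by
    rw [← mul_assoc, tr_mul_comm, mul_assoc]
  rw [mul_sub, map_sub, h1, sub_mul, map_sub, ← mul_assoc]
  ring

/-- `[a,B]^⊥ = Z(a)` -/
theorem mem_cen_iff_tr [CharZero K] [FiniteDimensional K B] {a b : B} :
    b ∈ cen K a ↔ ∀ x, tr K B (b * (a * x - x * a)) = 0 := by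
  rw [mem_cen]
  constructor
  · intro h x
    rw [tr_mul_ad, h, sub_self, zero_mul, map_zero, neg_zero]
  · intro h
    have h2 : a * b - b * a = 0 := by
      apply nondeg (K := K)
      intro y
      have := h y
      rw [tr_mul_ad, neg_eq_zero] at this
      exact this
    exact sub_eq_zero.mp h2

/-- `Z(a) ∩ [a,B] = 0` -/
theorem disjoint_cen_range [CharZero K] [FiniteDimensional K B] (a : B) :
    Disjoint (cen K a) (LinearMap.range (ad K a)) := by
  rw [Submodule.disjoint_def]
  rintro x hx ⟨y, rfl⟩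
  by_contra hne
  have h1 := inv_mem_cen hx
  have h2 := (mem_cen_iff_tr (K := K)).mp h1 y
  rw [← ad_apply (K := K), tr_mul_comm] at h2
  exact tr_mul_inv_ne hne h2

/-- `B = Z(a) ⊕ [a,B]` -/
theorem isCompl_cen_range [CharZero K] [FiniteDimensional K B] (a : B) :
    IsCompl (cen K a) (LinearMap.range (ad K a)) := by
  refine ⟨disjoint_cen_range a, ?_⟩
  rw [codisjoint_iff]
  apply Submodule.eq_top_of_disjoint _ _ _ (disjoint_cen_range a)
  have := LinearMap.finrank_range_add_finrank_ker (ad K a)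
  rw [cen]
  omega

theorem exists_decomp [CharZero K] [FiniteDimensional K B] (a x : B) :
    ∃ z y : B, a * z = z * a ∧ x = z + (a * y - y * a) := by
  have h : x ∈ cen K a ⊔ LinearMap.range (ad K a) := by
    rw [(isCompl_cen_range a).sup_eq_top]; trivial
  obtain ⟨z, hz, w, ⟨y, rfl⟩, rfl⟩ := Submodule.mem_sup.mp h
  exact ⟨z, y, mem_cen.mp hz, rfl⟩

/-- `Z(a)^⊥ = [a,B]` -/
theorem mem_range_ad_iff_tr [CharZero K] [FiniteDimensional K B] {a x : B} :
    x ∈ LinearMap.range (ad K a) ↔ ∀ z, z ∈ cen K a → tr K B (z * x) = 0 := by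
  constructor
  · rintro ⟨y, rfl⟩ z hz
    exact (mem_cen_iff_tr (K := K)).mp hz y
  · intro h
    obtain ⟨z, y, hz, rfl⟩ := exists_decomp (K := K) a x
    have hz' : z ∈ cen K a := mem_cen.mpr hz
    have h0 : z = 0 := by
      by_contra hne
      have h1 := h _ (inv_mem_cen hz')
      rw [mul_add, map_add, (mem_cen_iff_tr (K := K)).mp (inv_mem_cen hz') y, add_zero,
        tr_mul_comm] at h1
      exact tr_mul_inv_ne hne h1
    exact ⟨y, by simp [h0]⟩

/-- a nonzero element has a power (exponent `≥ 1`) of nonzero trace -/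
theorem exists_tr_pow_ne [CharZero K] [FiniteDimensional K B] {x : B} (hx : x ≠ 0) :
    ∃ k : ℕ, tr K B (x ^ (k + 1)) ≠ 0 := by
  by_contra hcon
  push Not at hcon
  have hint : IsIntegral K x := IsIntegral.of_finite K x
  set p := minpoly K x with hp
  have h0 : p.coeff 0 ≠ 0 := minpoly.coeff_zero_ne_zero hint hx
  have haev : Polynomial.aeval x p = 0 := minpoly.aeval K x
  have hsum : tr K B (Polynomial.aeval x p) = p.coeff 0 * tr K B 1 := by
    rw [Polynomial.aeval_eq_sum_range, map_sum, Finset.sum_range_succ', pow_zero, map_smul,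
      smul_eq_mul, Finset.sum_eq_zero, zero_add]
    intro i _
    rw [map_smul, hcon i, smul_zero]
  rw [haev, map_zero] at hsum
  exact mul_ne_zero h0 tr_one_ne hsum.symm

/-! ### orthogonal complements inside a subspace closed under inverses -/

/-- `{b ∈ Z : tr (b w) = 0 for all w ∈ W}` -/
noncomputable def perp (Z W : Submodule K B) : Submodule K B where
  carrier := {b | b ∈ Z ∧ ∀ w ∈ W, tr K B (b * w) = 0}
  add_mem' := by
    rintro x y ⟨hx, hx'⟩ ⟨hy, hy'⟩
    exact ⟨add_mem hx hy, fun w hw => by rw [add_mul, map_add, hx' w hw, hy' w hw, add_zero]⟩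
  zero_mem' := ⟨zero_mem _, fun w _ => by simp⟩
  smul_mem' := by
    rintro c x ⟨hx, hx'⟩
    exact ⟨Submodule.smul_mem _ _ hx, fun w hw => by
      rw [smul_mul_assoc, map_smul, hx' w hw, smul_zero]⟩

theorem mem_perp {Z W : Submodule K B} {b : B} :
    b ∈ perp Z W ↔ b ∈ Z ∧ ∀ w ∈ W, tr K B (b * w) = 0 := Iff.rfl

theorem perp_le (Z W : Submodule K B) : perp Z W ≤ Z := fun _ h => h.1

theorem perp_anti (Z : Submodule K B) {W W' : Submodule K B} (h : W ≤ W') :
    perp Z W' ≤ perp Z W := fun _ hb => ⟨hb.1, fun w hw => hb.2 w (h hw)⟩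

/-- the trace form restricted to `Z` -/
noncomputable def formOn (Z : Submodule K B) : LinearMap.BilinForm K Z :=
  (DerAux.form K B).restrict Z

theorem formOn_apply (Z : Submodule K B) (x y : Z) : formOn Z x y = tr K B (x * y : B) := rfl

theorem formOn_symm (Z : Submodule K B) : (formOn Z).IsSymm := by
  constructor
  intro x y
  simp only [formOn_apply, tr_mul_comm (x : B) (y : B)]

theorem formOn_nondeg [CharZero K] [FiniteDimensional K B] (Z : Submodule K B)
    (hZ : ∀ z ∈ Z, z⁻¹ ∈ Z) : (formOn Z).Nondegenerate := by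
  have h1 : ∀ x : Z, (∀ y, formOn Z x y = 0) → x = 0 := by
    intro x hx
    apply Subtype.ext
    exact nondeg_of_inv_mem (K := K) (Z := (Z : Set B)) hZ x.2 (fun y hy => hx ⟨y, hy⟩)
  refine ⟨fun x hx => h1 x hx, fun y hy => h1 y fun x => ?_⟩
  rw [formOn_apply, tr_mul_comm, ← formOn_apply]
  exact hy x

theorem map_orthogonal [CharZero K] [FiniteDimensional K B] (Z W : Submodule K B) (hW : W ≤ Z) :
    ((formOn Z).orthogonal (W.comap Z.subtype)).map Z.subtype = perp Z W := by
  ext b
  rw [Submodule.mem_map, mem_perp]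
  constructor
  · rintro ⟨x, hx, rfl⟩
    refine ⟨x.2, fun w hw => ?_⟩
    have := hx ⟨w, hW hw⟩ (by simpa using hw)
    rw [formOn_apply, tr_mul_comm] at this
    exact this
  · rintro ⟨hb, h⟩
    refine ⟨⟨b, hb⟩, ?_, rfl⟩
    intro n hn
    rw [formOn_apply, tr_mul_comm]
    exact h n (by simpa using hn)

/-- `dim W^⊥ + dim W = dim Z` for `W ≤ Z` -/
theorem finrank_perp [CharZero K] [FiniteDimensional K B] (Z W : Submodule K B)
    (hZ : ∀ z ∈ Z, z⁻¹ ∈ Z) (hW : W ≤ Z) :
    finrank K (perp Z W) + finrank K W = finrank K Z := by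
  have h1 : finrank K (perp Z W) = finrank K ((formOn Z).orthogonal (W.comap Z.subtype)) := by
    rw [← map_orthogonal Z W hW]
    exact Submodule.finrank_map_subtype_eq Z _
  have h2 : finrank K (W.comap Z.subtype) = finrank K W := by
    have := Submodule.map_comap_eq_of_le (f := Z.subtype) (p := W) (by simpa using hW)
    conv_rhs => rw [← this]
    exact (Submodule.finrank_map_subtype_eq Z _).symm
  have h3 := LinearMap.BilinForm.finrank_orthogonal (formOn_nondeg Z hZ) (W.comap Z.subtype)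
  have h4 : finrank K (W.comap Z.subtype) ≤ finrank K Z := Submodule.finrank_le _
  rw [h1, h3]
  omega

/-- `W^⊥⊥ = W` inside `Z` -/
theorem perp_perp [CharZero K] [FiniteDimensional K B] (Z W : Submodule K B)
    (hZ : ∀ z ∈ Z, z⁻¹ ∈ Z) (hW : W ≤ Z) : perp Z (perp Z W) = W := by
  symm
  apply Submodule.eq_of_le_of_finrank_eq
  · intro w hw
    refine ⟨hW hw, fun b hb => ?_⟩
    rw [tr_mul_comm]
    exact hb.2 w hw
  · have h1 := finrank_perp Z W hZ hW
    have h2 := finrank_perp Z (perp Z W) hZ (perp_le Z W)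
    omega

end Tr

end Vale.P199
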