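import Vale.Agent.P199.Laur
import Vale.Agent.P199.Tr

/-!
# P199 : the derivation `d/dz` of `B((z))`
-/

open HahnSeries

namespace Vale.P199

section Dz

variable {B : Type*} [Ring B]

/-- the Euler derivation `z d/dz` -/
noncomputable def euler (x : B⟦ℤ⟧) : B⟦ℤ⟧ where
  coeff n := n • x.coeff n
  isPWO_support' := x.isPWO_support.mono (by
    intro n hn
    rw [Function.mem_support] at hn
    rw [mem_support]
    intro h
    exact hn (by rw [h, smul_zero]))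

@[simp] theorem euler_coeff (x : B⟦ℤ⟧) (n : ℤ) : (euler x).coeff n = n • x.coeff n := rfl

theorem euler_mul (x y : B⟦ℤ⟧) : euler (x * y) = euler x * y + x * euler y := by
  ext n
  rw [euler_coeff, coeff_add, mul_coeff, mul_coeff, mul_coeff, ← finsum_add_distrib
    (mul_coeff_finite (euler x) y n) (mul_coeff_finite x (euler y) n)]
  have h := AddMonoidHom.map_finsum (DistribSMul.toAddMonoidHom B n) (mul_coeff_finite x y n)
  simp only [DistribSMul.toAddMonoidHom_apply] at h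
  rw [h]
  refine finsum_congr fun i => ?_
  rw [euler_coeff, euler_coeff, smul_mul_assoc, mul_smul_comm, ← add_smul]
  congr 1
  omega

/-- the derivative `d/dz` -/
noncomputable def dz : B⟦ℤ⟧ →+ B⟦ℤ⟧ where
  toFun x := single (-1) 1 * euler x
  map_zero' := by ext n; simp
  map_add' x y := by ext n; simp

@[simp] theorem dz_coeff (x : B⟦ℤ⟧) (n : ℤ) : (dz x).coeff n = (n + 1) • x.coeff (n + 1) := by
  show (single (-1) 1 * euler x : B⟦ℤ⟧).coeff n = _
  rw [single_mul_coeff, one_mul, euler_coeff, sub_neg_eq_add]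

/-- Leibniz rule -/
theorem dz_mul (x y : B⟦ℤ⟧) : dz (x * y) = dz x * y + x * dz y := by
  show (single (-1) 1 * euler (x * y) : B⟦ℤ⟧) =
    (single (-1) 1 * euler x) * y + x * (single (-1) 1 * euler y)
  have hc : ∀ a : B⟦ℤ⟧, a * (single (-1) 1 : B⟦ℤ⟧) = (single (-1) 1 : B⟦ℤ⟧) * a := by
    intro a; ext n; rw [mul_single_coeff, single_mul_coeff, one_mul, mul_one]
  rw [euler_mul, mul_add, ← mul_assoc, ← mul_assoc x, hc x, mul_assoc]
  simp only [mul_assoc]

@[simp] theorem dz_one : dz (1 : B⟦ℤ⟧) = 0 := by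
  have h := dz_mul (1 : B⟦ℤ⟧) 1
  simpa using h

@[simp] theorem dz_C (b : B) : dz (C b : B⟦ℤ⟧) = 0 := by
  ext n
  rw [dz_coeff, C_apply, coeff_zero]
  by_cases h : n + 1 = 0
  · rw [h, zero_smul]
  · rw [coeff_single_of_ne h, smul_zero]

theorem dz_pow_comm {x : B⟦ℤ⟧} (h : x * dz x = dz x * x) (k : ℕ) :
    dz (x ^ (k + 1)) = (k + 1) • (x ^ k * dz x) := by
  induction k with
  | zero => simp
  | succ k ih =>
    have hx : ∀ m : ℕ, dz x * x ^ m = x ^ m * dz x := by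
      intro m
      exact (Commute.pow_left (show Commute x (dz x) from h) m).symm
    rw [pow_succ', dz_mul, ih, hx, mul_smul_comm, ← mul_assoc, ← pow_succ', ← succ_nsmul']

variable {K : Type*} [Field K] [Algebra K B]

@[simp] theorem dz_algebraMap (x : K⟦ℤ⟧) :
    dz (algebraMap K⟦ℤ⟧ B⟦ℤ⟧ x) = algebraMap K⟦ℤ⟧ B⟦ℤ⟧ (dz x) := by
  ext n
  simp

theorem dz_smul (x : K⟦ℤ⟧) (y : B⟦ℤ⟧) : dz (x • y) = dz x • y + x • dz y := by
  rw [Algebra.smul_def, dz_mul, dz_algebraMap, Algebra.smul_def, Algebra.smul_def]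

end Dz

section Trace

variable {K : Type*} [Field K] {B : Type*} [DivisionRing B] [Algebra K B] [FiniteDimensional K B]

/-- the trace is coefficientwise -/
theorem tr_laur_coeff (x : B⟦ℤ⟧) (n : ℤ) :
    (tr K⟦ℤ⟧ B⟦ℤ⟧ x).coeff n = tr K B (x.coeff n) :=
  trace_mulLeft_coeff x n

theorem tr_dz (x : B⟦ℤ⟧) : tr K⟦ℤ⟧ B⟦ℤ⟧ (dz x) = dz (tr K⟦ℤ⟧ B⟦ℤ⟧ x) := by
  ext n
  rw [tr_laur_coeff, dz_coeff, dz_coeff, tr_laur_coeff, map_zsmul]

/-- `d/dz tr (x^(k+1)) = (k+1) tr (x^k dx/dz)`, no commutation needed -/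
theorem dz_tr_pow (x : B⟦ℤ⟧) (k : ℕ) :
    dz (tr K⟦ℤ⟧ B⟦ℤ⟧ (x ^ (k + 1))) = (k + 1) • tr K⟦ℤ⟧ B⟦ℤ⟧ (x ^ k * dz x) := by
  rw [← tr_dz]
  have h : ∀ m j : ℕ, tr K⟦ℤ⟧ B⟦ℤ⟧ (dz (x ^ m) * x ^ (j + 1)) =
      m • tr K⟦ℤ⟧ B⟦ℤ⟧ (x ^ (m + j) * dz x) := by
    intro m
    induction m with
    | zero => intro j; simp
    | succ m ih =>
      intro j
      rw [pow_succ, dz_mul, add_mul, map_add, mul_assoc, ← pow_succ', ih (j + 1), mul_assoc,
        Tr.tr_mul_comm (x ^ m), mul_assoc (dz x), ← _root_.pow_add, Tr.tr_mul_comm (dz x),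
        succ_nsmul]
      have e1 : m + (j + 1) = m + 1 + j := by omega
      have e2 : j + 1 + m = m + 1 + j := by omega
      rw [e1, e2]
  cases k with
  | zero => simp
  | succ k =>
    rw [pow_succ, dz_mul, map_add]
    have := h (k + 1) 0
    rw [zero_add, pow_one, add_zero] at this
    rw [this, ← succ_nsmul]

/-- core of (B1.5) -/
theorem eq_zero_of_tr_pow_dz [CharZero K] (x : B⟦ℤ⟧) (hx : x.coeff 0 = 0 ∧ ∀ n < 0, x.coeff n = 0)
    (h : ∀ k : ℕ, tr K⟦ℤ⟧ B⟦ℤ⟧ (x ^ k * dz x) = 0) : x = 0 := by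
  by_contra hne
  obtain ⟨k, hk⟩ := Tr.exists_tr_pow_ne (K := K⟦ℤ⟧) hne
  apply hk
  have h1 : dz (tr K⟦ℤ⟧ B⟦ℤ⟧ (x ^ (k + 1))) = 0 := by
    rw [dz_tr_pow, h k, smul_zero]
  -- `x^(k+1)` has no coefficients in degrees `≤ 0`
  have h2 : ∀ m : ℕ, ∀ n ≤ (m : ℤ), (x ^ (m + 1)).coeff n = 0 := by
    intro m
    induction m with
    | zero =>
      intro n hn
      rw [zero_add, pow_one]
      rcases eq_or_lt_of_le hn with h | h
      · rw [h]; exact hx.1
      · exact hx.2 n h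
    | succ m ih =>
      intro n hn
      rw [pow_succ]
      have h3 := (mul_coeff_of_lower (x := x ^ (m + 1)) (y := x) (k := m + 1) (l := 1)
        (fun i hi => ih i (by omega)) (fun i hi => by
          rcases eq_or_lt_of_le (show i ≤ 0 by omega) with h | h
          · rw [h]; exact hx.1
          · exact hx.2 i h)).1
      exact h3 n (by push_cast at hn; omega)
  ext n
  rw [coeff_zero]
  by_cases hn : n ≤ 0
  · rw [tr_laur_coeff, h2 k n (by omega), map_zero]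
  · have h4 := congrArg (fun s : K⟦ℤ⟧ => s.coeff (n - 1)) h1
    simp only [dz_coeff, coeff_zero, sub_add_cancel] at h4
    rcases smul_eq_zero.mp h4 with h5 | h5
    · exfalso; omega
    · exact h5

end Trace

end Vale.P199
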