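import Vale.Agent.P199.BDefs
import Vale.Agent.P199.Dz

/-!
# P199, (B1.5): a move with `a' ≠ a` has `W' ≠ 0`
-/

open HahnSeries

namespace Vale.P199

/-- (B1.5), abstract form: if `η = a' - C α` has only positive coefficients, commutes with `a'`, and
`d/dz a'` is a combination of commutators `[a', c]`, then `a' = C α`. -/
theorem b15_abs {K B : Type*} [Field K] [CharZero K] [DivisionRing B] [Algebra K B]
    [FiniteDimensional K B] {a' : B⟦ℤ⟧} {α : B} (hneg : ∀ n < 0, a'.coeff n = 0)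
    (h0 : a'.coeff 0 = α) (hcomm : a' * C α = C α * a')
    (hder : dz a' ∈ LinearMap.range (Tr.ad K⟦ℤ⟧ a')) : a' = C α := by
  have hη : a' - C α = 0 := by
    apply eq_zero_of_tr_pow_dz (K := K)
    · refine ⟨?_, fun n hn => ?_⟩
      · rw [coeff_sub, h0, C_apply, coeff_single_same, sub_self]
      · rw [coeff_sub, hneg n hn, C_apply, coeff_single_of_ne hn.ne, sub_zero]
    · intro k
      have hd : dz (a' - C α) = dz a' := by rw [map_sub, dz_C, sub_zero]
      rw [hd]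
      obtain ⟨c, hc⟩ := hder
      have hmem : (a' - C α) ^ k ∈ Tr.cen K⟦ℤ⟧ a' := by
        apply Tr.pow_mem_cen
        rw [Tr.mem_cen, mul_sub, sub_mul, hcomm]
      rw [← hc]
      exact Tr.mem_cen_iff_tr.mp hmem c
  exact sub_eq_zero.mp hη

namespace Pt

variable {S0 : State} {f0 : NC S0.I S0.B}

/-- the linear coefficients of `D.sh x.f` are commutators with the constant term when `W' = 0` -/
theorem sh_lin_mem_range (x : Pt S0 f0) (D : MoveData x.S) (hW : (x.move D).W = ⊥) (i : D.I') :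
    D.sh x.f [i] ∈ LinearMap.range (Tr.ad (D.E.K1⟦ℤ⟧) (D.sh x.f [])) := by
  have h1 : x.F D [i] = 0 := by
    have hm : x.F D [i] ∈ (x.move D).W := Submodule.subset_span ⟨i, rfl⟩
    rw [hW] at hm
    exact (Submodule.mem_bot _).mp hm
  obtain ⟨c, hc⟩ := x.F_lin D i
  refine ⟨c, ?_⟩
  rw [Tr.ad_apply]
  rw [h1] at hc
  rw [← sub_eq_zero, ← neg_eq_zero, hc]
  abel

/-- (B1.5) -/
theorem b15 (x : Pt S0 f0) (D : MoveData x.S)
    (hneg : ∀ n < 0, (D.sh x.f []).coeff n = 0)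
    (h0 : (D.sh x.f []).coeff 0 = D.E.jB x.a)
    (hcomm : D.sh x.f [] * HahnSeries.C (D.E.jB x.a) = HahnSeries.C (D.E.jB x.a) * D.sh x.f [])
    (chain : ∃ c : D.I' → D.E.K1⟦ℤ⟧, dz (D.sh x.f []) = ∑ i, c i • D.sh x.f [i])
    (hne : D.sh x.f [] ≠ HahnSeries.C (D.E.jB x.a)) : (x.move D).W ≠ ⊥ := by
  intro hW
  apply hne
  refine b15_abs (K := D.E.K1) hneg h0 hcomm ?_
  obtain ⟨c, hc⟩ := chain
  rw [hc]
  exact Submodule.sum_mem _ fun i _ => Submodule.smul_mem _ _ (x.sh_lin_mem_range D hW i)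

end Pt

end Vale.P199
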