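import Vale.Agent.P199.NC

namespace Vale.P199

/-- `K` contains a primitive `r`-th root of unity for every `r ≥ 1`. -/
def HasRoots (K : Type) [Field K] : Prop := ∀ r : ℕ, 0 < r → ∃ ζ : K, IsPrimitiveRoot ζ r

/-- The state of the construction: a finite-dimensional central division algebra `B` over `K`
(char 0, all roots of unity), a finite set `I` of letters and two series `X, Y ∈ B<<I>>`.
`gen`: the constant terms generate `B`. `indep`: there are two directions `P 0, P 1 ∈ K^I` such that the
first order variations of `(X,Y)` in these directions are linearly independent modulo inner ones. -/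
structure State where
  K : Type
  B : Type
  I : Type
  [fieldK : Field K]
  [charK : CharZero K]
  [divB : DivisionRing B]
  [algKB : Algebra K B]
  [finB : FiniteDimensional K B]
  [finI : Fintype I]
  [decI : DecidableEq I]
  roots : HasRoots K
  central : ∀ a : B, (∀ b : B, a * b = b * a) → ∃ k : K, algebraMap K B k = a
  X : NC I B
  Y : NC I B
  gen : Algebra.adjoin K {X [], Y []} = ⊤

attribute [instance] State.fieldK State.charK State.divB State.algKB State.finB State.finI
  State.decI

namespace State

/-- first-order part of `f` in the direction `p` -/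
def lin {K B I : Type} [Field K] [Ring B] [Algebra K B] [Fintype I] (f : NC I B) (p : I → K) : B :=
  ∑ i, p i • f [i]

/-- the direction `p` is inner for the pair `(X,Y)` -/
def Inner (S : State) (p : S.I → S.K) : Prop :=
  ∃ y : S.B, lin S.X p = y * S.X [] - S.X [] * y ∧ lin S.Y p = y * S.Y [] - S.Y [] * y

/-- two directions are independent modulo inner ones -/
def Indep (S : State) (p q : S.I → S.K) : Prop :=
  ∀ a b : S.K, S.Inner (fun i => a * p i + b * q i) → a = 0 ∧ b = 0

end State

/-- A morphism of states: `K → K'`, and a ring hom `B<<I>> → B'<<I'>>`, `K`-linear, mapping `X,Y` to `X',Y'`. -/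
structure Mor (S S' : State) where
  j : S.K →+* S'.K
  Ψ : NC S.I S.B →+* NC S'.I S'.B
  hC : ∀ k : S.K, Ψ (NC.C (algebraMap S.K S.B k)) = NC.C (algebraMap S'.K S'.B (j k))
  hX : Ψ S.X = S'.X
  hY : Ψ S.Y = S'.Y
  grow : Module.finrank S.K S.B ≤ Module.finrank S'.K S'.B

/-- A stage = a state with exactly two letters, the two letter directions being independent. -/
structure Stage extends State where
  e : I ≃ Fin 2
  ind : toState.Indep (fun i => if e i = 0 then 1 else 0) (fun i => if e i = 1 then 1 else 0)

/-- THE INTERFACE: part (B) proves this, part (A) uses it. -/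
def KeyLemma : Prop :=
  ∀ (S : Stage) (f : NC S.I S.B), f ∈ Algebra.adjoin S.K {S.X, S.Y} →
    ∃ (S' : Stage) (m : Mor S.toState S'.toState),
      Module.finrank S.K S.B < Module.finrank S'.K S'.B ∧
      ∃ P : Polynomial S'.K, P ≠ 0 ∧ Polynomial.aeval (m.Ψ f) P = 0

/-- Kurosh's problem for division rings has a negative answer (both formulations). -/
def KuroshFalse : Prop :=
  (∃ (D : Type) (_ : DivisionRing D),
      (∀ a : D, ∃ p : Polynomial (Subring.center D), p ≠ 0 ∧ Polynomial.aeval a p = 0) ∧
      ∃ S : Finset D, ¬ Module.Finite (Subring.center D)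
        (Algebra.adjoin (Subring.center D) (S : Set D))) ∧
  (∃ (k D : Type) (_ : Field k) (_ : DivisionRing D) (_ : Algebra k D),
      Algebra.IsAlgebraic k D ∧ Algebra.FiniteType k D ∧ ¬ Module.Finite k D)

end Vale.P199
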