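import Vale.Agent.P199.LMod
import Vale.Agent.P199.Defs

/-!
# P199 : Laurent series `B((z))` over a division algebra

`B⟦ℤ⟧ = HahnSeries ℤ B` is a division ring, an algebra over `K⟦ℤ⟧`, finite-dimensional of the same
dimension, with center `K⟦ℤ⟧`; traces are coefficientwise.
-/

open HahnSeries

namespace Vale.P199

section Mul

variable {B : Type*} [Ring B]

theorem mul_coeff_finite (x y : B⟦ℤ⟧) (n : ℤ) :
    (Function.support fun i : ℤ => x.coeff i * y.coeff (n - i)).Finite := by
  classical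
  have := Set.VAddAntidiagonal.finite_of_isPWO x.isPWO_support y.isPWO_support n
  refine (this.image (fun ij : ℤ × ℤ => ij.1)).subset ?_
  intro i hi
  rw [Function.mem_support] at hi
  refine ⟨(i, n - i), ⟨?_, ?_, ?_⟩, rfl⟩
  · exact fun h => hi (by rw [h, zero_mul])
  · exact fun h => hi (by rw [h, mul_zero])
  · simp

/-- coefficients of a product -/
theorem mul_coeff (x y : B⟦ℤ⟧) (n : ℤ) :
    (x * y).coeff n = ∑ᶠ i : ℤ, x.coeff i * y.coeff (n - i) := by
  classical
  show (∑ ij ∈ Finset.VAddAntidiagonal n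
        (Set.VAddAntidiagonal.finite_of_isPWO x.isPWO_support y.isPWO_support n),
        x.coeff ij.fst * y.coeff ij.snd) = _
  have hinj : Set.InjOn (fun ij : ℤ × ℤ => ij.1) (Finset.VAddAntidiagonal n
        (Set.VAddAntidiagonal.finite_of_isPWO x.isPWO_support y.isPWO_support n)) := by
    intro a ha b hb hab
    simp only [Finset.mem_coe, Finset.mem_vaddAntidiagonal] at ha hb
    have h1 := ha.2.2
    have h2 := hb.2.2
    simp only [vadd_eq_add] at h1 h2
    have hab' : a.1 = b.1 := hab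
    ext
    · exact hab'
    · omega
  rw [finsum_eq_sum_of_support_subset (s := (Finset.VAddAntidiagonal n
        (Set.VAddAntidiagonal.finite_of_isPWO x.isPWO_support y.isPWO_support n)).image
          (fun ij : ℤ × ℤ => ij.1)), Finset.sum_image hinj]
  · refine Finset.sum_congr rfl fun ij hij => ?_
    rw [Finset.mem_vaddAntidiagonal] at hij
    have h1 := hij.2.2
    simp only [vadd_eq_add] at h1
    have : n - ij.1 = ij.2 := by omega
    rw [this]
  · intro i hi
    rw [Function.mem_support] at hi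
    simp only [Finset.coe_image, Set.mem_image, Finset.mem_coe, Finset.mem_vaddAntidiagonal]
    refine ⟨(i, n - i), ⟨?_, ?_, ?_⟩, rfl⟩
    · exact fun h => hi (by rw [h, zero_mul])
    · exact fun h => hi (by rw [h, mul_zero])
    · simp

/-- coefficients of a product, the other indexing -/
theorem mul_coeff_right (x y : B⟦ℤ⟧) (n : ℤ) :
    (x * y).coeff n = ∑ᶠ i : ℤ, x.coeff (n - i) * y.coeff i := by
  rw [mul_coeff, ← finsum_comp_equiv (Equiv.subLeft n)]
  refine finsum_congr fun i => ?_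
  simp [Equiv.subLeft]

@[simp] theorem single_mul_coeff (m : ℤ) (c : B) (y : B⟦ℤ⟧) (n : ℤ) :
    ((single m c : B⟦ℤ⟧) * y).coeff n = c * y.coeff (n - m) := by
  classical
  rw [mul_coeff, finsum_eq_single _ m]
  · simp
  · intro i hi
    rw [coeff_single_of_ne hi, zero_mul]

@[simp] theorem mul_single_coeff (x : B⟦ℤ⟧) (m : ℤ) (c : B) (n : ℤ) :
    (x * (single m c : B⟦ℤ⟧)).coeff n = x.coeff (n - m) * c := by
  classical
  rw [mul_coeff_right, finsum_eq_single _ m]
  · simp
  · intro i hi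
    rw [coeff_single_of_ne hi, mul_zero]

@[simp] theorem C_mul_coeff (c : B) (y : B⟦ℤ⟧) (n : ℤ) :
    ((C c : B⟦ℤ⟧) * y).coeff n = c * y.coeff n := by
  rw [C_apply, single_mul_coeff, sub_zero]

@[simp] theorem mul_C_coeff (x : B⟦ℤ⟧) (c : B) (n : ℤ) :
    (x * (C c : B⟦ℤ⟧)).coeff n = x.coeff n * c := by
  rw [C_apply, mul_single_coeff, sub_zero]

/-- leading coefficients multiply : if `x` vanishes below `k` and `y` below `l` -/
theorem mul_coeff_of_lower {x y : B⟦ℤ⟧} {k l : ℤ} (hx : ∀ i < k, x.coeff i = 0)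
    (hy : ∀ i < l, y.coeff i = 0) :
    (∀ i < k + l, (x * y).coeff i = 0) ∧ (x * y).coeff (k + l) = x.coeff k * y.coeff l := by
  constructor
  · intro n hn
    rw [mul_coeff, finsum_eq_zero_of_forall_eq_zero]
    intro i
    by_cases hi : i < k
    · rw [hx i hi, zero_mul]
    · rw [hy (n - i) (by omega), mul_zero]
  · rw [mul_coeff, finsum_eq_single _ k]
    · congr 2; omega
    · intro i hi
      by_cases hi' : i < k
      · rw [hx i hi', zero_mul]
      · rw [hy (k + l - i) (by omega), mul_zero]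

end Mul

section Division

variable {B : Type*} [DivisionRing B]

theorem exists_right_inv (x : B⟦ℤ⟧) (hx : x ≠ 0) : ∃ y : B⟦ℤ⟧, x * y = 1 := by
  have h0 : PowerSeries.constantCoeff (LaurentSeries.powerSeriesPart x) =
      ((Units.mk0 (x.coeff x.order) (coeff_order_eq_zero.not.mpr hx) : Bˣ) : B) := by
    rw [← PowerSeries.coeff_zero_eq_constantCoeff_apply, LaurentSeries.powerSeriesPart_coeff]
    simp
  have h1 := PowerSeries.mul_invOfUnit _ _ h0
  refine ⟨ofPowerSeries ℤ B (PowerSeries.invOfUnit (LaurentSeries.powerSeriesPart x)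
    (Units.mk0 (x.coeff x.order) (coeff_order_eq_zero.not.mpr hx))) * single (-x.order) 1, ?_⟩
  have h2 : x = single x.order 1 * ofPowerSeries ℤ B (LaurentSeries.powerSeriesPart x) :=
    (LaurentSeries.single_order_mul_powerSeriesPart x).symm
  generalize PowerSeries.invOfUnit (LaurentSeries.powerSeriesPart x)
    (Units.mk0 (x.coeff x.order) (coeff_order_eq_zero.not.mpr hx)) = q at h1
  have h3 : ofPowerSeries ℤ B (LaurentSeries.powerSeriesPart x) * ofPowerSeries ℤ B q = 1 := by
    rw [← map_mul, h1, map_one]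
  calc x * (ofPowerSeries ℤ B q * single (-x.order) 1)
      = (single x.order 1 * ofPowerSeries ℤ B (LaurentSeries.powerSeriesPart x)) *
          (ofPowerSeries ℤ B q * single (-x.order) 1) := by rw [← h2]
    _ = single x.order 1 * (ofPowerSeries ℤ B (LaurentSeries.powerSeriesPart x) *
          ofPowerSeries ℤ B q) * single (-x.order) 1 := by simp only [mul_assoc]
    _ = 1 := by rw [h3, mul_one, single_mul_single]; simp

theorem isUnit_or_eq_zero (x : B⟦ℤ⟧) : IsUnit x ∨ x = 0 := by
  by_cases hx : x = 0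
  · exact Or.inr hx
  · left
    obtain ⟨y, hy⟩ := exists_right_inv x hx
    have hy0 : y ≠ 0 := by
      rintro rfl
      rw [mul_zero] at hy
      exact zero_ne_one hy
    obtain ⟨z, hz⟩ := exists_right_inv y hy0
    have : x = z := by
      calc x = x * (y * z) := by rw [hz, mul_one]
        _ = z := by rw [← mul_assoc, hy, one_mul]
    exact ⟨⟨x, y, hy, by rw [this]; exact hz⟩, rfl⟩

open Classical in
/-- the inverse in `B((z))` -/
noncomputable def linv (a : B⟦ℤ⟧) : B⟦ℤ⟧ :=
  if h : a = 0 then 0 else ↑((isUnit_or_eq_zero a).resolve_right h).unit⁻¹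

theorem mul_linv (a : B⟦ℤ⟧) (h : a ≠ 0) : a * linv a = 1 := by
  rw [linv, dif_neg h]
  exact IsUnit.mul_val_inv _

theorem linv_single_zero (b : B) : linv (single 0 b : B⟦ℤ⟧) = single 0 b⁻¹ := by
  by_cases hb : b = 0
  · subst hb; simp [linv]
  · have h1 : (single 0 b : B⟦ℤ⟧) ≠ 0 := by simpa using hb
    have h2 := mul_linv _ h1
    have h3 : (single 0 b⁻¹ : B⟦ℤ⟧) * single 0 b = 1 := by
      rw [single_mul_single, inv_mul_cancel₀ hb]; simp
    calc linv (single 0 b : B⟦ℤ⟧) = (single 0 b⁻¹ : B⟦ℤ⟧) * single 0 b * linv (single 0 b) := by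
          rw [h3, one_mul]
      _ = single 0 b⁻¹ := by rw [mul_assoc, h2, mul_one]

/-- `B((z))` is a division ring (low priority: a commutative `B` uses Mathlib's field instance) -/
noncomputable instance (priority := 50) laurDivisionRing : DivisionRing B⟦ℤ⟧ where
  __ := (inferInstance : Ring B⟦ℤ⟧)
  inv := linv
  exists_pair_ne := ⟨0, 1, zero_ne_one⟩
  inv_zero := dif_pos rfl
  mul_inv_cancel := mul_linv
  nnratCast q := single 0 (q : B)
  ratCast q := single 0 (q : B)
  nnqsmul := (· • ·)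
  qsmul := (· • ·)
  nnqsmul_def q x := by
    ext n
    rw [coeff_smul, NNRat.smul_def]
    show (q : B) * x.coeff n = ((single 0 (q : B) : B⟦ℤ⟧) * x).coeff n
    rw [single_mul_coeff, sub_zero]
  qsmul_def q x := by
    ext n
    rw [coeff_smul, Rat.smul_def]
    show (q : B) * x.coeff n = ((single 0 (q : B) : B⟦ℤ⟧) * x).coeff n
    rw [single_mul_coeff, sub_zero]
  nnratCast_def q := by
    show (single 0 (q : B) : B⟦ℤ⟧) = (q.num : B⟦ℤ⟧) * linv (q.den : B⟦ℤ⟧)
    rw [← single_zero_natCast, ← single_zero_natCast, linv_single_zero, single_mul_single,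
      add_zero, ← div_eq_mul_inv, ← NNRat.cast_def]
  ratCast_def q := by
    show (single 0 (q : B) : B⟦ℤ⟧) = (q.num : B⟦ℤ⟧) * linv (q.den : B⟦ℤ⟧)
    rw [← single_zero_intCast, ← single_zero_natCast, linv_single_zero, single_mul_single,
      add_zero, ← div_eq_mul_inv, ← Rat.cast_def]

end Division

section Alg

variable {K : Type*} [Field K] {B : Type*} [Ring B] [Algebra K B]

/-- `K((z)) → B((z))` coefficientwise -/
noncomputable def laurMap : K⟦ℤ⟧ →+* B⟦ℤ⟧ where
  toFun x := x.map (algebraMap K B)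
  map_one' := by
    ext n
    by_cases h : n = 0
    · subst h; simp
    · simp [coeff_one, h]
  map_zero' := by ext n; simp
  map_add' x y := by ext n; simp
  map_mul' x y := HahnSeries.map_mul ((algebraMap K B : K →+* B) : K →ₙ+* B)

@[simp] theorem laurMap_coeff (x : K⟦ℤ⟧) (n : ℤ) :
    (laurMap (B := B) x).coeff n = algebraMap K B (x.coeff n) := rfl

theorem smul_eq_laurMap_mul (x : K⟦ℤ⟧) (y : B⟦ℤ⟧) : x • y = laurMap x * y := by
  ext n
  rw [smul_coeff, mul_coeff]
  exact finsum_congr fun i => by rw [laurMap_coeff, Algebra.smul_def]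

/-- `B((z))` is a `K((z))`-algebra -/
noncomputable instance (priority := 100) laurAlgebra : Algebra K⟦ℤ⟧ B⟦ℤ⟧ where
  toSMul := (lmodModule (K := K) (V := B)).toSMul
  algebraMap := laurMap
  commutes' x y := by
    ext n
    rw [mul_coeff, mul_coeff_right]
    exact finsum_congr fun i => by rw [laurMap_coeff, Algebra.commutes]
  smul_def' x y := smul_eq_laurMap_mul x y

/-- no diamond -/
example : (laurAlgebra (K := K) (B := B)).toModule = lmodModule := rfl

@[simp] theorem algebraMap_coeff (x : K⟦ℤ⟧) (n : ℤ) :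
    (algebraMap K⟦ℤ⟧ B⟦ℤ⟧ x).coeff n = algebraMap K B (x.coeff n) := rfl

theorem algebraMap_C (c : K) : algebraMap K⟦ℤ⟧ B⟦ℤ⟧ (C c) = C (algebraMap K B c) := by
  ext n
  rw [algebraMap_coeff, C_apply, C_apply]
  by_cases h : n = 0
  · subst h; simp
  · rw [coeff_single_of_ne h, coeff_single_of_ne h, map_zero]

instance laurTower : IsScalarTower K K⟦ℤ⟧ B⟦ℤ⟧ := lmodTower

instance laurCharZero [CharZero K] : CharZero K⟦ℤ⟧ :=
  charZero_of_injective_ringHom (f := (C : K →+* K⟦ℤ⟧)) C_injective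

theorem hasRoots_laur {K : Type} [Field K] (h : HasRoots K) : HasRoots K⟦ℤ⟧ := by
  intro r hr
  obtain ⟨ζ, hζ⟩ := h r hr
  exact ⟨C ζ, hζ.map_of_injective (f := (C : K →+* K⟦ℤ⟧)) C_injective⟩

/-- the center of `B((z))` is `K((z))` -/
theorem laur_central [Nontrivial B] (hc : ∀ a : B, (∀ b : B, a * b = b * a) → ∃ k : K, algebraMap K B k = a)
    (a : B⟦ℤ⟧) (ha : ∀ b : B⟦ℤ⟧, a * b = b * a) : ∃ k : K⟦ℤ⟧, algebraMap K⟦ℤ⟧ B⟦ℤ⟧ k = a := by
  classical
  have h1 : ∀ n : ℤ, ∃ k : K, algebraMap K B k = a.coeff n := by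
    intro n
    refine hc _ fun b => ?_
    have := congrArg (fun s : B⟦ℤ⟧ => s.coeff n) (ha (C b))
    simpa using this
  choose k hk using h1
  refine ⟨⟨k, a.isPWO_support.mono ?_⟩, ?_⟩
  · intro n hn
    rw [Function.mem_support] at hn
    rw [mem_support, ← hk n]
    intro h0
    exact hn ((algebraMap K B).injective (by rw [h0, map_zero]))
  · ext n
    exact hk n

/-- traces of left multiplications are coefficientwise -/
theorem trace_mulLeft_coeff [FiniteDimensional K B] (x : B⟦ℤ⟧) (n : ℤ) :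
    (LinearMap.trace K⟦ℤ⟧ B⟦ℤ⟧ (LinearMap.mulLeft K⟦ℤ⟧ x)).coeff n =
      LinearMap.trace K B (LinearMap.mulLeft K (x.coeff n)) := by
  classical
  have b := Module.finBasis K B
  rw [LinearMap.trace_eq_matrix_trace K⟦ℤ⟧ (lmodBasis b), LinearMap.trace_eq_matrix_trace K b,
    Matrix.trace, Matrix.trace, coeff_sum]
  refine Finset.sum_congr rfl fun i _ => ?_
  rw [Matrix.diag_apply, Matrix.diag_apply, LinearMap.toMatrix_apply, LinearMap.toMatrix_apply,
    lmodBasis_repr_coeff, lmodBasis_apply, LinearMap.mulLeft_apply, LinearMap.mulLeft_apply,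
    mul_single_coeff, sub_zero]

/-- same statement for the form used in `Der.lean` -/
theorem trace_mul_coeff [FiniteDimensional K B] (x : B⟦ℤ⟧) (n : ℤ) :
    (((LinearMap.trace K⟦ℤ⟧ B⟦ℤ⟧) ∘ₗ (LinearMap.mul K⟦ℤ⟧ B⟦ℤ⟧)) x).coeff n =
      ((LinearMap.trace K B) ∘ₗ (LinearMap.mul K B)) (x.coeff n) :=
  trace_mulLeft_coeff x n

end Alg

end Vale.P199
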