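import Mathlib

/-!
# P199 : reduction of `K((z))`-subspaces

`Co K V W`: coefficient maps `W → ℤ → V` on a module `W` over `K((z)) = HahnSeries ℤ K`
(for instance `W = V((z))`).  For a `K((z))`-subspace `U` of `W` the set `red U` of the constant
coefficients of the elements of `U` without negative coefficients is a `K`-subspace of `V` with
`finrank K (red U) = finrank K((z)) U`.
-/

namespace Vale.P199

open HahnSeries

/-- Coefficient maps on a module over `K((z))`. -/
structure Co (K V W : Type*) [Field K] [AddCommGroup V] [Module K V] [AddCommGroup W]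
    [Module (HahnSeries ℤ K) W] where
  /-- the coefficients -/
  co : W → ℤ → V
  co_add : ∀ w w' n, co (w + w') n = co w n + co w' n
  bdd : ∀ w, ∃ N : ℤ, ∀ n < N, co w n = 0
  inj : ∀ w, (∀ n, co w n = 0) → w = 0
  lead : ∀ (a : HahnSeries ℤ K) (w : W) (m l : ℤ), (∀ k < m, a.coeff k = 0) →
    (∀ k < l, co w k = 0) →
    (∀ k < m + l, co (a • w) k = 0) ∧ co (a • w) (m + l) = a.coeff m • co w l

namespace Co

variable {K V W : Type*} [Field K] [AddCommGroup V] [Module K V] [AddCommGroup W]
    [Module (HahnSeries ℤ K) W]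

section basic
variable (c : Co K V W)

/-- the coefficients as an additive map -/
def coHom (n : ℤ) : W →+ V where
  toFun w := c.co w n
  map_zero' := by
    have h := c.co_add 0 0 n
    rw [add_zero] at h
    exact (left_eq_add.mp h)
  map_add' w w' := c.co_add w w' n

@[simp] theorem coHom_apply (n : ℤ) (w : W) : c.coHom n w = c.co w n := rfl

@[simp] theorem co_zero (n : ℤ) : c.co 0 n = 0 := (c.coHom n).map_zero

@[simp] theorem co_neg (w : W) (n : ℤ) : c.co (-w) n = -c.co w n := (c.coHom n).map_neg w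

@[simp] theorem co_sub (w w' : W) (n : ℤ) : c.co (w - w') n = c.co w n - c.co w' n :=
  (c.coHom n).map_sub w w'

theorem co_sum {ι : Type*} (s : Finset ι) (f : ι → W) (n : ℤ) :
    c.co (∑ i ∈ s, f i) n = ∑ i ∈ s, c.co (f i) n := map_sum (c.coHom n) f s

/-- integral elements: no negative coefficients -/
def IsInt (w : W) : Prop := ∀ k < 0, c.co w k = 0

theorem IsInt.zero : c.IsInt 0 := fun k _ => c.co_zero k

variable {c} in
theorem IsInt.add {w w' : W} (h : c.IsInt w) (h' : c.IsInt w') : c.IsInt (w + w') := fun k hk => by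
  rw [c.co_add, h k hk, h' k hk, add_zero]

variable {c} in
theorem IsInt.sub {w w' : W} (h : c.IsInt w) (h' : c.IsInt w') : c.IsInt (w - w') := fun k hk => by
  rw [c.co_sub, h k hk, h' k hk, sub_zero]

variable {c} in
theorem IsInt.sum {ι : Type*} {s : Finset ι} {f : ι → W} (h : ∀ i ∈ s, c.IsInt (f i)) :
    c.IsInt (∑ i ∈ s, f i) := fun k hk => by
  rw [c.co_sum]; exact Finset.sum_eq_zero fun i hi => h i hi k hk

variable {c} in
/-- product with an integral scalar -/
theorem IsInt.smul {w : W} (h : c.IsInt w) {a : HahnSeries ℤ K} (ha : ∀ k < 0, a.coeff k = 0) :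
    c.IsInt (a • w) := fun k hk => (c.lead a w 0 0 ha h).1 k (by simpa using hk)

theorem co_smul_zero {w : W} (h : c.IsInt w) {a : HahnSeries ℤ K} (ha : ∀ k < 0, a.coeff k = 0) :
    c.co (a • w) 0 = a.coeff 0 • c.co w 0 := by
  simpa using (c.lead a w 0 0 ha h).2

theorem single_coeff_lt {m : ℤ} {a : K} : ∀ k < m, (single m a).coeff k = 0 := fun _ hk =>
  coeff_single_of_ne (ne_of_lt hk)

/-- division by `z` -/
theorem IsInt.div {w : W} (h : c.IsInt w) (h0 : c.co w 0 = 0) :
    c.IsInt ((single (-1 : ℤ) (1 : K)) • w) := fun k hk => by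
  have h1 : ∀ k < (1 : ℤ), c.co w k = 0 := fun k hk => by
    rcases lt_or_eq_of_le (Int.lt_add_one_iff.mp (show k < 0 + 1 by simpa using hk)) with h2 | h2
    · exact h k h2
    · rw [h2, h0]
  exact (c.lead (single (-1 : ℤ) (1 : K)) w (-1) 1 single_coeff_lt h1).1 k (by simpa using hk)

theorem ord_zpow {w : W} (h : c.IsInt w) (n : ℤ) : ∀ k < n,
    c.co ((single n (1 : K)) • w) k = 0 := fun k hk =>
  (c.lead (single n (1 : K)) w n 0 single_coeff_lt h).1 k (by simpa using hk)

theorem exists_int (w : W) : ∃ n : ℤ, c.IsInt ((single n (1 : K)) • w) := by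
  obtain ⟨N, hN⟩ := c.bdd w
  refine ⟨-N, fun k hk => ?_⟩
  exact (c.lead (single (-N) (1 : K)) w (-N) N single_coeff_lt hN).1 k (by simpa using hk)

theorem coeff_C_lt (a : K) : ∀ k < (0 : ℤ), (HahnSeries.C a : HahnSeries ℤ K).coeff k = 0 :=
  fun k hk => by
    rw [HahnSeries.C_apply]; exact coeff_single_of_ne (ne_of_lt hk)

@[simp] theorem coeff_C_zero (a : K) : (HahnSeries.C a : HahnSeries ℤ K).coeff 0 = a := by
  rw [HahnSeries.C_apply, coeff_single_same]

end basic

variable (c : Co K V W) (U : Submodule (HahnSeries ℤ K) W)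

/-- The reduction of a `K((z))`-subspace. -/
def red : Submodule K V where
  carrier := {v | ∃ b ∈ U, c.IsInt b ∧ c.co b 0 = v}
  add_mem' := by
    rintro v v' ⟨b, hb, h1, h2⟩ ⟨b', hb', h1', h2'⟩
    exact ⟨b + b', U.add_mem hb hb', h1.add h1', by rw [c.co_add, h2, h2']⟩
  zero_mem' := ⟨0, U.zero_mem, IsInt.zero c, c.co_zero 0⟩
  smul_mem' := by
    rintro a v ⟨b, hb, h1, h2⟩
    refine ⟨(HahnSeries.C a : HahnSeries ℤ K) • b, U.smul_mem _ hb, h1.smul (coeff_C_lt a), ?_⟩
    rw [c.co_smul_zero h1 (coeff_C_lt a), coeff_C_zero, h2]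

theorem mem_red {v : V} : v ∈ c.red U ↔ ∃ b ∈ U, c.IsInt b ∧ c.co b 0 = v := Iff.rfl

theorem red_mono {U U' : Submodule (HahnSeries ℤ K) W} (h : U ≤ U') : c.red U ≤ c.red U' := by
  rintro v ⟨b, hb, h1, h2⟩
  exact ⟨b, h hb, h1, h2⟩

/-- lifts of linearly independent vectors are linearly independent over `K((z))` -/
theorem linearIndependent_lift {ι : Type*} [Fintype ι] {v : ι → V} (hv : LinearIndependent K v)
    {b : ι → W} (hb : ∀ i, c.IsInt (b i)) (hbv : ∀ i, c.co (b i) 0 = v i) :
    LinearIndependent (HahnSeries ℤ K) b := by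
  rw [Fintype.linearIndependent_iff]
  intro g hg
  by_contra hne
  push Not at hne
  obtain ⟨i0, hi0⟩ := hne
  -- the least exponent which occurs
  have hex : ∃ n : ℤ, ∃ i, (g i).coeff n ≠ 0 := by
    by_contra hcon
    push Not at hcon
    exact hi0 (HahnSeries.ext (funext fun n => by simpa using hcon n i0))
  have hbdd : ∃ N : ℤ, ∀ n : ℤ, (∃ i, (g i).coeff n ≠ 0) → N ≤ n := by
    have h1 : ∀ i, ∃ N : ℤ, ∀ n : ℤ, (g i).coeff n ≠ 0 → N ≤ n := fun i => by
      rcases eq_or_ne (g i) 0 with h0 | h0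
      · exact ⟨0, fun n hn => absurd (by rw [h0]; rfl) hn⟩
      · exact ⟨(g i).order, fun n hn => HahnSeries.order_le_of_coeff_ne_zero hn⟩
    choose N hN using h1
    refine ⟨Finset.univ.inf' ⟨i0, Finset.mem_univ i0⟩ N, fun n hn => ?_⟩
    obtain ⟨i, hi⟩ := hn
    exact (Finset.inf'_le N (Finset.mem_univ i)).trans (hN i n hi)
  obtain ⟨N, hN⟩ := hbdd
  obtain ⟨m, ⟨i1, hi1⟩, hmin⟩ := Int.exists_least_of_bdd (P := fun n : ℤ => ∃ i, (g i).coeff n ≠ 0)
    ⟨N, hN⟩ hex
  have hlow : ∀ i, ∀ k < m, (g i).coeff k = 0 := fun i k hk => by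
    by_contra hcon
    exact absurd (hmin k ⟨i, hcon⟩) (not_le.mpr hk)
  have hsum : ∑ i, (g i).coeff m • v i = 0 := by
    have h1 := congrArg (fun w => c.co w m) hg
    simp only [c.co_sum, c.co_zero] at h1
    rw [← h1]
    refine Finset.sum_congr rfl fun i _ => ?_
    have h2 := (c.lead (g i) (b i) m 0 (hlow i) (hb i)).2
    rw [add_zero] at h2
    rw [h2, hbv]
  exact hi1 (Fintype.linearIndependent_iff.mp hv _ hsum i1)

section span
variable {c U}
variable {ι : Type*} [Fintype ι] {v : ι → V} {b : ι → W} {p : V →ₗ[K] (ι → K)}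

/-- one step of the expansion of an integral element of `U` -/
noncomputable def step (c : Co K V W) (b : ι → W) (p : V →ₗ[K] (ι → K)) (u : W) : W :=
  (single (-1 : ℤ) (1 : K)) • (u - ∑ i, (HahnSeries.C (p (c.co u 0) i) : HahnSeries ℤ K) • b i)

/-- the iterates -/
noncomputable def it (c : Co K V W) (b : ι → W) (p : V →ₗ[K] (ι → K)) (u : W) : ℕ → W
  | 0 => u
  | n + 1 => step c b p (it c b p u n)

/-- the expansion coefficients -/
noncomputable def cf (c : Co K V W) (b : ι → W) (p : V →ₗ[K] (ι → K)) (u : W) (n : ℕ) (i : ι) :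
    HahnSeries ℤ K :=
  HahnSeries.ofPowerSeries ℤ K (PowerSeries.mk fun k => p (c.co (it c b p u (n + k)) 0) i)

theorem cf_coeff_neg (u : W) (n : ℕ) (i : ι) : ∀ k < (0 : ℤ), (cf c b p u n i).coeff k = 0 :=
  fun k hk => by
    rw [cf, HahnSeries.ofPowerSeries_apply]
    refine HahnSeries.embDomain_of_notMem_range ?_
    rintro ⟨m, hm⟩
    have : (m : ℤ) = k := hm
    omega

theorem cf_eq (u : W) (n : ℕ) (i : ι) :
    cf c b p u n i = HahnSeries.C (p (c.co (it c b p u n) 0) i) +
      single (1 : ℤ) (1 : K) * cf c b p u (n + 1) i := by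
  have h1 : (PowerSeries.mk fun k => p (c.co (it c b p u (n + k)) 0) i) =
      PowerSeries.C (p (c.co (it c b p u n) 0) i) +
        PowerSeries.X * (PowerSeries.mk fun k => p (c.co (it c b p u (n + 1 + k)) 0) i) := by
    ext k
    rcases k with _ | k
    · simp
    · rw [map_add, PowerSeries.coeff_mk, PowerSeries.coeff_succ_X_mul, PowerSeries.coeff_mk,
        PowerSeries.coeff_C]
      simp only [Nat.add_eq_zero_iff, one_ne_zero, and_false, if_false, zero_add]
      rw [show n + (k + 1) = n + 1 + k by ring]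
  rw [cf, h1, map_add, map_mul, HahnSeries.ofPowerSeries_C, HahnSeries.ofPowerSeries_X]
  rfl

theorem it_mem (hb : ∀ i, c.IsInt (b i)) (hbU : ∀ i, b i ∈ U) (hbv : ∀ i, c.co (b i) 0 = v i)
    (hp : ∀ x ∈ c.red U, ∑ i, p x i • v i = x) {u : W} (hu : u ∈ U) (hui : c.IsInt u) (n : ℕ) :
    it c b p u n ∈ U ∧ c.IsInt (it c b p u n) := by
  induction n with
  | zero => exact ⟨hu, hui⟩
  | succ n ih =>
    refine ⟨U.smul_mem _ (U.sub_mem ih.1 (U.sum_mem fun i _ => U.smul_mem _ (hbU i))), ?_⟩
    refine IsInt.div c (ih.2.sub (IsInt.sum fun i _ => (hb i).smul (coeff_C_lt _))) ?_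
    rw [c.co_sub, c.co_sum]
    have h1 : ∀ i, c.co ((HahnSeries.C (p (c.co (it c b p u n) 0) i) : HahnSeries ℤ K) • b i) 0 =
        p (c.co (it c b p u n) 0) i • v i := fun i => by
      rw [c.co_smul_zero (hb i) (coeff_C_lt _), coeff_C_zero, hbv]
    rw [Finset.sum_congr rfl fun i _ => h1 i, hp _ ⟨_, ih.1, ih.2, rfl⟩, sub_self]

theorem eq_sum_cf (hb : ∀ i, c.IsInt (b i)) (hbU : ∀ i, b i ∈ U) (hbv : ∀ i, c.co (b i) 0 = v i)
    (hp : ∀ x ∈ c.red U, ∑ i, p x i • v i = x) {u : W} (hu : u ∈ U) (hui : c.IsInt u) :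
    u = ∑ i, cf c b p u 0 i • b i := by
  -- the remainders
  have hstep : ∀ n, it c b p u n - ∑ i, cf c b p u n i • b i =
      (single (1 : ℤ) (1 : K)) • (it c b p u (n + 1) - ∑ i, cf c b p u (n + 1) i • b i) := by
    intro n
    have h1 : (single (1 : ℤ) (1 : K)) • it c b p u (n + 1) =
        it c b p u n - ∑ i, (HahnSeries.C (p (c.co (it c b p u n) 0) i) : HahnSeries ℤ K) • b i := by
      rw [it, step, smul_smul, HahnSeries.single_mul_single]
      simp
    rw [smul_sub, h1, Finset.smul_sum, sub_sub, ← Finset.sum_add_distrib]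
    congr 1
    refine Finset.sum_congr rfl fun i _ => ?_
    rw [smul_smul, ← add_smul, ← cf_eq]
  have hpow : ∀ n : ℕ, u - ∑ i, cf c b p u 0 i • b i =
      (single (n : ℤ) (1 : K)) • (it c b p u n - ∑ i, cf c b p u n i • b i) := by
    intro n
    induction n with
    | zero => simp [it]
    | succ n ih =>
      rw [ih, hstep n, smul_smul, HahnSeries.single_mul_single]
      simp
  have hint : ∀ n, c.IsInt (it c b p u n - ∑ i, cf c b p u n i • b i) := fun n =>
    (it_mem hb hbU hbv hp hu hui n).2.sub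
      (IsInt.sum fun i _ => (hb i).smul (cf_coeff_neg u n i))
  have h0 : u - ∑ i, cf c b p u 0 i • b i = 0 := by
    refine c.inj _ fun k => ?_
    rw [hpow (k.toNat + 1)]
    exact c.ord_zpow (hint _) _ k (by push_cast; omega)
  exact sub_eq_zero.mp h0

end span

/-- There is a `K((z))`-basis of `U` lifting any given finite basis of `red U`. -/
theorem exists_basis_lift {ι : Type*} [Fintype ι] (e : Module.Basis ι K (c.red U)) :
    ∃ B : Module.Basis ι (HahnSeries ℤ K) U,
      ∀ i, c.IsInt (B i : W) ∧ c.co (B i : W) 0 = e i := by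
  classical
  have hl : ∀ i, ∃ b ∈ U, c.IsInt b ∧ c.co b 0 = (e i : V) := fun i => (e i).2
  choose b hbU hb hbv using hl
  have hv : LinearIndependent K (fun i => (e i : V)) :=
    e.linearIndependent.map' (c.red U).subtype (Submodule.ker_subtype _)
  -- a linear map giving the coordinates
  obtain ⟨p, hp⟩ : ∃ p : V →ₗ[K] (ι → K), ∀ x ∈ c.red U, ∑ i, p x i • (e i : V) = x := by
    obtain ⟨q, hq⟩ := (e.equivFun.toLinearMap).exists_extend
    refine ⟨q, fun x hx => ?_⟩
    have h1 : q x = e.equivFun ⟨x, hx⟩ := by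
      have := LinearMap.congr_fun hq ⟨x, hx⟩
      simpa using this
    have h2 := congrArg (fun y : c.red U => (y : V)) (e.sum_equivFun ⟨x, hx⟩)
    simp only [Submodule.coe_sum, Submodule.coe_smul] at h2
    rw [h1]
    exact h2
  have hli := c.linearIndependent_lift hv hb hbv
  have hli' : LinearIndependent (HahnSeries ℤ K) (fun i => (⟨b i, hbU i⟩ : U)) :=
    LinearIndependent.of_comp U.subtype hli
  have hsp : ⊤ ≤ Submodule.span (HahnSeries ℤ K) (Set.range fun i => (⟨b i, hbU i⟩ : U)) := by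
    rintro ⟨u, hu⟩ -
    obtain ⟨n, hn⟩ := c.exists_int u
    have h1 := eq_sum_cf (p := p) hb hbU hbv hp (U.smul_mem _ hu) hn
    have h2 : u = (single (-n) (1 : K)) • ((single n (1 : K)) • u) := by
      rw [smul_smul, HahnSeries.single_mul_single]; simp
    have h3 : (⟨u, hu⟩ : U) = (single (-n) (1 : K)) •
        ∑ i, cf c b p ((single n (1 : K)) • u) 0 i • (⟨b i, hbU i⟩ : U) := by
      apply Subtype.ext
      rw [Submodule.coe_smul, Submodule.coe_sum]
      simp only [Submodule.coe_smul]
      rw [← h1]; exact h2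
    rw [h3]
    exact Submodule.smul_mem _ _ (Submodule.sum_mem _ fun i _ =>
      Submodule.smul_mem _ _ (Submodule.subset_span ⟨i, rfl⟩))
  refine ⟨Module.Basis.mk hli' hsp, fun i => ?_⟩
  rw [Module.Basis.mk_apply]
  exact ⟨hb i, hbv i⟩

/-- **The dimension is preserved by reduction.** -/
theorem finrank_red [Module.Finite K (c.red U)] :
    Module.finrank K (c.red U) = Module.finrank (HahnSeries ℤ K) U := by
  classical
  obtain ⟨B, -⟩ := c.exists_basis_lift U (Module.finBasis K (c.red U))
  rw [Module.finrank_eq_card_basis B, Fintype.card_fin]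

theorem finite_of_red [Module.Finite K (c.red U)] : Module.Finite (HahnSeries ℤ K) U := by
  classical
  obtain ⟨B, -⟩ := c.exists_basis_lift U (Module.finBasis K (c.red U))
  exact Module.Finite.of_basis B

section maps
variable {V' W' : Type*} [AddCommGroup V'] [Module K V'] [AddCommGroup W']
    [Module (HahnSeries ℤ K) W'] (c' : Co K V' W')

/-- Reduction of the kernel of an integral map. -/
theorem red_ker_le (A : W →ₗ[HahnSeries ℤ K] W') (A0 : V →ₗ[K] V')
    (h : ∀ w, c.IsInt w → c'.co (A w) 0 = A0 (c.co w 0)) :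
    c.red (LinearMap.ker A) ≤ LinearMap.ker A0 := by
  rintro v ⟨b, hb, h1, h2⟩
  rw [LinearMap.mem_ker] at hb ⊢
  rw [← h2, ← h b h1, hb, c'.co_zero]

/-- Semicontinuity: the kernel of the reduction is at least as large. -/
theorem finrank_ker_le [Module.Finite K V] (A : W →ₗ[HahnSeries ℤ K] W') (A0 : V →ₗ[K] V')
    (h : ∀ w, c.IsInt w → c'.co (A w) 0 = A0 (c.co w 0)) :
    Module.finrank (HahnSeries ℤ K) (LinearMap.ker A) ≤ Module.finrank K (LinearMap.ker A0) := by
  rw [← c.finrank_red (LinearMap.ker A)]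
  exact Submodule.finrank_mono (c.red_ker_le c' A A0 h)

/-- If the dimensions of the kernels of `A` and of its reduction agree then every element of the
kernel of the reduction lifts to an integral element of the kernel of `A`. -/
theorem lift_ker [Module.Finite K V] (A : W →ₗ[HahnSeries ℤ K] W') (A0 : V →ₗ[K] V')
    (h : ∀ w, c.IsInt w → c'.co (A w) 0 = A0 (c.co w 0))
    (hd : Module.finrank K (LinearMap.ker A0) ≤ Module.finrank (HahnSeries ℤ K) (LinearMap.ker A))
    {v : V} (hv : A0 v = 0) : ∃ b : W, A b = 0 ∧ c.IsInt b ∧ c.co b 0 = v := by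
  have h1 : c.red (LinearMap.ker A) = LinearMap.ker A0 :=
    Submodule.eq_of_le_of_finrank_le (c.red_ker_le c' A A0 h)
      (by rw [c.finrank_red (LinearMap.ker A)]; exact hd)
  have h2 : v ∈ c.red (LinearMap.ker A) := by rw [h1]; exact hv
  obtain ⟨b, hb, h3, h4⟩ := h2
  exact ⟨b, hb, h3, h4⟩

/-- Lifting for a subspace: if `red U ≤ U0` and `finrank U0 ≤ finrank U` then everything lifts. -/
theorem red_eq_of_finrank [Module.Finite K V] {U : Submodule (HahnSeries ℤ K) W}
    {U0 : Submodule K V} (h : c.red U ≤ U0)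
    (hd : Module.finrank K U0 ≤ Module.finrank (HahnSeries ℤ K) U) : c.red U = U0 :=
  Submodule.eq_of_le_of_finrank_le h (by rw [c.finrank_red U]; exact hd)

end maps

/-- Finite products of Laurent spaces. -/
def pi (ι : Type*) [Fintype ι] : Co K (ι → V) (ι → W) where
  co w n i := c.co (w i) n
  co_add w w' n := by funext i; simp [c.co_add]
  bdd w := by
    rcases isEmpty_or_nonempty ι with h | h
    · exact ⟨0, fun n _ => by funext i; exact (h.false i).elim⟩
    · choose N hN using fun i => c.bdd (w i)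
      refine ⟨Finset.univ.inf' Finset.univ_nonempty N, fun n hn => ?_⟩
      funext i
      exact hN i n (hn.trans_le (Finset.inf'_le N (Finset.mem_univ i)))
  inj w h := by
    funext i
    exact c.inj _ fun n => congrFun (h n) i
  lead a w m l ha hw := by
    have h1 : ∀ i, ∀ k < l, c.co (w i) k = 0 := fun i k hk => congrFun (hw k hk) i
    exact ⟨fun k hk => by funext i; exact (c.lead a (w i) m l ha (h1 i)).1 k hk,
      by funext i; exact (c.lead a (w i) m l ha (h1 i)).2⟩

/-- Products of two Laurent spaces. -/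
def prod {V' W' : Type*} [AddCommGroup V'] [Module K V'] [AddCommGroup W']
    [Module (HahnSeries ℤ K) W'] (c' : Co K V' W') : Co K (V × V') (W × W') where
  co w n := (c.co w.1 n, c'.co w.2 n)
  co_add w w' n := by simp [c.co_add, c'.co_add]
  bdd w := by
    obtain ⟨N, hN⟩ := c.bdd w.1
    obtain ⟨N', hN'⟩ := c'.bdd w.2
    refine ⟨min N N', fun n hn => ?_⟩
    rw [hN n (hn.trans_le (min_le_left _ _)), hN' n (hn.trans_le (min_le_right _ _))]
    rfl
  inj w h := by
    refine Prod.ext (c.inj _ fun n => congrArg Prod.fst (h n)) (c'.inj _ fun n => congrArg Prod.snd (h n))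
  lead a w m l ha hw := by
    have h1 := c.lead a w.1 m l ha fun k hk => congrArg Prod.fst (hw k hk)
    have h2 := c'.lead a w.2 m l ha fun k hk => congrArg Prod.snd (hw k hk)
    exact ⟨fun k hk => Prod.ext (h1.1 k hk) (h2.1 k hk), Prod.ext h1.2 h2.2⟩

end Co

/-- leading coefficient of a product of Laurent series -/
theorem hahn_lead {B : Type*} [Ring B] (x y : HahnSeries ℤ B) (m l : ℤ)
    (hx : ∀ k < m, x.coeff k = 0) (hy : ∀ k < l, y.coeff k = 0) :
    (∀ k < m + l, (x * y).coeff k = 0) ∧ (x * y).coeff (m + l) = x.coeff m * y.coeff l := by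
  constructor
  · intro k hk
    rw [HahnSeries.coeff_mul]
    refine Finset.sum_eq_zero fun ij hij => ?_
    rw [Finset.mem_antidiagonal] at hij
    rcases lt_or_ge ij.1 m with h | h
    · rw [hx _ h, zero_mul]
    · rw [hy ij.2 (by omega), mul_zero]
  · rw [HahnSeries.coeff_mul]
    by_cases h0 : x.coeff m = 0 ∨ y.coeff l = 0
    · rw [show x.coeff m * y.coeff l = 0 by rcases h0 with h | h <;> simp [h]]
      refine Finset.sum_eq_zero fun ij hij => ?_
      rw [Finset.mem_antidiagonal] at hij
      rcases lt_trichotomy ij.1 m with h | h | h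
      · rw [hx _ h, zero_mul]
      · have h2 : ij.2 = l := by omega
        rw [h, h2]; rcases h0 with h | h <;> simp [h]
      · rw [hy ij.2 (by omega), mul_zero]
    · push Not at h0
      rw [Finset.sum_eq_single (m, l)]
      · intro ij hij hne
        rw [Finset.mem_antidiagonal] at hij
        rcases lt_trichotomy ij.1 m with h | h | h
        · rw [hx _ h, zero_mul]
        · exact absurd (Prod.ext h (by omega)) hne
        · rw [hy ij.2 (by omega), mul_zero]
      · intro hn
        exact absurd (Finset.mem_antidiagonal.mpr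
          ⟨HahnSeries.mem_support _ _ |>.mpr h0.1, HahnSeries.mem_support _ _ |>.mpr h0.2, rfl⟩) hn

/-- `B((z))` as a Laurent space over `K((z))`, for any module structure given by multiplication with
the series with the same coefficients. -/
def Co.hahn {K B : Type*} [Field K] [Ring B] [Algebra K B]
    [Module (HahnSeries ℤ K) (HahnSeries ℤ B)]
    (h : ∀ (a : HahnSeries ℤ K) (w : HahnSeries ℤ B), ∃ a' : HahnSeries ℤ B,
      (∀ n, a'.coeff n = algebraMap K B (a.coeff n)) ∧ a • w = a' * w) :
    Co K B (HahnSeries ℤ B) where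
  co w n := w.coeff n
  co_add w w' n := rfl
  bdd w := by
    rcases eq_or_ne w 0 with h0 | h0
    · exact ⟨0, fun n _ => by rw [h0]; rfl⟩
    · exact ⟨w.order, fun n hn => HahnSeries.coeff_eq_zero_of_lt_order hn⟩
  inj w hw := HahnSeries.ext (funext hw)
  lead a w m l ha hw := by
    obtain ⟨a', h1, h2⟩ := h a w
    rw [h2]
    have h3 := hahn_lead a' w m l (fun k hk => by rw [h1, ha k hk, map_zero]) hw
    refine ⟨h3.1, ?_⟩
    rw [h3.2, h1, Algebra.smul_def]

end Vale.P199
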