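import Vale.Agent.P199.LMod
import Vale.Agent.P199.Red

/-!
# P199 : `V((z))` as a Laurent space (instance of `Co` for the module structure of `LMod`)
-/

open HahnSeries

namespace Vale.P199

variable {K : Type*} [Field K] {V : Type*} [AddCommGroup V] [Module K V]

/-- `V((z))` with its coefficients is a Laurent space over `K((z))`. -/
noncomputable def Co.lmod (K V : Type*) [Field K] [AddCommGroup V] [Module K V] :
    Co K V V⟦ℤ⟧ where
  co w n := w.coeff n
  co_add w w' n := rfl
  bdd w := by
    rcases eq_or_ne w 0 with h0 | h0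
    · exact ⟨0, fun n _ => by rw [h0]; rfl⟩
    · exact ⟨w.order, fun n hn => HahnSeries.coeff_eq_zero_of_lt_order hn⟩
  inj w hw := HahnSeries.ext (funext hw)
  lead a w m l ha hw := by
    constructor
    · intro k hk
      rw [smul_coeff]
      refine finsum_eq_zero_of_forall_eq_zero fun i => ?_
      rcases lt_or_ge i m with h | h
      · rw [ha i h, zero_smul]
      · rw [hw (k - i) (by omega), smul_zero]
    · rw [smul_coeff, finsum_eq_single _ m]
      · rw [show m + l - m = l by ring]
      · intro i hi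
        rcases lt_or_ge i m with h | h
        · rw [ha i h, zero_smul]
        · have : m < i := lt_of_le_of_ne h (Ne.symm hi)
          rw [hw (m + l - i) (by omega), smul_zero]

@[simp] theorem Co.lmod_co (w : V⟦ℤ⟧) (n : ℤ) : (Co.lmod K V).co w n = w.coeff n := rfl

/-- `red U` for a subspace `U` of `V((z))`. -/
noncomputable abbrev redL (U : Submodule K⟦ℤ⟧ V⟦ℤ⟧) : Submodule K V := (Co.lmod K V).red U

theorem mem_redL {U : Submodule K⟦ℤ⟧ V⟦ℤ⟧} {v : V} :
    v ∈ redL U ↔ ∃ b ∈ U, (∀ k < 0, b.coeff k = 0) ∧ b.coeff 0 = v := Iff.rfl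

/-- **The dimension is preserved by reduction** (for subspaces of `V((z))`). -/
theorem finrank_redL [FiniteDimensional K V] (U : Submodule K⟦ℤ⟧ V⟦ℤ⟧) :
    Module.finrank K (redL U) = Module.finrank K⟦ℤ⟧ U := (Co.lmod K V).finrank_red U

/-- the version for pairs: subspaces of `V((z)) × V'((z))` -/
theorem finrank_redL_prod {V' : Type*} [AddCommGroup V'] [Module K V']
    [FiniteDimensional K V] [FiniteDimensional K V']
    (U : Submodule K⟦ℤ⟧ (V⟦ℤ⟧ × V'⟦ℤ⟧)) :
    Module.finrank K (((Co.lmod K V).prod (Co.lmod K V')).red U) = Module.finrank K⟦ℤ⟧ U :=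
  ((Co.lmod K V).prod (Co.lmod K V')).finrank_red U

end Vale.P199
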