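import Vale.Agent.P199.Tr
import Vale.Agent.P199.RedL
import Vale.Agent.P199.Laur

/-!
# P199, (B1.2) and (B1.4): the centralizer of `a' = a + z^k X + ...` in `B((z))` and its reduction
-/

open HahnSeries

namespace Vale.P199

namespace B1Red

open Tr

variable {K B : Type*} [Field K] [CharZero K] [DivisionRing B] [Algebra K B] [FiniteDimensional K B]

omit [CharZero K] [FiniteDimensional K B] in
theorem mem_cen_laur {a' b : B⟦ℤ⟧} : b ∈ cen K⟦ℤ⟧ a' ↔ a' * b = b * a' := mem_cen

omit [CharZero K] [FiniteDimensional K B] in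
theorem sub_comm_mem_cen {α x y : B} (hx : x ∈ cen K α) (hy : y ∈ cen K α) :
    x * y - y * x ∈ cen K α := sub_mem (mul_mem_cen hx hy) (mul_mem_cen hy hx)

/-- (B1.2) the coefficients of an element commuting with `a'` commute with `a = a' (0)` -/
theorem coeff_mem_cen {a' : B⟦ℤ⟧} {α : B} (hneg : ∀ n < 0, a'.coeff n = 0)
    (h0 : a'.coeff 0 = α) (hc : ∀ n, a'.coeff n ∈ cen K α) {b : B⟦ℤ⟧} (hb : a' * b = b * a')
    (n : ℤ) : b.coeff n ∈ cen K α := by
  by_contra hn
  have hbd : ∃ N : ℤ, ∀ m : ℤ, b.coeff m ∉ cen K α → N ≤ m := by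
    refine ⟨b.order, fun m hm => ?_⟩
    by_contra hlt
    push Not at hlt
    apply hm
    rw [coeff_eq_zero_of_lt_order hlt]
    exact zero_mem _
  obtain ⟨m, hm, hmin⟩ := Int.exists_least_of_bdd (P := fun m : ℤ => b.coeff m ∉ cen K α) hbd ⟨n, hn⟩
  have hlow : ∀ j < m, b.coeff j ∈ cen K α := fun j hj => by
    by_contra hcon
    exact absurd (hmin j hcon) (not_le.mpr hj)
  apply hm
  -- the coefficient of index `m` of `a' b - b a'`
  have h1 : (a' * b).coeff m = (b * a').coeff m := by rw [hb]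
  rw [mul_coeff, mul_coeff_right] at h1
  have hf1 := mul_coeff_finite a' b m
  have hf2 : (Function.support fun i : ℤ => b.coeff (m - i) * a'.coeff i).Finite := by
    have := mul_coeff_finite b a' m
    refine ((this.image (fun i => m - i))).subset ?_
    intro i hi
    refine ⟨m - i, ?_, by simp⟩
    rw [Function.mem_support] at hi ⊢
    simpa using hi
  have h2 : ∑ᶠ i : ℤ, (a'.coeff i * b.coeff (m - i) - b.coeff (m - i) * a'.coeff i) = 0 := by
    rw [finsum_sub_distrib hf1 hf2, h1, sub_self]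
  -- all terms but `i = 0` are in the centralizer
  have h3 : ∀ i : ℤ, i ≠ 0 →
      a'.coeff i * b.coeff (m - i) - b.coeff (m - i) * a'.coeff i ∈ cen K α := by
    intro i hi
    rcases lt_or_gt_of_ne hi with h | h
    · rw [hneg i h]; simp
    · exact sub_comm_mem_cen (hc i) (hlow _ (by omega))
  have hfin : (Function.support fun i : ℤ =>
      (a'.coeff i * b.coeff (m - i) - b.coeff (m - i) * a'.coeff i)).Finite :=
    (hf1.union hf2).subset (Function.support_sub _ _)
  have h4 : α * b.coeff m - b.coeff m * α ∈ cen K α := by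
    classical
    set t : Finset ℤ := insert 0 hfin.toFinset with ht
    have e : ∑ᶠ i : ℤ, (a'.coeff i * b.coeff (m - i) - b.coeff (m - i) * a'.coeff i) =
        ∑ i ∈ t, (a'.coeff i * b.coeff (m - i) - b.coeff (m - i) * a'.coeff i) := by
      apply finsum_eq_sum_of_support_subset
      intro i hi
      rw [ht]
      simp only [Finset.coe_insert, Set.Finite.coe_toFinset]
      exact Or.inr hi
    rw [h2, ← Finset.add_sum_erase t _ (Finset.mem_insert_self 0 _), h0, sub_zero] at e
    have e2 := eq_neg_of_add_eq_zero_left e.symm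
    rw [e2]
    refine neg_mem (sum_mem fun i hi => ?_)
    exact h3 i (Finset.ne_of_mem_erase hi)
  have h5 : α * b.coeff m - b.coeff m * α = 0 :=
    Submodule.disjoint_def.mp (disjoint_cen_range (K := K) α) _ h4 ⟨b.coeff m, rfl⟩
  exact mem_cen.mpr (sub_eq_zero.mp h5)

/-- (B1.4) the constant term of an integral element commuting with `a' = a + z^k X + ...` commutes
with `X` -/
theorem coeff_zero_comm {a' : B⟦ℤ⟧} {α X : B} {k : ℤ} (hk : 0 < k) (hneg : ∀ n < 0, a'.coeff n = 0)
    (h0 : a'.coeff 0 = α) (hmid : ∀ n, 0 < n → n < k → a'.coeff n = 0) (hX : a'.coeff k = X)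
    (hc : ∀ n, a'.coeff n ∈ cen K α) {b : B⟦ℤ⟧} (hb : a' * b = b * a')
    (hint : ∀ n < 0, b.coeff n = 0) : X * b.coeff 0 = b.coeff 0 * X := by
  have h1 : (a' * b).coeff k = (b * a').coeff k := by rw [hb]
  have hc' := coeff_mem_cen hneg h0 hc hb
  have e1 : (a' * b).coeff k = α * b.coeff k + X * b.coeff 0 := by
    rw [mul_coeff, finsum_eq_sum_of_support_subset (s := {0, k})]
    · rw [Finset.sum_pair (by omega), h0, hX, sub_zero, sub_self]
    · intro i hi
      rw [Function.mem_support] at hi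
      simp only [Finset.coe_insert, Finset.coe_singleton, Set.mem_insert_iff,
        Set.mem_singleton_iff]
      by_contra hcon
      push Not at hcon
      apply hi
      rcases lt_or_gt_of_ne hcon.1 with h | h
      · rw [hneg i h, zero_mul]
      · rcases lt_or_gt_of_ne hcon.2 with h' | h'
        · rw [hmid i h h', zero_mul]
        · rw [hint (k - i) (by omega), mul_zero]
  have e2 : (b * a').coeff k = b.coeff k * α + b.coeff 0 * X := by
    rw [mul_coeff_right, finsum_eq_sum_of_support_subset (s := {0, k})]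
    · rw [Finset.sum_pair (by omega), h0, hX, sub_zero, sub_self]
    · intro i hi
      rw [Function.mem_support] at hi
      simp only [Finset.coe_insert, Finset.coe_singleton, Set.mem_insert_iff,
        Set.mem_singleton_iff]
      by_contra hcon
      push Not at hcon
      apply hi
      rcases lt_or_gt_of_ne hcon.1 with h | h
      · rw [hneg i h, mul_zero]
      · rcases lt_or_gt_of_ne hcon.2 with h' | h'
        · rw [hmid i h h', mul_zero]
        · rw [hint (k - i) (by omega), zero_mul]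
  rw [e1, e2, mem_cen.mp (hc' k)] at h1
  exact add_left_cancel h1

/-- (B1.4): `red Z' ≤ Z(a) ∩ Z(X)` -/
theorem redL_cen_le {a' : B⟦ℤ⟧} {α X : B} {k : ℤ} (hk : 0 < k) (hneg : ∀ n < 0, a'.coeff n = 0)
    (h0 : a'.coeff 0 = α) (hmid : ∀ n, 0 < n → n < k → a'.coeff n = 0) (hX : a'.coeff k = X)
    (hc : ∀ n, a'.coeff n ∈ cen K α) :
    redL (cen K⟦ℤ⟧ a') ≤ cen K α ⊓ cen K X := by
  intro δ hδ
  rw [mem_redL] at hδ
  obtain ⟨b, hb, hint, rfl⟩ := hδ
  have hb' : a' * b = b * a' := mem_cen.mp hb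
  exact ⟨coeff_mem_cen hneg h0 hc hb' 0,
    mem_cen.mpr (coeff_zero_comm hk hneg h0 hmid hX hc hb' hint)⟩

/-- (B1.4): `dim Z' ≤ dim (Z(a) ∩ Z(X))` -/
theorem finrank_cen_le {a' : B⟦ℤ⟧} {α X : B} {k : ℤ} (hk : 0 < k) (hneg : ∀ n < 0, a'.coeff n = 0)
    (h0 : a'.coeff 0 = α) (hmid : ∀ n, 0 < n → n < k → a'.coeff n = 0) (hX : a'.coeff k = X)
    (hc : ∀ n, a'.coeff n ∈ cen K α) :
    Module.finrank K⟦ℤ⟧ (cen K⟦ℤ⟧ a') ≤ Module.finrank K ↥(cen K α ⊓ cen K X) := by
  rw [← finrank_redL]
  exact Submodule.finrank_mono (redL_cen_le hk hneg h0 hmid hX hc)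

end B1Red

end Vale.P199
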