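import Vale.Agent.P199.BDefs
import Vale.Agent.P199.Dz

/-!
# P199 : low order terms of the shift homomorphism, chain rule
-/

open HahnSeries

namespace Vale.P199

namespace NC

variable {I B : Type} [Ring B]

theorem T_nil [DecidableEq I] (i : I) : (T i : NC I B) [] = 0 := by simp [T]

theorem sh_T [DecidableEq I] (i j : I) : sh j (T i : NC I B) = if j = i then 1 else 0 := by
  ext w
  rw [sh_apply]
  by_cases h : j = i
  · subst h
    cases w with
    | nil => simp [T]
    | cons k w => simp [T, one_cons]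
  · rw [if_neg h]
    simp [T, h]

theorem sh_add (j : I) (f g : NC I B) : sh j (f + g) = sh j f + sh j g := by ext w; simp

theorem sh_sum {ι : Type*} (j : I) (s : Finset ι) (f : ι → NC I B) :
    sh j (∑ i ∈ s, f i) = ∑ i ∈ s, sh j (f i) := by
  classical
  induction s using Finset.induction_on with
  | empty => ext w; rfl
  | insert a s ha ih => rw [Finset.sum_insert ha, Finset.sum_insert ha, sh_add, ih]

theorem sh_C_mul (j : I) (b : B) (f : NC I B) : sh j (C b * f) = C b * sh j f := by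
  ext w; rw [sh_apply, C_mul_apply, C_mul_apply, sh_apply]

/-- `f = f_0 + Σ t_i (sh_i f)` -/
theorem decomp [Fintype I] [DecidableEq I] (f : NC I B) :
    f = C (f []) + ∑ i, T i * sh i f := by
  ext w
  cases w with
  | nil =>
    rw [add_apply, C_nil, sum_apply, Finset.sum_eq_zero, add_zero]
    intro i _
    rw [mul_nil, T_nil, zero_mul]
  | cons j w =>
    rw [add_apply, C_cons, zero_add, sum_apply, Finset.sum_eq_single j]
    · rw [mul_cons, T_nil, zero_mul, zero_add, sh_T, if_pos rfl, one_mul, sh_apply]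
    · intro i _ hi
      rw [mul_cons, T_nil, zero_mul, zero_add, sh_T, if_neg (fun h => hi h.symm), zero_mul,
        zero_apply]
    · intro h; exact absurd (Finset.mem_univ j) h

end NC

section OfPS

variable {R : Type} [Ring R]

theorem ofPS_coeff_nat (p : PowerSeries R) (n : ℕ) :
    (ofPowerSeries ℤ R p).coeff (n : ℤ) = PowerSeries.coeff n p := by
  have := ofPowerSeries_apply_coeff (Γ := ℤ) p n
  exact this

theorem ofPS_coeff_neg (p : PowerSeries R) {n : ℤ} (hn : n < 0) :
    (ofPowerSeries ℤ R p).coeff n = 0 := by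
  rw [ofPowerSeries_apply, embDomain_of_notMem_range]
  rintro ⟨m, hm⟩
  have : ((m : ℕ) : ℤ) = n := hm
  omega

@[simp] theorem ofPS_C (b : R) : ofPowerSeries ℤ R (PowerSeries.C b) = HahnSeries.C b :=
  ofPowerSeries_C b

theorem ps_coeff_mul_lt {p q : PowerSeries R} {κ n : ℕ}
    (hp : ∀ n < κ, PowerSeries.coeff n p = 0) (hn : n < κ) : PowerSeries.coeff n (p * q) = 0 := by
  rw [PowerSeries.coeff_mul]
  refine Finset.sum_eq_zero fun ij hij => ?_
  have := Finset.HasAntidiagonal.mem_antidiagonal.mp hij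
  rw [hp _ (by omega), zero_mul]

theorem ps_coeff_mul_eq {p q : PowerSeries R} {κ : ℕ}
    (hp : ∀ n < κ, PowerSeries.coeff n p = 0) :
    PowerSeries.coeff κ (p * q) = PowerSeries.coeff κ p * PowerSeries.coeff 0 q := by
  rw [PowerSeries.coeff_mul, Finset.sum_eq_single (κ, 0)]
  · intro ij hij hne
    have := Finset.HasAntidiagonal.mem_antidiagonal.mp hij
    have h2 : ij.1 < κ := by
      rcases lt_or_eq_of_le (show ij.1 ≤ κ by omega) with h | h
      · exact h
      · exfalso
        apply hne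
        ext
        · exact h
        · simp only; omega
    rw [hp _ h2, zero_mul]
  · intro h
    exact absurd (Finset.HasAntidiagonal.mem_antidiagonal.mpr (by simp)) h

theorem ps_coeff_C_mul (b : R) (p : PowerSeries R) (n : ℕ) :
    PowerSeries.coeff n (PowerSeries.C b * p) = b * PowerSeries.coeff n p :=
  PowerSeries.coeff_C_mul n p b

end OfPS

namespace MoveData

variable {S : State} (D : MoveData S)

theorem sh_Y (i : S.I) (i' : D.I') : NC.sh i' (D.Y i) =
    if i'.1 = i then NC.C (PowerSeries.C (D.E.u ^ (i'.2.1 : ℕ) * D.E.v ^ (i'.2.2 : ℕ))) else 0 := by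
  rw [Y, NC.sh_add, NC.sh_C, zero_add, NC.sh_sum]
  simp only [NC.sh_C_mul, NC.sh_T]
  by_cases h : i'.1 = i
  · rw [if_pos h, Finset.sum_eq_single i'.2]
    · rw [if_pos (by ext <;> simp [h]), mul_one]
    · intro jk _ hne
      rw [if_neg, mul_zero]
      rintro rfl
      exact hne rfl
    · intro h'; exact absurd (Finset.mem_univ _) h'
  · rw [if_neg h]
    refine Finset.sum_eq_zero fun jk _ => ?_
    rw [if_neg, mul_zero]
    rintro rfl
    exact h rfl

theorem shP_C (b : S.B) : D.shP (NC.C b) = NC.C (PowerSeries.C (D.E.jB b)) := substHom_C _ _ _ b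

theorem shP_T (i : S.I) : D.shP (NC.T i) = D.Y i := substHom_T _ _ _ i

theorem shP_decomp (f : NC S.I S.B) :
    D.shP f = NC.C (PowerSeries.C (D.E.jB (f []))) + ∑ i, D.Y i * D.shP (NC.sh i f) := by
  conv_lhs => rw [NC.decomp f]
  rw [map_add, map_sum, shP_C]
  simp only [map_mul, shP_T]

theorem shP_nil (f : NC S.I S.B) :
    D.shP f [] = PowerSeries.C (D.E.jB (f [])) + ∑ i, D.y i * D.shP (NC.sh i f) [] := by
  rw [shP_decomp, NC.add_apply, NC.C_nil, NC.sum_apply]
  simp only [NC.mul_nil, Y_nil]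

theorem shP_cons (f : NC S.I S.B) (i' : D.I') (ω : List D.I') :
    D.shP f (i' :: ω) = (∑ i, D.y i * D.shP (NC.sh i f) (i' :: ω)) +
      PowerSeries.C (D.E.u ^ (i'.2.1 : ℕ) * D.E.v ^ (i'.2.2 : ℕ)) * D.shP (NC.sh i'.1 f) ω := by
  rw [shP_decomp, NC.add_apply, NC.C_cons, zero_add, NC.sum_apply]
  simp only [NC.mul_cons, Y_nil]
  rw [Finset.sum_add_distrib]
  congr 1
  rw [Finset.sum_eq_single i'.1]
  · rw [sh_Y, if_pos rfl, NC.C_mul_apply]
  · intro i _ hi
    rw [sh_Y, if_neg (fun h => hi h.symm), zero_mul, NC.zero_apply]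
  · intro h; exact absurd (Finset.mem_univ _) h

/-! ### (1) the constant term -/

theorem shP_nil_coeff_zero (f : NC S.I S.B) :
    PowerSeries.coeff 0 (D.shP f []) = D.E.jB (f []) := by
  rw [shP_nil, map_add, PowerSeries.coeff_zero_C, map_sum, Finset.sum_eq_zero, add_zero]
  intro i _
  exact ps_coeff_mul_lt (D.low i) D.hκ

theorem shP_nil_coeff_lt (f : NC S.I S.B) {n : ℕ} (h0 : 0 < n) (hn : n < D.κ) :
    PowerSeries.coeff n (D.shP f []) = 0 := by
  rw [shP_nil, map_add, PowerSeries.coeff_C, if_neg h0.ne', zero_add, map_sum]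
  exact Finset.sum_eq_zero fun i _ => ps_coeff_mul_lt (D.low i) hn

theorem jB_smul (k : S.K) (b : S.B) : D.E.jB (k • b) = D.E.jK k • D.E.jB b := by
  rw [Algebra.smul_def, map_mul, D.E.comp, ← Algebra.smul_def]

theorem shP_nil_coeff_κ (f : NC S.I S.B) :
    PowerSeries.coeff D.κ (D.shP f []) =
      D.E.jB (State.lin f D.P1) * D.V1 + D.E.jB (State.lin f D.P2) * D.V2 := by
  rw [shP_nil, map_add, PowerSeries.coeff_C, if_neg D.hκ.ne', zero_add, map_sum]
  have h : ∀ i, PowerSeries.coeff D.κ (D.y i * D.shP (NC.sh i f) []) =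
      D.E.jB (D.P1 i • f [i]) * D.V1 + D.E.jB (D.P2 i • f [i]) * D.V2 := by
    intro i
    rw [ps_coeff_mul_eq (D.low i), D.lead, shP_nil_coeff_zero, NC.sh_apply, jB_smul, jB_smul,
      add_mul, smul_mul_assoc, smul_mul_assoc, smul_mul_assoc, smul_mul_assoc, D.V1Q, D.V2Q]
  rw [Finset.sum_congr rfl fun i _ => h i, Finset.sum_add_distrib, ← Finset.sum_mul,
    ← Finset.sum_mul, ← map_sum, ← map_sum]
  rfl

/-! ### (2), (5) all words : `shP f ω` is constant modulo `z^κ` -/

/-- the monomial `Π u^j v^k` of a word of new letters -/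
noncomputable def mon (ω : List D.I') : D.E.B1 :=
  (ω.map fun i' => D.E.u ^ (i'.2.1 : ℕ) * D.E.v ^ (i'.2.2 : ℕ)).prod

theorem jB_comm_uv (b : S.B) (j k : ℕ) :
    D.E.jB b * (D.E.u ^ j * D.E.v ^ k) = (D.E.u ^ j * D.E.v ^ k) * D.E.jB b :=
  (((show Commute (D.E.jB b) D.E.u from D.E.hu b).pow_right j).mul_right
    ((show Commute (D.E.jB b) D.E.v from D.E.hv b).pow_right k)).eq

theorem shP_coeff_zero (f : NC S.I S.B) (ω : List D.I') :
    PowerSeries.coeff 0 (D.shP f ω) = D.E.jB (f (ω.map fun i' => i'.1)) * D.mon ω := by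
  induction ω generalizing f with
  | nil => rw [shP_nil_coeff_zero]; simp [mon]
  | cons i' ω ih =>
    rw [shP_cons, map_add, map_sum, Finset.sum_eq_zero, zero_add, ps_coeff_C_mul, ih,
      NC.sh_apply, ← mul_assoc, ← jB_comm_uv, mul_assoc]
    · rfl
    · intro i _
      exact ps_coeff_mul_lt (D.low i) D.hκ

theorem shP_coeff_lt (f : NC S.I S.B) (ω : List D.I') {n : ℕ} (h0 : 0 < n) (hn : n < D.κ) :
    PowerSeries.coeff n (D.shP f ω) = 0 := by
  induction ω generalizing f with
  | nil => exact shP_nil_coeff_lt D f h0 hn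
  | cons i' ω ih =>
    rw [shP_cons, map_add, map_sum, Finset.sum_eq_zero, zero_add, ps_coeff_C_mul, ih, mul_zero]
    intro i _
    exact ps_coeff_mul_lt (D.low i) hn

/-! ### Laurent series forms -/

theorem sh_apply' (f : NC S.I S.B) (ω : List D.I') :
    D.sh f ω = ofPowerSeries ℤ D.E.B1 (D.shP f ω) := rfl

/-- no negative coefficients -/
theorem sh_coeff_neg (f : NC S.I S.B) (ω : List D.I') {n : ℤ} (hn : n < 0) :
    (D.sh f ω).coeff n = 0 := by
  rw [sh_apply', ofPS_coeff_neg _ hn]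

theorem sh_coeff_zero (f : NC S.I S.B) (ω : List D.I') :
    (D.sh f ω).coeff 0 = D.E.jB (f (ω.map fun i' => i'.1)) * D.mon ω := by
  rw [sh_apply', ← shP_coeff_zero]
  exact ofPS_coeff_nat _ 0

theorem sh_nil_coeff_zero (f : NC S.I S.B) : (D.sh f []).coeff 0 = D.E.jB (f []) := by
  rw [sh_coeff_zero]; simp [mon]

theorem sh_single_coeff_zero (f : NC S.I S.B) (i' : D.I') :
    (D.sh f [i']).coeff 0 =
      D.E.jB (f [i'.1]) * (D.E.u ^ (i'.2.1 : ℕ) * D.E.v ^ (i'.2.2 : ℕ)) := by
  rw [sh_coeff_zero]; simp [mon]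

theorem sh_pair_coeff_zero (f : NC S.I S.B) (i' i'' : D.I') :
    (D.sh f [i', i'']).coeff 0 =
      D.E.jB (f [i'.1, i''.1]) * ((D.E.u ^ (i'.2.1 : ℕ) * D.E.v ^ (i'.2.2 : ℕ)) *
        (D.E.u ^ (i''.2.1 : ℕ) * D.E.v ^ (i''.2.2 : ℕ))) := by
  rw [sh_coeff_zero]; simp [mon]

theorem sh_coeff_lt (f : NC S.I S.B) (ω : List D.I') {n : ℤ} (h0 : 0 < n) (hn : n < D.κ) :
    (D.sh f ω).coeff n = 0 := by
  obtain ⟨m, rfl⟩ := Int.eq_ofNat_of_zero_le h0.le
  rw [sh_apply']
  exact (ofPS_coeff_nat _ m).trans (shP_coeff_lt D f ω (by exact_mod_cast h0) (by exact_mod_cast hn))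

theorem sh_nil_coeff_κ (f : NC S.I S.B) :
    (D.sh f []).coeff (D.κ : ℤ) =
      D.E.jB (State.lin f D.P1) * D.V1 + D.E.jB (State.lin f D.P2) * D.V2 := by
  rw [sh_apply', ← shP_nil_coeff_κ]
  exact ofPS_coeff_nat _ D.κ

/-- a general coefficient of the constant term only involves the linear coefficients of `f` up to `2κ` -/
theorem shP_nil_coeff_lt_two (f : NC S.I S.B) {n : ℕ} (h0 : 0 < n) (hn : n < 2 * D.κ) :
    PowerSeries.coeff n (D.shP f []) =
      ∑ i, PowerSeries.coeff n (D.y i) * D.E.jB (f [i]) := by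
  rw [shP_nil, map_add, PowerSeries.coeff_C, if_neg h0.ne', zero_add, map_sum]
  refine Finset.sum_congr rfl fun i _ => ?_
  rw [PowerSeries.coeff_mul, Finset.sum_eq_single (n, 0)]
  · rw [shP_nil_coeff_zero, NC.sh_apply]
  · intro ij hij hne
    have h1 := Finset.HasAntidiagonal.mem_antidiagonal.mp hij
    by_cases h2 : ij.1 < D.κ
    · rw [D.low i _ h2, zero_mul]
    · have h3 : 0 < ij.2 := by
        rcases Nat.eq_zero_or_pos ij.2 with h | h
        · exfalso
          apply hne
          ext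
          · simp only; omega
          · exact h
        · exact h
      rw [shP_nil_coeff_lt D _ h3 (by omega), mul_zero]
  · intro h
    exact absurd (Finset.HasAntidiagonal.mem_antidiagonal.mpr (by simp)) h

/-! ### (4) commutation -/

theorem shP_comm {f : NC S.I S.B} {b : S.B} (hf : ∀ w, f w * b = b * f w) (ω : List D.I') (n : ℕ) :
    PowerSeries.coeff n (D.shP f ω) * D.E.jB b = D.E.jB b * PowerSeries.coeff n (D.shP f ω) := by
  have h1 : f * NC.C b = NC.C b * f := by
    ext w; rw [NC.mul_C_apply, NC.C_mul_apply, hf]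
  have h2 := congrArg D.shP h1
  rw [map_mul, map_mul, shP_C] at h2
  have h3 := congrArg (fun F : NC D.I' (PowerSeries D.E.B1) => PowerSeries.coeff n (F ω)) h2
  simp only [NC.mul_C_apply, NC.C_mul_apply, PowerSeries.coeff_mul_C, PowerSeries.coeff_C_mul] at h3
  exact h3

/-- if all coefficients of `f` commute with `b`, then all coefficients of `D.sh f` commute with `b` -/
theorem sh_coeff_comm {f : NC S.I S.B} {b : S.B} (hf : ∀ w, f w * b = b * f w)
    (ω : List D.I') (n : ℤ) :
    (D.sh f ω).coeff n * D.E.jB b = D.E.jB b * (D.sh f ω).coeff n := by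
  rcases lt_or_ge n 0 with h | h
  · rw [sh_coeff_neg D f ω h, zero_mul, mul_zero]
  · obtain ⟨m, rfl⟩ := Int.eq_ofNat_of_zero_le h
    have h1 : (D.sh f ω).coeff (m : ℤ) = PowerSeries.coeff m (D.shP f ω) :=
      ofPS_coeff_nat (D.shP f ω) m
    rw [h1]
    exact shP_comm D hf ω m

/-- the same with `b` as a constant of `B1((z))` -/
theorem sh_comm {f : NC S.I S.B} {b : S.B} (hf : ∀ w, f w * b = b * f w) (ω : List D.I') :
    D.sh f ω * HahnSeries.C (D.E.jB b) = HahnSeries.C (D.E.jB b) * D.sh f ω := by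
  ext n
  rw [mul_C_coeff, C_mul_coeff, sh_coeff_comm D hf]

/-! ### (3) the chain rule -/

theorem sh_T_mul (i : S.I) (g : NC S.I S.B) (ω : List D.I') :
    D.sh (NC.T i * g) ω = ofPowerSeries ℤ D.E.B1 ((D.Y i * D.shP g) ω) := by
  rw [sh_apply', map_mul, shP_T]

theorem sh_decomp (f : NC S.I S.B) :
    D.sh f = NC.C (HahnSeries.C (D.E.jB (f []))) + ∑ i, D.sh (NC.T i * NC.sh i f) := by
  conv_lhs => rw [NC.decomp f]
  rw [map_add, map_sum]
  congr 1
  ext ω
  rw [sh_apply', shP_C]
  cases ω with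
  | nil => rw [NC.C_nil, NC.C_nil, ofPS_C]
  | cons i ω => rw [NC.C_cons, NC.C_cons, map_zero]

theorem chain (f : NC S.I S.B) (c : D.I' → D.E.K1⟦ℤ⟧)
    (hc : ∀ i, dz (ofPowerSeries ℤ D.E.B1 (D.y i)) = ∑ jk : Fin D.r × Fin D.r,
      c (i, jk.1, jk.2) • (HahnSeries.C (D.E.u ^ (jk.1 : ℕ) * D.E.v ^ (jk.2 : ℕ)) : D.E.B1⟦ℤ⟧)) :
    dz (D.sh f []) = ∑ i', c i' • D.sh f [i'] := by
  classical
  set δ : NC S.I S.B → D.E.B1⟦ℤ⟧ := fun f => dz (D.sh f []) - ∑ i', c i' • D.sh f [i'] with hδ
  -- lower bound for the orders of the `c i'`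
  obtain ⟨m, hm⟩ : ∃ m : ℕ, ∀ i', ∀ n : ℤ, n < -(m : ℤ) → (c i').coeff n = 0 := by
    refine ⟨∑ i', (-(c i').order).toNat, fun i' n hn => ?_⟩
    by_contra h
    have h1 := order_le_of_coeff_ne_zero h
    have h2 : (-(c i').order).toNat ≤ ∑ i', (-(c i').order).toNat :=
      Finset.single_le_sum (f := fun i' => (-(c i').order).toNat) (fun _ _ => Nat.zero_le _)
        (Finset.mem_univ i')
    have h3 : -(c i').order ≤ ((-(c i').order).toNat : ℤ) := Int.self_le_toNat _
    omega
  -- decomposition of `δ`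
  have hδT : ∀ i g, δ (NC.T i * g) = ofPowerSeries ℤ D.E.B1 (D.y i) * δ g := by
    intro i g
    have e1 : D.sh (NC.T i * g) [] = ofPowerSeries ℤ D.E.B1 (D.y i) * D.sh g [] := by
      rw [sh_T_mul, NC.mul_nil, Y_nil, map_mul, sh_apply']
    have e2 : ∀ i' : D.I', D.sh (NC.T i * g) [i'] = ofPowerSeries ℤ D.E.B1 (D.y i) * D.sh g [i'] +
        (if i'.1 = i then HahnSeries.C (D.E.u ^ (i'.2.1 : ℕ) * D.E.v ^ (i'.2.2 : ℕ)) else 0) *
          D.sh g [] := by
      intro i'
      rw [sh_T_mul, NC.mul_cons, Y_nil, sh_Y, map_add, map_mul, sh_apply', sh_apply']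
      congr 1
      by_cases h : i'.1 = i
      · rw [if_pos h, if_pos h, NC.C_mul_apply, map_mul, ofPS_C]
      · rw [if_neg h, if_neg h, zero_mul, zero_mul, NC.zero_apply, map_zero]
    have e3 : (∑ i' : D.I', c i' • ((if i'.1 = i then
        HahnSeries.C (D.E.u ^ (i'.2.1 : ℕ) * D.E.v ^ (i'.2.2 : ℕ)) else 0) : D.E.B1⟦ℤ⟧)) =
        dz (ofPowerSeries ℤ D.E.B1 (D.y i)) := by
      rw [hc i, Fintype.sum_prod_type, Finset.sum_eq_single i]
      · refine Finset.sum_congr rfl fun jk _ => ?_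
        rw [if_pos rfl]
      · intro l _ hl
        refine Finset.sum_eq_zero fun jk _ => ?_
        rw [if_neg hl, smul_zero]
      · intro h; exact absurd (Finset.mem_univ _) h
    simp only [hδ]
    rw [e1, dz_mul, ← e3]
    simp only [e2, smul_add]
    rw [Finset.sum_add_distrib, Finset.sum_mul, mul_sub, Finset.mul_sum]
    simp only [smul_mul_assoc, mul_smul_comm]
    abel
  have hδC : ∀ b, δ (NC.C b) = 0 := by
    intro b
    have e1 : ∀ ω : List D.I', D.sh (NC.C b) ω = if ω = [] then HahnSeries.C (D.E.jB b) else 0 := by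
      intro ω
      rw [sh_apply', shP_C]
      cases ω with
      | nil => rw [NC.C_nil, if_pos rfl, ofPS_C]
      | cons i ω => rw [NC.C_cons, if_neg (by simp), map_zero]
    simp only [hδ, e1]
    rw [if_pos trivial, dz_C, zero_sub, neg_eq_zero]
    refine Finset.sum_eq_zero fun i' _ => ?_
    rw [if_neg (by simp), smul_zero]
  have hδadd : ∀ g g', δ (g + g') = δ g + δ g' := by
    intro g g'
    simp only [hδ, map_add, NC.add_apply, smul_add]
    rw [Finset.sum_add_distrib]
    abel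
  have hδ0 : δ 0 = 0 := by
    have := hδC 0
    rwa [map_zero] at this
  have hδsum : ∀ (s : Finset S.I) (g : S.I → NC S.I S.B), δ (∑ i ∈ s, g i) = ∑ i ∈ s, δ (g i) := by
    intro s g
    induction s using Finset.induction_on with
    | empty => rw [Finset.sum_empty, Finset.sum_empty, hδ0]
    | insert a s ha ih => rw [Finset.sum_insert ha, Finset.sum_insert ha, hδadd, ih]
  have hrec : ∀ g, δ g = ∑ i, ofPowerSeries ℤ D.E.B1 (D.y i) * δ (NC.sh i g) := by
    intro g
    conv_lhs => rw [NC.decomp g]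
    rw [hδadd, hδC, zero_add, hδsum]
    exact Finset.sum_congr rfl fun i _ => hδT i _
  -- a priori bound
  have hlow : ∀ g, ∀ n : ℤ, n < -(m : ℤ) → (δ g).coeff n = 0 := by
    intro g n hn
    simp only [hδ]
    rw [coeff_sub, dz_coeff, coeff_sum, Finset.sum_eq_zero, sub_zero]
    · rcases lt_or_ge (n + 1) 0 with h | h
      · rw [sh_coeff_neg D _ _ h, smul_zero]
      · have : n + 1 = 0 := by omega
        rw [this, zero_smul]
    · intro i' _
      rw [Algebra.smul_def]
      have := (mul_coeff_of_lower (x := algebraMap D.E.K1⟦ℤ⟧ D.E.B1⟦ℤ⟧ (c i')) (y := D.sh g [i'])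
        (k := -(m : ℤ)) (l := 0) (fun i hi => by rw [algebraMap_coeff, hm i' i hi, map_zero])
        (fun i hi => sh_coeff_neg D _ _ hi)).1
      exact this n (by omega)
  have hall : ∀ k : ℕ, ∀ g, ∀ n : ℤ, n < (k : ℤ) - m → (δ g).coeff n = 0 := by
    intro k
    induction k with
    | zero => intro g n hn; exact hlow g n (by push_cast at hn; omega)
    | succ k ih =>
      intro g n hn
      rw [hrec, coeff_sum]
      refine Finset.sum_eq_zero fun i _ => ?_
      have h1 : ∀ l : ℤ, l < 1 → (ofPowerSeries ℤ D.E.B1 (D.y i)).coeff l = 0 := by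
        intro l hl
        rcases lt_or_ge l 0 with h | h
        · exact ofPS_coeff_neg _ h
        · have : l = ((0 : ℕ) : ℤ) := by push_cast; omega
          rw [this]
          exact (ofPS_coeff_nat _ 0).trans (D.low i 0 D.hκ)
      exact (mul_coeff_of_lower h1 (fun l hl => ih (NC.sh i g) l hl)).1 n (by push_cast at hn; omega)
  have hzero : δ f = 0 := by
    ext n
    rw [coeff_zero]
    exact hall (n + m + 1).toNat f n (by
      have := Int.self_le_toNat (n + m + 1)
      omega)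
  exact sub_eq_zero.mp hzero

end MoveData

end Vale.P199
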