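import Vale.Agent.P199.QCoord2
import Vale.Agent.P199.B15
import Vale.Agent.P199.B1Red
import Vale.Agent.P199.Taylor

/-!
# P199, [L1c]: (B1.5) and (B1.6)
-/

open HahnSeries

namespace Vale.P199

theorem smul_C_coeff' {K B : Type} [Field K] [Ring B] [Algebra K B] (c : K⟦ℤ⟧) (w : B) (n : ℤ) :
    (c • (HahnSeries.C w : B⟦ℤ⟧)).coeff n = c.coeff n • w := by
  rw [Algebra.smul_def, mul_C_coeff, algebraMap_coeff, ← Algebra.smul_def]

namespace MoveData

variable {S : State} (D : MoveData S)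

/-- the derivative of `y` in the coordinates `u^j v^k` -/
theorem exists_dy : ∃ c : D.I' → D.E.K1⟦ℤ⟧, ∀ i, dz (ofPowerSeries ℤ D.E.B1 (D.y i)) =
    ∑ jk : Fin D.r × Fin D.r,
      c (i, jk.1, jk.2) • (HahnSeries.C (D.E.u ^ (jk.1 : ℕ) * D.E.v ^ (jk.2 : ℕ)) : D.E.B1⟦ℤ⟧) := by
  have h1 : ∀ i n, ∃ q : Fin D.r × Fin D.r → D.E.K1, PowerSeries.coeff n (D.y i) =
      ∑ jk, q jk • (D.E.u ^ (jk.1 : ℕ) * D.E.v ^ (jk.2 : ℕ)) := fun i n =>
    (D.E.mem_Q_proof S.central _).mp (D.yQ i n)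
  choose q hq using h1
  refine ⟨fun i' => ofPowerSeries ℤ D.E.K1
    (PowerSeries.mk fun n => ((n : D.E.K1) + 1) * q i'.1 (n + 1) (i'.2.1, i'.2.2)), fun i => ?_⟩
  ext n
  rw [dz_coeff, coeff_sum]
  rcases lt_or_ge n 0 with hn | hn
  · have e1 : (n + 1) • (ofPowerSeries ℤ D.E.B1 (D.y i)).coeff (n + 1) = 0 := by
      rcases eq_or_lt_of_le (show n + 1 ≤ 0 by omega) with h | h
      · rw [h, zero_smul]
      · rw [ofPS_coeff_neg _ h, smul_zero]
    rw [e1]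
    symm
    refine Finset.sum_eq_zero fun jk _ => ?_
    rw [smul_C_coeff', ofPS_coeff_neg _ hn, zero_smul]
  · obtain ⟨m, rfl⟩ := Int.eq_ofNat_of_zero_le hn
    have e1 : ((m : ℤ) + 1) = ((m + 1 : ℕ) : ℤ) := by push_cast; ring
    rw [e1, ofPS_coeff_nat, hq, Finset.smul_sum]
    refine Finset.sum_congr rfl fun jk _ => ?_
    rw [smul_C_coeff', ofPS_coeff_nat, PowerSeries.coeff_mk, mul_smul, natCast_zsmul,
      ← Nat.cast_smul_eq_nsmul D.E.K1]
    push_cast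
    rfl

/-- the chain rule, existential form -/
theorem chain' (f : NC S.I S.B) :
    ∃ c : D.I' → D.E.K1⟦ℤ⟧, dz (D.sh f []) = ∑ i', c i' • D.sh f [i'] := by
  obtain ⟨c, hc⟩ := D.exists_dy
  exact ⟨c, D.chain f c hc⟩

end MoveData

namespace Pt

variable {S0 : State} {f0 : NC S0.I S0.B}

theorem sh_comm_a (x : Pt S0 f0) (D : MoveData x.S) :
    D.sh x.f [] * HahnSeries.C (D.E.jB x.a) = HahnSeries.C (D.E.jB x.a) * D.sh x.f [] :=
  D.sh_comm x.norm []

/-- B1.5 -/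
theorem W_move_ne_bot_proof (x : Pt S0 f0) (D : MoveData x.S)
    (h : D.sh x.f [] ≠ HahnSeries.C (D.E.jB x.a)) : (x.move D).W ≠ ⊥ :=
  x.b15 D (fun n hn => D.sh_coeff_neg x.f [] hn) (D.sh_nil_coeff_zero x.f) (x.sh_comm_a D)
    (D.chain' x.f) h

/-- the coefficients of an element commuting with `a'` commute with `jB a` -/
theorem Z_move_coeff' (x : Pt S0 f0) (D : MoveData x.S) (b : D.E.B1⟦ℤ⟧)
    (hb : b ∈ (x.move D).Z) (n : ℤ) : D.E.jB x.a * b.coeff n = b.coeff n * D.E.jB x.a := by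
  have hb' : D.sh x.f [] * b = b * D.sh x.f [] := by
    have h1 := Tr.mem_cen.mp hb
    have h2 : (x.move D).a = D.sh x.f [] := x.F_nil D
    rw [h2] at h1
    exact h1
  have h3 := B1Red.coeff_mem_cen (K := D.E.K1) (fun _ hn => D.sh_coeff_neg x.f [] hn)
    (D.sh_nil_coeff_zero x.f) (fun m => Tr.mem_cen.mpr (D.sh_coeff_comm x.norm [] m).symm) hb' n
  exact Tr.mem_cen.mp h3

/-- B1.6 -/
theorem M_move_proof (x : Pt S0 f0) (D : MoveData x.S) :
    (∀ b ∈ x.M, HahnSeries.C (D.E.jB b) ∈ (x.move D).M) ∧ D.sh x.f [] ∈ (x.move D).M ∧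
    (∀ b c : D.E.B1⟦ℤ⟧, b ∈ (x.move D).M → c ∈ (x.move D).M → b * c ∈ (x.move D).M) := by
  refine ⟨fun b hb z hz => ?_, fun z hz => ?_, fun b c hb hc z hz => ?_⟩
  · have h1 := x.Z_move_coeff' D z hz
    show HahnSeries.C (D.E.jB b) * z = z * HahnSeries.C (D.E.jB b)
    ext n
    rw [mul_C_coeff, C_mul_coeff]
    exact D.E.comm_of_cc hb (h1 n)
  · have h1 := Tr.mem_cen.mp hz
    have h2 : (x.move D).a = D.sh x.f [] := x.F_nil D
    rw [h2] at h1
    exact h1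
  · have h1 := hb z hz
    have h2 := hc z hz
    show b * c * z = z * (b * c)
    calc b * c * z = b * (c * z) := mul_assoc b c z
      _ = b * (z * c) := congrArg (fun t => b * t) h2
      _ = (b * z) * c := (mul_assoc b z c).symm
      _ = (z * b) * c := congrArg (fun t => t * c) h1
      _ = z * (b * c) := mul_assoc z b c

end Pt

end Vale.P199
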