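import Vale.Agent.P199.BL5

/-! # B7, step 0 : choice of the good pair, the basis of `W`, and the move -/

open HahnSeries

namespace Vale.P199

/-- extend an independent pair of `W` to a basis of `W` indexed by `Fin (m + 2)` -/
theorem exists_basis_pair {K B : Type} [Field K] [AddCommGroup B] [Module K B]
    [FiniteDimensional K B] (W : Submodule K B) (w1 w2 : B) (h1 : w1 ∈ W) (h2 : w2 ∈ W)
    (n1 : w1 ≠ 0) (hne : ∀ c : K, w2 ≠ c • w1) :
    ∃ (m : ℕ) (w : Fin (m + 2) → B), LinearIndependent K w ∧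
      Submodule.span K (Set.range w) = W ∧ w 0 = w1 ∧ w 1 = w2 ∧ m + 2 = Module.finrank K W := by
  classical
  set U : Submodule K B := Submodule.span K {w1, w2} with hU
  have hUW : U ≤ W := by
    rw [hU, Submodule.span_le]
    rintro y (rfl | rfl)
    · exact h1
    · exact h2
  obtain ⟨U'', hU''⟩ := Submodule.exists_isCompl U
  set U' : Submodule K B := U'' ⊓ W with hU'
  have hsup : U ⊔ U' = W := by
    rw [hU', ← sup_inf_assoc_of_le U'' hUW, hU''.sup_eq_top, top_inf_eq]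
  have hinf : ∀ y ∈ U, y ∈ U' → y = 0 := by
    intro y hy hy'
    have : y ∈ U ⊓ U'' := ⟨hy, hy'.1⟩
    rw [hU''.inf_eq_bot] at this
    simpa using this
  set b := Module.finBasis K U' with hb
  set v : Fin (Module.finrank K U') → B := fun k => (b k : B) with hv
  have hvli : LinearIndependent K v := by
    have := b.linearIndependent.map' U'.subtype U'.ker_subtype
    exact this
  have hvspan : Submodule.span K (Set.range v) = U' := by
    have h3 : Set.range v = U'.subtype '' (Set.range b) := by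
      rw [← Set.range_comp]; rfl
    rw [h3, Submodule.span_image, b.span_eq, Submodule.map_top, Submodule.range_subtype]
  have hw2 : w2 ∉ Submodule.span K (Set.range v) := by
    rw [hvspan]
    intro h
    have := hinf w2 (Submodule.subset_span (by simp)) h
    exact hne 0 (by rw [this, zero_smul])
  have hli2 : LinearIndependent K (Fin.cons w2 v : Fin (Module.finrank K U' + 1) → B) :=
    linearIndependent_finCons.mpr ⟨hvli, hw2⟩
  have hspan2 : Submodule.span K (Set.range (Fin.cons w2 v : Fin (Module.finrank K U' + 1) → B)) =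
      Submodule.span K {w2} ⊔ U' := by
    rw [Fin.range_cons, Submodule.span_insert, hvspan]
  have hw1 : w1 ∉ Submodule.span K
      (Set.range (Fin.cons w2 v : Fin (Module.finrank K U' + 1) → B)) := by
    rw [hspan2]
    intro h
    obtain ⟨y, hy, u', hu', hyu⟩ := Submodule.mem_sup.mp h
    obtain ⟨c, rfl⟩ := Submodule.mem_span_singleton.mp hy
    have h3 : w1 - c • w2 = 0 := by
      apply hinf
      · exact sub_mem (Submodule.subset_span (by simp))
          (Submodule.smul_mem _ _ (Submodule.subset_span (by simp)))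
      · rw [← hyu, add_sub_cancel_left]; exact hu'
    have h4 : w1 = c • w2 := sub_eq_zero.mp h3
    have hc : c ≠ 0 := by
      rintro rfl
      exact n1 (by rw [h4, zero_smul])
    exact hne c⁻¹ (by rw [h4, smul_smul, inv_mul_cancel₀ hc, one_smul])
  have hli : LinearIndependent K
      (Fin.cons w1 (Fin.cons w2 v : Fin (Module.finrank K U' + 1) → B) :
        Fin (Module.finrank K U' + 2) → B) :=
    linearIndependent_finCons.mpr ⟨hli2, hw1⟩
  have hspan : Submodule.span K (Set.range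
      (Fin.cons w1 (Fin.cons w2 v : Fin (Module.finrank K U' + 1) → B) :
        Fin (Module.finrank K U' + 2) → B)) = W := by
    rw [Fin.range_cons, Submodule.span_insert, hspan2, ← sup_assoc, ← Submodule.span_insert,
      ← hU, hsup]
  refine ⟨Module.finrank K U', _, hli, hspan, rfl, rfl, ?_⟩
  have h5 := finrank_span_eq_card hli
  rw [hspan, Fintype.card_fin] at h5
  exact h5.symm

namespace Pt

variable {S0 : State} {f0 : NC S0.I S0.B}

/-- directions with independent images are independent modulo inner ones -/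
theorem indep_of_lin (x : Pt S0 f0) (hf0 : f0 ∈ Algebra.adjoin S0.K {S0.X, S0.Y})
    (p1 p2 : x.S.I → x.S.K) (n1 : State.lin x.f p1 ≠ 0)
    (hne : ∀ c : x.S.K, State.lin x.f p2 ≠ c • State.lin x.f p1) : x.S.Indep p1 p2 := by
  intro a b hab
  have h3 := x.lin_inner hf0 _ hab
  rw [State.lin_add_smul] at h3
  by_cases hb : b = 0
  · subst hb
    rw [zero_smul, add_zero] at h3
    rcases smul_eq_zero.mp h3 with h | h
    · exact ⟨h, rfl⟩
    · exact absurd h n1
  · exfalso
    apply hne (-(b⁻¹ * a))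
    have h4 : b • State.lin x.f p2 = -(a • State.lin x.f p1) := by
      rw [add_comm] at h3
      exact eq_neg_of_add_eq_zero_left h3
    calc State.lin x.f p2 = b⁻¹ • (b • State.lin x.f p2) := by
          rw [smul_smul, inv_mul_cancel₀ hb, one_smul]
      _ = -(b⁻¹ * a) • State.lin x.f p1 := by rw [h4, smul_neg, smul_smul, neg_smul]

/-- the numeric facts at an `InP` point -/
theorem numeric (x : Pt S0 f0) (h : x.InP) :
    3 ≤ Module.finrank x.S.K x.W ∧ 2 * x.ξ < Module.finrank x.S.K x.W ∧ 3 * x.ξ < x.η := by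
  have h1 := h.2
  have h2 := x.η_eq h.1.1.1
  have h3 : 4 * x.ξ ≤ 4 * (x.s + 1) * x.ξ := by
    calc 4 * x.ξ = 4 * 1 * x.ξ := by ring
      _ ≤ 4 * (x.s + 1) * x.ξ := Nat.mul_le_mul_right _ (Nat.mul_le_mul_left _ (by omega))
  omega

/-- [7.0] -/
theorem base_choice (x : Pt S0 f0) (hf0 : f0 ∈ Algebra.adjoin S0.K {S0.X, S0.Y}) (h : x.XMin) :
    ∃ (D : MoveData x.S) (n : ℕ) (w : Fin (n + 3) → x.S.B) (p : Fin (n + 3) → x.S.I → x.S.K),
      n + 3 = Module.finrank x.S.K x.W ∧ LinearIndependent x.S.K w ∧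
      Submodule.span x.S.K (Set.range w) = x.W ∧ (∀ k, State.lin x.f (p k) = w k) ∧
      D.P1 = p 0 ∧ D.P2 = p 1 ∧ D.V1 = D.E.u ∧ D.V2 = D.E.v ∧ D.κ = 1 ∧ D.r.Prime ∧
      2 * (n + 3) + 1 < D.r ∧ x.W ≤ x.M ∧ x.GoodPair (w 0) (w 1) ∧
      x.Leads D 1 (D.E.jB (w 0) * D.E.u + D.E.jB (w 1) * D.E.v) ∧ 3 * x.ξ < x.η ∧
      (x.move D).XMin ∧ (x.move D).ξ = x.ξ ∧ (x.move D).η = D.r * x.η ∧
      Module.finrank (D.E.K1⟦ℤ⟧) (x.move D).Z = Module.finrank D.E.K1
        (x.calZ D.E (D.E.jB (w 0) * D.E.u + D.E.jB (w 1) * D.E.v)) ∧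
      Module.finrank (D.E.K1⟦ℤ⟧) (x.move D).C = Module.finrank D.E.K1
        (x.calC D.E (D.E.jB (w 0) * D.E.u + D.E.jB (w 1) * D.E.v)) ∧
      Module.finrank S0.K S0.B < Module.finrank (x.move D).S.K (x.move D).S.B := by
  classical
  have hWM : x.W ≤ x.M := x.W_le_M hf0 h.1.1.1
  obtain ⟨hd3, hd2, hξη⟩ := x.numeric h.1
  obtain ⟨w1, w2, hg, hne⟩ := x.exists_goodPair hWM hd2 (by omega)
  obtain ⟨m, w, hli, hspan, hw1, hw2, hm⟩ :=
    exists_basis_pair x.W w1 w2 hg.1 hg.2.1 hg.2.2.1 hne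
  obtain ⟨n, rfl⟩ : ∃ n, m = n + 1 := ⟨m - 1, by omega⟩
  have hwW : ∀ k, w k ∈ x.W := fun k => by
    rw [← hspan]; exact Submodule.subset_span ⟨k, rfl⟩
  choose p hp using fun k => x.exists_lin (hwW k)
  have hind : x.S.Indep (p 0) (p 1) := by
    apply x.indep_of_lin hf0
    · rw [hp, hw1]; exact hg.2.2.1
    · intro c
      rw [hp, hp, hw1, hw2]
      exact hne c
  obtain ⟨r, hrge, hrp⟩ := Nat.exists_infinite_primes (2 * (n + 3) + 2)
  obtain ⟨ζ, hζ⟩ := x.S.roots r hrp.pos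
  obtain ⟨E⟩ := exists_QExt x.S.K x.S.B x.S.central r hrp.pos ζ hζ
  set D : MoveData x.S := MoveData.basic r hrp.pos ζ hζ E (p 0) (p 1) hind E.u E.v E.hu E.hv
    ⟨Algebra.subset_adjoin (by simp), Algebra.subset_adjoin (by simp)⟩ with hD
  have hL : x.Leads D 1 (D.E.jB (w 0) * D.E.u + D.E.jB (w 1) * D.E.v) := by
    have := x.leads_κ D
    rw [show D.P1 = p 0 from rfl, show D.P2 = p 1 from rfl, hp, hp] at this
    exact this
  have hg' : x.GoodPair (w 0) (w 1) := by rw [hw1, hw2]; exact hg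
  have hpers := x.persist hf0 h D (SymPair.self D.E D.hζ) hrp.two_le (w 0) (w 1) hg' 1 Nat.one_pos hL
  refine ⟨D, n, w, p, by omega, hli, hspan, hp, rfl, rfl, rfl, rfl, rfl, hrp, ?_, hWM, hg', hL,
    hξη, hpers.1, hpers.2.1, hpers.2.2.1, hpers.2.2.2.1, hpers.2.2.2.2, ?_⟩
  · show 2 * (n + 3) + 1 < r
    omega
  · have h1 := x.m.grow
    have h2 : Module.finrank (x.move D).S.K (x.move D).S.B =
        D.r * D.r * Module.finrank x.S.K x.S.B := D.finrank_state
    rw [h2]
    have h3 : 0 < Module.finrank x.S.K x.S.B := Module.finrank_pos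
    have h4 : 2 ≤ D.r := hrp.two_le
    have h5 : 2 * 2 ≤ D.r * D.r := Nat.mul_le_mul h4 h4
    calc Module.finrank S0.K S0.B ≤ Module.finrank x.S.K x.S.B := h1
      _ < 2 * 2 * Module.finrank x.S.K x.S.B := by omega
      _ ≤ D.r * D.r * Module.finrank x.S.K x.S.B := Nat.mul_le_mul_right _ h5

/-- [7.0], in the form used by the assembly -/
theorem exists_base (x : Pt S0 f0) (hf0 : f0 ∈ Algebra.adjoin S0.K {S0.X, S0.Y}) (h : x.XMin) :
    ∃ (n : ℕ) (w : Fin (n + 3) → x.S.B) (p : Fin (n + 3) → x.S.I → x.S.K) (D : MoveData x.S),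
      LinearIndependent x.S.K w ∧ Submodule.span x.S.K (Set.range w) = x.W ∧
      (∀ k, State.lin x.f (p k) = w k) ∧ x.GoodPair (w 0) (w 1) ∧ D.r.Prime ∧
      2 * (n + 3) + 1 < D.r ∧ D.V1 = D.E.u ∧ D.V2 = D.E.v ∧ D.P1 = p 0 ∧ D.P2 = p 1 ∧
      x.Leads D 1 (D.E.jB (w 0) * D.E.u + D.E.jB (w 1) * D.E.v) ∧ (x.move D).XMin ∧
      (x.move D).ξ = x.ξ ∧
      Module.finrank (D.E.K1⟦ℤ⟧) (x.move D).C = Module.finrank D.E.K1
        (x.calC D.E (D.E.jB (w 0) * D.E.u + D.E.jB (w 1) * D.E.v)) ∧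
      x.W ≤ x.M ∧ n + 3 = Module.finrank x.S.K x.W ∧ 3 * x.ξ < x.η ∧ D.κ = 1 ∧
      (x.move D).η = D.r * x.η ∧
      Module.finrank S0.K S0.B < Module.finrank (x.move D).S.K (x.move D).S.B := by
  obtain ⟨D, n, w, p, h1, h2, h3, h4, h5, h6, h7, h8, h9, h10, h11, h12, h13, h14, h15, h16, h17,
    h18, _, h20, h21⟩ := x.base_choice hf0 h
  exact ⟨n, w, p, D, h2, h3, h4, h13, h10, h11, h7, h8, h5, h6, h14, h16, h17, h20, h12, h1, h15,
    h9, h18, h21⟩

end Pt

end Vale.P199
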