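import Vale.Agent.P199.Defs

/-!
# P199, B0.1 (slice) and B1.1 (inner directions)
-/

namespace Vale.P199

/-- recursion on the length of a word with choices -/
theorem exists_rec_word {α β : Type*} [Inhabited β] (P : (List α → β) → List α → β → Prop)
    (hP : ∀ h w, ∃ b, P h w b)
    (hloc : ∀ h h' w b, (∀ v : List α, v.length < w.length → h v = h' v) → P h w b → P h' w b) :
    ∃ h : List α → β, ∀ w, P h w (h w) := by
  classical
  let F : (w : List α) → ((v : List α) → v.length < w.length → β) → β := fun w rec =>
    Classical.choose (hP (fun v => if hv : v.length < w.length then rec v hv else default) w)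
  let h : List α → β := (measure (List.length (α := α))).wf.fix F
  refine ⟨h, fun w => ?_⟩
  have e : h w = F w (fun v _ => h v) := (measure (List.length (α := α))).wf.fix_eq F w
  rw [e]
  have := Classical.choose_spec
    (hP (fun v => if hv : v.length < w.length then h v else default) w)
  refine hloc _ _ w _ ?_ this
  intro v hv
  simp [hv]

namespace NC

variable {I B : Type} [Ring B]

/-- splitting off the two extreme terms of a product coefficient -/
theorem mul_apply_cons (f g : NC I B) (i : I) (w : List I) :
    (f * g) (i :: w) = f [] * g (i :: w) + f (i :: w) * g [] +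
      ∑ k ∈ Finset.range w.length, f ((i :: w).take (k + 1)) * g ((i :: w).drop (k + 1)) := by
  rw [mul_apply, List.length_cons, Finset.sum_range_succ', Finset.sum_range_succ]
  simp only [List.take_zero, List.drop_zero]
  have h1 : (i :: w).take (w.length + 1) = i :: w := by
    rw [List.take_of_length_le]; simp
  have h2 : (i :: w).drop (w.length + 1) = [] := by
    rw [List.drop_eq_nil_iff]; simp
  rw [h1, h2]
  abel

/-- B0.1: if every element of `B` is the sum of an element commuting with `a = f []` and a commutator
`[a, x]`, then `f` is conjugate, by a series `g` with constant term `1`, to a series `F` all of whose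
coefficients commute with `a`. -/
theorem slice (f : NC I B)
    (dec : ∀ b : B, ∃ z x, z * f [] = f [] * z ∧ b = z + (f [] * x - x * f [])) :
    ∃ g F : NC I B, g [] = 1 ∧ F [] = f [] ∧ (∀ w, F w * f [] = f [] * F w) ∧ g * f = F * g := by
  classical
  -- the value at `w`: the pair `(g w, F w)`
  let P : (List I → B × B) → List I → B × B → Prop := fun h w b =>
    b.2 * f [] = f [] * b.2 ∧
    (w = [] → b = (1, f [])) ∧
    (w ≠ [] → b.1 * f [] + f w +
      ∑ k ∈ Finset.range (w.length - 1), (h (w.take (k + 1))).1 * f (w.drop (k + 1)) =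
      f [] * b.1 + b.2 +
      ∑ k ∈ Finset.range (w.length - 1), (h (w.take (k + 1))).2 * (h (w.drop (k + 1))).1)
  have : Inhabited (B × B) := ⟨(0, 0)⟩
  obtain ⟨h, hh⟩ := exists_rec_word (β := B × B) P (by
    intro h w
    by_cases hw : w = []
    · exact ⟨(1, f []), rfl, fun _ => rfl, fun h => absurd hw h⟩
    · obtain ⟨z, x, hz, hb⟩ := dec (f w +
        ∑ k ∈ Finset.range (w.length - 1), (h (w.take (k + 1))).1 * f (w.drop (k + 1)) -
        ∑ k ∈ Finset.range (w.length - 1), (h (w.take (k + 1))).2 * (h (w.drop (k + 1))).1)
      refine ⟨(x, z), hz, fun h => absurd h hw, fun _ => ?_⟩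
      simp only
      rw [sub_eq_iff_eq_add] at hb
      rw [add_assoc, hb]
      abel) (by
    intro h h' w b hv hb
    refine ⟨hb.1, hb.2.1, fun hw => ?_⟩
    have h1 := hb.2.2 hw
    have hl : 0 < w.length := List.length_pos_iff.mpr hw
    have e1 : ∀ k ∈ Finset.range (w.length - 1), h (w.take (k + 1)) = h' (w.take (k + 1)) := by
      intro k hk
      have := Finset.mem_range.mp hk
      exact hv _ (by rw [List.length_take]; omega)
    have e2 : ∀ k ∈ Finset.range (w.length - 1), h (w.drop (k + 1)) = h' (w.drop (k + 1)) := by
      intro k hk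
      have := Finset.mem_range.mp hk
      exact hv _ (by rw [List.length_drop]; omega)
    rw [Finset.sum_congr rfl fun k hk => by rw [e1 k hk]] at h1
    rw [h1]
    congr 1
    exact Finset.sum_congr rfl fun k hk => by rw [e1 k hk, e2 k hk])
  let g : NC I B := mk fun w => (h w).1
  let F : NC I B := mk fun w => (h w).2
  have hnil : h [] = (1, f []) := (hh []).2.1 rfl
  refine ⟨g, F, ?_, ?_, fun w => (hh w).1, ?_⟩
  · show (h []).1 = 1
    rw [hnil]
  · show (h []).2 = f []
    rw [hnil]
  · ext w
    cases w with
    | nil =>
      rw [mul_nil, mul_nil]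
      show (h []).1 * f [] = (h []).2 * (h []).1
      rw [hnil]; simp
    | cons i w =>
      rw [mul_apply_cons, mul_apply_cons]
      have h1 := (hh (i :: w)).2.2 (by simp)
      have g0 : g [] = 1 := by show (h []).1 = 1; rw [hnil]
      have F0 : F [] = f [] := by show (h []).2 = f []; rw [hnil]
      rw [g0, F0, one_mul, mul_one]
      have h2 : (i :: w).length - 1 = w.length := by simp
      rw [h2] at h1
      show f (i :: w) + (h (i :: w)).1 * f [] + _ = f [] * (h (i :: w)).1 + (h (i :: w)).2 + _
      rw [add_comm (f (i :: w))]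
      exact h1

end NC

namespace State

variable {K B I : Type} [Field K] [Ring B] [Algebra K B] [Fintype I]

theorem lin_add (f g : NC I B) (p : I → K) : lin (f + g) p = lin f p + lin g p := by
  simp [lin, smul_add, Finset.sum_add_distrib]

theorem lin_mul (f g : NC I B) (p : I → K) : lin (f * g) p = lin f p * g [] + f [] * lin g p := by
  simp only [lin, NC.mul_singleton, smul_add, Finset.sum_add_distrib, Finset.sum_mul,
    Finset.mul_sum, smul_mul_assoc, mul_smul_comm]
  rw [add_comm]

theorem lin_C (b : B) (p : I → K) : lin (NC.C b : NC I B) p = 0 := by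
  simp [lin]

theorem lin_algebraMap (c : K) (p : I → K) : lin (algebraMap K (NC I B) c) p = 0 := by
  rw [NC.algebraMap_eq, lin_C]

theorem lin_add_dir (f : NC I B) (p q : I → K) : lin f (p + q) = lin f p + lin f q := by
  simp [lin, add_smul, Finset.sum_add_distrib]

theorem lin_smul_dir (f : NC I B) (c : K) (p : I → K) : lin f (c • p) = c • lin f p := by
  simp [lin, mul_smul, Finset.smul_sum]

/-- `p ↦ f_1(p)` as a linear map -/
def linL (f : NC I B) : (I → K) →ₗ[K] B where
  toFun p := lin f p
  map_add' := lin_add_dir f
  map_smul' := lin_smul_dir f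

@[simp] theorem linL_apply (f : NC I B) (p : I → K) : linL f p = lin f p := rfl

/-- B1.1, first half: in an inner direction all elements of the algebra generated by `X, Y` move
by the same inner derivation. -/
theorem lin_adjoin_of_inner (X Y : NC I B) (p : I → K) (y : B)
    (hX : lin X p = y * X [] - X [] * y) (hY : lin Y p = y * Y [] - Y [] * y)
    (f : NC I B) (hf : f ∈ Algebra.adjoin K {X, Y}) : lin f p = y * f [] - f [] * y := by
  induction hf using Algebra.adjoin_induction with
  | mem x hx =>
    rcases hx with rfl | hx
    · exact hX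
    · rw [Set.mem_singleton_iff] at hx; subst hx; exact hY
  | algebraMap c =>
    rw [lin_algebraMap, NC.algebraMap_eq, NC.C_nil, Algebra.commutes, sub_self]
  | add f g _ _ ihf ihg =>
    rw [lin_add, ihf, ihg, NC.add_apply]; noncomm_ring
  | mul f g _ _ ihf ihg =>
    rw [lin_mul, ihf, ihg, NC.mul_nil]; noncomm_ring

end State

/-- B1.1: if `F` is normalised (its linear part in direction `p` commutes with `a = F []`) and is
conjugate (`g * h = F * g`, `g [] ≠ 0`) to an element `h` of the algebra generated by `X, Y`, then `F_1(p) = 0`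
for every inner direction `p`. The hypothesis `dis` says that a commutator `[a, L]` commuting with
`a` is zero. -/
theorem lin_eq_zero_of_inner {K B I : Type} [Field K] [DivisionRing B] [Algebra K B] [Fintype I]
    (X Y : NC I B) (p : I → K) (y : B)
    (hX : State.lin X p = y * X [] - X [] * y) (hY : State.lin Y p = y * Y [] - Y [] * y)
    (h g F : NC I B) (hh : h ∈ Algebra.adjoin K {X, Y}) (hg : g [] ≠ 0) (hc : g * h = F * g)
    (hF : State.lin F p * F [] = F [] * State.lin F p)
    (dis : ∀ L : B, (L * F [] - F [] * L) * F [] = F [] * (L * F [] - F [] * L) →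
      L * F [] - F [] * L = 0) : State.lin F p = 0 := by
  have h1 := State.lin_adjoin_of_inner X Y p y hX hY h hh
  have h2 : State.lin g p * h [] + g [] * State.lin h p =
      State.lin F p * g [] + F [] * State.lin g p := by
    rw [← State.lin_mul, ← State.lin_mul, hc]
  have h3 : g [] * h [] = F [] * g [] := by rw [← NC.mul_nil, ← NC.mul_nil, hc]
  have h4 : h [] * (g [])⁻¹ = (g [])⁻¹ * F [] := by
    have : (g [])⁻¹ * (g [] * h []) * (g [])⁻¹ = (g [])⁻¹ * (F [] * g []) * (g [])⁻¹ := by rw [h3]
    rw [← mul_assoc, inv_mul_cancel₀ hg, one_mul, mul_assoc, mul_assoc, mul_inv_cancel₀ hg,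
      mul_one] at this
    exact this
  rw [h1] at h2
  -- the conjugating element
  set L : B := State.lin g p * (g [])⁻¹ + g [] * y * (g [])⁻¹ with hL
  have h5 : State.lin F p = L * F [] - F [] * L := by
    have h6 : State.lin F p = (State.lin g p * h [] + g [] * (y * h [] - h [] * y) -
        F [] * State.lin g p) * (g [])⁻¹ := by
      rw [h2, add_sub_cancel_right, mul_assoc, mul_inv_cancel₀ hg, mul_one]
    rw [h6, hL]
    have e1 : State.lin g p * h [] * (g [])⁻¹ = State.lin g p * (g [])⁻¹ * F [] := by
      rw [mul_assoc, h4, mul_assoc]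
    have e2 : g [] * (y * h []) * (g [])⁻¹ = g [] * y * (g [])⁻¹ * F [] := by
      rw [← mul_assoc, mul_assoc (g [] * y), h4, ← mul_assoc]
    have e3 : g [] * (h [] * y) * (g [])⁻¹ = F [] * (g [] * y * (g [])⁻¹) := by
      rw [← mul_assoc (g []), h3]; simp only [mul_assoc]
    rw [sub_mul, add_mul, mul_sub, sub_mul, e1, e2, e3, add_mul, mul_add, mul_assoc (F [])]
    abel
  rw [h5] at hF ⊢
  exact dis L hF

end Vale.P199
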