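import Vale.Agent.P199.B1Red
import Vale.Agent.P199.Slice

/-!
# P199, B7: lifting of the kernel, second order forms, leading terms (abstract part)
-/

open HahnSeries

namespace Vale.P199

namespace B7

open Tr

/-- `K((z))` as a Laurent space over itself, usual module structure -/
noncomputable def coSelf (K : Type*) [Field K] : Co K K K⟦ℤ⟧ :=
  Co.hahn (K := K) (B := K) fun a _ => ⟨a, fun _ => rfl, rfl⟩

section lift

variable {K B : Type*} [Field K] [CharZero K] [DivisionRing B] [Algebra K B] [FiniteDimensional K B]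

/-- shortcut -/
noncomputable local instance (priority := 2000) scZ (Z : Submodule K B) : Module K⟦ℤ⟧ (↥Z)⟦ℤ⟧ :=
  lmodModule

/-- shortcut -/
noncomputable local instance (priority := 2000) scB : Module K⟦ℤ⟧ B⟦ℤ⟧ := Algebra.toModule

/-- `Z((z)) → B((z))` for a subspace `Z` -/
noncomputable def inc (Z : Submodule K B) : (↥Z)⟦ℤ⟧ →ₗ[K⟦ℤ⟧] B⟦ℤ⟧ := mapL Z.subtype

omit [CharZero K] [FiniteDimensional K B] in
@[simp] theorem inc_coeff (Z : Submodule K B) (y : (↥Z)⟦ℤ⟧) (n : ℤ) :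
    (inc Z y).coeff n = (y.coeff n : B) := rfl

omit [CharZero K] [FiniteDimensional K B] in
theorem inc_injective (Z : Submodule K B) : Function.Injective (inc Z) := by
  intro x y h
  ext n
  have := congrArg (fun s : B⟦ℤ⟧ => s.coeff n) h
  simpa using this

omit [CharZero K] [FiniteDimensional K B] in
theorem exists_inc {Z : Submodule K B} {x : B⟦ℤ⟧} (hx : ∀ n, x.coeff n ∈ Z) : ∃ y, inc Z y = x := by
  refine ⟨⟨fun n => ⟨x.coeff n, hx n⟩, x.isPWO_support.mono ?_⟩, ?_⟩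
  · intro n hn
    rw [Function.mem_support] at hn
    rw [mem_support]
    intro h
    exact hn (Subtype.ext h)
  · ext n; rfl

omit [CharZero K] [FiniteDimensional K B] in
theorem mem_cen_C_iff {α : B} {x : B⟦ℤ⟧} :
    x ∈ cen K⟦ℤ⟧ (C α : B⟦ℤ⟧) ↔ ∀ n, x.coeff n ∈ cen K α := by
  rw [mem_cen]
  constructor
  · intro h n
    rw [mem_cen]
    have := congrArg (fun s : B⟦ℤ⟧ => s.coeff n) h
    simpa using this
  · intro h
    ext n
    rw [C_mul_coeff, mul_C_coeff]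
    exact mem_cen.mp (h n)

omit [CharZero K] [FiniteDimensional K B] in
theorem range_inc (α : B) :
    LinearMap.range (inc (cen K α)) = cen K⟦ℤ⟧ (C α : B⟦ℤ⟧) := by
  ext x
  rw [mem_cen_C_iff]
  constructor
  · rintro ⟨y, rfl⟩ n
    exact (y.coeff n).2
  · intro h
    exact exists_inc h

omit [CharZero K] in
theorem finrank_cen_C (α : B) :
    Module.finrank K⟦ℤ⟧ (cen K⟦ℤ⟧ (C α : B⟦ℤ⟧)) = Module.finrank K (cen K α) := by
  rw [← range_inc, LinearMap.finrank_range_of_inj (inc_injective _), lmod_finrank]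

variable {I : Type} [Fintype I]

/-- `(p, y) ↦ Σ p_i F_i - [a, y]` -/
noncomputable def opA {L R : Type*} [Field L] [DivisionRing R] [Algebra L R] {V : Type*}
    [AddCommGroup V] [Module L V] (F : I → R) (a : R) (j : V →ₗ[L] R) : (I → L) × V →ₗ[L] R :=
  LinearMap.coprod (Fintype.linearCombination L F) (-(ad L a ∘ₗ j))

omit [CharZero K] in
theorem opA_apply {L R : Type*} [Field L] [DivisionRing R] [Algebra L R] {V : Type*}
    [AddCommGroup V] [Module L V] (F : I → R) (a : R) (j : V →ₗ[L] R) (p : I → L) (y : V) :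
    opA F a j (p, y) = (∑ i, p i • F i) - (a * j y - j y * a) := by
  simp [opA, Fintype.linearCombination_apply, sub_eq_add_neg]

section rank

variable {L R : Type*} [Field L] [CharZero L] [DivisionRing R] [Algebra L R] [FiniteDimensional L R]
variable {V : Type*} [AddCommGroup V] [Module L V]

theorem perp_range_opA (F : I → R) (a : R) (j : V →ₗ[L] R) (Z : Submodule L R)
    (hZinv : ∀ z ∈ Z, z⁻¹ ∈ Z) (hZmul : ∀ x ∈ Z, ∀ y ∈ Z, x * y ∈ Z) (hj : LinearMap.range j = Z)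
    (ha : a ∈ Z) :
    perp Z (LinearMap.range (opA F a j)) = perp (Z ⊓ cen L a) (Submodule.span L (Set.range F)) := by
  ext b
  rw [mem_perp, mem_perp]
  constructor
  · rintro ⟨hb, h⟩
    have hc : a * b = b * a := by
      have h1 : a * b - b * a ∈ Z := sub_mem (hZmul _ ha _ hb) (hZmul _ hb _ ha)
      have h2 : a * b - b * a = 0 := by
        refine nondeg_of_inv_mem (K := L) (Z := (Z : Set R)) hZinv h1 ?_
        intro y hy
        have hy' : y ∈ LinearMap.range j := by rw [hj]; exact hy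
        obtain ⟨v, rfl⟩ := hy'
        have h3 := h _ ⟨((0 : I → L), v), rfl⟩
        rw [opA_apply] at h3
        simp only [Pi.zero_apply, zero_smul, Finset.sum_const_zero, zero_sub, mul_neg, map_neg,
          neg_eq_zero] at h3
        rw [tr_mul_ad, neg_eq_zero] at h3
        exact h3
      exact sub_eq_zero.mp h2
    refine ⟨⟨hb, mem_cen.mpr hc⟩, fun w hw => ?_⟩
    induction hw using Submodule.span_induction with
    | mem w hw =>
      obtain ⟨i, rfl⟩ := hw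
      classical
      have h3 := h _ ⟨(Pi.single i (1 : L), (0 : V)), rfl⟩
      rw [opA_apply] at h3
      simp only [map_zero, mul_zero, zero_mul, sub_zero] at h3
      rw [Finset.sum_eq_single i] at h3
      · simpa using h3
      · intro k _ hk
        rw [Pi.single_eq_of_ne hk, zero_smul]
      · simp
    | zero => simp
    | add x y _ _ hx hy => rw [mul_add, map_add, hx, hy, add_zero]
    | smul c x _ hx => rw [mul_smul_comm, map_smul, hx, smul_zero]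
  · rintro ⟨⟨hb, hc⟩, h⟩
    refine ⟨hb, ?_⟩
    rintro w ⟨⟨p, v⟩, rfl⟩
    have h1 : tr L R (b * (a * j v - j v * a)) = 0 := by
      rw [tr_mul_ad, mem_cen.mp hc, sub_self, zero_mul, map_zero, neg_zero]
    rw [opA_apply, mul_sub, map_sub, h1, sub_zero]
    refine h _ (Submodule.sum_mem _ fun i _ => Submodule.smul_mem _ _ (Submodule.subset_span ⟨i, rfl⟩))

/-- the dimension of the kernel of `opA` -/
theorem finrank_ker_opA [FiniteDimensional L V] (F : I → R) (a : R) (j : V →ₗ[L] R)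
    (Z : Submodule L R)
    (hZinv : ∀ z ∈ Z, z⁻¹ ∈ Z) (hZmul : ∀ x ∈ Z, ∀ y ∈ Z, x * y ∈ Z) (hj : LinearMap.range j = Z)
    (hji : Function.Injective j) (ha : a ∈ Z) (hF : ∀ i, F i ∈ Z) :
    Module.finrank L (LinearMap.ker (opA F a j)) =
      Fintype.card I + Module.finrank L (perp (Z ⊓ cen L a) (Submodule.span L (Set.range F))) := by
  have h1 := LinearMap.finrank_range_add_finrank_ker (opA F a j)
  have hle : LinearMap.range (opA F a j) ≤ Z := by
    rintro w ⟨⟨p, v⟩, rfl⟩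
    rw [opA_apply]
    have hv : j v ∈ Z := by rw [← hj]; exact ⟨v, rfl⟩
    exact sub_mem (Submodule.sum_mem _ fun i _ => Submodule.smul_mem _ _ (hF i))
      (sub_mem (hZmul _ ha _ hv) (hZmul _ hv _ ha))
  have h2 := finrank_perp Z (LinearMap.range (opA F a j)) hZinv hle
  rw [perp_range_opA F a j Z hZinv hZmul hj ha] at h2
  have h3 : Module.finrank L V = Module.finrank L Z := by
    rw [← hj, LinearMap.finrank_range_of_inj hji]
  rw [Module.finrank_prod, Module.finrank_pi, h3] at h1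
  omega

end rank

/-- the data of `a' = α + z a1` -/
theorem cen_inf_eq {α : B} {a' a1 : B⟦ℤ⟧} (ha : a' = C α + single (1 : ℤ) (1 : B) * a1)
    (h1neg : ∀ n < 0, a1.coeff n = 0) (h1c : ∀ n, a1.coeff n ∈ cen K α) :
    cen K⟦ℤ⟧ (C α : B⟦ℤ⟧) ⊓ cen K⟦ℤ⟧ a1 = cen K⟦ℤ⟧ a' := by
  have hz : ∀ b : B⟦ℤ⟧, b * (single (1 : ℤ) (1 : B)) = (single (1 : ℤ) (1 : B)) * b := by
    intro b; ext n; rw [mul_single_coeff, single_mul_coeff, one_mul, mul_one]
  ext b
  constructor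
  · rintro ⟨hb, hb1⟩
    have e1 := mem_cen.mp hb
    have e2 := mem_cen.mp hb1
    rw [mem_cen, ha, add_mul, mul_add, e1, mul_assoc, e2, ← mul_assoc b, hz b, mul_assoc]
  · intro hb
    have hneg : ∀ n < 0, a'.coeff n = 0 := by
      intro n hn
      rw [ha, coeff_add, single_mul_coeff, one_mul, h1neg _ (by omega), C_apply,
        coeff_single_of_ne (by omega), add_zero]
    have h0 : a'.coeff 0 = α := by
      rw [ha, coeff_add, single_mul_coeff, one_mul, h1neg _ (by omega), C_apply,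
        coeff_single_same, add_zero]
    have hc : ∀ n, a'.coeff n ∈ cen K α := by
      intro n
      rw [ha, coeff_add, single_mul_coeff, one_mul, C_apply]
      refine add_mem ?_ (h1c _)
      by_cases hn : n = 0
      · rw [hn, coeff_single_same]; exact self_mem_cen α
      · rw [coeff_single_of_ne hn]; exact zero_mem _
    have hb' := mem_cen.mp hb
    have e0 : b ∈ cen K⟦ℤ⟧ (C α : B⟦ℤ⟧) :=
      mem_cen_C_iff.mpr fun n => B1Red.coeff_mem_cen hneg h0 hc hb' n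
    refine ⟨e0, ?_⟩
    have e1 := mem_cen.mp e0
    rw [ha, add_mul, mul_add, e1, mul_assoc, ← mul_assoc b, hz b, mul_assoc] at hb'
    have e2 := add_left_cancel hb'
    rw [SetLike.mem_coe, mem_cen]
    have hz0 : (single (1 : ℤ) (1 : B) : B⟦ℤ⟧) ≠ 0 := by simp
    exact mul_left_cancel₀ hz0 e2

/-- the Laurent structure on the source of `opA` -/
noncomputable def coSrc (K : Type*) {B : Type*} [Field K] [DivisionRing B] [Algebra K B] (I : Type)
    [Fintype I] (Z : Submodule K B) :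
    Co K ((I → K) × ↥Z) ((I → K⟦ℤ⟧) × (↥Z)⟦ℤ⟧) :=
  ((coSelf K).pi I).prod (Co.lmod K ↥Z)

omit [CharZero K] [FiniteDimensional K B] in
theorem coSrc_int {Z : Submodule K B} {p : I → K⟦ℤ⟧} {y : (↥Z)⟦ℤ⟧}
    (h : (coSrc K I Z).IsInt (p, y)) :
    (∀ i, ∀ n < 0, (p i).coeff n = 0) ∧ ∀ n < 0, (inc Z y).coeff n = 0 :=
  ⟨fun i n hn => congrFun (congrArg Prod.fst (h n hn)) i,
    fun n hn => congrArg Subtype.val (congrArg Prod.snd (h n hn))⟩

/-- the operator over `K((z))` -/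
noncomputable def opL (F : I → B⟦ℤ⟧) (a1 : B⟦ℤ⟧) (Z : Submodule K B) :
    ((I → K⟦ℤ⟧) × (↥Z)⟦ℤ⟧) →ₗ[K⟦ℤ⟧] B⟦ℤ⟧ :=
  opA (L := K⟦ℤ⟧) (R := B⟦ℤ⟧) (V := (↥Z)⟦ℤ⟧) F a1 (inc Z)

omit [CharZero K] [FiniteDimensional K B] in
theorem opL_apply (F : I → B⟦ℤ⟧) (a1 : B⟦ℤ⟧) (Z : Submodule K B) (p : I → K⟦ℤ⟧) (y : (↥Z)⟦ℤ⟧) :
    opL F a1 Z (p, y) = (∑ i, p i • F i) - (a1 * inc Z y - inc Z y * a1) :=
  opA_apply _ _ _ _ _

omit [CharZero K] [FiniteDimensional K B] in
theorem opL_coeff_zero (F : I → B⟦ℤ⟧) (a1 : B⟦ℤ⟧) (Z : Submodule K B)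
    (h1neg : ∀ n < 0, a1.coeff n = 0) (hFneg : ∀ i, ∀ n < 0, (F i).coeff n = 0)
    (w : (I → K⟦ℤ⟧) × (↥Z)⟦ℤ⟧) (hw : (coSrc K I Z).IsInt w) :
    (Co.lmod K B).co (opL F a1 Z w) 0 =
      opA (fun i => (F i).coeff 0) (a1.coeff 0) Z.subtype ((coSrc K I Z).co w 0) := by
  obtain ⟨p, y⟩ := w
  obtain ⟨hp, hy⟩ := coSrc_int hw
  have e1 : ∀ i, (p i • F i).coeff 0 = (p i).coeff 0 • (F i).coeff 0 := fun i => by
    have := ((Co.lmod K B).lead (p i) (F i) 0 0 (hp i) (hFneg i)).2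
    simpa using this
  have e2 := (mul_coeff_of_lower (x := a1) (y := inc Z y) h1neg hy).2
  have e3 := (mul_coeff_of_lower (x := inc Z y) (y := a1) hy h1neg).2
  rw [add_zero] at e2 e3
  rw [opL_apply, Co.lmod_co, coeff_sub, coeff_sub, coeff_sum, e2, e3]
  show _ = opA _ _ _ ((fun i => (p i).coeff 0), y.coeff 0)
  rw [opA_apply, Finset.sum_congr rfl fun i _ => e1 i]
  rfl

theorem finrank_ker_opL {α : B} {a' a1 : B⟦ℤ⟧} (ha : a' = C α + single (1 : ℤ) (1 : B) * a1)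
    (h1neg : ∀ n < 0, a1.coeff n = 0) (h1c : ∀ n, a1.coeff n ∈ cen K α)
    (F : I → B⟦ℤ⟧) (hFc : ∀ i n, (F i).coeff n ∈ cen K α) :
    Module.finrank K⟦ℤ⟧ (LinearMap.ker (opL F a1 (cen K α))) = Fintype.card I +
      Module.finrank K⟦ℤ⟧ (perp (cen K⟦ℤ⟧ a') (Submodule.span K⟦ℤ⟧ (Set.range F))) := by
  rw [← cen_inf_eq ha h1neg h1c]
  have h2 : ∀ x ∈ cen K⟦ℤ⟧ (C α : B⟦ℤ⟧), ∀ y ∈ cen K⟦ℤ⟧ (C α : B⟦ℤ⟧),
      x * y ∈ cen K⟦ℤ⟧ (C α : B⟦ℤ⟧) := fun _ h _ h' => mul_mem_cen h h'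
  have h3 : ∀ z ∈ cen K⟦ℤ⟧ (C α : B⟦ℤ⟧), z⁻¹ ∈ cen K⟦ℤ⟧ (C α : B⟦ℤ⟧) := fun _ h => inv_mem_cen h
  have h4 : a1 ∈ cen K⟦ℤ⟧ (C α : B⟦ℤ⟧) := mem_cen_C_iff.mpr h1c
  have h5 : ∀ i, F i ∈ cen K⟦ℤ⟧ (C α : B⟦ℤ⟧) := fun i => mem_cen_C_iff.mpr (hFc i)
  have h6 := range_inc (K := K) α
  have h7 := inc_injective (cen K α)
  have h8 := finrank_ker_opA (L := K⟦ℤ⟧) (R := B⟦ℤ⟧) (V := (↥(cen K α))⟦ℤ⟧) F a1 (inc (cen K α))
    (cen K⟦ℤ⟧ (C α : B⟦ℤ⟧)) h3 h2 h6 h7 h4 h5
  exact h8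

omit [FiniteDimensional K B] [CharZero K] in
theorem comm_single (m : ℤ) (b : B⟦ℤ⟧) : b * (single m (1 : B)) = (single m (1 : B)) * b := by
  ext n; rw [mul_single_coeff, single_mul_coeff, one_mul, mul_one]

omit [FiniteDimensional K B] [CharZero K] in
theorem comm_alg {α : B} {a1 Y : B⟦ℤ⟧} (hy : (C α : B⟦ℤ⟧) * Y = Y * C α) :
    (C α + single (1 : ℤ) (1 : B) * a1) * (single (-1 : ℤ) (1 : B) * Y) -
      (single (-1 : ℤ) (1 : B) * Y) * (C α + single (1 : ℤ) (1 : B) * a1) = a1 * Y - Y * a1 := by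
  have hzz : (single (-1 : ℤ) (1 : B) : B⟦ℤ⟧) * single (1 : ℤ) (1 : B) = 1 := by
    rw [single_mul_single]; simp
  have t1 : (C α + single (1 : ℤ) (1 : B) * a1) * (single (-1 : ℤ) (1 : B) * Y) =
      single (-1 : ℤ) (1 : B) * (C α * Y) + a1 * Y := by
    rw [add_mul, ← mul_assoc (C α : B⟦ℤ⟧), comm_single (-1) (C α), mul_assoc, mul_assoc,
      ← mul_assoc a1, comm_single (-1) a1, mul_assoc, ← mul_assoc (single (1 : ℤ) (1 : B)),
      comm_single (-1) (single (1 : ℤ) (1 : B)), hzz, one_mul]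
  have t2 : (single (-1 : ℤ) (1 : B) * Y) * (C α + single (1 : ℤ) (1 : B) * a1) =
      single (-1 : ℤ) (1 : B) * (Y * C α) + Y * a1 := by
    have e : (single (-1 : ℤ) (1 : B) * Y) * (single (1 : ℤ) (1 : B) * a1) = Y * a1 := by
      rw [← mul_assoc, mul_assoc (single (-1 : ℤ) (1 : B)) Y, comm_single 1 Y, ← mul_assoc, hzz,
        one_mul]
    rw [mul_add, e, mul_assoc]
  rw [t1, t2, hy]
  abel

/-- **Lifting lemma of B7.** -/
theorem lift_dir {α : B} {a' a1 : B⟦ℤ⟧} (ha : a' = C α + single (1 : ℤ) (1 : B) * a1)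
    (h1neg : ∀ n < 0, a1.coeff n = 0) (h1c : ∀ n, a1.coeff n ∈ cen K α)
    (F : I → B⟦ℤ⟧) (hFneg : ∀ i, ∀ n < 0, (F i).coeff n = 0) (hFc : ∀ i n, (F i).coeff n ∈ cen K α)
    (hdim : Module.finrank K (perp (cen K α ⊓ cen K (a1.coeff 0))
        (Submodule.span K (Set.range fun i => (F i).coeff 0))) =
      Module.finrank K⟦ℤ⟧ (perp (cen K⟦ℤ⟧ a') (Submodule.span K⟦ℤ⟧ (Set.range F))))
    (p0 : I → K) (y0 : B) (hy0 : y0 ∈ cen K α)
    (h0 : ∑ i, p0 i • (F i).coeff 0 = a1.coeff 0 * y0 - y0 * a1.coeff 0) :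
    ∃ (p : I → K⟦ℤ⟧) (y : B⟦ℤ⟧), (∀ i, ∀ n < 0, (p i).coeff n = 0) ∧ (∀ i, (p i).coeff 0 = p0 i) ∧
      (∀ n < 0, y.coeff n = 0) ∧ y.coeff 0 = y0 ∧
      ∑ i, p i • F i = a' * (single (-1 : ℤ) (1 : B) * y) - (single (-1 : ℤ) (1 : B) * y) * a' := by
  have hk1 := finrank_ker_opL ha h1neg h1c F hFc
  have hk0 : Module.finrank K (LinearMap.ker
      (opA (fun i => (F i).coeff 0) (a1.coeff 0) (cen K α).subtype)) = Fintype.card I +
      Module.finrank K (perp (cen K α ⊓ cen K (a1.coeff 0))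
        (Submodule.span K (Set.range fun i => (F i).coeff 0))) :=
    finrank_ker_opA _ _ _ (cen K α) (fun _ h => inv_mem_cen h)
      (fun _ h _ h' => mul_mem_cen h h') (Submodule.range_subtype _)
      (Submodule.injective_subtype _) (h1c 0) (fun i => hFc i 0)
  have hv : opA (fun i => (F i).coeff 0) (a1.coeff 0) (cen K α).subtype (p0, ⟨y0, hy0⟩) = 0 := by
    rw [opA_apply, h0]
    simp
  have hlift := (coSrc K I (cen K α)).lift_ker (Co.lmod K B) (opL F a1 (cen K α)) _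
    (opL_coeff_zero F a1 (cen K α) h1neg hFneg) (by rw [hk1, hk0, hdim]) hv
  obtain ⟨⟨p, y⟩, hb0, hbi, hbc⟩ := hlift
  obtain ⟨hp, hy⟩ := coSrc_int hbi
  refine ⟨p, inc (cen K α) y, hp, fun i => congrFun (congrArg Prod.fst hbc) i, hy,
    congrArg Subtype.val (congrArg Prod.snd hbc), ?_⟩
  rw [opL_apply, sub_eq_zero] at hb0
  have hyc : (C α : B⟦ℤ⟧) * inc (cen K α) y = inc (cen K α) y * C α := by
    have : inc (cen K α) y ∈ cen K⟦ℤ⟧ (C α : B⟦ℤ⟧) := by rw [← range_inc]; exact ⟨y, rfl⟩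
    exact mem_cen.mp this
  rw [hb0, ha, comm_alg hyc]

end lift

end B7

end Vale.P199
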