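import Vale.Agent.P199.B7Sel
import Vale.Agent.P199.Laur

/-!
# P199, B7 [7.8] : correction of `P2` and surjectivity, Laurent series version
-/

open HahnSeries

namespace Vale.P199

namespace B7

section ps

variable {k : Type} [Field k]

/-- the power series of an integral Laurent series -/
noncomputable def ps (x : k⟦ℤ⟧) : PowerSeries k := PowerSeries.mk fun n => x.coeff (n : ℤ)

theorem ofPS_neg (p : PowerSeries k) {n : ℤ} (hn : n < 0) :
    (ofPowerSeries ℤ k p).coeff n = 0 := by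
  rw [ofPowerSeries_apply, embDomain_of_notMem_range]
  rintro ⟨m, hm⟩
  have : (m : ℤ) = n := hm
  omega

theorem ofPS_nat (p : PowerSeries k) (n : ℕ) :
    (ofPowerSeries ℤ k p).coeff (n : ℤ) = PowerSeries.coeff n p := by
  rw [ofPowerSeries_apply_coeff]

theorem ofPS_ps {x : k⟦ℤ⟧} (hx : ∀ n < 0, x.coeff n = 0) : ofPowerSeries ℤ k (ps x) = x := by
  ext n
  rcases lt_or_ge n 0 with hn | hn
  · rw [ofPS_neg _ hn, hx n hn]
  · obtain ⟨m, rfl⟩ := Int.eq_ofNat_of_zero_le hn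
    rw [ofPS_nat, ps, PowerSeries.coeff_mk]

theorem ps_eq {x : k⟦ℤ⟧} {p : PowerSeries k} (h : ofPowerSeries ℤ k p = x) : ps x = p := by
  rw [← h]
  ext n
  rw [ps, PowerSeries.coeff_mk, ofPS_nat]

theorem constCoeff_ps (x : k⟦ℤ⟧) : PowerSeries.constantCoeff (ps x) = x.coeff 0 := by
  rw [← PowerSeries.coeff_zero_eq_constantCoeff_apply, ps, PowerSeries.coeff_mk]
  rfl

theorem isUnit_ps (p : PowerSeries k) (h : PowerSeries.constantCoeff p ≠ 0) : IsUnit p :=
  PowerSeries.isUnit_iff_constantCoeff.mpr (isUnit_iff_ne_zero.mpr h)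

theorem single_mul_coeff (m n : ℤ) (x : k⟦ℤ⟧) :
    ((single m (1 : k) : k⟦ℤ⟧) * x).coeff n = x.coeff (n - m) := by
  have := coeff_single_mul_add (r := (1 : k)) (x := x) (a := n - m) (b := m)
  rwa [sub_add_cancel, one_mul] at this

end ps

/-- [7.8] -/
theorem correct_laur {k V ι : Type} [Field k] [AddCommGroup V] [Module k⟦ℤ⟧ V] [Fintype ι]
    [DecidableEq ι] (L : AddSubgroup V)
    (hL : ∀ c : k⟦ℤ⟧, (∀ n < 0, c.coeff n = 0) → ∀ p ∈ L, c • p ∈ L)
    (α : ι → V → V → k⟦ℤ⟧)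
    (addr : ∀ b x y y', α b x (y + y') = α b x y + α b x y')
    (smulr : ∀ b x (c : k⟦ℤ⟧) y, α b x (c • y) = c * α b x y)
    (addl : ∀ b x x' y, α b (x + x') y = α b x y + α b x' y)
    (smull : ∀ b (c : k⟦ℤ⟧) x y, α b (c • x) y = c * α b x y)
    (hα : ∀ b, ∀ p ∈ L, ∀ q ∈ L, ∀ n < -1, (α b p q).coeff n = 0)
    (P1 P2 : V) (hP1 : P1 ∈ L) (hP2 : P2 ∈ L) (q1 q2 : ι → V) (hq1 : ∀ b, q1 b ∈ L)
    (hq2 : ∀ b, q2 b ∈ L)
    (h11 : (Matrix.of fun b b' => (α b P1 (q1 b')).coeff (-1)).det ≠ 0)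
    (h22 : (Matrix.of fun b b' => (α b P2 (q2 b')).coeff (-1)).det ≠ 0)
    (h12 : ∀ b b', (α b P1 (q2 b')).coeff (-1) = 0)
    (h0 : ∀ b, (α b P1 P2).coeff (-1) = 0) :
    ∃ η : ι → k⟦ℤ⟧, (∀ b, ∀ n ≤ 0, (η b).coeff n = 0) ∧
      (∀ b, α b P1 (P2 - ∑ b', η b' • q1 b') = 0) ∧
      ∀ c1 c2 : ι → k⟦ℤ⟧, ∃ (x : V) (m : ℤ), x ∈ L ∧
        ∀ b, α b P1 ((single m (1 : k) : k⟦ℤ⟧) • x) = c1 b ∧
          α b (P2 - ∑ b', η b' • q1 b') ((single m (1 : k) : k⟦ℤ⟧) • x) = c2 b := by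
  classical
  let _ : Module (PowerSeries k) V := Module.compHom V (ofPowerSeries ℤ k)
  have hsm : ∀ (s : PowerSeries k) (v : V), s • v = ofPowerSeries ℤ k s • v := fun _ _ => rfl
  let L' : Submodule (PowerSeries k) V :=
    { carrier := L
      add_mem' := L.add_mem
      zero_mem' := L.zero_mem
      smul_mem' := fun s v hv => by
        rw [hsm]
        exact hL _ (fun n hn => ofPS_neg s hn) v hv }
  have hL' : ∀ v : L', (v : V) ∈ L := fun v => v.2
  -- z * α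
  have hint : ∀ b (p q : L'), ∀ n < 0,
      ((single (1 : ℤ) (1 : k) : k⟦ℤ⟧) * α b p q).coeff n = 0 := by
    intro b p q n hn
    rw [single_mul_coeff]
    exact hα b p (hL' p) q (hL' q) _ (by omega)
  set α' : ι → L' → L' → PowerSeries k :=
    fun b p q => ps ((single (1 : ℤ) (1 : k) : k⟦ℤ⟧) * α b p q) with hα'
  have hof : ∀ b (p q : L'), ofPowerSeries ℤ k (α' b p q) =
      (single (1 : ℤ) (1 : k) : k⟦ℤ⟧) * α b p q := fun b p q => ofPS_ps (hint b p q)
  have hinj : Function.Injective (ofPowerSeries ℤ k) := ofPowerSeries_injective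
  have hπ : ∀ b (p q : L'), PowerSeries.constantCoeff (α' b p q) = (α b p q).coeff (-1) := by
    intro b p q
    rw [hα', constCoeff_ps, single_mul_coeff, zero_sub]
  have key := correct (R := PowerSeries k) (k := k) (L := L') (ι := ι) PowerSeries.constantCoeff
    isUnit_ps α'
    (by
      intro b x y y'
      apply hinj
      rw [map_add, hof, hof, hof, ← mul_add, ← addr]
      rfl)
    (by
      intro b x c y
      apply hinj
      rw [map_mul, hof, hof]
      have : α b x ((c • y : L') : V) = ofPowerSeries ℤ k c * α b x y := smulr b x _ _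
      rw [this, mul_left_comm])
    (by
      intro b x x' y
      apply hinj
      rw [map_add, hof, hof, hof, ← mul_add, ← addl]
      rfl)
    (by
      intro b c x y
      apply hinj
      rw [map_mul, hof, hof]
      have : α b ((c • x : L') : V) y = ofPowerSeries ℤ k c * α b x y := smull b _ _ _
      rw [this, mul_left_comm])
    ⟨P1, hP1⟩ ⟨P2, hP2⟩ (fun b => ⟨q1 b, hq1 b⟩) (fun b => ⟨q2 b, hq2 b⟩)
    (by simp only [hπ]; exact h11) (by simp only [hπ]; exact h22)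
    (by intro b b'; rw [hπ]; exact h12 b b') (by intro b; rw [hπ]; exact h0 b)
  obtain ⟨η, hη0, hη1, hη2⟩ := key
  have hco : (((⟨P2, hP2⟩ : L') - ∑ b', η b' • (⟨q1 b', hq1 b'⟩ : L') : L') : V) =
      P2 - ∑ b', ofPowerSeries ℤ k (η b') • q1 b' := by
    rw [Submodule.coe_sub, Submodule.coe_sum]
    rfl
  have hne : (single (1 : ℤ) (1 : k) : k⟦ℤ⟧) ≠ 0 := by
    rw [Ne, single_eq_zero_iff]; exact one_ne_zero
  refine ⟨fun b => ofPowerSeries ℤ k (η b), ?_, ?_, ?_⟩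
  · intro b n hn
    rcases hn.lt_or_eq with hn | rfl
    · exact ofPS_neg _ hn
    · have := ofPS_nat (η b) 0
      rw [Nat.cast_zero] at this
      rw [this, PowerSeries.coeff_zero_eq_constantCoeff_apply, hη0]
  · intro b
    have h1 := congrArg (ofPowerSeries ℤ k) (hη1 b)
    rw [hof, map_zero, mul_eq_zero] at h1
    have h2 := h1.resolve_left hne
    rw [hco] at h2
    exact h2
  · intro c1 c2
    -- common denominator
    have hden : ∀ c : ι → k⟦ℤ⟧, ∃ N : ℕ, ∀ b, ∀ n < -(N : ℤ), (c b).coeff n = 0 := by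
      intro c
      have h1 : ∀ b, ∃ N : ℕ, ∀ n < -(N : ℤ), (c b).coeff n = 0 := by
        intro b
        refine ⟨(-(c b).order).toNat, fun n hn => ?_⟩
        by_cases h0 : c b = 0
        · rw [h0, coeff_zero]
        · exact coeff_eq_zero_of_lt_order (by omega)
      choose N hN using h1
      refine ⟨Finset.univ.sup N, fun b n hn => hN b n (lt_of_lt_of_le hn ?_)⟩
      have : N b ≤ Finset.univ.sup N := Finset.le_sup (Finset.mem_univ b)
      omega
    obtain ⟨N1, hN1⟩ := hden c1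
    obtain ⟨N2, hN2⟩ := hden c2
    set m : ℤ := ((max N1 N2 : ℕ) : ℤ) with hm
    have hi : ∀ (c : ι → k⟦ℤ⟧) (N : ℕ), N ≤ max N1 N2 → (∀ b, ∀ n < -(N : ℤ), (c b).coeff n = 0) →
        ∀ b, ∀ n < 0, ((single (1 : ℤ) (1 : k) : k⟦ℤ⟧) * ((single m (1 : k) : k⟦ℤ⟧) * c b)).coeff n
          = 0 := by
      intro c N hNm hN b n hn
      rw [single_mul_coeff, single_mul_coeff]
      exact hN b _ (by omega)
    obtain ⟨x, hx1, hx2⟩ := hη2
      (fun b => ps ((single (1 : ℤ) (1 : k) : k⟦ℤ⟧) * ((single m (1 : k) : k⟦ℤ⟧) * c1 b)))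
      (fun b => ps ((single (1 : ℤ) (1 : k) : k⟦ℤ⟧) * ((single m (1 : k) : k⟦ℤ⟧) * c2 b)))
    have hmm : (single (-m) (1 : k) : k⟦ℤ⟧) * (single m (1 : k) : k⟦ℤ⟧) = 1 := by
      rw [single_mul_single, neg_add_cancel, one_mul]
      rfl
    refine ⟨(x : V), -m, hL' x, fun b => ⟨?_, ?_⟩⟩
    · have h1 := congrArg (ofPowerSeries ℤ k) (hx1 b)
      rw [hof, ofPS_ps (hi c1 N1 (le_max_left _ _) hN1 b)] at h1
      have h2 := mul_left_cancel₀ hne h1
      rw [smulr]
      have h3 : α b P1 (x : V) = (single m (1 : k) : k⟦ℤ⟧) * c1 b := h2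
      rw [h3, ← mul_assoc, hmm, one_mul]
    · have h1 := congrArg (ofPowerSeries ℤ k) (hx2 b)
      rw [hof, ofPS_ps (hi c2 N2 (le_max_right _ _) hN2 b)] at h1
      have h2 := mul_left_cancel₀ hne h1
      rw [smulr]
      rw [hco] at h2
      rw [h2, ← mul_assoc, hmm, one_mul]

end B7

end Vale.P199
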