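import Vale.Agent.P199.BL1a

/-!
# P199, B2.2 for moves : dependence modulo inner directions of the new state gives a relation between the
linear parts of the old normalised series
-/

open HahnSeries

namespace Vale.P199

namespace MoveData

variable {S : State} (D : MoveData S)

/-- constant term of a direction of the new state, as a map `S.I → B1` with values in `Q` -/
noncomputable def dir0 (p : D.I' → D.E.K1⟦ℤ⟧) (i : S.I) : D.E.B1 :=
  ∑ jk : Fin D.r × Fin D.r, (p (i, jk.1, jk.2)).coeff 0 • (D.E.u ^ (jk.1 : ℕ) * D.E.v ^ (jk.2 : ℕ))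

theorem dir0_comm (p : D.I' → D.E.K1⟦ℤ⟧) (i : S.I) (b : S.B) :
    D.dir0 p i * D.E.jB b = D.E.jB b * D.dir0 p i := by
  rw [dir0, Finset.sum_mul, Finset.mul_sum]
  refine Finset.sum_congr rfl fun jk _ => ?_
  rw [smul_mul_assoc, mul_smul_comm, D.uv_comm]

theorem lin_sh_coeff_neg (p : D.I' → D.E.K1⟦ℤ⟧) (hp : ∀ i, ∀ k < 0, (p i).coeff k = 0)
    (h : NC S.I S.B) (k : ℤ) (hk : k < 0) : (State.lin (D.sh h) p).coeff k = 0 := by
  rw [State.lin, HahnSeries.coeff_sum]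
  exact Finset.sum_eq_zero fun i' _ =>
    (smul_coeff_lower (hp i') (fun k hk => D.sh_coeff_neg h [i'] hk)).1 k hk

theorem lin_sh_coeff_zero (p : D.I' → D.E.K1⟦ℤ⟧) (hp : ∀ i, ∀ k < 0, (p i).coeff k = 0)
    (h : NC S.I S.B) : (State.lin (D.sh h) p).coeff 0 = linR D.E.jB h (D.dir0 p) := by
  rw [State.lin, HahnSeries.coeff_sum]
  have e : ∀ i' : D.I', (p i' • D.sh h [i']).coeff 0 =
      D.E.jB (h [i'.1]) * ((p i').coeff 0 • (D.E.u ^ (i'.2.1 : ℕ) * D.E.v ^ (i'.2.2 : ℕ))) := by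
    intro i'
    rw [(smul_coeff_lower (hp i') (fun k hk => D.sh_coeff_neg h [i'] hk)).2, sh_single_coeff_zero,
      mul_smul_comm]
  rw [Finset.sum_congr rfl fun i' _ => e i', Fintype.sum_prod_type, linR]
  refine Finset.sum_congr rfl fun i _ => ?_
  rw [dir0, Finset.mul_sum]

/-- only scalars commute with `jB B`, `V1` and `V2` -/
theorem cen_scalar (y : D.E.B1) (hB : ∀ b, y * D.E.jB b = D.E.jB b * y) (h1 : y * D.V1 = D.V1 * y)
    (h2 : y * D.V2 = D.V2 * y) : ∃ k : D.E.K1, algebraMap D.E.K1 D.E.B1 k = y := by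
  obtain ⟨b1, hb1⟩ := D.E.basis (Module.finBasis S.K S.B)
  have hadj := adjoin_of_basis (K := S.K) D.E.jB _ D.E.u D.E.v D.V1 D.V2 b1 hb1 D.gen
  refine D.E.central y fun z => ?_
  have hz : z ∈ Algebra.adjoin D.E.K1 (Set.range D.E.jB ∪ {D.V1, D.V2}) := by rw [hadj]; trivial
  induction hz using Algebra.adjoin_induction with
  | mem z hz =>
    rcases hz with ⟨s, rfl⟩ | hz
    · exact hB s
    · rcases hz with rfl | hz
      · exact h1
      · rw [Set.mem_singleton_iff] at hz; subst hz; exact h2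
  | algebraMap c => exact (Algebra.commutes c y).symm
  | add z w _ _ hz hw => rw [mul_add, add_mul, hz, hw]
  | mul z w _ _ hz hw => rw [← mul_assoc, hz, mul_assoc, hw, mul_assoc]

/-- (B2.2): if two integral directions of the new state are dependent modulo inner ones then there is a
relation between the linear parts of every normalised series conjugate to an element of the algebra
generated by `X, Y`. -/
theorem ind_bridge (p1 p2 : D.I' → D.E.K1⟦ℤ⟧) (hp1 : ∀ i, ∀ k < 0, (p1 i).coeff k = 0)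
    (hp2 : ∀ i, ∀ k < 0, (p2 i).coeff k = 0) (hdep : ¬ D.state.Indep p1 p2) :
    ∃ a1 a2 : D.E.K1, ¬ (a1 = 0 ∧ a2 = 0) ∧ ∃ q : D.E.B1,
      (∀ b, q * D.E.jB b = D.E.jB b * q) ∧
      ∀ F g h : NC S.I S.B, h ∈ Algebra.adjoin S.K {S.X, S.Y} → g [] ≠ 0 → g * h = F * g →
        (∀ w, F w * F [] = F [] * F w) →
        a1 • linR D.E.jB F (D.dir0 p1) + a2 • linR D.E.jB F (D.dir0 p2) =
          D.E.jB (State.lin F D.P1) * (q * D.V1 - D.V1 * q) +
          D.E.jB (State.lin F D.P2) * (q * D.V2 - D.V2 * q) := by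
  have hdep' : ∃ a b : D.E.K1⟦ℤ⟧, D.state.Inner (fun i => a * p1 i + b * p2 i) ∧
      ¬ (a = 0 ∧ b = 0) := by
    by_contra hcon
    apply hdep
    intro a b hab
    by_contra h
    exact hcon ⟨a, b, hab, h⟩
  obtain ⟨a, b, ⟨y, hX, hY⟩, hne⟩ := hdep'
  refine ind_core S D.E.jK D.E.jB D.E.comp (D.κ : ℤ) (by exact_mod_cast D.hκ) D.P1 D.P2 D.indep
    (fun h => D.sh h []) (fun h => State.lin (D.sh h) p1) (fun h => State.lin (D.sh h) p2)
    D.V1 D.V2 (fun b => (D.V1Q b).symm) (fun b => (D.V2Q b).symm) ?_ (fun h => D.sh_nil_coeff_κ h)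
    (D.dir0 p1) (D.dir0 p2) (D.dir0_comm p1) (D.dir0_comm p2)
    (fun h k hk => D.lin_sh_coeff_neg p1 hp1 h k hk) (fun h k hk => D.lin_sh_coeff_neg p2 hp2 h k hk)
    (fun h => D.lin_sh_coeff_zero p1 hp1 h) (fun h => D.lin_sh_coeff_zero p2 hp2 h)
    D.cen_scalar a b hne y ?_
  · intro h k hk
    rcases lt_trichotomy k 0 with hk0 | hk0 | hk0
    · rw [if_neg hk0.ne]; exact D.sh_coeff_neg h [] hk0
    · subst hk0
      rw [if_pos rfl, D.sh_nil_coeff_zero]
    · rw [if_neg hk0.ne']; exact D.sh_coeff_lt h [] hk0 hk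
  · intro h hh
    have h1 := State.lin_adjoin_of_inner (D.sh S.X) (D.sh S.Y)
      (fun j => a * p1 j + b * p2 j) y hX hY (D.sh h) (A3.map_adjoin D.mor hh)
    have h2 : State.lin (D.sh h) (fun j => a * p1 j + b * p2 j) =
        a • State.lin (D.sh h) p1 + b • State.lin (D.sh h) p2 := by
      rw [← State.lin_smul_dir, ← State.lin_smul_dir, ← State.lin_add_dir]
      rfl
    rw [h2] at h1
    exact h1

end MoveData

namespace Pt

variable {S0 : State} {f0 : NC S0.I S0.B}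

/-- (B2.2) for the series of a point -/
theorem ind_bridge (x : Pt S0 f0) (hf0 : f0 ∈ Algebra.adjoin S0.K {S0.X, S0.Y}) (D : MoveData x.S)
    (p1 p2 : D.I' → D.E.K1⟦ℤ⟧) (hp1 : ∀ i, ∀ k < 0, (p1 i).coeff k = 0)
    (hp2 : ∀ i, ∀ k < 0, (p2 i).coeff k = 0) (hdep : ¬ D.state.Indep p1 p2) :
    ∃ a1 a2 : D.E.K1, ¬ (a1 = 0 ∧ a2 = 0) ∧ ∃ q : D.E.B1,
      (∀ b, q * D.E.jB b = D.E.jB b * q) ∧
      a1 • linR D.E.jB x.f (D.dir0 p1) + a2 • linR D.E.jB x.f (D.dir0 p2) =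
        D.E.jB (State.lin x.f D.P1) * (q * D.V1 - D.V1 * q) +
        D.E.jB (State.lin x.f D.P2) * (q * D.V2 - D.V2 * q) := by
  obtain ⟨a1, a2, ha, q, hq, h⟩ := D.ind_bridge p1 p2 hp1 hp2 hdep
  exact ⟨a1, a2, ha, q, hq, h x.f x.g (x.m.Ψ f0) (A3.map_adjoin x.m hf0) x.g_nil_ne x.g_mul x.norm⟩

end Pt

end Vale.P199
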