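import Vale.Agent.P199.KKS
import Vale.Agent.P199.IndBridge
import Vale.Agent.P199.Dz

/-!
# P199, B7 : leading term of the pairing
-/

open HahnSeries

namespace Vale.P199

/-- product of integral series -/
theorem int_mul {R : Type*} [Ring R] {x y : R⟦ℤ⟧} (hx : ∀ n < 0, x.coeff n = 0)
    (hy : ∀ n < 0, y.coeff n = 0) :
    (∀ n < 0, (x * y).coeff n = 0) ∧ (x * y).coeff 0 = x.coeff 0 * y.coeff 0 := by
  have h := mul_coeff_of_lower hx hy
  rw [add_zero] at h
  exact ⟨h.1, h.2⟩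

/-- `single m 1` is central -/
theorem single_one_comm {R : Type*} [Ring R] (m : ℤ) (x : R⟦ℤ⟧) :
    single m (1 : R) * x = x * single m (1 : R) := by
  ext n
  rw [single_mul_coeff, mul_single_coeff, one_mul, mul_one]

/-- shifting a commutator relation by a power of `z` -/
theorem shift_comm {R : Type*} [Ring R] (m : ℤ) (a y : R⟦ℤ⟧) :
    single m (1 : R) * (a * y - y * a) = a * (single m (1 : R) * y) - single m (1 : R) * y * a := by
  rw [mul_sub, ← mul_assoc, single_one_comm, mul_assoc, ← mul_assoc (single m (1 : R))]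

namespace Pt

variable {S0 : State} {f0 : NC S0.I S0.B}

theorem quad_sh_coeff_neg {S : State} (D : MoveData S) (f : NC S.I S.B)
    (p q : D.I' → D.E.K1⟦ℤ⟧) (hp : ∀ i, ∀ n < 0, (p i).coeff n = 0)
    (hq : ∀ i, ∀ n < 0, (q i).coeff n = 0) :
    ∀ n < 0, (quad (D.sh f) p q).coeff n = 0 := by
  intro n hn
  rw [quad, HahnSeries.coeff_sum]
  refine Finset.sum_eq_zero fun i _ => ?_
  rw [HahnSeries.coeff_sum]
  refine Finset.sum_eq_zero fun j _ => ?_
  exact (smul_coeff_lower (m := 0) (int_mul (hp i) (hq j)).1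
    (fun k hk => D.sh_coeff_neg f [i, j] hk)).1 n hn

/-- LEADING TERM of the pairing: for integral directions `p, q` (in the kernel of the linear part of the
new series), `yt` integral with `F_1(p) = z⁻¹ [a', yt]` and `c` integral in the centralizer, the pairing
`tr (c f_2(p,q))` has coefficient `tr (c_0 yt_0 f_1(q_0))` at `z⁻¹` and no lower terms. -/
theorem pairing_lead (x : Pt S0 f0) (D : MoveData x.S) (p q : D.I' → D.E.K1⟦ℤ⟧)
    (hp : ∀ i, ∀ n < 0, (p i).coeff n = 0) (hq : ∀ i, ∀ n < 0, (q i).coeff n = 0)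
    (hp0 : State.lin (x.move D).f p = 0) (hq0 : State.lin (x.move D).f q = 0)
    (c : D.E.B1⟦ℤ⟧) (hc : c ∈ (x.move D).Z) (hci : ∀ n < 0, c.coeff n = 0)
    (yt : D.E.B1⟦ℤ⟧) (hyi : ∀ n < 0, yt.coeff n = 0)
    (hy : State.lin (D.sh x.f) p =
      single (-1) (1 : D.E.B1) * (D.sh x.f [] * yt - yt * D.sh x.f [])) :
    (∀ n < -1, (tr (D.E.K1⟦ℤ⟧) (D.E.B1⟦ℤ⟧) (c * quad (x.move D).f p q)).coeff n = 0) ∧
    (tr (D.E.K1⟦ℤ⟧) (D.E.B1⟦ℤ⟧) (c * quad (x.move D).f p q)).coeff (-1) =
      tr D.E.K1 D.E.B1 (c.coeff 0 * (yt.coeff 0 * linR D.E.jB x.f (D.dir0 q))) := by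
  rw [shift_comm] at hy
  rw [x.kks D p q hp0 hq0 c hc _ hy]
  -- the integral part
  have h1 : ∀ n < 0, (c * quad (D.sh x.f) p q).coeff n = 0 :=
    (int_mul hci (quad_sh_coeff_neg D x.f p q hp hq)).1
  -- the polar part
  have hlq : ∀ n < 0, (State.lin (D.sh x.f) q).coeff n = 0 := fun n hn =>
    D.lin_sh_coeff_neg q hq x.f n hn
  have h2 := int_mul hyi hlq
  have h3 := int_mul hci h2.1
  have e : c * (single (-1) (1 : D.E.B1) * yt * State.lin (D.sh x.f) q) =
      single (-1) (1 : D.E.B1) * (c * (yt * State.lin (D.sh x.f) q)) := by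
    rw [mul_assoc (single (-1) (1 : D.E.B1)), ← mul_assoc c, ← single_one_comm, mul_assoc]
  have h4 : ∀ n, (single (-1) (1 : D.E.B1) * (c * (yt * State.lin (D.sh x.f) q))).coeff n =
      (c * (yt * State.lin (D.sh x.f) q)).coeff (n + 1) := by
    intro n
    rw [single_mul_coeff, one_mul, sub_neg_eq_add]
  constructor
  · intro n hn
    rw [coeff_add, tr_laur_coeff, tr_laur_coeff, h1 n (by omega), e, h4, h3.1 (n + 1) (by omega),
      map_zero, add_zero]
  · rw [coeff_add, tr_laur_coeff, tr_laur_coeff, h1 (-1) (by omega), e, h4, map_zero, zero_add,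
      neg_add_cancel, h3.2, h2.2, D.lin_sh_coeff_zero q hq]

end Pt

end Vale.P199
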