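import Vale.Agent.P199.BL7c
import Vale.Agent.P199.B7Lead
import Vale.Agent.P199.B7Cor

/-!
# P199, B7 [7.11] : assembly of the final base
-/

open HahnSeries

namespace Vale.P199
namespace Pt

variable {S0 : State} {f0 : NC S0.I S0.B}

/-- integral directions whose linear part is `z⁻¹ [a', ỹ]` with `ỹ` integral -/
noncomputable def Lint (x : Pt S0 f0) (D : MoveData x.S) : AddSubgroup (D.I' → D.E.K1⟦ℤ⟧) where
  carrier := {p | (∀ i, ∀ n < 0, (p i).coeff n = 0) ∧ ∃ y : D.E.B1⟦ℤ⟧, (∀ n < 0, y.coeff n = 0) ∧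
    State.lin (D.sh x.f) p =
      single (-1) (1 : D.E.B1) * (D.sh x.f [] * y - y * D.sh x.f [])}
  zero_mem' := by
    refine ⟨fun i n _ => by rw [Pi.zero_apply, coeff_zero], 0, fun n _ => coeff_zero, ?_⟩
    rw [mul_zero, zero_mul, sub_zero, mul_zero]
    simp [State.lin]
  add_mem' := by
    rintro p q ⟨hp, y, hy, hly⟩ ⟨hq, y', hy', hly'⟩
    refine ⟨fun i n hn => ?_, y + y', fun n hn => ?_, ?_⟩
    · rw [Pi.add_apply, coeff_add, hp i n hn, hq i n hn, add_zero]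
    · rw [coeff_add, hy n hn, hy' n hn, add_zero]
    · have : State.lin (D.sh x.f) (p + q) = State.lin (D.sh x.f) p + State.lin (D.sh x.f) q := by
        simp only [State.lin, Pi.add_apply, add_smul, Finset.sum_add_distrib]
      rw [this, hly, hly', ← mul_add]
      congr 1
      rw [mul_add, add_mul]
      abel
  neg_mem' := by
    rintro p ⟨hp, y, hy, hly⟩
    refine ⟨fun i n hn => ?_, -y, fun n hn => ?_, ?_⟩
    · rw [Pi.neg_apply, coeff_neg, hp i n hn, neg_zero]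
    · rw [coeff_neg, hy n hn, neg_zero]
    · have : State.lin (D.sh x.f) (-p) = - State.lin (D.sh x.f) p := by
        simp only [State.lin, Pi.neg_apply, neg_smul, Finset.sum_neg_distrib]
      rw [this, hly, ← mul_neg]
      congr 1
      rw [mul_neg, neg_mul]
      abel

theorem mem_Lint (x : Pt S0 f0) (D : MoveData x.S) (p : D.I' → D.E.K1⟦ℤ⟧) :
    p ∈ x.Lint D ↔ (∀ i, ∀ n < 0, (p i).coeff n = 0) ∧ ∃ y : D.E.B1⟦ℤ⟧,
      (∀ n < 0, y.coeff n = 0) ∧ State.lin (D.sh x.f) p =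
      single (-1) (1 : D.E.B1) * (D.sh x.f [] * y - y * D.sh x.f []) := Iff.rfl

theorem lin_smul' {K B I : Type} [Field K] [Ring B] [Algebra K B] [Fintype I] (f : NC I B) (c : K)
    (p : I → K) : State.lin f (c • p) = c • State.lin f p := by
  simp only [State.lin, Finset.smul_sum, smul_smul, Pi.smul_apply, smul_eq_mul]

theorem Lint_smul (x : Pt S0 f0) (D : MoveData x.S) (c : D.E.K1⟦ℤ⟧) (hc : ∀ n < 0, c.coeff n = 0)
    (p : D.I' → D.E.K1⟦ℤ⟧) (hp : p ∈ x.Lint D) : c • p ∈ x.Lint D := by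
  obtain ⟨hp, y, hy, hly⟩ := hp
  refine ⟨fun i n hn => ?_, c • y, fun n hn => ?_, ?_⟩
  · rw [Pi.smul_apply, smul_eq_mul]
    exact (int_mul hc (hp i)).1 n hn
  · exact (smul_coeff_lower hc hy).1 n hn
  · rw [lin_smul', hly, ← mul_smul_comm]
    congr 1
    rw [smul_sub, mul_smul_comm, smul_mul_assoc]

theorem Lint_lin (x : Pt S0 f0) (D : MoveData x.S) {p : D.I' → D.E.K1⟦ℤ⟧} (hp : p ∈ x.Lint D) :
    State.lin (x.move D).f p = 0 := by
  obtain ⟨-, y, -, hly⟩ := hp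
  rw [x.lin_move_eq_zero_iff D p]
  exact ⟨_, by rw [hly, shift_comm]⟩

/-- the data of leading terms -/
theorem final_assembly (x : Pt S0 f0) (hf0 : f0 ∈ Algebra.adjoin S0.K {S0.X, S0.Y})
    (D : MoveData x.S) (X : D.E.B1) (hL : x.Leads D 1 X)
    (hX' : (x.move D).XMin) (hξ : (x.move D).ξ = x.ξ)
    (hC : Module.finrank (D.E.K1⟦ℤ⟧) (x.move D).C = Module.finrank D.E.K1 (x.calC D.E X))
    -- lifting
    (hlift : ∀ (P : x.S.I → D.E.B1) (y0 : D.E.B1), (∀ i b, D.E.jB b * P i = P i * D.E.jB b) →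
      D.E.jB x.a * y0 = y0 * D.E.jB x.a → linR D.E.jB x.f P = X * y0 - y0 * X →
      ∃ (p : D.I' → D.E.K1⟦ℤ⟧) (y : D.E.B1⟦ℤ⟧), (∀ i, ∀ n < 0, (p i).coeff n = 0) ∧
        D.dir0 p = P ∧ (∀ n < 0, y.coeff n = 0) ∧ y.coeff 0 = y0 ∧
        State.lin (D.sh x.f) p =
          single (-1) (1 : D.E.B1) * (D.sh x.f [] * y - y * D.sh x.f []))
    {ι : Type} [Fintype ι] [DecidableEq ι] (hι : x.ξ ≤ Fintype.card ι)
    (c : ι → x.S.B) (hc : ∀ b, D.E.jB (c b) ∈ x.calC D.E X)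
    (P01 P02 : x.S.I → D.E.B1) (y1 y2 : D.E.B1)
    (hP01 : ∀ i b, D.E.jB b * P01 i = P01 i * D.E.jB b)
    (hP02 : ∀ i b, D.E.jB b * P02 i = P02 i * D.E.jB b)
    (hy1 : D.E.jB x.a * y1 = y1 * D.E.jB x.a) (hy2 : D.E.jB x.a * y2 = y2 * D.E.jB x.a)
    (hl1 : linR D.E.jB x.f P01 = X * y1 - y1 * X) (hl2 : linR D.E.jB x.f P02 = X * y2 - y2 * X)
    (q01 q02 : ι → x.S.I → D.E.B1) (yq1 yq2 : ι → D.E.B1)
    (hq01 : ∀ b' i b, D.E.jB b * q01 b' i = q01 b' i * D.E.jB b)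
    (hq02 : ∀ b' i b, D.E.jB b * q02 b' i = q02 b' i * D.E.jB b)
    (hyq1 : ∀ b', D.E.jB x.a * yq1 b' = yq1 b' * D.E.jB x.a)
    (hyq2 : ∀ b', D.E.jB x.a * yq2 b' = yq2 b' * D.E.jB x.a)
    (hlq1 : ∀ b', linR D.E.jB x.f (q01 b') = X * yq1 b' - yq1 b' * X)
    (hlq2 : ∀ b', linR D.E.jB x.f (q02 b') = X * yq2 b' - yq2 b' * X)
    (h11 : (Matrix.of fun b b' => tr D.E.K1 D.E.B1
      (D.E.jB (c b) * (y1 * linR D.E.jB x.f (q01 b')))).det ≠ 0)
    (h22 : (Matrix.of fun b b' => tr D.E.K1 D.E.B1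
      (D.E.jB (c b) * (y2 * linR D.E.jB x.f (q02 b')))).det ≠ 0)
    (h12 : ∀ b b', tr D.E.K1 D.E.B1 (D.E.jB (c b) * (y1 * linR D.E.jB x.f (q02 b'))) = 0)
    (h0 : ∀ b, tr D.E.K1 D.E.B1 (D.E.jB (c b) * (y1 * linR D.E.jB x.f P02)) = 0)
    (hind : ∀ (a1 a2 : D.E.K1) (q : D.E.B1), (∀ b, q * D.E.jB b = D.E.jB b * q) →
      a1 • linR D.E.jB x.f P01 + a2 • linR D.E.jB x.f P02 =
        D.E.jB (State.lin x.f D.P1) * (q * D.V1 - D.V1 * q) +
        D.E.jB (State.lin x.f D.P2) * (q * D.V2 - D.V2 * q) → a1 = 0 ∧ a2 = 0) :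
    ∃ P1 P2 : D.I' → D.E.K1⟦ℤ⟧, D.state.Indep P1 P2 ∧
      State.lin (x.move D).f P1 = 0 ∧ State.lin (x.move D).f P2 = 0 ∧
      (∀ c ∈ (x.move D).C, tr (x.move D).S.K (x.move D).S.B (c * quad (x.move D).f P1 P2) = 0) ∧
      ∀ φ ψ : (x.move D).S.B →ₗ[(x.move D).S.K] (x.move D).S.K,
        (∀ c ∈ (x.move D).Coo, φ c = 0 ∧ ψ c = 0) →
        ∃ q : (x.move D).S.I → (x.move D).S.K, State.lin (x.move D).f q = 0 ∧
          ∀ c ∈ (x.move D).C, tr (x.move D).S.K (x.move D).S.B (c * quad (x.move D).f P1 q) = φ c ∧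
            tr (x.move D).S.K (x.move D).S.B (c * quad (x.move D).f P2 q) = ψ c := by
  -- lifts
  obtain ⟨P1, Y1, hP1i, hP1d, hY1i, hY10, hP1l⟩ := hlift P01 y1 hP01 hy1 hl1
  obtain ⟨P2, Y2, hP2i, hP2d, hY2i, hY20, hP2l⟩ := hlift P02 y2 hP02 hy2 hl2
  choose q1 Yq1 hq1i hq1d hYq1i hYq10 hq1l using fun b' => hlift (q01 b') (yq1 b') (hq01 b')
    (hyq1 b') (hlq1 b')
  choose q2 Yq2 hq2i hq2d hYq2i hYq20 hq2l using fun b' => hlift (q02 b') (yq2 b') (hq02 b')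
    (hyq2 b') (hlq2 b')
  have hP1L : P1 ∈ x.Lint D := ⟨hP1i, Y1, hY1i, hP1l⟩
  have hP2L : P2 ∈ x.Lint D := ⟨hP2i, Y2, hY2i, hP2l⟩
  have hq1L : ∀ b', q1 b' ∈ x.Lint D := fun b' => ⟨hq1i b', Yq1 b', hYq1i b', hq1l b'⟩
  have hq2L : ∀ b', q2 b' ∈ x.Lint D := fun b' => ⟨hq2i b', Yq2 b', hYq2i b', hq2l b'⟩
  choose c' hc'C hc'i hc'0 using fun b => x.lift_calC D 1 Nat.one_pos X hL hC _ (hc b)
  have hc'Z : ∀ b, c' b ∈ (x.move D).Z := fun b => ((x.mem_C_move D _).mp (hc'C b)).1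
  -- the forms
  set α : ι → (D.I' → D.E.K1⟦ℤ⟧) → (D.I' → D.E.K1⟦ℤ⟧) → D.E.K1⟦ℤ⟧ := fun b p q =>
    tr (D.E.K1⟦ℤ⟧) (D.E.B1⟦ℤ⟧) (c' b * quad (x.move D).f p q) with hα
  have hres : ∀ b p q (Y : D.E.B1⟦ℤ⟧), p ∈ x.Lint D → q ∈ x.Lint D → (∀ n < 0, Y.coeff n = 0) →
      State.lin (D.sh x.f) p = single (-1) (1 : D.E.B1) * (D.sh x.f [] * Y - Y * D.sh x.f []) →
      (∀ n < -1, (α b p q).coeff n = 0) ∧ (α b p q).coeff (-1) =
        tr D.E.K1 D.E.B1 (D.E.jB (c b) * (Y.coeff 0 * linR D.E.jB x.f (D.dir0 q))) := by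
    intro b p q Y hp hq hY hl
    have := x.pairing_lead D p q hp.1 hq.1 (x.Lint_lin D hp) (x.Lint_lin D hq) (c' b) (hc'Z b)
      (hc'i b) Y hY hl
    rw [hc'0 b] at this
    exact this
  obtain ⟨η, hη, hη1, hη2⟩ := B7.correct_laur (x.Lint D) (x.Lint_smul D) α
    (fun b p q q' => by rw [hα]; simp only [quad_add_right, mul_add, map_add])
    (fun b p c q => by rw [hα]; simp only [quad_smul_right, mul_smul_comm, map_smul, smul_eq_mul])
    (fun b p p' q => by rw [hα]; simp only [quad_add_left, mul_add, map_add])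
    (fun b c p q => by rw [hα]; simp only [quad_smul_left, mul_smul_comm, map_smul, smul_eq_mul])
    (fun b p hp q hq => by
      obtain ⟨-, Y, hY, hl⟩ := id hp
      exact (hres b p q Y hp hq hY hl).1)
    P1 P2 hP1L hP2L q1 q2 hq1L hq2L
    (by
      have : (Matrix.of fun b b' => (α b P1 (q1 b')).coeff (-1)) = Matrix.of fun b b' =>
          tr D.E.K1 D.E.B1 (D.E.jB (c b) * (y1 * linR D.E.jB x.f (q01 b'))) := by
        ext b b'
        rw [Matrix.of_apply, Matrix.of_apply, (hres b P1 (q1 b') Y1 hP1L (hq1L b') hY1i hP1l).2,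
          hq1d b', hY10]
      rw [this]
      exact h11)
    (by
      have : (Matrix.of fun b b' => (α b P2 (q2 b')).coeff (-1)) = Matrix.of fun b b' =>
          tr D.E.K1 D.E.B1 (D.E.jB (c b) * (y2 * linR D.E.jB x.f (q02 b'))) := by
        ext b b'
        rw [Matrix.of_apply, Matrix.of_apply, (hres b P2 (q2 b') Y2 hP2L (hq2L b') hY2i hP2l).2,
          hq2d b', hY20]
      rw [this]
      exact h22)
    (by
      intro b b'
      rw [(hres b P1 (q2 b') Y1 hP1L (hq2L b') hY1i hP1l).2, hq2d b', hY10]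
      exact h12 b b')
    (by
      intro b
      rw [(hres b P1 P2 Y1 hP1L hP2L hY1i hP1l).2, hP2d, hY10]
      exact h0 b)
  set P2' : D.I' → D.E.K1⟦ℤ⟧ := P2 - ∑ b', η b' • q1 b' with hP2'
  have hP2'L : P2' ∈ x.Lint D := by
    refine (x.Lint D).sub_mem hP2L (AddSubgroup.sum_mem _ fun b' _ => ?_)
    exact x.Lint_smul D _ (fun n hn => hη b' n hn.le) _ (hq1L b')
  have hP2'd : D.dir0 P2' = P02 := by
    rw [← hP2d]
    funext i
    rw [MoveData.dir0, MoveData.dir0]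
    refine Finset.sum_congr rfl fun jk _ => ?_
    congr 1
    rw [hP2', Pi.sub_apply, coeff_sub, Finset.sum_apply, coeff_sum, Finset.sum_eq_zero, sub_zero]
    intro b' _
    rw [Pi.smul_apply, smul_eq_mul, (int_mul (fun n hn => hη b' n hn.le) (hq1i b' _)).2,
      hη b' 0 le_rfl, zero_mul]
  have hindep : D.state.Indep P1 P2' := by
    by_contra hcon
    obtain ⟨a1, a2, ha, q, hq, he⟩ := x.ind_bridge hf0 D P1 P2' hP1i hP2'L.1 hcon
    rw [hP1d, hP2'd] at he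
    exact ha (hind a1 a2 q hq he)
  have hl1 : State.lin (x.move D).f P1 = 0 := x.Lint_lin D hP1L
  have hl2 : State.lin (x.move D).f P2' = 0 := x.Lint_lin D hP2'L
  obtain ⟨r1, r2⟩ := final_base_of (x.move D) hf0 hX' P1 P2' hindep hl1 hl2 (by rw [hξ]; exact hι)
    c' hc'C hη1 (by
      intro z z'
      obtain ⟨v, m, hv, hv'⟩ := hη2 z z'
      refine ⟨(single m (1 : D.E.K1) : D.E.K1⟦ℤ⟧) • v, ?_, hv'⟩
      have := lin_smul' (x.move D).f (single m (1 : D.E.K1) : D.E.K1⟦ℤ⟧) v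
      rw [this, x.Lint_lin D hv]
      exact smul_zero _)
  exact ⟨P1, P2', hindep, hl1, hl2, r1, r2⟩

end Pt
end Vale.P199
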