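import Mathlib

/-!
# P199, B7: pure algebra lemmas

(B7a) identities in the symbol algebra, (B7b) the span of `W * W_12`, (B7c) selection of functionals,
(B7d) correction over a local ring.
-/

namespace Vale.P199.B7

section Symbol

variable {K R : Type} [Field K] [DivisionRing R] [Algebra K R]

theorem comm_pow {u v : R} {ζ : K} (huv : u * v = ζ • (v * u)) (j : ℕ) :
    u * v ^ j = ζ ^ j • (v ^ j * u) := by
  induction j with
  | zero => simp
  | succ n ih =>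
    rw [pow_succ, ← mul_assoc, ih, smul_mul_assoc, mul_assoc, huv, mul_smul_comm, smul_smul,
      pow_succ, mul_assoc]

theorem comm_pow' {u v : R} {ζ : K} (hζ : ζ ≠ 0) (huv : u * v = ζ • (v * u)) (j : ℕ) :
    v ^ j * u = (ζ ^ j)⁻¹ • (u * v ^ j) := by
  rw [comm_pow huv, smul_smul, inv_mul_cancel₀ (pow_ne_zero _ hζ), one_smul]

/-- (A) -/
theorem symA {u v w w1 w2 : R} {ζ : K} (hζ : ζ ≠ 0) (huv : u * v = ζ • (v * u)) (j : ℕ)
    (hw1 : w1 ≠ 0) (hu : Commute w u) (hu1 : Commute w1 u) (hv : Commute w v)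
    (hv1 : Commute w1 v) (hv2 : Commute w2 v) (h1 : Commute w w1) (h2 : Commute w w2)
    (h12 : Commute w1 w2) :
    (w1 * u + w2 * v) * ((w * w1⁻¹) * v ^ j) - ((w * w1⁻¹) * v ^ j) * (w1 * u + w2 * v)
      = (1 - (ζ ^ j)⁻¹) • (w * (u * v ^ j)) := by
  have hx_u : Commute (w * w1⁻¹) u := hu.mul_left hu1.inv_left₀
  have hx_v : Commute (w * w1⁻¹) v := hv.mul_left hv1.inv_left₀
  have hx_1 : Commute (w * w1⁻¹) w1 := h1.mul_left (Commute.refl w1).inv_left₀
  have hx_2 : Commute (w * w1⁻¹) w2 := h2.mul_left h12.inv_left₀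
  set x := w * w1⁻¹ with hx
  have hxw : x * w1 = w := by rw [hx, mul_assoc, inv_mul_cancel₀ hw1, mul_one]
  have e1 : w1 * u * (x * v ^ j) = w * (u * v ^ j) := by
    rw [mul_assoc w1 u, ← mul_assoc u x, ← hx_u.eq, mul_assoc x u, ← mul_assoc w1 x, ← hx_1.eq, hxw]
  have e2 : w2 * v * (x * v ^ j) = x * w2 * v ^ (j + 1) := by
    rw [mul_assoc w2 v, ← mul_assoc v x, ← hx_v.eq, mul_assoc x v, ← mul_assoc w2 x, ← hx_2.eq,
      pow_succ']
  have e3 : x * v ^ j * (w1 * u) = (ζ ^ j)⁻¹ • (w * (u * v ^ j)) := by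
    rw [mul_assoc x, ← mul_assoc (v ^ j) w1, ← (hv1.pow_right j).eq, mul_assoc w1,
      comm_pow' hζ huv, ← mul_assoc x, hxw, mul_smul_comm]
  have e4 : x * v ^ j * (w2 * v) = x * w2 * v ^ (j + 1) := by
    rw [mul_assoc x, ← mul_assoc (v ^ j) w2, ← (hv2.pow_right j).eq, mul_assoc w2, ← mul_assoc x,
      pow_succ]
  rw [add_mul, mul_add, e1, e2, e3, e4, sub_smul, one_smul]
  abel

/-- (B) -/
theorem symB {u v h w1 w2 : R} {ζ : K} (hζ : ζ ≠ 0) (hu0 : u ≠ 0) (hv0 : v ≠ 0)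
    (huv : u * v = ζ • (v * u)) (j : ℕ)
    (hu : Commute h u) (hu1 : Commute w1 u) (hu2 : Commute w2 u) (hv : Commute h v)
    (hv1 : Commute w1 v) (hv2 : Commute w2 v) (h1 : Commute h w1) (h2 : Commute h w2) :
    (w1 * u + w2 * v) * (h * (u⁻¹ * (v⁻¹) ^ j)) - (h * (u⁻¹ * (v⁻¹) ^ j)) * (w1 * u + w2 * v)
      = (1 - ζ ^ j) • (w1 * h * (v⁻¹) ^ j) + (ζ - 1) • (w2 * h * (u⁻¹ * (v⁻¹) ^ j * v)) := by
  have huvi : u * v⁻¹ = ζ⁻¹ • (v⁻¹ * u) := by
    have := congrArg (fun t => v⁻¹ * t * v⁻¹) huv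
    rw [mul_smul_comm, smul_mul_assoc, mul_assoc v⁻¹ (u * v), mul_assoc u v, mul_inv_cancel₀ hv0,
      mul_one, ← mul_assoc v⁻¹ v, inv_mul_cancel₀ hv0, one_mul] at this
    rw [this, smul_smul, inv_mul_cancel₀ hζ, one_smul]
  have hp : (v⁻¹) ^ j * u = ζ ^ j • (u * (v⁻¹) ^ j) := by
    have := comm_pow' (inv_ne_zero hζ) huvi j
    rw [this, inv_pow, inv_inv]
  have hvu : v * u⁻¹ = ζ • (u⁻¹ * v) := by
    have := congrArg (fun t => u⁻¹ * t * u⁻¹) huv
    rw [mul_smul_comm, smul_mul_assoc, ← mul_assoc u⁻¹ u, inv_mul_cancel₀ hu0, one_mul,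
      mul_assoc u⁻¹ (v * u), mul_assoc v u, mul_inv_cancel₀ hu0, mul_one] at this
    exact this
  have e1 : w1 * u * (h * (u⁻¹ * (v⁻¹) ^ j)) = w1 * h * (v⁻¹) ^ j := by
    rw [mul_assoc w1 u, ← mul_assoc u h, ← hu.eq, mul_assoc h u, ← mul_assoc u u⁻¹,
      mul_inv_cancel₀ hu0, one_mul, mul_assoc]
  have e2 : w2 * v * (h * (u⁻¹ * (v⁻¹) ^ j)) = ζ • (w2 * h * (u⁻¹ * (v⁻¹) ^ j * v)) := by
    have hvv : v * (v⁻¹) ^ j = (v⁻¹) ^ j * v := ((Commute.refl v).inv_right₀.pow_right j).eq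
    rw [mul_assoc w2 v, ← mul_assoc v h, ← hv.eq, mul_assoc h v, ← mul_assoc v u⁻¹, hvu,
      smul_mul_assoc, mul_assoc u⁻¹ v, hvv, mul_smul_comm, mul_smul_comm]
    simp only [mul_assoc]
  have e3 : h * (u⁻¹ * (v⁻¹) ^ j) * (w1 * u) = ζ ^ j • (w1 * h * (v⁻¹) ^ j) := by
    have c1 : Commute (u⁻¹ * (v⁻¹) ^ j) w1 :=
      (hu1.symm.inv_left₀).mul_left ((hv1.symm.inv_left₀).pow_left j)
    rw [mul_assoc h, ← mul_assoc _ w1 u, c1.eq, mul_assoc w1, mul_assoc u⁻¹, hp, mul_smul_comm,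
      ← mul_assoc u⁻¹ u, inv_mul_cancel₀ hu0, one_mul, mul_smul_comm, mul_smul_comm, ← mul_assoc h,
      h1.eq]
  have e4 : h * (u⁻¹ * (v⁻¹) ^ j) * (w2 * v) = w2 * h * (u⁻¹ * (v⁻¹) ^ j * v) := by
    have c1 : Commute (u⁻¹ * (v⁻¹) ^ j) w2 :=
      (hu2.symm.inv_left₀).mul_left ((hv2.symm.inv_left₀).pow_left j)
    rw [mul_assoc h, ← mul_assoc _ w2 v, c1.eq, mul_assoc w2, ← mul_assoc h w2, h2.eq]
  rw [add_mul, mul_add, e1, e2, e3, e4, sub_smul, one_smul, sub_smul, one_smul]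
  abel

end Symbol

section Field

open Module

variable {K B : Type} [Field K] [DivisionRing B] [Algebra K B]

/-- `H` is a commutative subfield of `B` containing `K` (as a subspace) -/
structure IsSubfield (H : Submodule K B) : Prop where
  one : (1 : B) ∈ H
  mul : ∀ x ∈ H, ∀ y ∈ H, x * y ∈ H

theorem mulLeft_inj {w : B} (hw : w ≠ 0) : Function.Injective (LinearMap.mulLeft K w) :=
  fun _ _ h => mul_left_cancel₀ hw h

theorem finrank_map_mulLeft (H : Submodule K B) {w : B} (hw : w ≠ 0) :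
    finrank K (H.map (LinearMap.mulLeft K w)) = finrank K H :=
  LinearEquiv.finrank_eq (Submodule.equivMapOfInjective _ (mulLeft_inj hw) H).symm

variable [FiniteDimensional K B]

theorem map_mulLeft_eq {H : Submodule K B} (hH : IsSubfield H) {x : B} (hx : x ∈ H) (hx0 : x ≠ 0) :
    H.map (LinearMap.mulLeft K x) = H := by
  have hle : H.map (LinearMap.mulLeft K x) ≤ H := by
    rintro _ ⟨y, hy, rfl⟩
    exact hH.mul x hx y hy
  exact Submodule.eq_of_le_of_finrank_eq hle (finrank_map_mulLeft H hx0)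

/-- `w₁ H = w₀ H` for `0 ≠ w₁ ∈ w₀ H` -/
theorem map_mulLeft_eq' {H : Submodule K B} (hH : IsSubfield H) {w0 w1 : B}
    (h1 : w1 ∈ H.map (LinearMap.mulLeft K w0)) (h10 : w1 ≠ 0) :
    H.map (LinearMap.mulLeft K w1) = H.map (LinearMap.mulLeft K w0) := by
  obtain ⟨x, hx, rfl⟩ := h1
  have hx0 : x ≠ 0 := by
    rintro rfl
    simp at h10
  have : (LinearMap.mulLeft K (LinearMap.mulLeft K w0 x)) =
      (LinearMap.mulLeft K w0) ∘ₗ (LinearMap.mulLeft K x) := by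
    ext y; simp
  rw [this, Submodule.map_comp, map_mulLeft_eq hH hx hx0]

/-- `W_12 = {h ∈ H : w₁ h ∈ W, w₂ h ∈ W}` -/
def W12 (H W : Submodule K B) (w1 w2 : B) : Submodule K B :=
  (H ⊓ W.comap (LinearMap.mulLeft K w1)) ⊓ (H ⊓ W.comap (LinearMap.mulLeft K w2))

omit [FiniteDimensional K B] in
theorem mem_W12 {H W : Submodule K B} {w1 w2 h : B} :
    h ∈ W12 H W w1 w2 ↔ h ∈ H ∧ w1 * h ∈ W ∧ w2 * h ∈ W := by
  simp only [W12, Submodule.mem_inf, Submodule.mem_comap, LinearMap.mulLeft_apply]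
  tauto

omit [FiniteDimensional K B] in
theorem W12_le {H W : Submodule K B} {w1 w2 : B} : W12 H W w1 w2 ≤ H :=
  fun _ hx => (mem_W12.1 hx).1

theorem finrank_one {H W : Submodule K B} (hH : IsSubfield H) {w0 w1 : B}
    (hW : W ≤ H.map (LinearMap.mulLeft K w0)) (h1 : w1 ∈ W) (h10 : w1 ≠ 0) :
    finrank K (H ⊓ W.comap (LinearMap.mulLeft K w1) : Submodule K B) = finrank K W := by
  have e : (H ⊓ W.comap (LinearMap.mulLeft K w1) : Submodule K B).map
      (LinearMap.mulLeft K w1) = W := by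
    apply le_antisymm
    · rintro _ ⟨y, hy, rfl⟩
      exact hy.2
    · intro x hx
      have := hW hx
      rw [← map_mulLeft_eq' hH (hW h1) h10] at this
      obtain ⟨y, hy, rfl⟩ := this
      exact ⟨y, ⟨hy, hx⟩, rfl⟩
  rw [← finrank_map_mulLeft _ h10, e]

theorem finrank_W12 {H W : Submodule K B} (hH : IsSubfield H) {w0 w1 w2 : B}
    (hW : W ≤ H.map (LinearMap.mulLeft K w0)) (h1 : w1 ∈ W) (h10 : w1 ≠ 0) (h2 : w2 ∈ W)
    (h20 : w2 ≠ 0) :
    2 * finrank K W ≤ finrank K H + finrank K (W12 H W w1 w2) := by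
  have h := Submodule.finrank_sup_add_finrank_inf_eq
    (H ⊓ W.comap (LinearMap.mulLeft K w1)) (H ⊓ W.comap (LinearMap.mulLeft K w2))
  rw [finrank_one hH hW h1 h10, finrank_one hH hW h2 h20] at h
  have hle : finrank K ((H ⊓ W.comap (LinearMap.mulLeft K w1)) ⊔
      (H ⊓ W.comap (LinearMap.mulLeft K w2)) : Submodule K B) ≤ finrank K H :=
    Submodule.finrank_mono (sup_le inf_le_left inf_le_left)
  have e : finrank K (W12 H W w1 w2) = finrank K ((H ⊓ W.comap (LinearMap.mulLeft K w1)) ⊓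
      (H ⊓ W.comap (LinearMap.mulLeft K w2)) : Submodule K B) := rfl
  omega

/-- the span of the products is everything -/
theorem span_mul_eq {H W U : Submodule K B} (hH : IsSubfield H) {w0 : B}
    (hW : W ≤ H.map (LinearMap.mulLeft K w0)) (hU : U ≤ H)
    (hdim : finrank K H < finrank K W + finrank K U) :
    Submodule.span K {x : B | ∃ w ∈ W, ∃ h ∈ U, x = w * h} = H.map (LinearMap.mulLeft K w0) := by
  classical
  set S := Submodule.span K {x : B | ∃ w ∈ W, ∃ h ∈ U, x = w * h} with hS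
  set V := H.map (LinearMap.mulLeft K w0) with hV
  have hVH : ∀ v ∈ V, ∀ h ∈ H, v * h ∈ V := by
    rintro _ ⟨y, hy, rfl⟩ h hh
    exact ⟨y * h, hH.mul y hy h hh, by simp [mul_assoc]⟩
  have hSV : S ≤ V := by
    rw [hS, Submodule.span_le]
    rintro _ ⟨w, hw, h, hh, rfl⟩
    exact hVH w (hW hw) h (hU hh)
  by_contra hne
  obtain ⟨x, hxV, hxS⟩ : ∃ x ∈ V, x ∉ S := by
    by_contra hcon
    push Not at hcon
    exact hne (le_antisymm hSV hcon)
  obtain ⟨φ, hφx, hφS⟩ := Submodule.exists_le_ker_of_notMem hxS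
  -- the map `W → annihilator of U`
  let U' : Submodule K H := U.comap H.subtype
  have hU' : finrank K U' = finrank K U :=
    LinearEquiv.finrank_eq (Submodule.comapSubtypeEquivOfLe hU)
  let Φ : W →ₗ[K] Module.Dual K H :=
    { toFun := fun w => (φ ∘ₗ LinearMap.mulLeft K (w : B)) ∘ₗ H.subtype
      map_add' := by intro a b; ext h; simp [add_mul]
      map_smul' := by intro c a; ext h; simp }
  have hΦ : ∀ (w : W) (h : H), Φ w h = φ ((w : B) * h) := fun w h => rfl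
  have hinj : Function.Injective Φ := by
    rw [injective_iff_map_eq_zero]
    intro w hw0
    by_contra hne0
    have hwne : (w : B) ≠ 0 := fun h => hne0 (Subtype.ext h)
    have hx' : x ∈ H.map (LinearMap.mulLeft K (w : B)) := by
      rw [map_mulLeft_eq' hH (hW w.2) hwne]; exact hxV
    obtain ⟨y, hy, hyx⟩ := hx'
    have := LinearMap.congr_fun hw0 ⟨y, hy⟩
    rw [hΦ] at this
    apply hφx
    rw [← hyx]
    simpa using this
  have hran : LinearMap.range Φ ≤ U'.dualAnnihilator := by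
    rintro _ ⟨w, rfl⟩
    rw [Submodule.mem_dualAnnihilator]
    intro h hh
    rw [hΦ]
    exact hφS (Submodule.subset_span ⟨w, w.2, h, hh, rfl⟩)
  have h1 : finrank K W ≤ finrank K U'.dualAnnihilator := by
    rw [← LinearMap.finrank_range_of_inj hinj]
    exact Submodule.finrank_mono hran
  have h2 := Subspace.finrank_add_finrank_dualAnnihilator_eq U'
  omega

end Field

end Vale.P199.B7
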