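import Mathlib

/-!
# P199, B7c and B7d: selection of functionals, correction over a local ring
-/

namespace Vale.P199.B7

open Module

/-- (B7c) a separating family of functionals on `span (c b)` contains an invertible square matrix -/
theorem exists_minor {K V J : Type} [Field K] [AddCommGroup V] [Module K V] {n : ℕ}
    (c : Fin n → V) (ψ : J → V → K) (hadd : ∀ j x y, ψ j (x + y) = ψ j x + ψ j y)
    (hsmul : ∀ j (a : K) x, ψ j (a • x) = a * ψ j x)
    (h : ∀ γ : Fin n → K, (∀ j, ψ j (∑ b, γ b • c b) = 0) → γ = 0) :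
    ∃ j : Fin n → J, (Matrix.of fun b i => ψ (j i) (c b)).det ≠ 0 := by
  classical
  have hsum : ∀ j (γ : Fin n → K), ψ j (∑ b, γ b • c b) = ∑ b, γ b * ψ j (c b) := by
    intro j γ
    let L : V →ₗ[K] K := { toFun := ψ j, map_add' := hadd j, map_smul' := hsmul j }
    have : L (∑ b, γ b • c b) = ∑ b, γ b * L (c b) := by
      rw [map_sum]
      exact Finset.sum_congr rfl fun b _ => by rw [map_smul, smul_eq_mul]
    exact this
  set s : Set (Fin n → K) := Set.range fun j : J => fun b => ψ j (c b) with hs
  have hspan : Submodule.span K s = ⊤ := by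
    by_contra hne
    obtain ⟨φ, hφ0, hφs⟩ := Submodule.exists_le_ker_of_lt_top _ (lt_top_iff_ne_top.2 hne)
    apply hφ0
    have hφ : ∀ x : Fin n → K, φ x = ∑ b, φ (Pi.single b 1) * x b := by
      intro x
      conv_lhs => rw [pi_eq_sum_univ' x]
      rw [map_sum]
      refine Finset.sum_congr rfl fun b _ => ?_
      rw [map_smul, smul_eq_mul, mul_comm]
    have hγ : (fun b => φ (Pi.single b 1)) = 0 := by
      apply h
      intro j
      rw [hsum]
      have : φ (fun b => ψ j (c b)) = 0 := hφs (Submodule.subset_span ⟨j, rfl⟩)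
      rw [hφ] at this
      exact this
    ext b
    simpa using congrFun hγ b
  obtain ⟨f, hfs, hfspan, hfli⟩ := Submodule.exists_fun_fin_finrank_span_eq K s
  have hfin : finrank K (Submodule.span K s) = n := by
    rw [hspan, finrank_top]; simp
  have hf' : ∀ i : Fin n, ∃ j : J, (fun b => ψ j (c b)) = f (Fin.cast hfin.symm i) := by
    intro i
    obtain ⟨j, hj⟩ := hfs (Fin.cast hfin.symm i)
    exact ⟨j, hj⟩
  choose j hj using hf'
  refine ⟨j, ?_⟩
  have hli : LinearIndependent K (fun i : Fin n => (fun b => ψ (j i) (c b))) := by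
    have : (fun i : Fin n => (fun b => ψ (j i) (c b))) = f ∘ (Fin.cast hfin.symm) := by
      funext i; exact hj i
    rw [this]
    exact hfli.comp _ (Fin.cast_injective _)
  have hu : IsUnit (Matrix.of fun i b => ψ (j i) (c b)) := by
    rw [← Matrix.linearIndependent_rows_iff_isUnit]
    exact hli
  rw [Matrix.isUnit_iff_isUnit_det, ← Matrix.det_transpose] at hu
  exact hu.ne_zero

/-- (B7d) correction and surjectivity over a local ring -/
theorem correct {R k L ι : Type} [CommRing R] [Field k] [Fintype ι] [DecidableEq ι]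
    (π : R →+* k) (hloc : ∀ x, π x ≠ 0 → IsUnit x)
    (α : ι → L → L → R) [AddCommGroup L] [Module R L]
    (addr : ∀ b x y y', α b x (y + y') = α b x y + α b x y')
    (smulr : ∀ b x (c : R) y, α b x (c • y) = c * α b x y)
    (addl : ∀ b x x' y, α b (x + x') y = α b x y + α b x' y)
    (smull : ∀ b (c : R) x y, α b (c • x) y = c * α b x y)
    (P1 P2 : L) (q1 q2 : ι → L)
    (h11 : (Matrix.of fun b b' => π (α b P1 (q1 b'))).det ≠ 0)
    (h22 : (Matrix.of fun b b' => π (α b P2 (q2 b'))).det ≠ 0)
    (h12 : ∀ b b', π (α b P1 (q2 b')) = 0)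
    (h0 : ∀ b, π (α b P1 P2) = 0) :
    ∃ η : ι → R, (∀ b, π (η b) = 0) ∧
      (∀ b, α b P1 (P2 - ∑ b', η b' • q1 b') = 0) ∧
      ∀ c1 c2 : ι → R, ∃ x : L, (∀ b, α b P1 x = c1 b) ∧
        (∀ b, α b (P2 - ∑ b', η b' • q1 b') x = c2 b) := by
  classical
  -- sums
  have sumr : ∀ b x (t : ι → R) (q : ι → L), α b x (∑ b', t b' • q b') = ∑ b', α b x (q b') * t b' := by
    intro b x t q
    let F : L →ₗ[R] R := { toFun := α b x, map_add' := addr b x, map_smul' := fun c y => smulr b x c y }
    have : F (∑ b', t b' • q b') = ∑ b', F (q b') * t b' := by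
      rw [map_sum]
      exact Finset.sum_congr rfl fun b' _ => by rw [map_smul, smul_eq_mul, mul_comm]
    exact this
  have subr : ∀ b x y y', α b x (y - y') = α b x y - α b x y' := by
    intro b x y y'
    let F : L →ₗ[R] R := { toFun := α b x, map_add' := addr b x, map_smul' := fun c y => smulr b x c y }
    exact map_sub F y y'
  have suml : ∀ b y (t : ι → R) (q : ι → L), α b (∑ b', t b' • q b') y = ∑ b', t b' * α b (q b') y := by
    intro b y t q
    let F : L →ₗ[R] R :=
      { toFun := fun x => α b x y, map_add' := fun x x' => addl b x x' y,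
        map_smul' := fun c x => smull b c x y }
    have : F (∑ b', t b' • q b') = ∑ b', t b' * F (q b') := by
      rw [map_sum]
      exact Finset.sum_congr rfl fun b' _ => by rw [map_smul, smul_eq_mul]
    exact this
  have subl : ∀ b x x' y, α b (x - x') y = α b x y - α b x' y := by
    intro b x x' y
    let F : L →ₗ[R] R :=
      { toFun := fun x => α b x y, map_add' := fun x x' => addl b x x' y,
        map_smul' := fun c x => smull b c x y }
    exact map_sub F x x'
  -- determinants
  have detu : ∀ (m : Type) [Fintype m] [DecidableEq m] (N : Matrix m m R),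
      (N.map π).det ≠ 0 → IsUnit N.det := by
    intro m _ _ N hN
    apply hloc
    rw [RingHom.map_det]
    exact hN
  set N : Matrix ι ι R := Matrix.of fun b b' => α b P1 (q1 b') with hN
  have hNu : IsUnit N.det := detu ι N (by
    have : N.map π = Matrix.of fun b b' => π (α b P1 (q1 b')) := by ext; rfl
    rw [this]; exact h11)
  set β : ι → R := fun b => α b P1 P2 with hβ
  set η : ι → R := (N⁻¹).mulVec β with hη
  have hNη : N.mulVec η = β := by
    rw [hη, Matrix.mulVec_mulVec, Matrix.mul_nonsing_inv _ hNu, Matrix.one_mulVec]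
  have hπη : ∀ b, π (η b) = 0 := by
    intro b
    rw [hη, Matrix.mulVec, dotProduct, map_sum]
    refine Finset.sum_eq_zero fun i _ => ?_
    rw [map_mul, hβ, h0, mul_zero]
  refine ⟨η, hπη, ?_, ?_⟩
  · intro b
    rw [subr, sumr]
    have : ∑ b', α b P1 (q1 b') * η b' = (N.mulVec η) b := rfl
    rw [this, hNη, hβ, sub_self]
  · intro c1 c2
    set P2' := P2 - ∑ b', η b' • q1 b' with hP2'
    have hred : ∀ b y, π (α b P2' y) = π (α b P2 y) := by
      intro b y
      rw [hP2', subl, suml, map_sub, map_sum, Finset.sum_eq_zero, sub_zero]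
      intro i _
      rw [map_mul, hπη, zero_mul]
    -- the big matrix
    let A : Matrix ι ι R := Matrix.of fun b b' => α b P1 (q1 b')
    let Bm : Matrix ι ι R := Matrix.of fun b b' => α b P1 (q2 b')
    let Cm : Matrix ι ι R := Matrix.of fun b b' => α b P2' (q1 b')
    let Dm : Matrix ι ι R := Matrix.of fun b b' => α b P2' (q2 b')
    have hbig : IsUnit (Matrix.fromBlocks A Bm Cm Dm).det := by
      apply detu
      have e : (Matrix.fromBlocks A Bm Cm Dm).map π =
          Matrix.fromBlocks (Matrix.of fun b b' => π (α b P1 (q1 b'))) 0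
            (Cm.map π) (Matrix.of fun b b' => π (α b P2 (q2 b'))) := by
        rw [Matrix.fromBlocks_map]
        congr 1
        · ext b b'; exact h12 b b'
        · ext b b'; exact hred b (q2 b')
      rw [e, Matrix.det_fromBlocks_zero₁₂]
      exact mul_ne_zero h11 h22
    let τ : ι ⊕ ι → R := Sum.elim c1 c2
    let t : ι ⊕ ι → R := ((Matrix.fromBlocks A Bm Cm Dm)⁻¹).mulVec τ
    have ht : (Matrix.fromBlocks A Bm Cm Dm).mulVec t = τ := by
      rw [Matrix.mulVec_mulVec, Matrix.mul_nonsing_inv _ hbig, Matrix.one_mulVec]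
    refine ⟨∑ b', t (Sum.inl b') • q1 b' + ∑ b', t (Sum.inr b') • q2 b', ?_, ?_⟩
    · intro b
      rw [addr, sumr, sumr]
      have := congrFun ht (Sum.inl b)
      rw [Matrix.mulVec, dotProduct, Fintype.sum_sum_type] at this
      exact this
    · intro b
      rw [addr, sumr, sumr]
      have := congrFun ht (Sum.inr b)
      rw [Matrix.mulVec, dotProduct, Fintype.sum_sum_type] at this
      exact this

end Vale.P199.B7
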