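import Vale.Agent.P199.GenBim
import Vale.Agent.P199.Laur

/-!
# P199, B2: the computation behind (G3) and (B2.2), in abstract form
-/

namespace Vale.P199

open HahnSeries

section ntr

variable {K1 B1 : Type*} [Field K1] [CharZero K1] [DivisionRing B1] [Algebra K1 B1]
  [FiniteDimensional K1 B1]

/-- normalised trace -/
noncomputable def ntr (K1 B1 : Type*) [Field K1] [DivisionRing B1] [Algebra K1 B1] :
    B1 →ₗ[K1] K1 := (Module.finrank K1 B1 : K1)⁻¹ • tr K1 B1

theorem ntr_one : ntr K1 B1 1 = 1 := by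
  have : 0 < Module.finrank K1 B1 := Module.finrank_pos
  have h3 : (Module.finrank K1 B1 : K1) ≠ 0 := by exact_mod_cast this.ne'
  rw [ntr, LinearMap.smul_apply, Tr.tr_one, smul_eq_mul, inv_mul_cancel₀ h3]

theorem ntr_algebraMap (c : K1) : ntr K1 B1 (algebraMap K1 B1 c) = c := by
  rw [Algebra.algebraMap_eq_smul_one, map_smul, ntr_one, smul_eq_mul, mul_one]

omit [CharZero K1] [FiniteDimensional K1 B1] in
theorem ntr_mul_comm (x y : B1) : ntr K1 B1 (x * y) = ntr K1 B1 (y * x) := by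
  rw [ntr, LinearMap.smul_apply, LinearMap.smul_apply, Tr.tr_mul_comm]

/-- a commutator which is a scalar vanishes -/
theorem scalar_comm_eq_zero (x y : B1) (c : K1) (h : algebraMap K1 B1 c = x * y - y * x) : c = 0 := by
  rw [← ntr_algebraMap (K1 := K1) (B1 := B1) c, h, map_sub, ntr_mul_comm, sub_self]

theorem smul_coeff_lower {K1 B1 : Type*} [Field K1] [Ring B1] [Algebra K1 B1]
    {a : K1⟦ℤ⟧} {x : B1⟦ℤ⟧} {m : ℤ} (ha : ∀ k < m, a.coeff k = 0)
    (hx : ∀ k < 0, x.coeff k = 0) :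
    (∀ k < m, (a • x).coeff k = 0) ∧ (a • x).coeff m = a.coeff m • x.coeff 0 := by
  have ha' : ∀ k < m, (laurMap (B := B1) a).coeff k = 0 := fun k hk => by
    rw [laurMap_coeff, ha k hk, map_zero]
  have := mul_coeff_of_lower (x := laurMap (B := B1) a) (y := x) ha' hx
  rw [smul_eq_laurMap_mul]
  refine ⟨fun k hk => this.1 k (by simpa using hk), ?_⟩
  have h2 := this.2
  rw [add_zero] at h2
  rw [h2, laurMap_coeff, Algebra.smul_def]

/-- a common lower end of two series which are not both zero -/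
theorem exists_low {K1 : Type*} [Field K1] (l1 l2 : K1⟦ℤ⟧) (hl : ¬ (l1 = 0 ∧ l2 = 0)) :
    ∃ m : ℤ, (∀ k < m, l1.coeff k = 0) ∧ (∀ k < m, l2.coeff k = 0) ∧
      ¬ (l1.coeff m = 0 ∧ l2.coeff m = 0) := by
  have hwf : (l1.support ∪ l2.support).IsWF := (l1.isPWO_support.union l2.isPWO_support).isWF
  have hne : (l1.support ∪ l2.support).Nonempty := by
    by_contra h
    rw [Set.not_nonempty_iff_eq_empty, Set.union_empty_iff] at h
    exact hl ⟨support_eq_empty_iff.mp h.1, support_eq_empty_iff.mp h.2⟩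
  have hlt : ∀ k < hwf.min hne, k ∉ l1.support ∪ l2.support := fun k hk hk' =>
    hwf.not_lt_min hne hk' hk
  refine ⟨hwf.min hne, fun k hk => ?_, fun k hk => ?_, ?_⟩
  · by_contra h; exact hlt k hk (Or.inl h)
  · by_contra h; exact hlt k hk (Or.inr h)
  · rintro ⟨h1, h2⟩
    rcases hwf.min_mem hne with h | h
    · exact h h1
    · exact h h2

end ntr

/-- The computation behind (G3) and (B2.2). `E h` is the new constant term of `h`, `D1 h, D2 h` are the
variations of `h` in the two new directions, `c h` the old constant term, `d1 h, d2 h` the variations in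
the two old directions; `y` is a candidate for an inner element. -/
theorem gen_core {K1 B1 : Type*} [Field K1] [CharZero K1] [DivisionRing B1] [Algebra K1 B1]
    [FiniteDimensional K1 B1] {B H : Type*} [Ring B] (jB : B →+* B1) (κ : ℤ) (hκ : 1 ≤ κ)
    (c d1 d2 : H → B) (E D1 D2 : H → B1⟦ℤ⟧) (V1 V2 : B1)
    (hE : ∀ h, ∀ k < κ, (E h).coeff k = if k = 0 then jB (c h) else 0)
    (hEκ : ∀ h, (E h).coeff κ = jB (d1 h) * V1 + jB (d2 h) * V2)
    (hD1 : ∀ h, ∀ k < 0, (D1 h).coeff k = 0) (hD2 : ∀ h, ∀ k < 0, (D2 h).coeff k = 0)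
    (hsurj : ∀ b, ∃ h, c h = b)
    (hbim : ∀ b1 b2, ∃ h, c h = 0 ∧ d1 h = b1 ∧ d2 h = b2)
    (hcen : ∀ y : B1, (∀ b, y * jB b = jB b * y) → y * V1 = V1 * y → y * V2 = V2 * y →
      ∃ k : K1, algebraMap K1 B1 k = y)
    (l1 l2 : K1⟦ℤ⟧) (hl : ¬ (l1 = 0 ∧ l2 = 0)) (y : B1⟦ℤ⟧)
    (hy : ∀ h, l1 • D1 h + l2 • D2 h = y * E h - E h * y) :
    ∃ a1 a2 : K1, ¬ (a1 = 0 ∧ a2 = 0) ∧ ∃ y0 q : B1, (∀ b, q * jB b = jB b * q) ∧
      ∀ h, a1 • (D1 h).coeff 0 + a2 • (D2 h).coeff 0 = (y0 * jB (c h) - jB (c h) * y0) +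
        (jB (d1 h) * (q * V1 - V1 * q) + jB (d2 h) * (q * V2 - V2 * q)) := by
  classical
  obtain ⟨m, hm1, hm2, hm0⟩ := exists_low l1 l2 hl
  -- coefficients of the left side
  have hL : ∀ h, (∀ k < m, (l1 • D1 h + l2 • D2 h).coeff k = 0) ∧
      (l1 • D1 h + l2 • D2 h).coeff m =
        l1.coeff m • (D1 h).coeff 0 + l2.coeff m • (D2 h).coeff 0 := by
    intro h
    have h1 := smul_coeff_lower hm1 (hD1 h)
    have h2 := smul_coeff_lower hm2 (hD2 h)
    refine ⟨fun k hk => ?_, ?_⟩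
    · rw [coeff_add, h1.1 k hk, h2.1 k hk, add_zero]
    · rw [coeff_add, h1.2, h2.2]
  refine ⟨l1.coeff m, l2.coeff m, hm0, ?_⟩
  -- trace-free version of y
  set y' : B1⟦ℤ⟧ := y - algebraMap K1⟦ℤ⟧ B1⟦ℤ⟧ (mapForm (ntr K1 B1) y) with hy'
  have hcomm : ∀ h, l1 • D1 h + l2 • D2 h = y' * E h - E h * y' := by
    intro h
    rw [hy h, hy', sub_mul, mul_sub, Algebra.commutes]
    abel
  have htr : ∀ n, ntr K1 B1 (y'.coeff n) = 0 := by
    intro n
    rw [hy', coeff_sub, algebraMap_coeff, mapForm_coeff, map_sub, ntr_algebraMap, sub_self]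
  -- splitting E
  let R : H → B1⟦ℤ⟧ := fun h => E h - C (jB (c h))
  have hR : ∀ h, ∀ k < κ, (R h).coeff k = 0 := by
    intro h k hk
    show (E h - C (jB (c h))).coeff k = 0
    rw [coeff_sub, hE h k hk, C_apply]
    by_cases h0 : k = 0
    · subst h0; simp
    · rw [if_neg h0, coeff_single_of_ne h0, sub_zero]
  have hRκ : ∀ h, (R h).coeff κ = jB (d1 h) * V1 + jB (d2 h) * V2 := by
    intro h
    show (E h - C (jB (c h))).coeff κ = _
    rw [coeff_sub, hEκ, C_apply, coeff_single_of_ne (by omega), sub_zero]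
  have hER : ∀ h, E h = C (jB (c h)) + R h := fun h => by
    show E h = C (jB (c h)) + (E h - C (jB (c h)))
    abel
  -- coefficients of the right side
  have hC : ∀ h n, (y' * E h - E h * y').coeff n =
      (y'.coeff n * jB (c h) - jB (c h) * y'.coeff n) + (y' * R h - R h * y').coeff n := by
    intro h n
    conv_lhs => rw [hER h]
    rw [mul_add, add_mul, add_sub_add_comm, coeff_add, coeff_sub, mul_C_coeff, C_mul_coeff]
  have hRR : ∀ h N, (∀ k < N, y'.coeff k = 0) → (∀ n < N + κ, (y' * R h - R h * y').coeff n = 0) ∧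
      (y' * R h - R h * y').coeff (N + κ) =
        y'.coeff N * (R h).coeff κ - (R h).coeff κ * y'.coeff N := by
    intro h N hN
    have h1 := mul_coeff_of_lower hN (hR h)
    have h2 := mul_coeff_of_lower (hR h) hN
    refine ⟨fun n hn => ?_, ?_⟩
    · rw [coeff_sub, h1.1 n hn, h2.1 n (by omega), sub_zero]
    · rw [coeff_sub, h1.2]
      have h3 := h2.2
      rw [add_comm κ N] at h3
      rw [h3]
  -- the case of a small pole
  by_cases hcase : ∀ k ≤ m - κ, y'.coeff k = 0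
  · refine ⟨y'.coeff m, 0, fun b => by simp, fun h => ?_⟩
    rw [← (hL h).2, hcomm h, hC h m]
    have h1 := (hRR h (m - κ + 1) (fun k hk => hcase k (by omega))).1 m (by omega)
    rw [h1]
    simp
  · -- the leading term of `y'`
    push Not at hcase
    obtain ⟨k0, hk0, hk0'⟩ := hcase
    have hne : y' ≠ 0 := by rintro h0; rw [h0] at hk0'; exact hk0' rfl
    set N := y'.order with hN
    have hNle : N ≤ k0 := by
      by_contra hlt
      exact hk0' (coeff_eq_zero_of_lt_order (not_le.mp hlt))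
    have hlow : ∀ k < N, y'.coeff k = 0 := fun k hk => coeff_eq_zero_of_lt_order hk
    have hN0 : y'.coeff N ≠ 0 := by
      rw [hN]; exact coeff_order_eq_zero.not.mpr hne
    set q := y'.coeff N with hq
    have hqB : ∀ b, q * jB b = jB b * q := by
      intro b
      obtain ⟨h, rfl⟩ := hsurj b
      have h1 := (hL h).1 N (by omega)
      rw [hcomm h, hC h N, (hRR h N hlow).1 N (by omega), add_zero, ← hq] at h1
      exact sub_eq_zero.mp h1
    have hqR : ∀ h, q * (R h).coeff κ - (R h).coeff κ * q =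
        jB (d1 h) * (q * V1 - V1 * q) + jB (d2 h) * (q * V2 - V2 * q) := by
      intro h
      rw [hRκ h, mul_add, add_mul, ← mul_assoc, ← mul_assoc, hqB, hqB]
      noncomm_ring
    have hnext : ∀ h, (l1 • D1 h + l2 • D2 h).coeff (N + κ) =
        (y'.coeff (N + κ) * jB (c h) - jB (c h) * y'.coeff (N + κ)) +
        (jB (d1 h) * (q * V1 - V1 * q) + jB (d2 h) * (q * V2 - V2 * q)) := by
      intro h
      rw [hcomm h, hC h (N + κ), (hRR h N hlow).2, hqR h]
    by_cases hNm : N + κ = m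
    · refine ⟨y'.coeff (N + κ), q, hqB, fun h => ?_⟩
      rw [← hnext h, hNm, (hL h).2]
    · exfalso
      have hlt : N + κ < m := by omega
      have hz : ∀ h, (y'.coeff (N + κ) * jB (c h) - jB (c h) * y'.coeff (N + κ)) +
        (jB (d1 h) * (q * V1 - V1 * q) + jB (d2 h) * (q * V2 - V2 * q)) = 0 := by
        intro h
        rw [← hnext h, (hL h).1 _ hlt]
      have hV1 : q * V1 = V1 * q := by
        obtain ⟨h, h0, h1, h2⟩ := hbim 1 0
        have := hz h
        rw [h0, h1, h2] at this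
        simp only [map_zero, map_one, mul_zero, zero_mul, sub_zero, one_mul, zero_add,
          add_zero] at this
        exact sub_eq_zero.mp this
      have hV2 : q * V2 = V2 * q := by
        obtain ⟨h, h0, h1, h2⟩ := hbim 0 1
        have := hz h
        rw [h0, h1, h2] at this
        simp only [map_zero, map_one, mul_zero, zero_mul, sub_zero, one_mul, zero_add] at this
        exact sub_eq_zero.mp this
      obtain ⟨k, hk⟩ := hcen q hqB hV1 hV2
      have h1 := htr N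
      rw [← hq, ← hk, ntr_algebraMap] at h1
      rw [h1, map_zero] at hk
      exact hN0 hk.symm

/-- (G3): with the two new directions equal to the two old ones (`D_m h = jB (d_m h) + O(z)`) there
is no relation modulo inner ones. -/
theorem g3_core {K1 B1 : Type*} [Field K1] [CharZero K1] [DivisionRing B1] [Algebra K1 B1]
    [FiniteDimensional K1 B1] {B H : Type*} [Ring B] (jB : B →+* B1) (κ : ℤ) (hκ : 1 ≤ κ)
    (c d1 d2 : H → B) (E D1 D2 : H → B1⟦ℤ⟧) (V1 V2 : B1)
    (hE : ∀ h, ∀ k < κ, (E h).coeff k = if k = 0 then jB (c h) else 0)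
    (hEκ : ∀ h, (E h).coeff κ = jB (d1 h) * V1 + jB (d2 h) * V2)
    (hD1 : ∀ h, ∀ k < 0, (D1 h).coeff k = 0) (hD2 : ∀ h, ∀ k < 0, (D2 h).coeff k = 0)
    (hD1' : ∀ h, (D1 h).coeff 0 = jB (d1 h)) (hD2' : ∀ h, (D2 h).coeff 0 = jB (d2 h))
    (hsurj : ∀ b, ∃ h, c h = b)
    (hbim : ∀ b1 b2, ∃ h, c h = 0 ∧ d1 h = b1 ∧ d2 h = b2)
    (hcen : ∀ y : B1, (∀ b, y * jB b = jB b * y) → y * V1 = V1 * y → y * V2 = V2 * y →
      ∃ k : K1, algebraMap K1 B1 k = y)
    (l1 l2 : K1⟦ℤ⟧) (y : B1⟦ℤ⟧)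
    (hy : ∀ h, l1 • D1 h + l2 • D2 h = y * E h - E h * y) : l1 = 0 ∧ l2 = 0 := by
  by_contra hl
  obtain ⟨a1, a2, ha, y0, q, hq, h⟩ := gen_core jB κ hκ c d1 d2 E D1 D2 V1 V2 hE hEκ hD1 hD2
    hsurj hbim hcen l1 l2 hl y hy
  apply ha
  constructor
  · obtain ⟨x, h0, h1, h2⟩ := hbim 1 0
    have := h x
    rw [hD1', hD2', h0, h1, h2] at this
    simp only [map_zero, map_one, mul_zero, zero_mul, sub_zero, one_mul, zero_add, smul_zero,
      add_zero] at this
    exact scalar_comm_eq_zero q V1 a1 (by rw [Algebra.algebraMap_eq_smul_one]; exact this)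
  · obtain ⟨x, h0, h1, h2⟩ := hbim 0 1
    have := h x
    rw [hD1', hD2', h0, h1, h2] at this
    simp only [map_zero, map_one, mul_zero, zero_mul, sub_zero, one_mul, zero_add,
      smul_zero] at this
    exact scalar_comm_eq_zero q V2 a2 (by rw [Algebra.algebraMap_eq_smul_one]; exact this)

/-- An `R`-valued derivation of `B<<I>>` (along `jB ∘ ε`) which is inner on `h` vanishes on a normalised
conjugate `F` of `h`. -/
theorem der_eq_zero_of_conj (K1 : Type) {B1 : Type} [Field K1] [CharZero K1] [DivisionRing B1]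
    [Algebra K1 B1] [FiniteDimensional K1 B1] {B I : Type} [DivisionRing B] (jB : B →+* B1)
    (Δ : NC I B → B1)
    (hΔ : ∀ F G : NC I B, Δ (F * G) = Δ F * jB (G []) + jB (F []) * Δ G) (h g F : NC I B)
    (y0 : B1) (hh : Δ h = y0 * jB (h []) - jB (h []) * y0) (hg : g [] ≠ 0) (hc : g * h = F * g)
    (hF : Δ F * jB (F []) = jB (F []) * Δ F) : Δ F = 0 := by
  have hg' : jB (g []) ≠ 0 := (map_ne_zero jB).mpr hg
  set g0 := jB (g []) with hg0
  set h0 := jB (h []) with hh0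
  set a := jB (F []) with ha
  have h2 : Δ g * h0 + g0 * Δ h = Δ F * g0 + a * Δ g := by
    rw [hg0, hh0, ha, ← hΔ, ← hΔ, hc]
  have h3 : g0 * h0 = a * g0 := by
    rw [hg0, hh0, ha, ← map_mul, ← map_mul, ← NC.mul_nil, ← NC.mul_nil, hc]
  have h4 : h0 * g0⁻¹ = g0⁻¹ * a := by
    have : g0⁻¹ * (g0 * h0) * g0⁻¹ = g0⁻¹ * (a * g0) * g0⁻¹ := by rw [h3]
    rw [← mul_assoc, inv_mul_cancel₀ hg', one_mul, mul_assoc, mul_assoc, mul_inv_cancel₀ hg',
      mul_one] at this
    exact this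
  rw [hh] at h2
  set L : B1 := Δ g * g0⁻¹ + g0 * y0 * g0⁻¹ with hL
  have h5 : Δ F = L * a - a * L := by
    have h6 : Δ F = (Δ g * h0 + g0 * (y0 * h0 - h0 * y0) - a * Δ g) * g0⁻¹ := by
      rw [h2, add_sub_cancel_right, mul_assoc, mul_inv_cancel₀ hg', mul_one]
    rw [h6, hL]
    have e1 : Δ g * h0 * g0⁻¹ = Δ g * g0⁻¹ * a := by
      rw [mul_assoc, h4, mul_assoc]
    have e2 : g0 * (y0 * h0) * g0⁻¹ = g0 * y0 * g0⁻¹ * a := by
      rw [← mul_assoc, mul_assoc (g0 * y0), h4, ← mul_assoc]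
    have e3 : g0 * (h0 * y0) * g0⁻¹ = a * (g0 * y0 * g0⁻¹) := by
      rw [← mul_assoc g0, h3]; simp only [mul_assoc]
    rw [sub_mul, add_mul, mul_sub, sub_mul, e1, e2, e3, add_mul, mul_add, mul_assoc a]
    abel
  rw [h5] at hF ⊢
  exact comm_eq_zero K1 a L hF

/-- linear part of a series in a direction with values in a ring `R ⊇ B` (for instance `T ⊗ Q`) -/
def linR {I B R : Type} [Fintype I] [Ring B] [Ring R] (jB : B →+* R) (F : NC I B) (p : I → R) : R :=
  ∑ i, jB (F [i]) * p i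

theorem linR_mul {I B R : Type} [Fintype I] [Ring B] [Ring R] (jB : B →+* R) (p : I → R)
    (hp : ∀ i b, p i * jB b = jB b * p i) (F G : NC I B) :
    linR jB (F * G) p = linR jB F p * jB (G []) + jB (F []) * linR jB G p := by
  simp only [linR, NC.mul_singleton, map_add, map_mul, add_mul, Finset.sum_add_distrib,
    Finset.sum_mul, Finset.mul_sum]
  rw [add_comm]
  congr 1
  · exact Finset.sum_congr rfl fun i _ => by rw [mul_assoc, mul_assoc, hp]
  · exact Finset.sum_congr rfl fun i _ => by rw [mul_assoc]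

theorem linR_comm {I B R : Type} [Fintype I] [Ring B] [Ring R] (jB : B →+* R) (p : I → R)
    (hp : ∀ i b, p i * jB b = jB b * p i) (F : NC I B) (a : B) (hF : ∀ w, F w * a = a * F w) :
    linR jB F p * jB a = jB a * linR jB F p := by
  simp only [linR, Finset.sum_mul, Finset.mul_sum]
  refine Finset.sum_congr rfl fun i _ => ?_
  rw [mul_assoc, hp, ← mul_assoc, ← map_mul, hF, map_mul, mul_assoc]

/-- (B2.2) combined with (B1.1): a relation between the two new directions (with constant terms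
`p1, p2 ∈ T ⊗ Q`) modulo inner ones gives a relation between the linear parts of every normalised
series conjugate to an element of the algebra generated by `X, Y`. -/
theorem ind_core {K1 B1 : Type} [Field K1] [CharZero K1] [DivisionRing B1] [Algebra K1 B1]
    [FiniteDimensional K1 B1] (S : State) (jK : S.K →+* K1) (jB : S.B →+* B1)
    (hj : ∀ k, jB (algebraMap S.K S.B k) = algebraMap K1 B1 (jK k))
    (κ : ℤ) (hκ : 1 ≤ κ) (P1 P2 : S.I → S.K) (hP : S.Indep P1 P2)
    (E D1 D2 : NC S.I S.B → B1⟦ℤ⟧) (V1 V2 : B1)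
    (hV1 : ∀ b, V1 * jB b = jB b * V1) (hV2 : ∀ b, V2 * jB b = jB b * V2)
    (hE : ∀ h, ∀ k < κ, (E h).coeff k = if k = 0 then jB (h []) else 0)
    (hEκ : ∀ h, (E h).coeff κ = jB (State.lin h P1) * V1 + jB (State.lin h P2) * V2)
    (p1 p2 : S.I → B1) (hp1 : ∀ i b, p1 i * jB b = jB b * p1 i)
    (hp2 : ∀ i b, p2 i * jB b = jB b * p2 i)
    (hD1 : ∀ h, ∀ k < 0, (D1 h).coeff k = 0) (hD2 : ∀ h, ∀ k < 0, (D2 h).coeff k = 0)
    (hD1' : ∀ h, (D1 h).coeff 0 = linR jB h p1) (hD2' : ∀ h, (D2 h).coeff 0 = linR jB h p2)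
    (hcen : ∀ y : B1, (∀ b, y * jB b = jB b * y) → y * V1 = V1 * y → y * V2 = V2 * y →
      ∃ k : K1, algebraMap K1 B1 k = y)
    (l1 l2 : K1⟦ℤ⟧) (hl : ¬ (l1 = 0 ∧ l2 = 0)) (y : B1⟦ℤ⟧)
    (hy : ∀ h ∈ Algebra.adjoin S.K {S.X, S.Y}, l1 • D1 h + l2 • D2 h = y * E h - E h * y) :
    ∃ a1 a2 : K1, ¬ (a1 = 0 ∧ a2 = 0) ∧ ∃ q : B1, (∀ b, q * jB b = jB b * q) ∧
      ∀ F g h : NC S.I S.B, h ∈ Algebra.adjoin S.K {S.X, S.Y} → g [] ≠ 0 → g * h = F * g →
        (∀ w, F w * F [] = F [] * F w) →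
        a1 • linR jB F p1 + a2 • linR jB F p2 =
          jB (State.lin F P1) * (q * V1 - V1 * q) + jB (State.lin F P2) * (q * V2 - V2 * q) := by
  obtain ⟨a1, a2, ha, y0, q, hq, hmain⟩ := gen_core
    (H := Algebra.adjoin S.K {S.X, S.Y}) jB κ hκ (fun h => h.1 [])
    (fun h => State.lin h.1 P1) (fun h => State.lin h.1 P2) (fun h => E h.1) (fun h => D1 h.1)
    (fun h => D2 h.1) V1 V2 (fun h => hE h.1) (fun h => hEκ h.1) (fun h => hD1 h.1)
    (fun h => hD2 h.1) (fun b => by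
      obtain ⟨h, hh, h0⟩ := S.exists_adjoin b
      exact ⟨⟨h, hh⟩, h0⟩)
    (fun b1 b2 => by
      obtain ⟨h, hh, h0, h1, h2⟩ := S.bim P1 P2 hP b1 b2
      exact ⟨⟨h, hh⟩, h0, h1, h2⟩) hcen l1 l2 hl y (fun h => hy h.1 h.2)
  refine ⟨a1, a2, ha, q, hq, ?_⟩
  intro F g h hh hg hc hF
  -- the combined direction
  let p : S.I → B1 := fun i => a1 • p1 i + a2 • p2 i -
    (algebraMap K1 B1 (jK (P1 i)) * (q * V1 - V1 * q) +
      algebraMap K1 B1 (jK (P2 i)) * (q * V2 - V2 * q))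
  have hqV : ∀ V : B1, (∀ b, V * jB b = jB b * V) → ∀ b,
      (q * V - V * q) * jB b = jB b * (q * V - V * q) := by
    intro V hV b
    rw [sub_mul, mul_sub, mul_assoc, hV, ← mul_assoc, hq, mul_assoc, mul_assoc V, hq, ← mul_assoc V,
      hV, mul_assoc]
  have hp : ∀ i b, p i * jB b = jB b * p i := by
    intro i b
    have e1 : Commute (a1 • p1 i + a2 • p2 i) (jB b) :=
      (Commute.smul_left (hp1 i b) a1).add_left (Commute.smul_left (hp2 i b) a2)
    have e2 : Commute (algebraMap K1 B1 (jK (P1 i)) * (q * V1 - V1 * q)) (jB b) :=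
      (Algebra.commute_algebraMap_left _ _).mul_left (hqV V1 hV1 b)
    have e3 : Commute (algebraMap K1 B1 (jK (P2 i)) * (q * V2 - V2 * q)) (jB b) :=
      (Algebra.commute_algebraMap_left _ _).mul_left (hqV V2 hV2 b)
    exact e1.sub_left (e2.add_left e3)
  have hlinjB : ∀ (G : NC S.I S.B) (P : S.I → S.K),
      jB (State.lin G P) = ∑ i, jB (G [i]) * algebraMap K1 B1 (jK (P i)) := by
    intro G P
    rw [State.lin, map_sum]
    refine Finset.sum_congr rfl fun i _ => ?_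
    rw [Algebra.smul_def, map_mul, hj, Algebra.commutes]
  have hlin : ∀ G : NC S.I S.B, linR jB G p = a1 • linR jB G p1 + a2 • linR jB G p2 -
      (jB (State.lin G P1) * (q * V1 - V1 * q) + jB (State.lin G P2) * (q * V2 - V2 * q)) := by
    intro G
    rw [hlinjB, hlinjB]
    simp only [linR, p, mul_sub, mul_add, Finset.sum_sub_distrib, Finset.sum_add_distrib,
      Finset.smul_sum, mul_smul_comm, Finset.sum_mul, mul_assoc]
  have hΔh : linR jB h p = y0 * jB (h []) - jB (h []) * y0 := by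
    rw [hlin]
    have := hmain ⟨h, hh⟩
    simp only at this
    rw [hD1', hD2'] at this
    rw [this]; abel
  have h0 := der_eq_zero_of_conj K1 jB (fun G => linR jB G p) (linR_mul jB p hp) h g F y0 hΔh hg hc
    (linR_comm jB p hp F (F []) hF)
  rw [hlin] at h0
  exact sub_eq_zero.mp h0

end Vale.P199
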