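import Vale.Agent.P199.BL4
import Vale.Agent.P199.B7Lin
import Vale.Agent.P199.B7Sel
import Vale.Agent.P199.GenCore

/-!
# P199, L7c: the explicit elements of B7
-/

namespace Vale.P199
namespace B7

open Module

section Sym

variable {K B : Type} [Field K] [DivisionRing B] [Algebra K B] {r : ℕ} {ζ : K}

theorem huv' (E : QExt K B r ζ) : E.u * E.v = E.jK ζ • (E.v * E.u) := by
  rw [E.huv, E.comp, Algebra.smul_def]

theorem u_ne (E : QExt K B r ζ) (hr : 0 < r) : E.u ≠ 0 := by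
  obtain ⟨α, hα, h⟩ := E.hur
  intro h0
  rw [h0, zero_pow hr.ne'] at h
  exact hα ((map_eq_zero (algebraMap E.K1 E.B1)).1 h.symm)

theorem v_ne (E : QExt K B r ζ) (hr : 0 < r) : E.v ≠ 0 := by
  obtain ⟨α, hα, h⟩ := E.hvr
  intro h0
  rw [h0, zero_pow hr.ne'] at h
  exact hα ((map_eq_zero (algebraMap E.K1 E.B1)).1 h.symm)

theorem cu (E : QExt K B r ζ) (b : B) : Commute (E.jB b) E.u := E.hu b
theorem cv (E : QExt K B r ζ) (b : B) : Commute (E.jB b) E.v := E.hv b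

/-- the trace of an element which is multiplied by a scalar `≠ 1` under conjugation vanishes -/
theorem tr_zero_of_conj {K1 B1 : Type} [Field K1] [DivisionRing B1] [Algebra K1 B1]
    {s x : B1} {c : K1} (hs : s ≠ 0) (hc : c ≠ 1) (h : s * x = c • (x * s)) :
    tr K1 B1 x = 0 := by
  have h1 : tr K1 B1 (s * (x * s⁻¹)) = tr K1 B1 x := by
    rw [Tr.tr_mul_comm, mul_assoc, inv_mul_cancel₀ hs, mul_one]
  have h2 : s * (x * s⁻¹) = c • x := by
    rw [← mul_assoc, h, smul_mul_assoc, mul_assoc, mul_inv_cancel₀ hs, mul_one]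
  rw [h2, map_smul, smul_eq_mul] at h1
  have h3 : (c - 1) * tr K1 B1 x = 0 := by rw [sub_mul, one_mul, h1, sub_self]
  exact (mul_eq_zero.1 h3).resolve_left (sub_ne_zero.2 hc)

theorem uvi {K1 B1 : Type} [Field K1] [DivisionRing B1] [Algebra K1 B1] {u v : B1} {z : K1}
    (hz : z ≠ 0) (hv : v ≠ 0) (h : u * v = z • (v * u)) : u * v⁻¹ = z⁻¹ • (v⁻¹ * u) := by
  have := congrArg (fun t => v⁻¹ * t * v⁻¹) h
  rw [mul_smul_comm, smul_mul_assoc, mul_assoc v⁻¹ (u * v), mul_assoc u v, mul_inv_cancel₀ hv,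
    mul_one, ← mul_assoc v⁻¹ v, inv_mul_cancel₀ hv, one_mul] at this
  rw [this, smul_smul, inv_mul_cancel₀ hz, one_smul]

theorem vui {K1 B1 : Type} [Field K1] [DivisionRing B1] [Algebra K1 B1] {u v : B1} {z : K1}
    (hu : u ≠ 0) (h : u * v = z • (v * u)) : v * u⁻¹ = z • (u⁻¹ * v) := by
  have := congrArg (fun t => u⁻¹ * t * u⁻¹) h
  rw [mul_smul_comm, smul_mul_assoc, ← mul_assoc u⁻¹ u, inv_mul_cancel₀ hu, one_mul,
    mul_assoc u⁻¹ (v * u), mul_assoc v u, mul_inv_cancel₀ hu, mul_one] at this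
  exact this

variable [CharZero K] [FiniteDimensional K B]

/-- `tr (b v^a v^{-c}) = 0` for `a ≠ c` -/
theorem tr_va_vc (E : QExt K B r ζ) (hr : 0 < r) (hζ : IsPrimitiveRoot ζ r) (b : B) {a c : ℕ}
    (ha : a < r) (hc : c < r) (hac : a ≠ c) :
    tr E.K1 E.B1 (E.jB b * (E.v ^ a * (E.v⁻¹) ^ c)) = 0 := by
  have hz : E.jK ζ ≠ 0 := (map_ne_zero E.jK).2 (hζ.ne_zero hr.ne')
  have h1 := comm_pow (huv' E) a
  have h2 := comm_pow (uvi hz (v_ne E hr) (huv' E)) c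
  refine tr_zero_of_conj (s := E.u) (c := E.jK ζ ^ a * ((E.jK ζ)⁻¹) ^ c) (u_ne E hr) ?_ ?_
  · intro h
    apply hac
    have hp : IsPrimitiveRoot (E.jK ζ) r := hζ.map_of_injective E.jK.injective
    rw [inv_pow, mul_inv_eq_one₀ (pow_ne_zero _ hz)] at h
    exact hp.pow_inj ha hc h
  · rw [← mul_assoc, ← (cu E b).eq, mul_assoc, ← mul_assoc E.u, h1, smul_mul_assoc, mul_assoc, h2,
      mul_smul_comm, mul_smul_comm, mul_smul_comm, smul_smul]
    simp only [mul_assoc]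

/-- `tr (b v^a u^{-1} v^{-c} v) = 0` -/
theorem tr_va_ui (E : QExt K B r ζ) (hr : 1 < r) (hζ : IsPrimitiveRoot ζ r) (b : B) (a c : ℕ) :
    tr E.K1 E.B1 (E.jB b * (E.v ^ a * (E.u⁻¹ * (E.v⁻¹) ^ c * E.v))) = 0 := by
  have hz : E.jK ζ ≠ 1 := by
    intro h
    have hp : IsPrimitiveRoot (E.jK ζ) r := hζ.map_of_injective E.jK.injective
    exact hp.ne_one hr h
  refine tr_zero_of_conj (s := E.v) (c := E.jK ζ) (v_ne E (by omega)) hz ?_
  have h1 := vui (u_ne E (by omega)) (huv' E)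
  have h3 : Commute E.v (E.v ^ a) := (Commute.refl E.v).pow_right a
  have h4 : Commute E.v ((E.v⁻¹) ^ c) := ((Commute.refl E.v).inv_right₀).pow_right c
  have e : E.v * (E.u⁻¹ * (E.v⁻¹) ^ c * E.v) = E.jK ζ • (E.u⁻¹ * (E.v⁻¹) ^ c * E.v * E.v) := by
    rw [← mul_assoc, ← mul_assoc, h1, smul_mul_assoc, smul_mul_assoc, mul_assoc E.u⁻¹, h4.eq]
    simp only [mul_assoc]
  rw [← mul_assoc, ← (cv E b).eq, mul_assoc, ← mul_assoc E.v, h3.eq, mul_assoc, e, mul_smul_comm,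
    mul_smul_comm]
  simp only [mul_assoc]

/-- `tr (b v^a u v^c) = 0` -/
theorem tr_va_u (E : QExt K B r ζ) (hr : 1 < r) (hζ : IsPrimitiveRoot ζ r) (b : B) (a c : ℕ) :
    tr E.K1 E.B1 (E.jB b * (E.v ^ a * (E.u * E.v ^ c))) = 0 := by
  have hp : IsPrimitiveRoot (E.jK ζ) r := hζ.map_of_injective E.jK.injective
  have hz0 : E.jK ζ ≠ 0 := hp.ne_zero (by omega)
  have hz : (E.jK ζ)⁻¹ ≠ 1 := by
    intro h
    exact hp.ne_one hr (inv_eq_one.1 h)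
  refine tr_zero_of_conj (s := E.v) (c := (E.jK ζ)⁻¹) (v_ne E (by omega)) hz ?_
  have h1 : E.v * E.u = (E.jK ζ)⁻¹ • (E.u * E.v) := by
    rw [huv' E, smul_smul, inv_mul_cancel₀ hz0, one_smul]
  have h3 : Commute E.v (E.v ^ a) := (Commute.refl E.v).pow_right a
  have h4 : Commute E.v (E.v ^ c) := (Commute.refl E.v).pow_right c
  have e : E.v * (E.u * E.v ^ c) = (E.jK ζ)⁻¹ • (E.u * E.v ^ c * E.v) := by
    rw [← mul_assoc, h1, smul_mul_assoc, mul_assoc, h4.eq]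
    simp only [mul_assoc]
  rw [← mul_assoc, ← (cv E b).eq, mul_assoc, ← mul_assoc E.v, h3.eq, mul_assoc, e, mul_smul_comm,
    mul_smul_comm]
  simp only [mul_assoc]

end Sym

section Elem

variable {K B I : Type} [Field K] [DivisionRing B] [Algebra K B] [Fintype I] {r : ℕ} {ζ : K}

theorem jB_smul (E : QExt K B r ζ) (c : K) (b : B) : E.jB (c • b) = E.jK c • E.jB b := by
  rw [Algebra.smul_def, map_mul, E.comp, Algebra.smul_def]

theorem linR_smul (E : QExt K B r ζ) (f : NC I B) (p : I → K) (t : E.B1) :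
    linR E.jB f (fun i => E.jK (p i) • t) = E.jB (State.lin f p) * t := by
  rw [linR, State.lin, map_sum, Finset.sum_mul]
  refine Finset.sum_congr rfl fun i _ => ?_
  rw [jB_smul, mul_smul_comm, smul_mul_assoc]

theorem linR_add {R : Type} [Ring R] (jB : B →+* R) (f : NC I B) (p q : I → R) :
    linR jB f (fun i => p i + q i) = linR jB f p + linR jB f q := by
  simp only [linR, mul_add, Finset.sum_add_distrib]

theorem linR_sum {R ι : Type} [Ring R] (s : Finset ι) (jB : B →+* R) (f : NC I B) (p : ι → I → R) :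
    linR jB f (fun i => ∑ k ∈ s, p k i) = ∑ k ∈ s, linR jB f (p k) := by
  simp only [linR, Finset.mul_sum]
  rw [Finset.sum_comm]

/-- `ỹ = Σ (1-ζ^{-e_k})^{-1} (w_k/w_1) v^{e_k}` -/
noncomputable def yP (E : QExt K B r ζ) {h : ℕ} (w : Fin h → B) (w1 : B) (e : Fin h → ℕ) : E.B1 :=
  ∑ k, (1 - (E.jK ζ ^ e k)⁻¹)⁻¹ • (E.jB (w k * w1⁻¹) * E.v ^ e k)

/-- `P⁰ = Σ p_k u v^{e_k}` -/
noncomputable def P0 (E : QExt K B r ζ) {h : ℕ} (p : Fin h → I → K) (e : Fin h → ℕ) : I → E.B1 :=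
  fun i => ∑ k, E.jK (p k i) • (E.u * E.v ^ e k)

/-- `ỹ_q = h' u^{-1} v^{-j}` -/
noncomputable def yq (E : QExt K B r ζ) (h' : B) (j : ℕ) : E.B1 :=
  E.jB h' * (E.u⁻¹ * (E.v⁻¹) ^ j)

/-- `q⁰` for `h'`: `p1, p2` are directions with `f_1(p1) = w1 h'`, `f_1(p2) = w2 h'` -/
noncomputable def q0 (E : QExt K B r ζ) (p1 p2 : I → K) (j : ℕ) : I → E.B1 :=
  fun i => E.jK (p1 i) • ((1 - E.jK ζ ^ j) • (E.v⁻¹) ^ j) +
    E.jK (p2 i) • ((E.jK ζ - 1) • (E.u⁻¹ * (E.v⁻¹) ^ j * E.v))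

theorem pow_ne_one' (E : QExt K B r ζ) (hζ : IsPrimitiveRoot ζ r) {j : ℕ} (h0 : 0 < j)
    (hj : j < r) : E.jK ζ ^ j ≠ 1 :=
  (hζ.map_of_injective E.jK.injective).pow_ne_one_of_pos_of_lt h0.ne' hj

theorem linR_P0 (E : QExt K B r ζ) {h : ℕ} (f : NC I B) (p : Fin h → I → K) (e : Fin h → ℕ) :
    linR E.jB f (P0 E p e) = ∑ k, E.jB (State.lin f (p k)) * (E.u * E.v ^ e k) := by
  unfold P0
  rw [linR_sum]
  exact Finset.sum_congr rfl fun k _ => linR_smul E f (p k) _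

theorem linR_q0 (E : QExt K B r ζ) (f : NC I B) (p1 p2 : I → K) (j : ℕ) :
    linR E.jB f (q0 E p1 p2 j) = E.jB (State.lin f p1) * ((1 - E.jK ζ ^ j) • (E.v⁻¹) ^ j) +
      E.jB (State.lin f p2) * ((E.jK ζ - 1) • (E.u⁻¹ * (E.v⁻¹) ^ j * E.v)) := by
  unfold q0
  rw [linR_add, linR_smul, linR_smul]

theorem comm_jB (E : QExt K B r ζ) {a b : B} (h : a * b = b * a) : Commute (E.jB a) (E.jB b) := by
  show E.jB a * E.jB b = E.jB b * E.jB a
  rw [← map_mul, h, map_mul]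

/-- `[X, ỹ] = f_1(P⁰)` -/
theorem comm_yP (E : QExt K B r ζ) (hr : 0 < r) (hζ : IsPrimitiveRoot ζ r) {h : ℕ} (f : NC I B)
    (w : Fin h → B) (w1 w2 : B) (hw1 : w1 ≠ 0) (h12 : w1 * w2 = w2 * w1)
    (h1 : ∀ k, w k * w1 = w1 * w k) (h2 : ∀ k, w k * w2 = w2 * w k)
    (p : Fin h → I → K) (hp : ∀ k, State.lin f (p k) = w k) (e : Fin h → ℕ)
    (he0 : ∀ k, 0 < e k) (her : ∀ k, e k < r) :
    linR E.jB f (P0 E p e) = (E.jB w1 * E.u + E.jB w2 * E.v) * yP E w w1 e -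
      yP E w w1 e * (E.jB w1 * E.u + E.jB w2 * E.v) := by
  have hz : E.jK ζ ≠ 0 := (map_ne_zero E.jK).2 (hζ.ne_zero hr.ne')
  rw [linR_P0, yP, Finset.mul_sum, Finset.sum_mul, ← Finset.sum_sub_distrib]
  refine Finset.sum_congr rfl fun k _ => ?_
  have hw1' : E.jB w1 ≠ 0 := (map_ne_zero E.jB).2 hw1
  have := symA (K := E.K1) hz (huv' E) (e k) hw1' (cu E (w k)) (cu E w1) (cv E (w k)) (cv E w1)
    (cv E w2) (comm_jB E (h1 k)) (comm_jB E (h2 k)) (comm_jB E h12)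
  rw [mul_smul_comm, smul_mul_assoc, ← smul_sub, map_mul, map_inv₀, this, smul_smul,
    inv_mul_cancel₀, one_smul, hp]
  rw [sub_ne_zero]
  intro h0
  exact pow_ne_one' E hζ (he0 k) (her k) (inv_eq_one.1 h0.symm)

/-- `[X, ỹ_q] = f_1(q⁰)` -/
theorem comm_yq (E : QExt K B r ζ) (hr : 0 < r) (hζ : IsPrimitiveRoot ζ r) (f : NC I B)
    (w1 w2 h' : B) (h1 : h' * w1 = w1 * h') (h2 : h' * w2 = w2 * h')
    (p1 p2 : I → K) (hp1 : State.lin f p1 = w1 * h') (hp2 : State.lin f p2 = w2 * h') (j : ℕ) :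
    linR E.jB f (q0 E p1 p2 j) = (E.jB w1 * E.u + E.jB w2 * E.v) * yq E h' j -
      yq E h' j * (E.jB w1 * E.u + E.jB w2 * E.v) := by
  have hz : E.jK ζ ≠ 0 := (map_ne_zero E.jK).2 (hζ.ne_zero hr.ne')
  rw [linR_q0, yq, symB (K := E.K1) hz (u_ne E hr) (v_ne E hr) (huv' E) j (cu E h') (cu E w1)
    (cu E w2) (cv E h') (cv E w1) (cv E w2) (comm_jB E h1) (comm_jB E h2), hp1, hp2, map_mul,
    map_mul, mul_smul_comm, mul_smul_comm]

theorem reassoc (E : QExt K B r ζ) (c b b' : B) (n : ℕ) (t : E.B1) :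
    E.jB c * (E.jB b * E.v ^ n) * (E.jB b' * t) = E.jB (c * b * b') * (E.v ^ n * t) := by
  have hv1 : E.v ^ n * (E.jB b' * t) = E.jB b' * (E.v ^ n * t) := by
    rw [← mul_assoc, ← ((cv E b').pow_right n).eq, mul_assoc]
  simp only [map_mul, mul_assoc, hv1]

variable [CharZero K] [FiniteDimensional K B]

/-- the pairing of `ỹ` and `q⁰` -/
theorem pair_q0 (E : QExt K B r ζ) (hr : 1 < r) (hζ : IsPrimitiveRoot ζ r) {h : ℕ} (f : NC I B)
    (w : Fin h → B) (w1 w2 h' c : B) (hw1 : w1 ≠ 0) (e : Fin h → ℕ) (her : ∀ k, e k < r)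
    (p1 p2 : I → K) (hp1 : State.lin f p1 = w1 * h') (hp2 : State.lin f p2 = w2 * h') (j : ℕ)
    (hj : j < r) :
    tr E.K1 E.B1 (E.jB c * yP E w w1 e * linR E.jB f (q0 E p1 p2 j)) =
      ∑ k, if e k = j then (1 - (E.jK ζ ^ e k)⁻¹)⁻¹ * (1 - E.jK ζ ^ j) *
        tr E.K1 E.B1 (E.jB (c * (w k * h'))) else 0 := by
  rw [linR_q0, yP, Finset.mul_sum, Finset.sum_mul, map_sum]
  refine Finset.sum_congr rfl fun k _ => ?_
  rw [hp1, hp2, mul_smul_comm, smul_mul_assoc, map_smul, mul_add, map_add]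
  have e1 : tr E.K1 E.B1 (E.jB c * (E.jB (w k * w1⁻¹) * E.v ^ e k) *
      (E.jB (w1 * h') * ((1 - E.jK ζ ^ j) • (E.v⁻¹) ^ j))) =
      if e k = j then (1 - E.jK ζ ^ j) * tr E.K1 E.B1 (E.jB (c * (w k * h'))) else 0 := by
    have e0 : E.jB c * (E.jB (w k * w1⁻¹) * E.v ^ e k) *
      (E.jB (w1 * h') * ((1 - E.jK ζ ^ j) • (E.v⁻¹) ^ j)) =
        (1 - E.jK ζ ^ j) • (E.jB (c * (w k * h')) * (E.v ^ e k * (E.v⁻¹) ^ j)) := by
      rw [mul_smul_comm, mul_smul_comm]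
      congr 1
      have : c * (w k * h') = c * (w k * w1⁻¹) * (w1 * h') := by
        rw [mul_assoc c, mul_assoc (w k), ← mul_assoc w1⁻¹, inv_mul_cancel₀ hw1, one_mul]
      rw [this, reassoc]
    rw [e0, map_smul, smul_eq_mul]
    by_cases hkj : e k = j
    · rw [if_pos hkj, hkj, inv_pow, mul_inv_cancel₀ (pow_ne_zero _ (v_ne E (by omega))), mul_one]
    · rw [if_neg hkj, tr_va_vc E (by omega) hζ _ (her k) hj hkj, mul_zero]
  have e2 : tr E.K1 E.B1 (E.jB c * (E.jB (w k * w1⁻¹) * E.v ^ e k) *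
      (E.jB (w2 * h') * ((E.jK ζ - 1) • (E.u⁻¹ * (E.v⁻¹) ^ j * E.v)))) = 0 := by
    have e0 : E.jB c * (E.jB (w k * w1⁻¹) * E.v ^ e k) *
      (E.jB (w2 * h') * ((E.jK ζ - 1) • (E.u⁻¹ * (E.v⁻¹) ^ j * E.v))) =
        (E.jK ζ - 1) • (E.jB (c * (w k * w1⁻¹) * (w2 * h')) *
          (E.v ^ e k * (E.u⁻¹ * (E.v⁻¹) ^ j * E.v))) := by
      rw [mul_smul_comm, mul_smul_comm]
      rw [reassoc]
    rw [e0, map_smul, tr_va_ui E hr hζ, smul_zero]
  rw [e1, e2, add_zero, smul_eq_mul]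
  by_cases hkj : e k = j
  · rw [if_pos hkj, if_pos hkj, mul_assoc]
  · rw [if_neg hkj, if_neg hkj, mul_zero]

/-- the pairing of `ỹ` and `P⁰` vanishes -/
theorem pair_P0 (E : QExt K B r ζ) (hr : 1 < r) (hζ : IsPrimitiveRoot ζ r) {h h2 : ℕ} (f : NC I B)
    (w : Fin h → B) (w1 c : B) (e : Fin h → ℕ) (p : Fin h2 → I → K) (e' : Fin h2 → ℕ) :
    tr E.K1 E.B1 (E.jB c * yP E w w1 e * linR E.jB f (P0 E p e')) = 0 := by
  rw [yP, Finset.mul_sum, Finset.sum_mul, map_sum]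
  refine Finset.sum_eq_zero fun k _ => ?_
  rw [linR_P0, Finset.mul_sum, map_sum]
  refine Finset.sum_eq_zero fun k' _ => ?_
  rw [mul_smul_comm, smul_mul_assoc, map_smul, reassoc, tr_va_u E hr hζ, smul_zero]

end Elem

end B7
end Vale.P199
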