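import Vale.Agent.P199.BDefs

/-!
# P199, invariants of a point: `ζ = q μ`, `μ = s η`, `dim C_oo + η = ζ`, `dim C + dim W = ζ`
-/

open Module

namespace Vale.P199

namespace Inv

open Tr

section Gen

variable {K B : Type} [Field K] [DivisionRing B] [Algebra K B] [FiniteDimensional K B]

/-- a subalgebra of a f.d. division algebra is closed under inverses -/
theorem inv_mem (F : Subalgebra K B) {x : B} (hx : x ∈ F) : x⁻¹ ∈ F := by
  by_cases h0 : x = 0
  · rw [h0, inv_zero]; exact zero_mem _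
  · -- left multiplication by `x` on `F` is injective, hence surjective
    let φ : F →ₗ[K] F := LinearMap.mulLeft K (⟨x, hx⟩ : F)
    have hinj : Function.Injective φ := by
      intro a b hab
      have h1 : x * (a : B) = x * (b : B) := congrArg Subtype.val hab
      exact Subtype.ext (mul_left_cancel₀ h0 h1)
    obtain ⟨y, hy⟩ := (LinearMap.injective_iff_surjective.mp hinj) 1
    have h2 : x * (y : B) = 1 := congrArg Subtype.val hy
    have h3 : x⁻¹ = (y : B) := by
      rw [← mul_one x⁻¹, ← h2, ← mul_assoc, inv_mul_cancel₀ h0, one_mul]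
    rw [h3]; exact y.2

/-- the dimension of a subalgebra divides the dimension of a left module over it -/
theorem finrank_dvd (F : Subalgebra K B) (V : Submodule K B) (h : ∀ x ∈ F, ∀ v ∈ V, x * v ∈ V) :
    finrank K F ∣ finrank K V := by
  let _ : DivisionRing F := divisionRingOfFiniteDimensional K F
  let V' : Submodule F B :=
    { carrier := V
      add_mem' := fun ha hb => V.add_mem ha hb
      zero_mem' := V.zero_mem
      smul_mem' := fun c x hx => h c c.2 x hx }
  have e : finrank K V = finrank K V' := rfl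
  rw [e]
  exact ⟨_, (Module.finrank_mul_finrank K F V').symm⟩

omit [FiniteDimensional K B] in
theorem cc_le_cen (a : B) : cc K a ≤ cen K a := by
  intro x hx
  have := hx a (self_mem_cen a)
  exact mem_cen.mpr this.symm

/-- the centralizer of `a` as a subalgebra -/
def cenA (K : Type) {B : Type} [Field K] [DivisionRing B] [Algebra K B] (a : B) :
    Subalgebra K B where
  carrier := cen K a
  mul_mem' := mul_mem_cen
  add_mem' := fun ha hb => add_mem ha hb
  algebraMap_mem' c := mem_cen.mpr (Algebra.commutes c a).symm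

/-- the center of the centralizer as a subalgebra -/
def ccA (K : Type) {B : Type} [Field K] [DivisionRing B] [Algebra K B] (a : B) :
    Subalgebra K B where
  carrier := cc K a
  mul_mem' := by
    intro x y hx hy z hz
    rw [mul_assoc, hy z hz, ← mul_assoc, hx z hz, mul_assoc]
  add_mem' := fun ha hb => (cc K a).add_mem ha hb
  algebraMap_mem' c := fun z _ => Algebra.commutes c z

omit [FiniteDimensional K B] in
theorem mem_ccA {a x : B} : x ∈ ccA K a ↔ x ∈ cc K a := Iff.rfl

omit [FiniteDimensional K B] in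
theorem finrank_ccA (a : B) : finrank K (ccA K a) = finrank K (cc K a) := rfl

omit [FiniteDimensional K B] in
theorem one_mem_cc (a : B) : (1 : B) ∈ cc K a := (ccA K a).one_mem

theorem cc_dvd_cen (a : B) : finrank K (cc K a) ∣ finrank K (cen K a) := by
  rw [← finrank_ccA]
  exact finrank_dvd (ccA K a) (cen K a) fun x hx v hv => mul_mem_cen (cc_le_cen a hx) hv

theorem ratio_le {a : B} {W : Submodule K B} (hW : W ≤ cc K a) : ratioAlg K W ≤ ccA K a := by
  apply Algebra.adjoin_le
  rintro x ⟨w, hw, w', hw', _, rfl⟩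
  exact (ccA K a).mul_mem (inv_mem (ccA K a) (hW hw')) (hW hw)

theorem ratio_dvd {a : B} {W : Submodule K B} (hW : W ≤ cc K a) :
    finrank K (ratioAlg K W) ∣ finrank K (cc K a) :=
  finrank_dvd (ratioAlg K W) (cc K a) fun _ hx _ hv => (ccA K a).mul_mem (ratio_le hW hx) hv

omit [FiniteDimensional K B] in
/-- `W·H = w₀ H` -/
theorem span_eq_map {W : Submodule K B} {w₀ : B} (hw₀ : w₀ ∈ W) (h0 : w₀ ≠ 0) :
    Submodule.span K {x | ∃ w ∈ W, ∃ h ∈ ratioAlg K W, x = w * h} =
      (Subalgebra.toSubmodule (ratioAlg K W)).map (LinearMap.mulLeft K w₀) := by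
  apply le_antisymm
  · rw [Submodule.span_le]
    rintro x ⟨w, hw, h, hh, rfl⟩
    refine ⟨w₀⁻¹ * w * h, ?_, ?_⟩
    · exact (ratioAlg K W).mul_mem (Algebra.subset_adjoin ⟨w, hw, w₀, hw₀, h0, rfl⟩) hh
    · rw [LinearMap.mulLeft_apply, ← mul_assoc, ← mul_assoc, mul_inv_cancel₀ h0, one_mul]
  · rintro x ⟨h, hh, rfl⟩
    exact Submodule.subset_span ⟨w₀, hw₀, h, hh, rfl⟩

omit [FiniteDimensional K B] in
theorem finrank_span {W : Submodule K B} (hW : W ≠ ⊥) :
    finrank K (Submodule.span K {x | ∃ w ∈ W, ∃ h ∈ ratioAlg K W, x = w * h}) =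
      finrank K (ratioAlg K W) := by
  obtain ⟨w₀, hw₀, h0⟩ := (Submodule.ne_bot_iff W).mp hW
  rw [span_eq_map hw₀ h0]
  have hinj : Function.Injective (LinearMap.mulLeft K w₀) := fun a b hab =>
    mul_left_cancel₀ h0 hab
  exact (LinearEquiv.finrank_eq (Submodule.equivMapOfInjective _ hinj _)).symm

omit [FiniteDimensional K B] in
theorem le_span (W : Submodule K B) :
    W ≤ Submodule.span K {x | ∃ w ∈ W, ∃ h ∈ ratioAlg K W, x = w * h} := fun w hw =>
  Submodule.subset_span ⟨w, hw, 1, (ratioAlg K W).one_mem, (mul_one w).symm⟩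

theorem finrank_W_le {W : Submodule K B} (hW : W ≠ ⊥) :
    finrank K W ≤ finrank K (ratioAlg K W) := by
  rw [← finrank_span hW]
  exact Submodule.finrank_mono (le_span W)

theorem span_le_cen {a : B} {W : Submodule K B} (hW : W ≤ cc K a) :
    Submodule.span K {x | ∃ w ∈ W, ∃ h ∈ ratioAlg K W, x = w * h} ≤ cen K a := by
  rw [Submodule.span_le]
  rintro x ⟨w, hw, h, hh, rfl⟩
  exact mul_mem_cen (cc_le_cen a (hW hw)) (cc_le_cen a (ratio_le hW hh))

theorem finrank_coo [CharZero K] {a : B} {W : Submodule K B} (hW : W ≤ cc K a) (h0 : W ≠ ⊥) :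
    finrank K (coo K (cen K a) W) + finrank K (ratioAlg K W) = finrank K (cen K a) := by
  rw [← finrank_span h0]
  exact finrank_perp _ _ (fun z hz => inv_mem_cen hz) (span_le_cen hW)

omit [FiniteDimensional K B] in
theorem coo_le_perp (Z W : Submodule K B) : coo K Z W ≤ perp Z W := perp_anti Z (le_span W)

end Gen

end Inv

namespace Pt

open Tr

variable {S0 : State} {f0 : NC S0.I S0.B} (x : Pt S0 f0)

theorem W_le_Z : x.W ≤ x.Z := by
  unfold W Wspan
  rw [Submodule.span_le]
  rintro _ ⟨i, rfl⟩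
  exact mem_cen.mpr (x.norm [i]).symm

theorem inv_mem_Z {z : x.S.B} (hz : z ∈ x.Z) : z⁻¹ ∈ x.Z := inv_mem_cen hz

theorem M_le_Z : x.M ≤ x.Z := Inv.cc_le_cen _

/-- `ζ = q μ` -/
theorem finrank_Z : finrank x.S.K x.Z = x.q * finrank x.S.K x.M := by
  unfold q
  exact (Nat.div_mul_cancel (Inv.cc_dvd_cen x.a)).symm

theorem finrank_M_pos : 0 < finrank x.S.K x.M := by
  have : Nontrivial x.M := ⟨⟨0, ⟨1, Inv.one_mem_cc _⟩, fun h => by
    have := congrArg Subtype.val h
    exact zero_ne_one this⟩⟩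
  exact finrank_pos

theorem finrank_Z_pos : 0 < finrank x.S.K x.Z := by
  have : Nontrivial x.Z := ⟨⟨0, ⟨1, one_mem_cen _⟩, fun h => by
    have := congrArg Subtype.val h
    exact zero_ne_one this⟩⟩
  exact finrank_pos

theorem q_pos : 0 < x.q := by
  rcases Nat.eq_zero_or_pos x.q with h | h
  · have := x.finrank_Z
    rw [h, zero_mul] at this
    exact absurd this x.finrank_Z_pos.ne'
  · exact h

/-- `dim C + dim W = ζ` -/
theorem finrank_C : finrank x.S.K x.C + finrank x.S.K x.W = finrank x.S.K x.Z :=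
  finrank_perp _ _ (fun _ hz => x.inv_mem_Z hz) x.W_le_Z

theorem Coo_le_C : x.Coo ≤ x.C := Inv.coo_le_perp _ _

theorem η_pos : 0 < x.η := by
  have : Nontrivial x.H := inferInstance
  exact finrank_pos

variable {x}

/-- `μ = s η` -/
theorem finrank_M (hW : x.W ≤ x.M) : finrank x.S.K x.M = x.s * x.η := by
  unfold s
  exact (Nat.div_mul_cancel (Inv.ratio_dvd hW)).symm

theorem s_pos (hW : x.W ≤ x.M) : 0 < x.s := by
  rcases Nat.eq_zero_or_pos x.s with h | h
  · have := finrank_M hW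
    rw [h, zero_mul] at this
    exact absurd this x.finrank_M_pos.ne'
  · exact h

theorem finrank_W_le (h0 : x.W ≠ ⊥) : finrank x.S.K x.W ≤ x.η := Inv.finrank_W_le h0

/-- `dim C_oo + η = ζ` -/
theorem finrank_Coo (hW : x.W ≤ x.M) (h0 : x.W ≠ ⊥) :
    finrank x.S.K x.Coo + x.η = finrank x.S.K x.Z := Inv.finrank_coo hW h0

/-- `dim C = dim C_oo + ξ` -/
theorem finrank_C_eq (hW : x.W ≤ x.M) (h0 : x.W ≠ ⊥) :
    finrank x.S.K x.C = finrank x.S.K x.Coo + x.ξ := by
  have h1 := x.finrank_C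
  have h2 := finrank_Coo hW h0
  have h3 := finrank_W_le h0
  unfold ξ
  omega

/-- `η = dim W + ξ` -/
theorem η_eq (h0 : x.W ≠ ⊥) : x.η = finrank x.S.K x.W + x.ξ := by
  have h3 := finrank_W_le h0
  unfold ξ
  omega

theorem H_le_M (hW : x.W ≤ x.M) : x.H.toSubmodule ≤ x.M := fun _ h => Inv.ratio_le hW h

theorem Coo_mul_H (hW : x.W ≤ x.M) {c h : x.S.B} (hc : c ∈ x.Coo) (hh : h ∈ x.H) :
    c * h ∈ x.Coo := by
  refine ⟨mul_mem_cen hc.1 (x.M_le_Z (H_le_M hW hh)), fun y hy => ?_⟩
  induction hy using Submodule.span_induction with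
  | mem y hy =>
    obtain ⟨w, hw, h', hh', rfl⟩ := hy
    have e : c * h * (w * h') = c * (w * (h * h')) := by
      have h1 : h * w = w * h := H_le_M hW hh w (x.W_le_Z hw)
      rw [mul_assoc, ← mul_assoc h w, h1, mul_assoc w h]
    rw [e]
    exact hc.2 _ (Submodule.subset_span ⟨w, hw, h * h', x.H.mul_mem hh hh', rfl⟩)
  | zero => simp
  | add y z _ _ hy hz => rw [mul_add, map_add, hy, hz, add_zero]
  | smul k y _ hy => rw [mul_smul_comm, map_smul, hy, smul_zero]

theorem M_dvd_Z_proof (x : Pt S0 f0) : finrank x.S.K x.M ∣ finrank x.S.K x.Z := Inv.cc_dvd_cen _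

theorem basic_facts_proof (x : Pt S0 f0) (hWM : x.W ≤ x.M) (hW : x.W ≠ ⊥) :
    x.H.toSubmodule ≤ x.M ∧ Module.finrank x.S.K x.W ≤ x.η ∧
    Module.finrank x.S.K x.Coo + x.η = Module.finrank x.S.K x.Z ∧
    Module.finrank x.S.K x.C + Module.finrank x.S.K x.W = Module.finrank x.S.K x.Z ∧
    x.Coo ≤ x.C ∧ (∀ c ∈ x.Coo, ∀ h ∈ x.H, c * h ∈ x.Coo) ∧
    Module.finrank x.S.K x.M ∣ Module.finrank x.S.K x.Z ∧ x.η ∣ Module.finrank x.S.K x.M :=
  ⟨H_le_M hWM, finrank_W_le hW, finrank_Coo hWM hW, x.finrank_C, x.Coo_le_C,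
    fun _ hc _ hh => Coo_mul_H hWM hc hh, M_dvd_Z_proof x, Inv.ratio_dvd hWM⟩

end Pt

end Vale.P199
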