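import Vale.Agent.P199.BDefs

/-!
# P199 : coordinates in a Q-extension `B1 = ⊕ (B ⊗ K1) u^i v^j`

* `E.e0 V` : the `K1`-span of `jB V` (`= V ⊗ K1`), `finrank_e0`.
* `E.co ij x` : the coordinates of `x`, in `e0 ⊤`: `x = Σ co ij x * mon ij`, unique.
* `e0_expand`, `e0_indep` : the linear disjointness tools.
* `cen_jB` : `x` commutes with `jB a` iff all coordinates are in `e0 (cen a)`.
-/

open HahnSeries

set_option linter.unusedSectionVars false

namespace Vale.P199

namespace QExt

section basic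

variable {K B : Type} [Field K] [DivisionRing B] [Algebra K B] {r : ℕ} {ζ : K} (E : QExt K B r ζ)

/-- scalar extension of a subspace of `B` -/
noncomputable def e0 (V : Submodule K B) : Submodule E.K1 E.B1 :=
  Submodule.span E.K1 (E.jB '' V)

/-- the monomials -/
noncomputable def mon (ij : Fin r × Fin r) : E.B1 := E.u ^ (ij.1 : ℕ) * E.v ^ (ij.2 : ℕ)

theorem mon_def (ij : Fin r × Fin r) : E.mon ij = E.u ^ (ij.1 : ℕ) * E.v ^ (ij.2 : ℕ) := rfl

theorem jB_smul (k : K) (b : B) : E.jB (k • b) = E.jK k • E.jB b := by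
  rw [Algebra.smul_def, map_mul, E.comp, Algebra.smul_def]

theorem jB_mem {V : Submodule K B} {b : B} (hb : b ∈ V) : E.jB b ∈ E.e0 V :=
  Submodule.subset_span ⟨b, hb, rfl⟩

theorem e0_mono {V W : Submodule K B} (h : V ≤ W) : E.e0 V ≤ E.e0 W :=
  Submodule.span_mono (Set.image_mono h)

theorem jB_mul_mon (b : B) (ij : Fin r × Fin r) : E.jB b * E.mon ij = E.mon ij * E.jB b := by
  have h1 : Commute (E.jB b) E.u := E.hu b
  have h2 : Commute (E.jB b) E.v := E.hv b
  exact (h1.pow_right _).mul_right (h2.pow_right _)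

/-- elements commuting with `jB B` commute with `e0 V` -/
theorem e0_comm {V : Submodule K B} {x : E.B1} (hx : x ∈ E.e0 V) {t : E.B1}
    (ht : ∀ b, E.jB b * t = t * E.jB b) : x * t = t * x := by
  refine Submodule.span_induction (p := fun y _ => y * t = t * y) ?_ ?_ ?_ ?_ hx
  · rintro _ ⟨b, _, rfl⟩
    exact ht b
  · simp
  · intro y z _ _ hy hz
    rw [add_mul, mul_add, hy, hz]
  · intro c y _ hy
    rw [smul_mul_assoc, mul_smul_comm, hy]

/-- products in scalar extensions -/
theorem e0_mul {V W U : Submodule K B} (h : ∀ v ∈ V, ∀ w ∈ W, v * w ∈ U) {x y : E.B1}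
    (hx : x ∈ E.e0 V) (hy : y ∈ E.e0 W) : x * y ∈ E.e0 U := by
  refine Submodule.span_induction (p := fun x _ => x * y ∈ E.e0 U) ?_ ?_ ?_ ?_ hx
  · rintro _ ⟨v, hv, rfl⟩
    refine Submodule.span_induction (p := fun y _ => E.jB v * y ∈ E.e0 U) ?_ ?_ ?_ ?_ hy
    · rintro _ ⟨w, hw, rfl⟩
      rw [← map_mul]
      exact E.jB_mem (h v hv w hw)
    · simp
    · intro y z _ _ hy hz
      rw [mul_add]
      exact add_mem hy hz
    · intro c y _ hy
      rw [mul_smul_comm]
      exact Submodule.smul_mem _ _ hy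
  · simp
  · intro y z _ _ hy hz
    rw [add_mul]
    exact add_mem hy hz
  · intro c y _ hy
    rw [smul_mul_assoc]
    exact Submodule.smul_mem _ _ hy

/-- K-linear independence of a family of elements of `K1` -/
def KIndep {n : ℕ} (e : Fin n → E.K1) : Prop :=
  ∀ c : Fin n → K, ∑ l, E.jK (c l) * e l = 0 → ∀ l, c l = 0

/-- every element of `e0 V` is `Σ e_l jB(y_l)` with `e_l` independent over `K` and `y_l ∈ V` -/
theorem e0_expand {V : Submodule K B} {x : E.B1} (hx : x ∈ E.e0 V) :
    ∃ (n : ℕ) (e : Fin n → E.K1) (y : Fin n → B), E.KIndep e ∧ (∀ l, y l ∈ V) ∧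
      x = ∑ l, e l • E.jB (y l) := by
  classical
  let _ : Algebra K E.K1 := E.jK.toAlgebra
  have hsmul : ∀ (k : K) (c : E.K1), k • c = E.jK k * c := fun k c => rfl
  rw [e0, Submodule.mem_span_image_iff_exists_fun] at hx
  obtain ⟨t, htV, c, rfl⟩ := hx
  let U : Submodule K E.K1 := Submodule.span K (Set.range c)
  have : FiniteDimensional K U := FiniteDimensional.span_of_finite K (Set.finite_range c)
  let b := Module.finBasis K U
  have hcU : ∀ i, c i ∈ U := fun i => Submodule.subset_span ⟨i, rfl⟩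
  have hc : ∀ i, c i = ∑ l, E.jK (b.repr ⟨c i, hcU i⟩ l) * (b l : E.K1) := by
    intro i
    have h := congrArg (fun z : U => (z : E.K1)) (b.sum_repr ⟨c i, hcU i⟩)
    simp only [AddSubmonoidClass.coe_finsetSum, SetLike.val_smul, hsmul] at h
    exact h.symm
  refine ⟨Module.finrank K U, fun l => (b l : E.K1), fun l => ∑ i : t, b.repr ⟨c i, hcU i⟩ l • (i : B),
    ?_, ?_, ?_⟩
  · intro d hd l
    have h1 : ∑ l, d l • b l = 0 := by
      apply Subtype.ext
      simp only [AddSubmonoidClass.coe_finsetSum, SetLike.val_smul, hsmul]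
      exact hd
    exact Fintype.linearIndependent_iff.mp b.linearIndependent d h1 l
  · intro l
    exact sum_mem fun i _ => V.smul_mem _ (htV i.2)
  · simp only [map_sum, jB_smul, Finset.smul_sum]
    rw [Finset.sum_comm]
    refine Finset.sum_congr rfl fun i _ => ?_
    conv_lhs => rw [hc i]
    rw [Finset.sum_smul]
    refine Finset.sum_congr rfl fun l _ => ?_
    rw [smul_smul, mul_comm]

end basic

section fin

variable {K B : Type} [Field K] [DivisionRing B] [Algebra K B] [FiniteDimensional K B]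
  {r : ℕ} {ζ : K} (E : QExt K B r ζ)

include E in
theorem r_pos : 0 < r := by
  obtain ⟨b1, -⟩ := E.basis (Module.finBasis K B)
  by_contra h
  have hr : r = 0 := by omega
  subst hr
  have : Subsingleton E.B1 := by
    have : IsEmpty (Fin (Module.finrank K B) × Fin 0 × Fin 0) := inferInstance
    have h2 := b1.index_nonempty
    exact (IsEmpty.false h2.some).elim
  exact not_subsingleton E.B1 this

/-- the chosen basis -/
noncomputable def bb : Module.Basis (Fin (Module.finrank K B) × Fin r × Fin r) E.K1 E.B1 :=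
  Classical.choose (E.basis (Module.finBasis K B))

theorem bb_apply (x : Fin (Module.finrank K B) × Fin r × Fin r) :
    E.bb x = E.jB (Module.finBasis K B x.1) * E.mon x.2 :=
  Classical.choose_spec (E.basis (Module.finBasis K B)) x

theorem mem_e0_top {x : E.B1} (hx : x ∈ E.e0 (⊤ : Submodule K B)) :
    ∃ d : Fin (Module.finrank K B) → E.K1, x = ∑ k, d k • E.jB (Module.finBasis K B k) := by
  refine Submodule.span_induction (p := fun x _ => ∃ d : Fin (Module.finrank K B) → E.K1,
    x = ∑ k, d k • E.jB (Module.finBasis K B k)) ?_ ?_ ?_ ?_ hx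
  · rintro _ ⟨b, _, rfl⟩
    refine ⟨fun k => E.jK ((Module.finBasis K B).repr b k), ?_⟩
    conv_lhs => rw [← (Module.finBasis K B).sum_repr b]
    rw [map_sum]
    exact Finset.sum_congr rfl fun k _ => E.jB_smul _ _
  · exact ⟨0, by simp⟩
  · rintro y z _ _ ⟨d, rfl⟩ ⟨d', rfl⟩
    exact ⟨d + d', by simp [add_smul, Finset.sum_add_distrib]⟩
  · rintro c y _ ⟨d, rfl⟩
    exact ⟨c • d, by simp [mul_smul, Finset.smul_sum]⟩

/-- coordinates -/
noncomputable def co (ij : Fin r × Fin r) : E.B1 →ₗ[E.K1] E.B1 where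
  toFun x := ∑ k, E.bb.repr x (k, ij) • E.jB (Module.finBasis K B k)
  map_add' x y := by simp [add_smul, Finset.sum_add_distrib]
  map_smul' c x := by simp [mul_smul, Finset.smul_sum]

theorem co_apply (ij : Fin r × Fin r) (x : E.B1) :
    E.co ij x = ∑ k, E.bb.repr x (k, ij) • E.jB (Module.finBasis K B k) := rfl

theorem co_mem (ij : Fin r × Fin r) (x : E.B1) : E.co ij x ∈ E.e0 (⊤ : Submodule K B) := by
  rw [co_apply]
  exact sum_mem fun _ _ => Submodule.smul_mem _ _ (E.jB_mem Submodule.mem_top)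

theorem sum_co (x : E.B1) : ∑ ij, E.co ij x * E.mon ij = x := by
  conv_rhs => rw [← E.bb.sum_repr x]
  rw [show (∑ i, E.bb.repr x i • E.bb i) = ∑ ij, ∑ k, E.bb.repr x (k, ij) • E.bb (k, ij) from
    Fintype.sum_prod_type_right _]
  refine Finset.sum_congr rfl fun ij _ => ?_
  rw [co_apply, Finset.sum_mul]
  refine Finset.sum_congr rfl fun k _ => ?_
  rw [bb_apply, smul_mul_assoc]

theorem co_sum (y : Fin r × Fin r → E.B1) (hy : ∀ ij, y ij ∈ E.e0 (⊤ : Submodule K B))
    (ij : Fin r × Fin r) : E.co ij (∑ ij, y ij * E.mon ij) = y ij := by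
  choose d hd using fun ij => E.mem_e0_top (hy ij)
  have h : ∑ ij, y ij * E.mon ij = ∑ x, d x.2 x.1 • E.bb x := by
    rw [show (∑ x, d x.2 x.1 • E.bb x) = ∑ ij, ∑ k, d ij k • E.bb (k, ij) from
      Fintype.sum_prod_type_right _]
    refine Finset.sum_congr rfl fun ij _ => ?_
    rw [hd ij, Finset.sum_mul]
    refine Finset.sum_congr rfl fun k _ => ?_
    rw [bb_apply, smul_mul_assoc]
  rw [co_apply, h]
  rw [hd ij]
  refine Finset.sum_congr rfl fun k _ => ?_
  rw [E.bb.repr_sum_self]

/-- uniqueness of the coordinates -/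
theorem co_eq {x : E.B1} {y : Fin r × Fin r → E.B1} (hy : ∀ ij, y ij ∈ E.e0 (⊤ : Submodule K B))
    (h : x = ∑ ij, y ij * E.mon ij) (ij : Fin r × Fin r) : E.co ij x = y ij := by
  rw [h, E.co_sum y hy]

theorem ext_co {x y : E.B1} (h : ∀ ij, E.co ij x = E.co ij y) : x = y := by
  rw [← E.sum_co x, ← E.sum_co y]
  exact Finset.sum_congr rfl fun ij _ => by rw [h ij]

theorem co_mul_mon {x : E.B1} (hx : x ∈ E.e0 (⊤ : Submodule K B)) (ij kl : Fin r × Fin r) :
    E.co ij (x * E.mon kl) = if ij = kl then x else 0 := by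
  classical
  refine (E.co_eq (y := fun ij => if ij = kl then x else 0) ?_ ?_ ij)
  · intro ij
    by_cases h : ij = kl
    · simpa [h] using hx
    · simp [h]
  · simp

theorem co_left_mul {x : E.B1} (hx : x ∈ E.e0 (⊤ : Submodule K B)) (ij : Fin r × Fin r) (y : E.B1) :
    E.co ij (x * y) = x * E.co ij y := by
  refine E.co_eq (y := fun ij => x * E.co ij y) ?_ ?_ ij
  · intro ij
    exact E.e0_mul (U := ⊤) (fun _ _ _ _ => Submodule.mem_top) hx (E.co_mem ij y)
  · conv_lhs => rw [← E.sum_co y]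
    rw [Finset.mul_sum]
    exact Finset.sum_congr rfl fun ij _ => by rw [mul_assoc]

theorem mon_comm (ij : Fin r × Fin r) (b : B) : E.jB b * E.mon ij = E.mon ij * E.jB b :=
  E.jB_mul_mon b ij

theorem co_right_mul {x : E.B1} (hx : x ∈ E.e0 (⊤ : Submodule K B)) (ij : Fin r × Fin r) (y : E.B1) :
    E.co ij (y * x) = E.co ij y * x := by
  refine E.co_eq (y := fun ij => E.co ij y * x) ?_ ?_ ij
  · intro ij
    exact E.e0_mul (U := ⊤) (fun _ _ _ _ => Submodule.mem_top) (E.co_mem ij y) hx
  · conv_lhs => rw [← E.sum_co y]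
    rw [Finset.sum_mul]
    refine Finset.sum_congr rfl fun ij _ => ?_
    rw [mul_assoc, mul_assoc, E.e0_comm hx (fun b => E.jB_mul_mon b ij)]

/-- linear disjointness -/
theorem e0_indep {n : ℕ} {e : Fin n → E.K1} (he : E.KIndep e) {z : Fin n → B}
    (h : ∑ l, e l • E.jB (z l) = 0) (l : Fin n) : z l = 0 := by
  have hr := E.r_pos
  let o : Fin r × Fin r := (⟨0, hr⟩, ⟨0, hr⟩)
  have hmon : E.mon o = 1 := by simp [mon, o]
  -- coefficients
  have h1 : ∀ k, ∑ l, E.jK ((Module.finBasis K B).repr (z l) k) * e l = 0 := by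
    intro k
    have h2 : ∑ k, (∑ l, E.jK ((Module.finBasis K B).repr (z l) k) * e l) • E.bb (k, o) = 0 := by
      rw [← h]
      simp only [Finset.sum_smul]
      rw [Finset.sum_comm]
      refine Finset.sum_congr rfl fun l _ => ?_
      conv_rhs => rw [← (Module.finBasis K B).sum_repr (z l)]
      rw [map_sum, Finset.smul_sum]
      refine Finset.sum_congr rfl fun k _ => ?_
      rw [bb_apply, hmon, mul_one, jB_smul, smul_smul, mul_comm]
    have h3 := congrArg (fun x => E.bb.repr x (k, o)) h2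
    simp only [map_sum, map_smul, Module.Basis.repr_self, map_zero, Finsupp.coe_zero,
      Pi.zero_apply, Finsupp.coe_finsetSum, Finset.sum_apply, Finsupp.smul_single, smul_eq_mul,
      mul_one] at h3
    rw [Finset.sum_eq_single k] at h3
    · simpa using h3
    · intro k' _ hk'
      rw [Finsupp.single_apply, if_neg]
      intro h4
      exact hk' (Prod.mk.inj h4).1
    · intro h; exact absurd (Finset.mem_univ k) h
  have h4 : ∀ k, (Module.finBasis K B).repr (z l) k = 0 := fun k => he _ (h1 k) l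
  rw [← (Module.finBasis K B).sum_repr (z l)]
  exact Finset.sum_eq_zero fun k _ => by rw [h4 k, zero_smul]

/-- **descent**: let `φ α : B → B` be `K`-linear maps with `K1`-linear extensions `φ1 α`. An element of
`e0 V` killed by all `φ1 α` is in `e0` of the subspace of `V` killed by all `φ α`. -/
theorem e0_descent {V V' : Submodule K B} {A : Type*} (φ : A → B →ₗ[K] B)
    (φ1 : A → E.B1 →ₗ[E.K1] E.B1) (hφ : ∀ α b, φ1 α (E.jB b) = E.jB (φ α b))
    (hV : ∀ v ∈ V, (∀ α, φ α v = 0) → v ∈ V')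
    {x : E.B1} (hx : x ∈ E.e0 V) (h : ∀ α, φ1 α x = 0) : x ∈ E.e0 V' := by
  obtain ⟨n, e, y, he, hy, rfl⟩ := E.e0_expand hx
  refine sum_mem fun l _ => Submodule.smul_mem _ _ (E.jB_mem (hV _ (hy l) fun α => ?_))
  have h1 := h α
  rw [map_sum] at h1
  simp only [map_smul, hφ] at h1
  exact E.e0_indep he h1 l

/-- descent for functionals -/
theorem e0_descent_form {V V' : Submodule K B} {A : Type*} (φ : A → B →ₗ[K] K)
    (φ1 : A → E.B1 →ₗ[E.K1] E.K1) (hφ : ∀ α b, φ1 α (E.jB b) = E.jK (φ α b))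
    (hV : ∀ v ∈ V, (∀ α, φ α v = 0) → v ∈ V')
    {x : E.B1} (hx : x ∈ E.e0 V) (h : ∀ α, φ1 α x = 0) : x ∈ E.e0 V' := by
  obtain ⟨n, e, y, he, hy, rfl⟩ := E.e0_expand hx
  refine sum_mem fun l _ => Submodule.smul_mem _ _ (E.jB_mem (hV _ (hy l) fun α => ?_))
  have h1 := h α
  rw [map_sum] at h1
  simp only [map_smul, hφ, smul_eq_mul] at h1
  refine he (fun l => φ α (y l)) ?_ l
  rw [← h1]
  exact Finset.sum_congr rfl fun l _ => mul_comm _ _

theorem of_jB_mem {V : Submodule K B} {b : B} (hb : E.jB b ∈ E.e0 V) : b ∈ V := by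
  by_contra hn
  obtain ⟨f, hf, hfV⟩ : ∃ f : B →ₗ[K] K, f b ≠ 0 ∧ V ≤ LinearMap.ker f := by
    obtain ⟨f, hf⟩ := Submodule.exists_le_ker_of_notMem hn
    exact ⟨f, hf⟩
  obtain ⟨n, e, y, he, hy, h1⟩ := E.e0_expand hb
  -- compare in a basis-free way : add the extra vector
  -- jB b = Σ e l • jB (y l); write 1 = combination: use `e0_indep` after expanding with `bb`
  have h3 : ∀ g : B →ₗ[K] K, E.jK (g b) = ∑ l, e l * E.jK (g (y l)) := by
    intro g
    have hr := E.r_pos
    let o : Fin r × Fin r := (⟨0, hr⟩, ⟨0, hr⟩)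
    have hmon : E.mon o = 1 := by simp [mon, o]
    -- K1-linear extension of `g`
    let g1 : E.B1 →ₗ[E.K1] E.K1 := E.bb.constr E.K1 fun x =>
      if x.2 = o then E.jK (g (Module.finBasis K B x.1)) else 0
    have hg1 : ∀ c, g1 (E.jB c) = E.jK (g c) := by
      intro c
      conv_lhs => rw [← (Module.finBasis K B).sum_repr c]
      conv_rhs => rw [← (Module.finBasis K B).sum_repr c]
      rw [map_sum, map_sum, map_sum, map_sum]
      refine Finset.sum_congr rfl fun k _ => ?_
      rw [jB_smul, map_smul, map_smul, smul_eq_mul, smul_eq_mul, map_mul]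
      congr 1
      have h5 : E.jB (Module.finBasis K B k) = E.bb (k, o) := by rw [bb_apply, hmon, mul_one]
      rw [h5, Module.Basis.constr_basis]
      simp
    have h6 := congrArg g1 h1
    rw [hg1, map_sum] at h6
    simpa [hg1] using h6
  have h4 := h3 f
  have h5 : ∀ l, f (y l) = 0 := fun l => hfV (hy l)
  simp only [h5, map_zero, mul_zero, Finset.sum_const_zero] at h4
  exact hf ((map_eq_zero E.jK).mp h4)

end fin

end QExt

end Vale.P199
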