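import Vale.Agent.P199.B7Elem
import Vale.Agent.P199.QCoord
import Vale.Agent.P199.Inv

/-!
# P199, L7c: the explicit elements of B7, form for points
-/

namespace Vale.P199
namespace B7

open Module

section Phi

variable {K B : Type} [Field K] [CharZero K] [DivisionRing B] [Algebra K B]
  [FiniteDimensional K B] {r : ℕ} {ζ : K}

/-- the `K1`-linear extension `φ ⊗ id` -/
theorem exists_phi (E : QExt K B r ζ) (hr : 0 < r)
    (central : ∀ a : B, (∀ b, a * b = b * a) → ∃ k, algebraMap K B k = a) (φ : B →ₗ[K] K) :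
    ∃ Φ : E.B1 →ₗ[E.K1] E.B1, ∀ (b : B) (t : E.B1), (∀ b', E.jB b' * t = t * E.jB b') →
      Φ (E.jB b * t) = E.jK (φ b) • t := by
  classical
  let bK := Module.finBasis K B
  refine ⟨E.bb.constr E.K1 (fun x => E.jK (φ (bK x.1)) • E.mon x.2), fun b t ht => ?_⟩
  obtain ⟨c, rfl⟩ := (E.mem_Q hr central t).1 ht
  have hmon : ∀ ij, E.bb.constr E.K1 (fun x => E.jK (φ (bK x.1)) • E.mon x.2)
      (E.jB b * E.mon ij) = E.jK (φ b) • E.mon ij := by
    intro ij
    have hb : E.jB b * E.mon ij = ∑ l, E.jK (bK.repr b l) • E.bb (l, ij) := by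
      conv_lhs => rw [← bK.sum_repr b]
      rw [map_sum, Finset.sum_mul]
      refine Finset.sum_congr rfl fun l _ => ?_
      rw [E.jB_smul, smul_mul_assoc, E.bb_apply]
    have hφ : φ b = ∑ l, bK.repr b l * φ (bK l) := by
      conv_lhs => rw [← bK.sum_repr b]
      rw [map_sum]
      exact Finset.sum_congr rfl fun l _ => by rw [map_smul, smul_eq_mul]
    rw [hb, map_sum, hφ, map_sum, Finset.sum_smul]
    refine Finset.sum_congr rfl fun l _ => ?_
    rw [map_smul, Basis.constr_basis, smul_smul, map_mul]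
  rw [Finset.mul_sum, map_sum, Finset.smul_sum]
  refine Finset.sum_congr rfl fun ij _ => ?_
  have := hmon ij
  rw [E.mon_def] at this
  rw [mul_smul_comm, map_smul, this, smul_comm]

/-- coordinates of a scalar multiple of a monomial -/
theorem mon_indep (E : QExt K B r ζ) (ij kl : Fin r × Fin r) (c : E.K1) :
    E.co ij (c • E.mon kl) = if ij = kl then c • 1 else 0 := by
  have h1 : (1 : E.B1) ∈ E.e0 (⊤ : Submodule K B) := by
    have := E.jB_mem (b := (1 : B)) (V := (⊤ : Submodule K B)) Submodule.mem_top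
    rwa [map_one] at this
  have : c • E.mon kl = (c • (1 : E.B1)) * E.mon kl := by rw [smul_mul_assoc, one_mul]
  rw [this, E.co_mul_mon (Submodule.smul_mem _ _ h1)]

/-- the independence statement needed for `ind_core` -/
theorem b7_indep {I : Type} [Fintype I] (E : QExt K B r ζ) (hr : 1 < r)
    (central : ∀ a : B, (∀ b, a * b = b * a) → ∃ k, algebraMap K B k = a)
    {h : ℕ} (f : NC I B) (w1 w2 : B) (p : Fin h → I → K) (e0 e1 : Fin h → ℕ)
    (he0 : ∀ k, e0 k < r) (he1 : ∀ k, e1 k < r) (i0 : Function.Injective e0)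
    (i1 : Function.Injective e1) (h01 : ∀ k l, e0 k ≠ e1 l)
    (φ : B →ₗ[K] K) (hφ1 : φ w1 = 0) (hφ2 : φ w2 = 0) (k0 : Fin h)
    (hφ : φ (State.lin f (p k0)) ≠ 0) (a0 a1 : E.K1) (q : E.B1)
    (hq : ∀ b, q * E.jB b = E.jB b * q)
    (heq : a0 • linR E.jB f (P0 E p e0) + a1 • linR E.jB f (P0 E p e1) =
      E.jB w1 * (q * E.u - E.u * q) + E.jB w2 * (q * E.v - E.v * q)) :
    a0 = 0 ∧ a1 = 0 := by
  classical
  obtain ⟨Φ, hΦ⟩ := exists_phi E (by omega) central φ
  have hqu : ∀ b', E.jB b' * (q * E.u - E.u * q) = (q * E.u - E.u * q) * E.jB b' := by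
    intro b'
    have h1 : Commute (E.jB b') q := (hq b').symm
    have h2 : Commute (E.jB b') E.u := E.hu b'
    exact ((h1.mul_right h2).sub_right (h2.mul_right h1)).eq
  have hqv : ∀ b', E.jB b' * (q * E.v - E.v * q) = (q * E.v - E.v * q) * E.jB b' := by
    intro b'
    have h1 : Commute (E.jB b') q := (hq b').symm
    have h2 : Commute (E.jB b') E.v := E.hv b'
    exact ((h1.mul_right h2).sub_right (h2.mul_right h1)).eq
  have huv : ∀ (n : ℕ) b', E.jB b' * (E.u * E.v ^ n) = (E.u * E.v ^ n) * E.jB b' := by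
    intro n b'
    have h1 : Commute (E.jB b') E.u := E.hu b'
    have h2 : Commute (E.jB b') E.v := E.hv b'
    exact (h1.mul_right (h2.pow_right n)).eq
  have hP : ∀ e : Fin h → ℕ, Φ (linR E.jB f (P0 E p e)) =
      ∑ k, E.jK (φ (State.lin f (p k))) • (E.u * E.v ^ e k) := by
    intro e
    rw [linR_P0, map_sum]
    exact Finset.sum_congr rfl fun k _ => hΦ _ _ (huv _)
  have key := congrArg Φ heq
  rw [map_add, map_smul, map_smul, hP, hP, map_add, hΦ _ _ hqu, hΦ _ _ hqv, hφ1, hφ2, map_zero,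
    zero_smul, zero_smul, add_zero] at key
  have hmon : ∀ n (hn : n < r), E.u * E.v ^ n = E.mon (⟨1, hr⟩, ⟨n, hn⟩) := by
    intro n hn
    rw [E.mon_def]; simp
  have hco : ∀ (e : Fin h → ℕ) (he : ∀ k, e k < r) (n : ℕ) (hn : n < r),
      E.co (⟨1, hr⟩, ⟨n, hn⟩) (∑ k, E.jK (φ (State.lin f (p k))) • (E.u * E.v ^ e k)) =
        ∑ k, if n = e k then E.jK (φ (State.lin f (p k))) • (1 : E.B1) else 0 := by
    intro e he n hn
    rw [map_sum]
    refine Finset.sum_congr rfl fun k _ => ?_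
    rw [hmon _ (he k), mon_indep]
    by_cases hnk : n = e k
    · subst hnk; simp
    · rw [if_neg hnk, if_neg]
      intro h
      apply hnk
      have := congrArg (fun x => (x.2 : ℕ)) h
      exact this
  have hk0 : E.jK (φ (State.lin f (p k0))) ≠ 0 := (map_ne_zero E.jK).2 hφ
  have one_ne : (1 : E.B1) ≠ 0 := one_ne_zero
  constructor
  · have := congrArg (E.co (⟨1, hr⟩, ⟨e0 k0, he0 k0⟩)) key
    rw [map_add, map_smul, map_smul, hco e0 he0, hco e1 he1, map_zero,
      Finset.sum_eq_single k0, Finset.sum_eq_zero, smul_zero, add_zero, if_pos rfl, smul_smul,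
      smul_eq_zero, mul_eq_zero] at this
    · rcases this with (h | h) | h
      · exact h
      · exact absurd h hk0
      · exact absurd h one_ne
    · intro k _
      rw [if_neg (h01 k0 k)]
    · intro k _ hk
      rw [if_neg]
      intro h
      exact hk (i0 h).symm
    · intro h; exact absurd (Finset.mem_univ _) h
  · have := congrArg (E.co (⟨1, hr⟩, ⟨e1 k0, he1 k0⟩)) key
    rw [map_add, map_smul, map_smul, hco e0 he0, hco e1 he1, map_zero,
      Finset.sum_eq_zero, smul_zero, zero_add, Finset.sum_eq_single k0, if_pos rfl, smul_smul,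
      smul_eq_zero, mul_eq_zero] at this
    · rcases this with (h | h) | h
      · exact h
      · exact absurd h hk0
      · exact absurd h one_ne
    · intro k _ hk
      rw [if_neg]
      intro h
      exact hk (i1 h).symm
    · intro h; exact absurd (Finset.mem_univ _) h
    · intro k _
      rw [if_neg]
      intro h
      exact h01 k k0 h.symm

end Phi

section Main

variable {S0 : State} {f0 : NC S0.I S0.B}

/-- every element of `W` is the value of `lin f` at some direction -/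
theorem exists_dir (x : Pt S0 f0) {w : x.S.B} (hw : w ∈ x.W) :
    ∃ p : x.S.I → x.S.K, State.lin x.f p = w := by
  obtain ⟨p, hp⟩ := (Submodule.mem_span_range_iff_exists_fun x.S.K).1 hw
  exact ⟨p, hp⟩

theorem M_comm (x : Pt S0 f0) {a b : x.S.B} (ha : a ∈ x.M) (hb : b ∈ x.M) : a * b = b * a :=
  ha b (x.M_le_Z hb)

/-- trace of a constant -/
theorem tr_jB {K B : Type} [Field K] [CharZero K] [DivisionRing B] [Algebra K B]
    [FiniteDimensional K B] {r : ℕ} {ζ : K} (E : QExt K B r ζ) (hr : 0 < r)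
    (hζ : IsPrimitiveRoot ζ r) (b : B) :
    tr E.K1 E.B1 (E.jB b) = (r : E.K1) ^ 2 * E.jK (tr K B b) := by
  have := E.tr_mono hr hζ b ⟨0, hr⟩ ⟨0, hr⟩
  simpa using this

theorem elements (x : Pt S0 f0) (hWM : x.W ≤ x.M) {r : ℕ} {ζ : x.S.K} (hζ : IsPrimitiveRoot ζ r)
    (E : QExt x.S.K x.S.B r ζ) {w1 w2 : x.S.B} (hg : x.GoodPair w1 w2)
    (hr : 2 * finrank x.S.K x.W < r) (h3 : 3 ≤ finrank x.S.K x.W) (hξ : 3 * x.ξ < x.η)
    {n : ℕ} (c : Fin n → x.S.B) (hc : ∀ b, c b ∈ x.C)
    (hind : ∀ γ : Fin n → x.S.K, ∑ b, γ b • c b ∈ x.Coo → γ = 0) :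
    ∃ (P0 : Fin 2 → x.S.I → E.B1) (y0 : Fin 2 → E.B1) (q0 : Fin 2 → Fin n → x.S.I → E.B1)
      (z0 : Fin 2 → Fin n → E.B1),
      (∀ m i b, E.jB b * P0 m i = P0 m i * E.jB b) ∧
      (∀ m, E.jB x.a * y0 m = y0 m * E.jB x.a) ∧
      (∀ m b' i b, E.jB b * q0 m b' i = q0 m b' i * E.jB b) ∧
      (∀ m b', E.jB x.a * z0 m b' = z0 m b' * E.jB x.a) ∧
      (∀ m, linR E.jB x.f (P0 m) = (E.jB w1 * E.u + E.jB w2 * E.v) * y0 m -
        y0 m * (E.jB w1 * E.u + E.jB w2 * E.v)) ∧
      (∀ m b, linR E.jB x.f (q0 m b) = (E.jB w1 * E.u + E.jB w2 * E.v) * z0 m b -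
        z0 m b * (E.jB w1 * E.u + E.jB w2 * E.v)) ∧
      (∀ m, (Matrix.of fun b b' =>
        tr E.K1 E.B1 (E.jB (c b) * y0 m * linR E.jB x.f (q0 m b'))).det ≠ 0) ∧
      (∀ m m', m ≠ m' → ∀ b b',
        tr E.K1 E.B1 (E.jB (c b) * y0 m * linR E.jB x.f (q0 m' b')) = 0) ∧
      (∀ (c' : x.S.B) (m m'), tr E.K1 E.B1 (E.jB c' * y0 m * linR E.jB x.f (P0 m')) = 0) ∧
      (∀ (a0 a1 : E.K1) (q : E.B1), (∀ b, q * E.jB b = E.jB b * q) →
        a0 • linR E.jB x.f (P0 0) + a1 • linR E.jB x.f (P0 1) =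
          E.jB w1 * (q * E.u - E.u * q) + E.jB w2 * (q * E.v - E.v * q) → a0 = 0 ∧ a1 = 0) := by
  classical
  obtain ⟨hw1, hw2, n1, n2, -⟩ := hg
  have hr0 : 0 < r := by omega
  have hr1 : 1 < r := by omega
  set h := finrank x.S.K x.W with hh
  let bW := Module.finBasis x.S.K x.W
  let w : Fin h → x.S.B := fun k => (bW k : x.S.B)
  have hwW : ∀ k, w k ∈ x.W := fun k => (bW k).2
  choose p hp using fun k => exists_dir x (hwW k)
  -- exponents
  let e : Fin 2 → Fin h → ℕ := fun m k => 1 + (k : ℕ) + (m : ℕ) * h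
  have he0 : ∀ m k, 0 < e m k := fun m k => by simp only [e]; omega
  have her : ∀ m k, e m k < r := by
    intro m k
    have hk := k.2
    have hm := m.2
    have : (m : ℕ) * h ≤ h := by
      have : (m : ℕ) ≤ 1 := by omega
      nlinarith
    simp only [e]
    omega
  have heinj : ∀ m m' k k', e m k = e m' k' → m = m' ∧ k = k' := by
    intro m m' k k' hkk
    simp only [e] at hkk
    have hk := k.2
    have hk' := k'.2
    fin_cases m <;> fin_cases m' <;> simp at hkk ⊢ <;> omega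
  -- M-facts
  have hwM : ∀ k, w k ∈ x.M := fun k => hWM (hwW k)
  have hw1M := hWM hw1
  have hw2M := hWM hw2
  have hWne : x.W ≠ ⊥ := fun h0 => n1 (by
    rw [h0] at hw1
    exact (Submodule.mem_bot x.S.K).1 hw1)
  have hHM : x.H.toSubmodule ≤ x.M := x.H_le_M hWM
  set H : Submodule x.S.K x.S.B := Subalgebra.toSubmodule x.H with hH
  have hHs : IsSubfield H := ⟨x.H.one_mem, fun a ha b hb => x.H.mul_mem ha hb⟩
  have hWH : x.W ≤ H.map (LinearMap.mulLeft x.S.K w1) := by
    intro y hy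
    refine ⟨w1⁻¹ * y, Algebra.subset_adjoin ⟨y, hy, w1, hw1, n1, rfl⟩, ?_⟩
    rw [LinearMap.mulLeft_apply, ← mul_assoc, mul_inv_cancel₀ n1, one_mul]
  have hηH : x.η = finrank x.S.K H := rfl
  have hηW : x.η = finrank x.S.K x.W + x.ξ := x.η_eq hWne
  set U := W12 H x.W w1 w2 with hU
  have hUdim := finrank_W12 hHs hWH hw1 n1 hw2 n2
  have hspan := span_mul_eq (U := U) hHs hWH (W12_le (w1 := w1) (w2 := w2)) (by
    rw [← hηH]
    rw [← hηH, ← hU] at hUdim
    omega)
  have hexp : ∀ y (hy : y ∈ x.W), y = ∑ k, bW.repr ⟨y, hy⟩ k • w k := by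
    intro y hy
    have h0 : x.W.subtype (∑ k, bW.repr ⟨y, hy⟩ k • bW k) = x.W.subtype ⟨y, hy⟩ := by
      rw [bW.sum_repr]
    rw [map_sum] at h0
    exact h0.symm
  -- selection of functionals
  let J := Fin h × U
  let ψ : J → x.S.B → x.S.K := fun j cc => tr x.S.K x.S.B (cc * (w j.1 * (j.2 : x.S.B)))
  obtain ⟨j, hj⟩ := exists_minor c ψ
    (fun j a b => by simp only [ψ]; rw [add_mul, map_add])
    (fun j a b => by simp only [ψ]; rw [smul_mul_assoc, map_smul, smul_eq_mul])
    (by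
      intro γ hγ
      apply hind
      obtain ⟨c0, hc0⟩ : ∃ c0, c0 = ∑ b, γ b • c b := ⟨_, rfl⟩
      rw [← hc0]
      rw [← hc0] at hγ
      have hc0C : c0 ∈ x.C := by
        rw [hc0]; exact Submodule.sum_mem _ fun b _ => Submodule.smul_mem _ _ (hc b)
      refine ⟨hc0C.1, ?_⟩
      -- orthogonality to w h'
      have h1 : ∀ y ∈ x.W, ∀ u ∈ U, tr x.S.K x.S.B (c0 * (y * u)) = 0 := by
        intro y hy u hu
        rw [hexp y hy, Finset.sum_mul, Finset.mul_sum, map_sum]
        refine Finset.sum_eq_zero fun k _ => ?_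
        rw [smul_mul_assoc, mul_smul_comm, map_smul]
        have := hγ (k, ⟨u, hu⟩)
        simp only [ψ] at this
        rw [this, smul_zero]
      have h2 : Submodule.span x.S.K {y : x.S.B | ∃ w ∈ x.W, ∃ h ∈ U, y = w * h} ≤
          LinearMap.ker ((tr x.S.K x.S.B) ∘ₗ (LinearMap.mulLeft x.S.K c0)) := by
        rw [Submodule.span_le]
        rintro _ ⟨y, hy, u, hu, rfl⟩
        exact h1 y hy u hu
      intro y hy
      have h3 : y ∈ H.map (LinearMap.mulLeft x.S.K w1) := by
        have h4 := Inv.span_eq_map hw1 n1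
        rw [show H = Subalgebra.toSubmodule (ratioAlg x.S.K x.W) from rfl, ← h4]
        exact hy
      rw [← hspan] at h3
      exact h2 h3)
  -- directions for the elements (B)
  have hj1 : ∀ i, w1 * ((j i).2 : x.S.B) ∈ x.W := fun i => (mem_W12.1 (j i).2.2).2.1
  have hj2 : ∀ i, w2 * ((j i).2 : x.S.B) ∈ x.W := fun i => (mem_W12.1 (j i).2.2).2.2
  have hjM : ∀ i, ((j i).2 : x.S.B) ∈ x.M := fun i => hHM (mem_W12.1 (j i).2.2).1
  choose d1 hd1 using fun i => exists_dir x (hj1 i)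
  choose d2 hd2 using fun i => exists_dir x (hj2 i)
  have cM : ∀ {a b : x.S.B}, a ∈ x.M → b ∈ x.M → a * b = b * a := fun ha hb => M_comm x ha hb
  have haM : ∀ {b : x.S.B}, b ∈ x.M → x.a * b = b * x.a := fun {b} hb =>
    Tr.mem_cen.1 (x.M_le_Z hb)
  refine ⟨fun m => B7.P0 E p (e m), fun m => yP E w w1 (e m),
    fun m i => B7.q0 E (d1 i) (d2 i) (e m (j i).1), fun m i => yq E (j i).2 (e m (j i).1),
    ?_, ?_, ?_, ?_, ?_, ?_, ?_, ?_, ?_, ?_⟩
  · intro m i b
    simp only [B7.P0]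
    rw [Finset.mul_sum, Finset.sum_mul]
    refine Finset.sum_congr rfl fun k _ => ?_
    rw [mul_smul_comm, smul_mul_assoc]
    congr 1
    exact ((cu E b).mul_right ((cv E b).pow_right _)).eq
  · intro m
    simp only [yP]
    rw [Finset.mul_sum, Finset.sum_mul]
    refine Finset.sum_congr rfl fun k _ => ?_
    rw [mul_smul_comm, smul_mul_assoc]
    congr 1
    have c1 : Commute (E.jB x.a) (E.jB (w k * w1⁻¹)) := by
      apply comm_jB
      have c2 : Commute x.a (w k) := haM (hwM k)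
      have c3 : Commute x.a w1 := haM hw1M
      exact (c2.mul_right c3.inv_right₀).eq
    exact (c1.mul_right ((cv E x.a).pow_right _)).eq
  · intro m b' i b
    simp only [B7.q0]
    have c1 : Commute (E.jB b) (E.u⁻¹) := (cu E b).inv_right₀
    have c2 : Commute (E.jB b) (E.v⁻¹) := (cv E b).inv_right₀
    have c3 : Commute (E.jB b) ((E.v⁻¹) ^ e m (j b').1) := c2.pow_right _
    have c4 : Commute (E.jB b) (E.u⁻¹ * (E.v⁻¹) ^ e m (j b').1 * E.v) :=
      (c1.mul_right c3).mul_right (cv E b)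
    rw [mul_add, add_mul, mul_smul_comm, mul_smul_comm, mul_smul_comm, mul_smul_comm,
      smul_mul_assoc, smul_mul_assoc, smul_mul_assoc, smul_mul_assoc, c3.eq, c4.eq]
  · intro m i
    simp only [yq]
    have c1 : Commute (E.jB x.a) (E.u⁻¹) := (cu E x.a).inv_right₀
    have c2 : Commute (E.jB x.a) (E.v⁻¹) := (cv E x.a).inv_right₀
    have c3 : Commute (E.jB x.a) (E.jB (j i).2) := comm_jB E (haM (hjM i))
    exact (c3.mul_right (c1.mul_right (c2.pow_right _))).eq
  · intro m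
    exact comm_yP E hr0 hζ x.f w w1 w2 n1 (cM hw1M hw2M) (fun k => cM (hwM k) hw1M)
      (fun k => cM (hwM k) hw2M) p hp (e m) (he0 m) (her m)
  · intro m i
    exact comm_yq E hr0 hζ x.f w1 w2 _ (cM (hjM i) hw1M) (cM (hjM i) hw2M) _ _ (hd1 i) (hd2 i) _
  · intro m
    have hval : ∀ b i, tr E.K1 E.B1 (E.jB (c b) * yP E w w1 (e m) *
        linR E.jB x.f (B7.q0 E (d1 i) (d2 i) (e m (j i).1))) =
        ((1 - (E.jK ζ ^ e m (j i).1)⁻¹)⁻¹ * (1 - E.jK ζ ^ e m (j i).1) * (r : E.K1) ^ 2) *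
          E.jK (ψ (j i) (c b)) := by
      intro b i
      rw [pair_q0 E hr1 hζ x.f w w1 w2 (j i).2 (c b) n1 (e m) (her m) _ _ (hd1 i) (hd2 i) _
        (her m _), Finset.sum_eq_single (j i).1, if_pos rfl, tr_jB E hr0 hζ]
      · simp only [ψ]; ring
      · intro k _ hk
        rw [if_neg]
        intro h'
        exact hk (heinj _ _ _ _ h').2
      · intro h'; exact absurd (Finset.mem_univ _) h'
    have hM : (Matrix.of fun b i => tr E.K1 E.B1 (E.jB (c b) * yP E w w1 (e m) *
        linR E.jB x.f (B7.q0 E (d1 i) (d2 i) (e m (j i).1)))) =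
        Matrix.of fun b i => ((1 - (E.jK ζ ^ e m (j i).1)⁻¹)⁻¹ * (1 - E.jK ζ ^ e m (j i).1) *
          (r : E.K1) ^ 2) * ((Matrix.of fun b i => ψ (j i) (c b)).map E.jK) b i := by
      ext b i
      exact hval b i
    rw [hM, Matrix.det_mul_row]
    refine mul_ne_zero (Finset.prod_ne_zero_iff.2 fun i _ => ?_) ?_
    · have h1 : E.jK ζ ^ e m (j i).1 ≠ 1 := pow_ne_one' E hζ (he0 _ _) (her _ _)
      refine mul_ne_zero (mul_ne_zero (inv_ne_zero ?_) ?_) ?_
      · rw [sub_ne_zero]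
        intro h0
        exact h1 (inv_eq_one.1 h0.symm)
      · rw [sub_ne_zero]
        exact h1.symm
      · have : (r : E.K1) ≠ 0 := by exact_mod_cast hr0.ne'
        exact pow_ne_zero _ this
    · have : ((Matrix.of fun b i => ψ (j i) (c b)).map E.jK).det =
          E.jK (Matrix.of fun b i => ψ (j i) (c b)).det := by
        rw [RingHom.map_det]; rfl
      rw [this]
      exact (map_ne_zero E.jK).2 hj
  · intro m m' hmm b i
    rw [pair_q0 E hr1 hζ x.f w w1 w2 (j i).2 (c b) n1 (e m) (her m) _ _ (hd1 i) (hd2 i) _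
        (her m' _)]
    refine Finset.sum_eq_zero fun k _ => ?_
    rw [if_neg]
    intro h'
    exact hmm (heinj _ _ _ _ h').1
  · intro c' m m'
    exact pair_P0 E hr1 hζ x.f w w1 c' (e m) p (e m')
  · intro a0 a1 q hq heq
    -- a functional vanishing on w1, w2 but not on W
    obtain ⟨y, hyW, hy⟩ : ∃ y ∈ x.W, y ∉ Submodule.span x.S.K {w1, w2} := by
      by_contra hcon
      push Not at hcon
      have h1 : finrank x.S.K x.W ≤ finrank x.S.K (Submodule.span x.S.K {w1, w2}) :=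
        Submodule.finrank_mono hcon
      have h2 : finrank x.S.K (Submodule.span x.S.K {w1, w2}) ≤ 2 := by
        have := finrank_span_finset_le_card (R := x.S.K) ({w1, w2} : Finset x.S.B)
        have hcard : ({w1, w2} : Finset x.S.B).card ≤ 2 := Finset.card_le_two
        have hcoe : ((({w1, w2} : Finset x.S.B) : Set x.S.B)) = {w1, w2} := by simp
        rw [Set.finrank, hcoe] at this
        omega
      omega
    obtain ⟨φ, hφy, hφs⟩ := Submodule.exists_le_ker_of_notMem hy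
    have hφ1 : φ w1 = 0 := hφs (Submodule.subset_span (by simp))
    have hφ2 : φ w2 = 0 := hφs (Submodule.subset_span (by simp))
    obtain ⟨k0, hk0⟩ : ∃ k0, φ (w k0) ≠ 0 := by
      by_contra hcon
      push Not at hcon
      apply hφy
      rw [hexp y hyW, map_sum]
      refine Finset.sum_eq_zero fun k _ => ?_
      rw [map_smul, hcon, smul_zero]
    exact b7_indep E hr1 x.S.central x.f w1 w2 p (e 0) (e 1) (her 0) (her 1)
      (fun k k' h' => (heinj _ _ _ _ h').2) (fun k k' h' => (heinj _ _ _ _ h').2)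
      (fun k l h' => absurd (heinj _ _ _ _ h').1 (by decide)) φ hφ1 hφ2 k0 (by rwa [hp]) a0 a1 q hq
      heq

end Main

end B7
end Vale.P199
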