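import Vale.Agent.P199.B7Elem2

/-!
# P199, [7.7] in the form used by the assembly of `final_base`
-/

namespace Vale.P199
namespace B7

open Module

variable {S0 : State} {f0 : NC S0.I S0.B}

/-- `ξ` elements of `C` independent modulo `Coo` -/
theorem exists_c (x : Pt S0 f0) (hWM : x.W ≤ x.M) (hW0 : x.W ≠ ⊥) :
    ∃ c : Fin x.ξ → x.S.B, (∀ b, c b ∈ x.C) ∧
      ∀ γ : Fin x.ξ → x.S.K, ∑ b, γ b • c b ∈ x.Coo → γ = 0 := by
  classical
  let N : Submodule x.S.K x.C := x.Coo.comap x.C.subtype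
  have hN : finrank x.S.K N = finrank x.S.K x.Coo :=
    LinearEquiv.finrank_eq (Submodule.comapSubtypeEquivOfLe x.Coo_le_C)
  have hq := Submodule.finrank_quotient_add_finrank N
  have hC := x.finrank_C_eq hWM hW0
  have hfin : finrank x.S.K (x.C ⧸ N) = x.ξ := by omega
  let b := (Module.finBasis x.S.K (x.C ⧸ N)).reindex (finCongr hfin)
  choose c hc using fun i => Submodule.mkQ_surjective N (b i)
  refine ⟨fun i => (c i : x.S.B), fun i => (c i).2, ?_⟩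
  intro γ hγ
  have h1 : N.mkQ (∑ i, γ i • c i) = 0 := by
    rw [Submodule.mkQ_apply, Submodule.Quotient.mk_eq_zero]
    show x.C.subtype (∑ i, γ i • c i) ∈ x.Coo
    rw [map_sum]
    exact hγ
  rw [map_sum] at h1
  simp only [map_smul, hc] at h1
  have := Fintype.linearIndependent_iff.1 b.linearIndependent γ h1
  exact funext this

/-- [7.7], form for the assembly -/
theorem elements' (x : Pt S0 f0) (hWM : x.W ≤ x.M) (hξ : 3 * x.ξ < x.η) {n : ℕ}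
    (hn : n + 3 = finrank x.S.K x.W) {r : ℕ} {ζ : x.S.K} (hζ : IsPrimitiveRoot ζ r)
    (E : QExt x.S.K x.S.B r ζ) (hr : 2 * (n + 3) + 1 < r) {w1 w2 : x.S.B}
    (hg : x.GoodPair w1 w2) :
    ∃ c : Fin x.ξ → x.S.B, (∀ b, c b ∈ x.C) ∧
    ∃ (P0 : Fin 2 → x.S.I → E.B1) (y0 : Fin 2 → E.B1) (q0 : Fin 2 → Fin x.ξ → x.S.I → E.B1)
      (z0 : Fin 2 → Fin x.ξ → E.B1),
      (∀ m i b, E.jB b * P0 m i = P0 m i * E.jB b) ∧
      (∀ m, E.jB x.a * y0 m = y0 m * E.jB x.a) ∧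
      (∀ m b' i b, E.jB b * q0 m b' i = q0 m b' i * E.jB b) ∧
      (∀ m b', E.jB x.a * z0 m b' = z0 m b' * E.jB x.a) ∧
      (∀ m, linR E.jB x.f (P0 m) = (E.jB w1 * E.u + E.jB w2 * E.v) * y0 m -
        y0 m * (E.jB w1 * E.u + E.jB w2 * E.v)) ∧
      (∀ m b, linR E.jB x.f (q0 m b) = (E.jB w1 * E.u + E.jB w2 * E.v) * z0 m b -
        z0 m b * (E.jB w1 * E.u + E.jB w2 * E.v)) ∧
      (∀ m, (Matrix.of fun b b' =>
        tr E.K1 E.B1 (E.jB (c b) * (y0 m * linR E.jB x.f (q0 m b')))).det ≠ 0) ∧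
      (∀ m m', m ≠ m' → ∀ b b',
        tr E.K1 E.B1 (E.jB (c b) * (y0 m * linR E.jB x.f (q0 m' b'))) = 0) ∧
      (∀ (c' : x.S.B) (m m'), tr E.K1 E.B1 (E.jB c' * (y0 m * linR E.jB x.f (P0 m'))) = 0) ∧
      (∀ (a0 a1 : E.K1) (q : E.B1), (∀ b, q * E.jB b = E.jB b * q) →
        a0 • linR E.jB x.f (P0 0) + a1 • linR E.jB x.f (P0 1) =
          E.jB w1 * (q * E.u - E.u * q) + E.jB w2 * (q * E.v - E.v * q) → a0 = 0 ∧ a1 = 0) := by
  have hW0 : x.W ≠ ⊥ := by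
    intro h0
    rw [h0, finrank_bot] at hn
    omega
  obtain ⟨c, hc, hind⟩ := exists_c x hWM hW0
  obtain ⟨P0, y0, q0, z0, h1, h2, h3, h4, h5, h6, h7, h8, h9, h10⟩ :=
    elements x hWM hζ E hg (by omega) (by omega) hξ c hc hind
  simp only [mul_assoc] at h7 h8 h9
  refine ⟨c, hc, P0, y0, q0, z0, h1, h2, h3, h4, h5, h6, h7, h8, h9, h10⟩

end B7
end Vale.P199
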