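import Vale.Agent.P199.BDefs2
import Vale.Agent.P199.B1Red

/-!
# P199, B7: the second order form `A^c(p,q) = tr (c f_2(p,q))` and conjugation
-/

open HahnSeries

namespace Vale.P199

namespace B7

open Tr

section conj

variable {K B I : Type} [Field K] [DivisionRing B] [Algebra K B] [Fintype I]

theorem quad_add (f g : NC I B) (p q : I → K) : quad (f + g) p q = quad f p q + quad g p q := by
  simp only [quad, NC.add_apply, smul_add, Finset.sum_add_distrib]

theorem quad_mul (f g : NC I B) (p q : I → K) :
    quad (f * g) p q = f [] * quad g p q + State.lin f p * State.lin g q + quad f p q * g [] := by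
  have h : ∀ i j, (p i * q j) • (f * g) [i, j] =
      f [] * ((p i * q j) • g [i, j]) + (p i • f [i]) * (q j • g [j]) +
        ((p i * q j) • f [i, j]) * g [] := by
    intro i j
    rw [NC.mul_cons, NC.mul_cons, NC.mul_nil]
    simp only [NC.sh_apply, smul_add, mul_smul_comm, smul_mul_assoc, smul_smul]
    rw [mul_comm (q j) (p i)]
    abel
  simp only [quad, State.lin, h, Finset.sum_add_distrib, Finset.mul_sum, Finset.sum_mul]
  congr 1
  congr 1
  exact Finset.sum_comm

theorem quad_smul_left (f : NC I B) (c : K) (p q : I → K) :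
    quad f (fun i => c * p i) q = c • quad f p q := by
  simp only [quad, Finset.smul_sum, smul_smul, mul_assoc]

theorem quad_smul_right (f : NC I B) (c : K) (p q : I → K) :
    quad f p (fun i => c * q i) = c • quad f p q := by
  simp only [quad, Finset.smul_sum, smul_smul]
  refine Finset.sum_congr rfl fun i _ => Finset.sum_congr rfl fun j _ => ?_
  rw [mul_left_comm]

/-- `F♮ G = G F`, `G [] = 1`; linear part -/
theorem lin_conj {F Fn G : NC I B} (h : Fn * G = G * F) (hG : G [] = 1) (p : I → K) :
    State.lin Fn p = State.lin F p + (State.lin G p * F [] - Fn [] * State.lin G p) := by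
  have h1 : State.lin (Fn * G) p = State.lin (G * F) p := by rw [h]
  rw [State.lin_mul, State.lin_mul, hG, mul_one, one_mul] at h1
  rw [← add_sub_assoc, eq_sub_iff_add_eq, h1, add_comm]

theorem nil_conj {F Fn G : NC I B} (h : Fn * G = G * F) (hG : G [] = 1) : Fn [] = F [] := by
  have := congrArg (fun s : NC I B => s []) h
  simpa [hG] using this

/-- quadratic part under conjugation, in directions killed by `Fn` -/
theorem quad_conj {F Fn G : NC I B} (h : Fn * G = G * F) (hG : G [] = 1) (p q : I → K)
    (hp : State.lin Fn p = 0) :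
    quad Fn p q = quad F p q + State.lin G p * State.lin F q +
      (quad G p q * F [] - F [] * quad G p q) := by
  have h0 := nil_conj h hG
  have h1 : quad (Fn * G) p q = quad (G * F) p q := by rw [h]
  rw [quad_mul, quad_mul, hG, hp, zero_mul, add_zero, mul_one, one_mul, h0] at h1
  have h2 : quad Fn p q = quad F p q + State.lin G p * State.lin F q + quad G p q * F [] -
      F [] * quad G p q := by
    rw [← h1]; abel
  rw [h2]; abel

variable [CharZero K] [FiniteDimensional K B]

/-- **the form `A^c`** computed on the non-normalised series -/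
theorem form_eq {F Fn G : NC I B} (h : Fn * G = G * F) (hG : G [] = 1) {c : B}
    (hc : c ∈ cen K (F [])) (p q : I → K)
    (hp : State.lin Fn p = 0) (hq : State.lin Fn q = 0) (Y : B)
    (hY : State.lin F p = F [] * Y - Y * F []) :
    tr K B (c * quad Fn p q) = tr K B (c * quad F p q) + tr K B (c * Y * State.lin F q) := by
  have h0 := nil_conj h hG
  have e1 := lin_conj h hG p
  have e2 := lin_conj h hG q
  rw [hp, h0] at e1
  rw [hq, h0] at e2
  -- lin F p = a G_p - G_p a
  have f1 : State.lin F p = F [] * State.lin G p - State.lin G p * F [] := by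
    have := eq_neg_of_add_eq_zero_left e1.symm
    rw [this]; abel
  have f2 : State.lin F q = F [] * State.lin G q - State.lin G q * F [] := by
    have := eq_neg_of_add_eq_zero_left e2.symm
    rw [this]; abel
  have hd : State.lin G p - Y ∈ cen K (F []) := by
    rw [mem_cen, mul_sub, sub_mul, sub_eq_sub_iff_add_eq_add]
    rw [f1] at hY
    rw [sub_eq_sub_iff_add_eq_add] at hY
    rw [hY, add_comm]
  have g1 : tr K B (c * (quad G p q * F [] - F [] * quad G p q)) = 0 := by
    have := (mem_cen_iff_tr (K := K)).mp hc (quad G p q)
    rw [← neg_sub, mul_neg, map_neg, this, neg_zero]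
  have g2 : tr K B (c * (State.lin G p - Y) * State.lin F q) = 0 := by
    rw [f2]
    exact (mem_cen_iff_tr (K := K)).mp (mul_mem_cen hc hd) (State.lin G q)
  rw [quad_conj h hG p q hp, mul_add, mul_add, map_add, map_add, g1, add_zero, ← mul_assoc]
  rw [mul_sub, sub_mul, map_sub, sub_eq_zero] at g2
  rw [g2]

/-- directions with `lin F p` a commutator with `F []` are killed by the normalised series -/
theorem lin_eq_zero_of_comm {F Fn G : NC I B} (h : Fn * G = G * F) (hG : G [] = 1)
    (hn : ∀ w, Fn w * Fn [] = Fn [] * Fn w) (p : I → K) (Y : B)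
    (hY : State.lin F p = F [] * Y - Y * F []) : State.lin Fn p = 0 := by
  have h0 := nil_conj h hG
  have e1 := lin_conj h hG p
  have h1 : State.lin Fn p ∈ cen K (F []) := by
    rw [mem_cen, State.lin, Finset.mul_sum, Finset.sum_mul]
    refine Finset.sum_congr rfl fun i _ => ?_
    rw [mul_smul_comm, smul_mul_assoc, ← h0, hn]
  have h2 : State.lin Fn p ∈ LinearMap.range (ad K (F [])) := by
    refine ⟨Y - State.lin G p, ?_⟩
    rw [ad_apply, e1, hY, h0]
    rw [mul_sub, sub_mul]
    abel
  exact Submodule.disjoint_def.mp (disjoint_cen_range (K := K) (F [])) _ h1 h2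

end conj

end B7

end Vale.P199
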