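import Vale.Agent.P199.BL4
import Vale.Agent.P199.Taylor

/-!
# P199 [7.5] : the lifting step of B7
-/

open HahnSeries

namespace Vale.P199

/-- `K((z))` with its usual module structure as a Laurent space -/
noncomputable def Co.self (K : Type*) [Field K] : Co K K K⟦ℤ⟧ :=
  Co.hahn (K := K) (B := K) fun a _ => ⟨a, fun _ => rfl, rfl⟩

@[simp] theorem Co.self_co {K : Type*} [Field K] (w : K⟦ℤ⟧) (n : ℤ) :
    (Co.self K).co w n = w.coeff n := rfl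

namespace Pt

variable {S0 : State} {f0 : NC S0.I S0.B}

section
variable (x : Pt S0 f0) (D : MoveData x.S) (X : D.E.B1)

/-- `Z ⊗ Q` -/
noncomputable abbrev Zq : Submodule D.E.K1 D.E.B1 := Tr.cen D.E.K1 (D.E.jB x.a)

/-- `a₁ = (a' - a) / z` -/
noncomputable def a1 : D.E.B1⟦ℤ⟧ :=
  single (-1) 1 * (D.sh x.f [] - HahnSeries.C (D.E.jB x.a))

theorem a1_coeff (n : ℤ) : (x.a1 D).coeff n =
    (D.sh x.f []).coeff (n + 1) - (HahnSeries.C (D.E.jB x.a) : D.E.B1⟦ℤ⟧).coeff (n + 1) := by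
  rw [a1, single_mul_coeff, one_mul, sub_neg_eq_add, coeff_sub]

theorem a1_int (n : ℤ) (hn : n < 0) : (x.a1 D).coeff n = 0 := by
  rw [a1_coeff]
  rcases eq_or_ne (n + 1) 0 with h | h
  · rw [h, D.sh_nil_coeff_zero, C_apply, coeff_single_same]
    exact sub_self _
  · rw [D.sh_coeff_neg _ _ (by omega), C_apply, coeff_single_of_ne h, sub_zero]

theorem a1_zero (hL : x.Leads D 1 X) : (x.a1 D).coeff 0 = X := by
  rw [a1_coeff, zero_add, C_apply, coeff_single_of_ne one_ne_zero, sub_zero]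
  exact_mod_cast hL.2

/-- the constant term of the shifted series has coefficients in `Z ⊗ Q` -/
theorem sh_nil_coeff_comm (n : ℤ) : D.E.jB x.a * (D.sh x.f []).coeff n =
    (D.sh x.f []).coeff n * D.E.jB x.a :=
  (D.sh_coeff_comm x.norm [] n).symm

/-- the reduction at `z = 0` -/
noncomputable def A0 : (D.I' → D.E.K1) × (x.Zq D) →ₗ[D.E.K1] D.E.B1 :=
  (Fintype.linearCombination D.E.K1 (fun i : D.I' => D.E.jB (x.f [i.1]) *
    (D.E.u ^ (i.2.1 : ℕ) * D.E.v ^ (i.2.2 : ℕ)))).coprod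
      (-(Tr.ad D.E.K1 X ∘ₗ (x.Zq D).subtype))

/-- the map `(p, y) ↦ F₁(p) - [a₁, y]` -/
noncomputable def AA : (D.I' → D.E.K1⟦ℤ⟧) × (x.Zq D)⟦ℤ⟧ →ₗ[D.E.K1⟦ℤ⟧] D.E.B1⟦ℤ⟧ :=
  (Fintype.linearCombination D.E.K1⟦ℤ⟧ (fun i : D.I' => D.sh x.f [i])).coprod
    (-(Tr.ad D.E.K1⟦ℤ⟧ (x.a1 D) ∘ₗ mapL (x.Zq D).subtype))

theorem A0_apply (p : D.I' → D.E.K1) (y : x.Zq D) : x.A0 D X (p, y) =
    ∑ i, p i • (D.E.jB (x.f [i.1]) * (D.E.u ^ (i.2.1 : ℕ) * D.E.v ^ (i.2.2 : ℕ))) -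
      (X * y - y * X) := by
  rw [A0, LinearMap.coprod_apply, Fintype.linearCombination_apply, LinearMap.neg_apply,
    ← sub_eq_add_neg]
  rfl

theorem AA_apply (p : D.I' → D.E.K1⟦ℤ⟧) (y : (x.Zq D)⟦ℤ⟧) : x.AA D (p, y) =
    ∑ i, p i • D.sh x.f [i] -
      (x.a1 D * mapL (x.Zq D).subtype y - mapL (x.Zq D).subtype y * x.a1 D) := by
  rw [AA, LinearMap.coprod_apply, Fintype.linearCombination_apply, LinearMap.neg_apply,
    ← sub_eq_add_neg]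
  rfl

/-- integral compatibility of `AA` and `A0` -/
theorem AA_red (hL : x.Leads D 1 X) (w : (D.I' → D.E.K1⟦ℤ⟧) × (x.Zq D)⟦ℤ⟧)
    (hw : (((Co.self D.E.K1).pi D.I').prod (Co.lmod D.E.K1 (x.Zq D))).IsInt w) :
    (Co.lmod D.E.K1 D.E.B1).co (x.AA D w) 0 =
      x.A0 D X ((((Co.self D.E.K1).pi D.I').prod (Co.lmod D.E.K1 (x.Zq D))).co w 0) := by
  obtain ⟨p, y⟩ := w
  have hp : ∀ i, ∀ k < 0, (p i).coeff k = 0 := fun i k hk =>
    congrFun (congrArg Prod.fst (hw k hk)) i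
  have hy : ∀ k < 0, y.coeff k = 0 := fun k hk => congrArg Prod.snd (hw k hk)
  have hco : (((Co.self D.E.K1).pi D.I').prod (Co.lmod D.E.K1 (x.Zq D))).co (p, y) 0 =
      (fun i => (p i).coeff 0, y.coeff 0) := rfl
  rw [hco, AA_apply, A0_apply, Co.co_sub, Co.co_sum]
  congr 1
  · refine Finset.sum_congr rfl fun i _ => ?_
    have h1 : (Co.lmod D.E.K1 D.E.B1).IsInt (D.sh x.f [i]) := fun k hk =>
      D.sh_coeff_neg x.f [i] hk
    rw [(Co.lmod D.E.K1 D.E.B1).co_smul_zero h1 (hp i), Co.lmod_co, D.sh_single_coeff_zero]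
  · have hy' : ∀ k < 0, (mapL (x.Zq D).subtype y).coeff k = 0 := fun k hk => by
      rw [mapL_coeff, hy k hk, map_zero]
    have e1 := (hahn_lead (x.a1 D) (mapL (x.Zq D).subtype y) 0 0 (x.a1_int D) hy').2
    have e2 := (hahn_lead (mapL (x.Zq D).subtype y) (x.a1 D) 0 0 hy' (x.a1_int D)).2
    rw [add_zero] at e1 e2
    rw [Co.lmod_co, coeff_sub, e1, e2, x.a1_zero D X hL, mapL_coeff]
    rfl

/-- `Z(a) ` inside `B'` -/
noncomputable abbrev ZL : Submodule D.E.K1⟦ℤ⟧ D.E.B1⟦ℤ⟧ :=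
  Tr.cen D.E.K1⟦ℤ⟧ (HahnSeries.C (D.E.jB x.a) : D.E.B1⟦ℤ⟧)

theorem mem_ZL {b : D.E.B1⟦ℤ⟧} : b ∈ x.ZL D ↔ ∀ n, b.coeff n ∈ x.Zq D := by
  rw [ZL, Tr.mem_cen]
  constructor
  · intro h n
    have := congrArg (fun s => HahnSeries.coeff s n) h
    simp only [C_mul_coeff, mul_C_coeff] at this
    exact Tr.mem_cen.mpr this
  · intro h
    ext n
    rw [C_mul_coeff, mul_C_coeff]
    exact Tr.mem_cen.mp (h n)

theorem finrank_ZL_le : Module.finrank D.E.K1⟦ℤ⟧ (x.ZL D) ≤ Module.finrank D.E.K1 (x.Zq D) := by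
  rw [← finrank_redL]
  refine Submodule.finrank_mono fun v hv => ?_
  obtain ⟨b, hb, -, rfl⟩ := mem_redL.mp hv
  exact (x.mem_ZL D).mp hb 0

theorem a1_mem_ZL : x.a1 D ∈ x.ZL D := by
  rw [mem_ZL]
  intro n
  rw [a1_coeff]
  refine sub_mem (Tr.mem_cen.mpr (x.sh_nil_coeff_comm D _)) ?_
  rw [C_apply]
  by_cases h : n + 1 = 0
  · rw [h, coeff_single_same]; exact Tr.self_mem_cen _
  · rw [coeff_single_of_ne h]; exact zero_mem _

theorem sh_single_mem_ZL (i : D.I') : D.sh x.f [i] ∈ x.ZL D := by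
  rw [mem_ZL]
  intro n
  exact Tr.mem_cen.mpr (D.sh_coeff_comm x.norm [i] n).symm

theorem mapL_mem_ZL (y : (x.Zq D)⟦ℤ⟧) : mapL (x.Zq D).subtype y ∈ x.ZL D := by
  rw [mem_ZL]
  intro n
  rw [mapL_coeff]
  exact (y.coeff n).2

theorem C_move_le : (x.move D).C ≤ x.ZL D := fun b hb =>
  (x.mem_ZL D).mpr fun n => Tr.mem_cen.mpr
    (x.Z_move_coeff D b ((x.mem_C_move D b).mp hb).1 n)

theorem comm_a1_of_mem {b : D.E.B1⟦ℤ⟧} (hb : b ∈ (x.move D).C) : x.a1 D * b = b * x.a1 D := by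
  have h1 : D.sh x.f [] * b = b * D.sh x.f [] := by
    have h2 := Tr.mem_cen.mp ((x.mem_C_move D b).mp hb).1
    have h3 : (x.move D).a = D.sh x.f [] := x.F_nil D
    rwa [h3] at h2
  have h2 : (HahnSeries.C (D.E.jB x.a) : D.E.B1⟦ℤ⟧) * b = b * HahnSeries.C (D.E.jB x.a) :=
    Tr.mem_cen.mp (x.C_move_le D hb)
  have hc : ∀ a : D.E.B1⟦ℤ⟧, a * (single (-1) 1 : D.E.B1⟦ℤ⟧) =
      (single (-1) 1 : D.E.B1⟦ℤ⟧) * a := by
    intro a; ext n; rw [mul_single_coeff, single_mul_coeff, one_mul, mul_one]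
  rw [a1, mul_assoc, sub_mul, h1, h2, ← mul_assoc b, hc, mul_assoc, ← mul_sub]

theorem range_AA_le : LinearMap.range (x.AA D) ≤ Tr.perp (x.ZL D) (x.move D).C := by
  rintro _ ⟨⟨p, y⟩, rfl⟩
  rw [AA_apply]
  refine ⟨?_, fun w hw => ?_⟩
  · refine sub_mem (sum_mem fun i _ => Submodule.smul_mem _ _ (x.sh_single_mem_ZL D i)) ?_
    exact sub_mem (Tr.mul_mem_cen (x.a1_mem_ZL D) (x.mapL_mem_ZL D y))
      (Tr.mul_mem_cen (x.mapL_mem_ZL D y) (x.a1_mem_ZL D))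
  · rw [sub_mul, map_sub, Finset.sum_mul, map_sum, Finset.sum_eq_zero fun i _ => ?_, zero_sub,
      neg_eq_zero]
    · rw [Tr.tr_mul_comm, Tr.tr_mul_ad, x.comm_a1_of_mem D hw, sub_self, zero_mul, map_zero,
        neg_zero]
    · rw [smul_mul_assoc, map_smul, Tr.tr_mul_comm, ((x.mem_C_move D w).mp hw).2 i, smul_zero]

theorem X_mem_Zq (hL : x.Leads D 1 X) : X ∈ x.Zq D := by
  rw [← hL.2]
  exact Tr.mem_cen.mpr (x.sh_nil_coeff_comm D _)

theorem range_A0_le (hL : x.Leads D 1 X) : LinearMap.range (x.A0 D X) ≤ x.Zq D := by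
  rintro _ ⟨⟨p, y⟩, rfl⟩
  rw [A0_apply]
  have hX := x.X_mem_Zq D X hL
  refine sub_mem (sum_mem fun i _ => Submodule.smul_mem _ _ ?_)
    (sub_mem (Tr.mul_mem_cen hX y.2) (Tr.mul_mem_cen y.2 hX))
  rw [← D.sh_single_coeff_zero]
  exact (x.mem_ZL D).mp (x.sh_single_mem_ZL D i) 0

theorem perp_A0_le (hL : x.Leads D 1 X) :
    Tr.perp (x.Zq D) (LinearMap.range (x.A0 D X)) ≤ x.calC D.E X := by
  intro z hz
  have hX := x.X_mem_Zq D X hL
  have h1 : ∀ (p : D.I' → D.E.K1) (y : x.Zq D), tr D.E.K1 D.E.B1 (z *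
      (∑ i, p i • (D.E.jB (x.f [i.1]) * (D.E.u ^ (i.2.1 : ℕ) * D.E.v ^ (i.2.2 : ℕ))) -
        (X * y - y * X))) = 0 := by
    intro p y
    have := hz.2 _ ⟨(p, y), rfl⟩
    rwa [A0_apply] at this
  refine ⟨Tr.mem_cen.mp hz.1, ?_, ?_⟩
  · have h2 : X * z - z * X = 0 := by
      refine Tr.nondeg_of_inv_mem (K := D.E.K1) (Z := (x.Zq D : Set D.E.B1))
        (fun z hz => Tr.inv_mem_cen hz)
        (sub_mem (Tr.mul_mem_cen hX hz.1) (Tr.mul_mem_cen hz.1 hX)) fun y hy => ?_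
      have h3 := h1 0 ⟨y, hy⟩
      simp only [Pi.zero_apply, zero_smul, Finset.sum_const_zero, zero_sub, mul_neg, map_neg,
        neg_eq_zero] at h3
      rw [Tr.tr_mul_ad, neg_eq_zero] at h3
      exact h3
    exact sub_eq_zero.mp h2
  · intro w hw t ht
    obtain ⟨c, rfl⟩ := (D.E.mem_Q D.hr x.S.central t).mp ht
    -- reduce to a linear coefficient and a monomial
    have h4 : ∀ (i : x.S.I) (jk : Fin D.r × Fin D.r), tr D.E.K1 D.E.B1 (z *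
        (D.E.jB (x.f [i]) * (D.E.u ^ (jk.1 : ℕ) * D.E.v ^ (jk.2 : ℕ)))) = 0 := by
      intro i jk
      classical
      have h3 := h1 (Pi.single (i, jk.1, jk.2) 1) 0
      rw [Finset.sum_eq_single (i, jk.1, jk.2)] at h3
      · simpa using h3
      · intro j _ hj
        rw [Pi.single_eq_of_ne hj, zero_smul]
      · intro hn
        exact absurd (Finset.mem_univ _) hn
    have hjs : ∀ (k : x.S.K) (b : x.S.B), D.E.jB (k • b) = D.E.jK k • D.E.jB b := by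
      intro k b
      rw [Algebra.smul_def, map_mul, D.E.comp, ← Algebra.smul_def]
    obtain ⟨e, rfl⟩ := (Submodule.mem_span_range_iff_exists_fun x.S.K).mp hw
    rw [map_sum, Finset.sum_mul, Finset.mul_sum, map_sum]
    refine Finset.sum_eq_zero fun i _ => ?_
    rw [hjs, smul_mul_assoc, mul_smul_comm, map_smul, Finset.mul_sum, Finset.mul_sum, map_sum,
      Finset.sum_eq_zero fun jk _ => ?_, smul_zero]
    rw [mul_smul_comm, mul_smul_comm, map_smul, h4, smul_zero]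

/-- the kernel dimensions agree -/
theorem finrank_ker_A0_le (hL : x.Leads D 1 X)
    (heq : Module.finrank (D.E.K1⟦ℤ⟧) (x.move D).C = Module.finrank D.E.K1 (x.calC D.E X)) :
    Module.finrank D.E.K1 (LinearMap.ker (x.A0 D X)) ≤
      Module.finrank D.E.K1⟦ℤ⟧ (LinearMap.ker (x.AA D)) := by
  have h1 := LinearMap.finrank_range_add_finrank_ker (x.A0 D X)
  have h2 := LinearMap.finrank_range_add_finrank_ker (K := D.E.K1⟦ℤ⟧)
    (V := (D.I' → D.E.K1⟦ℤ⟧) × (x.Zq D)⟦ℤ⟧) (V₂ := D.E.B1⟦ℤ⟧) (x.AA D)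
  have h3 : Module.finrank D.E.K1 ((D.I' → D.E.K1) × (x.Zq D)) =
      Fintype.card D.I' + Module.finrank D.E.K1 (x.Zq D) := by
    rw [Module.finrank_prod, Module.finrank_fintype_fun_eq_card]
  have h4 : Module.finrank D.E.K1⟦ℤ⟧ ((D.I' → D.E.K1⟦ℤ⟧) × (x.Zq D)⟦ℤ⟧) =
      Fintype.card D.I' + Module.finrank D.E.K1 (x.Zq D) := by
    haveI : Module.Free D.E.K1⟦ℤ⟧ (x.Zq D)⟦ℤ⟧ :=
      Module.Free.of_basis (lmodBasis (Module.finBasis D.E.K1 (x.Zq D)))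
    rw [Module.finrank_prod, Module.finrank_fintype_fun_eq_card, lmod_finrank]
  have h5 := Submodule.finrank_mono (x.range_AA_le D)
  have h6 := Tr.finrank_perp (x.ZL D) (x.move D).C (fun z hz => Tr.inv_mem_cen hz)
    (x.C_move_le D)
  have h7 := x.finrank_ZL_le D
  have h8 := Submodule.finrank_mono (x.perp_A0_le D X hL)
  have h9 := Tr.finrank_perp (x.Zq D) (LinearMap.range (x.A0 D X))
    (fun z hz => Tr.inv_mem_cen hz) (x.range_A0_le D X hL)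
  rw [h3] at h1
  rw [h4] at h2
  have h6' : Module.finrank D.E.K1⟦ℤ⟧ (Tr.perp (x.ZL D) (x.move D).C) +
      Module.finrank D.E.K1 (x.calC D.E X) = Module.finrank D.E.K1⟦ℤ⟧ (x.ZL D) := by
    rw [← heq]; exact h6
  omega

/-- **The lifting step (RED).** -/
theorem lift_pair (hL : x.Leads D 1 X)
    (heq : Module.finrank (D.E.K1⟦ℤ⟧) (x.move D).C = Module.finrank D.E.K1 (x.calC D.E X))
    (p0 : D.I' → D.E.K1) (y0 : D.E.B1) (hy0 : D.E.jB x.a * y0 = y0 * D.E.jB x.a)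
    (h : ∑ i, p0 i • (D.E.jB (x.f [i.1]) * (D.E.u ^ (i.2.1 : ℕ) * D.E.v ^ (i.2.2 : ℕ))) =
      X * y0 - y0 * X) :
    ∃ (p : D.I' → D.E.K1⟦ℤ⟧) (y : D.E.B1⟦ℤ⟧), (∀ i, ∀ n < 0, (p i).coeff n = 0) ∧
      (∀ i, (p i).coeff 0 = p0 i) ∧ (∀ n < 0, y.coeff n = 0) ∧ y.coeff 0 = y0 ∧
      (∀ n, D.E.jB x.a * y.coeff n = y.coeff n * D.E.jB x.a) ∧
      ∑ i, p i • D.sh x.f [i] =
        single (-1) 1 * (D.sh x.f [] * y - y * D.sh x.f []) := by
  have hv : x.A0 D X (p0, ⟨y0, Tr.mem_cen.mpr hy0⟩) = 0 := by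
    rw [A0_apply, h, sub_self]
  obtain ⟨⟨p, y⟩, hb, hint, hco⟩ := Co.lift_ker
    (((Co.self D.E.K1).pi D.I').prod (Co.lmod D.E.K1 (x.Zq D))) (Co.lmod D.E.K1 D.E.B1)
    (x.AA D) (x.A0 D X) (x.AA_red D X hL) (x.finrank_ker_A0_le D X hL heq) hv
  have hco1 : ∀ i, (p i).coeff 0 = p0 i := fun i => congrFun (congrArg Prod.fst hco) i
  have hco2 : y.coeff 0 = ⟨y0, Tr.mem_cen.mpr hy0⟩ := congrArg Prod.snd hco
  refine ⟨p, mapL (x.Zq D).subtype y, fun i n hn => congrFun (congrArg Prod.fst (hint n hn)) i,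
    hco1, fun n hn => ?_, ?_, fun n => Tr.mem_cen.mp ((x.mem_ZL D).mp (x.mapL_mem_ZL D y) n), ?_⟩
  · have : y.coeff n = 0 := congrArg Prod.snd (hint n hn)
    rw [mapL_coeff, this, map_zero]
  · rw [mapL_coeff, hco2]; rfl
  · rw [AA_apply, sub_eq_zero] at hb
    rw [hb]
    have hc : ∀ a : D.E.B1⟦ℤ⟧, a * (single (-1) 1 : D.E.B1⟦ℤ⟧) =
        (single (-1) 1 : D.E.B1⟦ℤ⟧) * a := by
      intro a; ext n; rw [mul_single_coeff, single_mul_coeff, one_mul, mul_one]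
    have h2 : (HahnSeries.C (D.E.jB x.a) : D.E.B1⟦ℤ⟧) * mapL (x.Zq D).subtype y =
        mapL (x.Zq D).subtype y * HahnSeries.C (D.E.jB x.a) :=
      Tr.mem_cen.mp (x.mapL_mem_ZL D y)
    generalize (mapL (x.Zq D).subtype) y = Y at h2 ⊢
    rw [a1, ← mul_assoc Y, hc Y, mul_assoc, mul_assoc, ← mul_sub]
    congr 1
    rw [sub_mul, mul_sub, h2]
    abel

end

end Pt

end Vale.P199
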