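import Vale.Agent.P199.Subst
import Vale.Agent.P199.Tr

/-!
# P199, B8 : the final family
-/

namespace Vale.P199
namespace B8

set_option linter.unusedSectionVars false

open Finset Tr

theorem sum_apply {J R α : Type} [Ring R] (s : Finset α) (g : α → NC J R) (ω : List J) :
    (∑ a ∈ s, g a) ω = ∑ a ∈ s, g a ω := by
  classical
  induction s using Finset.induction_on with
  | empty => simp
  | insert a s ha ih => rw [Finset.sum_insert ha, Finset.sum_insert ha, NC.add_apply, ih]

theorem mem_words' {I : Type} [Fintype I] [DecidableEq I] (n : ℕ) (w : List I) :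
    w ∈ words I n ↔ w.length ≤ n := by
  simp only [words, mem_biUnion, mem_range, mem_image, mem_univ, true_and]
  constructor
  · rintro ⟨k, hk, v, rfl⟩
    rw [List.length_ofFn]; omega
  · intro h
    exact ⟨w.length, by omega, fun i => w.get i, by simp⟩

section Prod
variable {B I J : Type} [Ring B]

theorem prod_zero (Y : I → NC J B) (hY : ∀ i, Y i [] = 0) (w : List I) (ω : List J)
    (h : ω.length < w.length) : (w.map Y).prod ω = 0 := by
  induction w generalizing ω with
  | nil => simp at h
  | cons i w ih =>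
    rw [List.map_cons, List.prod_cons, NC.mul_apply]
    refine Finset.sum_eq_zero fun k hk => ?_
    rw [Finset.mem_range] at hk
    rcases Nat.eq_zero_or_pos k with rfl | hk0
    · simp [hY]
    · rw [ih (ω.drop k), mul_zero]
      rw [List.length_drop]
      simp only [List.length_cons] at h
      omega

theorem prod_congr' (Y Y' : I → NC J B) (hY : ∀ i, Y i [] = 0) (hY' : ∀ i, Y' i [] = 0) (m : ℕ)
    (h : ∀ i v, v.length < m → Y' i v = Y i v) (w : List I) (ω : List J)
    (hω : ω.length + 1 < m + w.length) : (w.map Y').prod ω = (w.map Y).prod ω := by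
  induction w generalizing ω with
  | nil => simp
  | cons i w ih =>
    rw [List.map_cons, List.prod_cons, NC.mul_apply, List.map_cons, List.prod_cons, NC.mul_apply]
    refine Finset.sum_congr rfl fun k hk => ?_
    rw [Finset.mem_range] at hk
    simp only [List.length_cons] at hω
    rcases Nat.eq_zero_or_pos k with rfl | hk0
    · simp [hY, hY']
    · by_cases hkm : k < m
      · rw [h i (ω.take k) (by rw [List.length_take]; omega), ih (ω.drop k)]
        rw [List.length_drop]; omega
      · rw [prod_zero Y hY w (ω.drop k) (by rw [List.length_drop]; omega),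
          prod_zero Y' hY' w (ω.drop k) (by rw [List.length_drop]; omega), mul_zero, mul_zero]

end Prod

variable {K B I J : Type} [Field K] [DivisionRing B] [Algebra K B] [Fintype I] [DecidableEq I]

/-- the series `t_i(v)` with central coefficients -/
def Yt (B : Type) [DivisionRing B] [Algebra K B] (t : I → List J → K) (i : I) : NC J B :=
  NC.mk fun w => algebraMap K B (t i w)

theorem Yt_apply (t : I → List J → K) (i : I) (w : List J) :
    Yt B t i w = algebraMap K B (t i w) := rfl

theorem Yt_nil {t : I → List J → K} (ht : ∀ i, t i [] = 0) (i : I) : Yt B t i [] = 0 := by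
  rw [Yt_apply, ht, map_zero]

theorem subOK0 {t : I → List J → K} (ht : ∀ i, t i [] = 0) :
    SubOK0 (RingHom.id B) (Yt B t) :=
  ⟨Yt_nil ht, fun i w b => (Algebra.commutes (t i w) b).symm⟩

/-- `f(t)` -/
noncomputable def evF (f : NC I B) (t : I → List J → K) : NC J B :=
  subst0Fun (RingHom.id B) (Yt B t) f

theorem evF_apply (f : NC I B) (t : I → List J → K) (ω : List J) :
    evF f t ω = ∑ w ∈ words I ω.length, f w * (w.map (Yt B t)).prod ω := by
  show (∑ w ∈ words I ω.length, NC.C ((RingHom.id B) (f w)) * (w.map (Yt B t)).prod : NC J B) ω = _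
  rw [sum_apply]
  refine Finset.sum_congr rfl fun w _ => ?_
  rw [NC.C_mul_apply, RingHom.id_apply]

/-- first order part -/
def linf (f : NC I B) : (I → K) →ₗ[K] B where
  toFun p := ∑ i, p i • f [i]
  map_add' p q := by
    rw [← Finset.sum_add_distrib]; exact Finset.sum_congr rfl fun i _ => by rw [Pi.add_apply, add_smul]
  map_smul' c p := by
    rw [RingHom.id_apply, Finset.smul_sum]
    exact Finset.sum_congr rfl fun i _ => by rw [Pi.smul_apply, smul_eq_mul, mul_smul]

theorem linf_apply (f : NC I B) (p : I → K) : linf f p = ∑ i, p i • f [i] := rfl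

/-- `W`, the range of the first order part -/
abbrev Ws (K : Type) [Field K] [Algebra K B] (f : NC I B) : Submodule K B :=
  LinearMap.range (linf (K := K) f)

/-- `C = W^⊥` in the centralizer of `f []` -/
noncomputable abbrev Cs (K : Type) [Field K] [Algebra K B] (f : NC I B) : Submodule K B :=
  perp (cen K (f [])) (Ws K f)

/-- second order part -/
def quad (f : NC I B) (p q : I → K) : B := ∑ i, ∑ j, (p i * q j) • f [i, j]

theorem quad_add_left (f : NC I B) (p p' q : I → K) :
    quad f (p + p') q = quad f p q + quad f p' q := by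
  simp only [quad, ← Finset.sum_add_distrib, Pi.add_apply, add_mul, add_smul]

theorem quad_add_right (f : NC I B) (p q q' : I → K) :
    quad f p (q + q') = quad f p q + quad f p q' := by
  simp only [quad, ← Finset.sum_add_distrib, Pi.add_apply, mul_add, add_smul]

theorem quad_smul_left (f : NC I B) (c : K) (p q : I → K) :
    quad f (c • p) q = c • quad f p q := by
  simp only [quad, Finset.smul_sum, Pi.smul_apply, smul_eq_mul, mul_assoc, mul_smul]

theorem quad_smul_right (f : NC I B) (c : K) (p q : I → K) :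
    quad f p (c • q) = c • quad f p q := by
  simp only [quad, Finset.smul_sum, Pi.smul_apply, smul_eq_mul]
  refine Finset.sum_congr rfl fun i _ => Finset.sum_congr rfl fun j _ => ?_
  rw [← mul_smul]; congr 1; ring

/-! ### sums over words -/

theorem sum_words_one {n : ℕ} (hn : 1 ≤ n) (F : List I → B) (h0 : F [] = 0)
    (h2 : ∀ w, 2 ≤ w.length → F w = 0) : ∑ w ∈ words I n, F w = ∑ i, F [i] := by
  classical
  rw [← Finset.sum_image (s := Finset.univ) (g := fun i : I => [i]) (f := F)
    (fun a _ b _ h => by simpa using h)]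
  symm
  apply Finset.sum_subset
  · intro w hw
    rw [Finset.mem_image] at hw
    obtain ⟨i, _, rfl⟩ := hw
    rw [mem_words']; simpa using hn
  · intro w _ hw
    match w with
    | [] => exact h0
    | [i] => exact absurd (Finset.mem_image.mpr ⟨i, Finset.mem_univ _, rfl⟩) hw
    | i :: j :: w => exact h2 _ (by simp)

theorem sum_words_two {n : ℕ} (hn : 2 ≤ n) (F : List I → B) (h0 : F [] = 0)
    (h3 : ∀ w, 3 ≤ w.length → F w = 0) :
    ∑ w ∈ words I n, F w = ∑ i, F [i] + ∑ i, ∑ j, F [i, j] := by
  classical
  have h1 : ∑ w ∈ words I n, F w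
      = ∑ w ∈ words I n, (if w.length = 1 then F w else 0)
        + ∑ w ∈ words I n, (if w.length = 2 then F w else 0) := by
    rw [← Finset.sum_add_distrib]
    refine Finset.sum_congr rfl fun w _ => ?_
    match w with
    | [] => simp [h0]
    | [i] => simp
    | [i, j] => simp
    | i :: j :: k :: w => simp [h3]
  rw [h1]
  congr 1
  · rw [sum_words_one (by omega)]
    · simp
    · simp
    · intro w hw; rw [if_neg]; omega
  · have : ∑ i, ∑ j, F [i, j] = ∑ x : I × I, F [x.1, x.2] := by
      rw [Fintype.sum_prod_type]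
    rw [this]
    rw [← Finset.sum_filter]
    rw [← Finset.sum_image (s := Finset.univ) (g := fun x : I × I => [x.1, x.2]) (f := F)
      (fun a _ b _ h => by
        have h' : [a.1, a.2] = [b.1, b.2] := h
        simp only [List.cons.injEq, and_true] at h'
        exact Prod.ext h'.1 h'.2)]
    refine Finset.sum_congr ?_ fun _ _ => rfl
    ext w
    rw [Finset.mem_filter, Finset.mem_image, mem_words']
    constructor
    · rintro ⟨_, hw⟩
      match w with
      | [] => simp at hw
      | [i] => simp at hw
      | [i, j] => exact ⟨(i, j), Finset.mem_univ _, rfl⟩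
      | i :: j :: k :: w => simp at hw
    · rintro ⟨x, _, rfl⟩
      exact ⟨by simpa using hn, rfl⟩

/-! ### change of `f(t)` when `t` changes -/

theorem evF_congr (f : NC I B) (t t' : I → List J → K) (ht : ∀ i, t i [] = 0)
    (ht' : ∀ i, t' i [] = 0) (m : ℕ) (h : ∀ i v, v.length < m → t' i v = t i v)
    (ω : List J) (hω : ω.length < m) : evF f t' ω = evF f t ω := by
  rw [evF_apply, evF_apply]
  refine Finset.sum_congr rfl fun w _ => ?_
  rcases w with _ | ⟨i, w⟩
  · simp
  · congr 1
    apply prod_congr' _ _ (Yt_nil ht) (Yt_nil ht') m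
    · intro i v hv; rw [Yt_apply, Yt_apply, h i v hv]
    · simp only [List.length_cons]; omega

theorem evF_first (f : NC I B) (t t' : I → List J → K) (ht : ∀ i, t i [] = 0)
    (ht' : ∀ i, t' i [] = 0) (m : ℕ) (hm : 1 ≤ m) (h : ∀ i v, v.length < m → t' i v = t i v)
    (ω : List J) (hω : ω.length = m) :
    evF f t' ω = evF f t ω + linf f (fun i => t' i ω - t i ω) := by
  rw [← sub_eq_iff_eq_add', evF_apply, evF_apply, ← Finset.sum_sub_distrib,
    sum_words_one (by omega)]
  · rw [linf_apply]
    refine Finset.sum_congr rfl fun i _ => ?_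
    simp only [List.map_cons, List.map_nil, List.prod_cons, List.prod_nil, mul_one, Yt_apply]
    rw [← mul_sub, ← map_sub, Algebra.smul_def, Algebra.commutes]
  · simp
  · intro w hw
    rw [prod_congr' (Yt B t) (Yt B t') (Yt_nil ht) (Yt_nil ht') m, sub_self]
    · intro i v hv; rw [Yt_apply, Yt_apply, h i v hv]
    · omega

theorem mul_two (Y Y' Z Z' : NC J B) (m : ℕ) (hm : 2 ≤ m)
    (hY : ∀ v, v.length ≠ m → Y' v = Y v) (hZ : ∀ v, v.length ≠ m → Z' v = Z v)
    (a b : J) (u : List J) (hu : u.length + 1 = m) :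
    (Y' * Z') (a :: (u ++ [b])) - (Y * Z) (a :: (u ++ [b]))
      = Y [a] * (Z' (u ++ [b]) - Z (u ++ [b])) + (Y' (a :: u) - Y (a :: u)) * Z [b] := by
  classical
  rw [NC.mul_apply, NC.mul_apply, ← Finset.sum_sub_distrib]
  have hlen : (a :: (u ++ [b])).length = m + 1 := by simp; omega
  rw [hlen]
  have h1 : (1 : ℕ) ∈ Finset.range (m + 1 + 1) := by rw [Finset.mem_range]; omega
  have h2 : m ∈ (Finset.range (m + 1 + 1)).erase 1 := by
    rw [Finset.mem_erase, Finset.mem_range]; omega
  rw [← Finset.add_sum_erase _ _ h1, ← Finset.add_sum_erase _ _ h2, Finset.sum_eq_zero, add_zero]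
  · have e1 : (a :: (u ++ [b])).take 1 = [a] := by simp
    have e2 : (a :: (u ++ [b])).drop 1 = u ++ [b] := by simp
    have e3 : (a :: (u ++ [b])).take m = a :: u := by
      rw [← hu, List.take_succ_cons, List.take_left]
    have e4 : (a :: (u ++ [b])).drop m = [b] := by
      rw [← hu, List.drop_succ_cons, List.drop_left]
    rw [e1, e2, e3, e4, hY [a] (by simp; omega), hZ [b] (by simp; omega), mul_sub, sub_mul]
  · intro k hk
    rw [Finset.mem_erase, Finset.mem_erase, Finset.mem_range] at hk
    have h3 : ((a :: (u ++ [b])).take k).length ≠ m := by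
      rw [List.length_take, hlen]; omega
    have h4 : ((a :: (u ++ [b])).drop k).length ≠ m := by
      rw [List.length_drop, hlen]; omega
    rw [hY _ h3, hZ _ h4, sub_self]

theorem evF_second (f : NC I B) (t t' : I → List J → K) (ht : ∀ i, t i [] = 0)
    (m : ℕ) (hm : 2 ≤ m) (h : ∀ i v, v.length ≠ m → t' i v = t i v)
    (a b : J) (u : List J) (hu : u.length + 1 = m) :
    evF f t' (a :: (u ++ [b])) = evF f t (a :: (u ++ [b]))
      + quad f (fun i => t i [a]) (fun j => t' j (u ++ [b]) - t j (u ++ [b]))
      + quad f (fun i => t' i (a :: u) - t i (a :: u)) (fun j => t j [b]) := by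
  have ht' : ∀ i, t' i [] = 0 := fun i => by rw [h i [] (by simp; omega), ht]
  have hlen : (a :: (u ++ [b])).length = m + 1 := by simp; omega
  rw [add_assoc, ← sub_eq_iff_eq_add', evF_apply, evF_apply, ← Finset.sum_sub_distrib, hlen,
    sum_words_two (by omega)]
  · have h0 : ∑ i, (f [i] * (List.map (Yt B t') [i]).prod (a :: (u ++ [b]))
        - f [i] * (List.map (Yt B t) [i]).prod (a :: (u ++ [b]))) = 0 := by
      refine Finset.sum_eq_zero fun i _ => ?_
      simp only [List.map_cons, List.map_nil, List.prod_cons, List.prod_nil, mul_one, Yt_apply]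
      rw [h i _ (by rw [hlen]; omega), sub_self]
    rw [h0, zero_add, quad, quad, ← Finset.sum_add_distrib]
    refine Finset.sum_congr rfl fun i _ => ?_
    rw [← Finset.sum_add_distrib]
    refine Finset.sum_congr rfl fun j _ => ?_
    simp only [List.map_cons, List.map_nil, List.prod_cons, List.prod_nil, mul_one]
    rw [← mul_sub, mul_two (Yt B t i) (Yt B t' i) (Yt B t j) (Yt B t' j) m hm
      (fun v hv => by rw [Yt_apply, Yt_apply, h i v hv])
      (fun v hv => by rw [Yt_apply, Yt_apply, h j v hv]) a b u hu]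
    simp only [Yt_apply]
    rw [← map_sub, ← map_sub, ← map_mul, ← map_mul, mul_add, ← Algebra.commutes,
      ← Algebra.commutes, ← Algebra.smul_def, ← Algebra.smul_def]
  · simp
  · intro w hw
    rw [prod_congr' (Yt B t) (Yt B t') (Yt_nil ht) (Yt_nil ht') m, sub_self]
    · intro i v hv; rw [Yt_apply, Yt_apply, h i v (by omega)]
    · rw [hlen]; omega

theorem prod_Yt_scalar (t : I → List J → K) (w : List I) (ω : List J) :
    ∃ c : K, (w.map (Yt B t)).prod ω = algebraMap K B c := by
  induction w generalizing ω with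
  | nil =>
    rcases ω with _ | ⟨a, ω⟩
    · exact ⟨1, by simp⟩
    · exact ⟨0, by simp⟩
  | cons i w ih =>
    rw [List.map_cons, List.prod_cons, NC.mul_apply]
    choose c hc using ih
    refine ⟨∑ k ∈ Finset.range (ω.length + 1), t i (ω.take k) * c (ω.drop k), ?_⟩
    rw [map_sum]
    refine Finset.sum_congr rfl fun k _ => ?_
    rw [hc, Yt_apply, map_mul]

theorem evF_mem (f : NC I B) (t : I → List J → K) (Z : Submodule K B) (hf : ∀ w, f w ∈ Z)
    (ω : List J) : evF f t ω ∈ Z := by
  rw [evF_apply]
  refine Submodule.sum_mem _ fun w _ => ?_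
  obtain ⟨c, hc⟩ := prod_Yt_scalar (B := B) t w ω
  rw [hc, ← Algebra.commutes, ← Algebra.smul_def]
  exact Z.smul_mem _ (hf w)

theorem evF_nil (f : NC I B) (t : I → List J → K) (ht : ∀ i, t i [] = 0) :
    evF f t [] = f [] := by
  rw [evF_apply, Finset.sum_eq_single []]
  · simp
  · intro w _ hw
    rw [prod_zero _ (Yt_nil ht), mul_zero]
    exact List.length_pos_iff.mpr hw
  · intro h
    exact absurd ((mem_words' _ _).mpr (by simp)) h

/-! ### the obstruction property and the construction -/

/-- the conclusion of the obstruction lemma (B6) for the directions `P` -/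
def Obs (f : NC I B) (C Coo : Submodule K B) (P : J → I → K) : Prop :=
  ∀ (d : ℕ) (t : I → List J → K), 2 ≤ d → (∀ i, t i [] = 0) → (∀ i m, t i [m] = P m i) →
    (∀ ω, 1 ≤ ω.length → ω.length < d → evF f t ω = 0) →
    (∀ x ∈ Coo, ∀ ω, ω.length = d → tr K B (x * evF f t ω) = 0) ∧
    (∀ x ∈ C, ∃ g : J → List J → K, ∀ a u b, u.length + 2 = d →
      tr K B (x * evF f t (a :: (u ++ [b]))) = g a (u ++ [b]) - g b (a :: u))

/-- invariant of the construction -/
structure Good (f : NC I B) (P : J → I → K) (n : ℕ) (t : I → List J → K) : Prop where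
  nil : ∀ i, t i [] = 0
  lin : ∀ i m, t i [m] = P m i
  ev : ∀ ω, 1 ≤ ω.length → ω.length ≤ n → evF f t ω = 0

theorem exists_cons_append {ω : List J} (h : 2 ≤ ω.length) :
    ∃ a u b, ω = a :: (u ++ [b]) ∧ u.length + 2 = ω.length := by
  rcases ω with _ | ⟨a, ω⟩
  · simp at h
  · rcases List.eq_nil_or_concat' ω with rfl | ⟨u, b, rfl⟩
    · simp at h
    · exact ⟨a, u, b, rfl, by simp⟩

theorem linf_neg_apply (f : NC I B) (p : I → K) : linf f (fun i => - p i) = - linf f p := by
  have : (fun i => - p i) = - p := rfl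
  rw [this, map_neg]

theorem base [DecidableEq J] (f : NC I B) (P : J → I → K) (hP : ∀ m, linf f (P m) = 0)
    (hQ : ∀ a b, ∃ p : I → K, linf f p = quad f (P a) (P b)) :
    ∃ t : I → List J → K, Good f P 2 t := by
  choose p hp using hQ
  let t0 : I → List J → K := fun i w => match w with
    | [m] => P m i
    | _ => 0
  let t1 : I → List J → K := fun i w => match w with
    | [m] => P m i
    | [a, b] => - p a b i
    | _ => 0
  have ht0 : ∀ i, t0 i [] = 0 := fun i => rfl
  have ht1 : ∀ i, t1 i [] = 0 := fun i => rfl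
  let tz : I → List J → K := fun _ _ => 0
  have htz : ∀ i, tz i [] = 0 := fun i => rfl
  refine ⟨t1, ht1, fun i m => rfl, ?_⟩
  intro ω h1 h2
  match ω with
  | [] => simp at h1
  | [m] =>
    rw [evF_first f tz t1 htz ht1 1 le_rfl (fun i v hv => ?_) [m] rfl]
    · have e1 : evF f tz [m] = 0 := by
        rw [evF_apply, Finset.sum_eq_zero]
        intro w hw
        rcases w with _ | ⟨i, w⟩
        · simp
        · have : (List.map (Yt B tz) (i :: w)).prod [m] = 0 := by
            rw [List.map_cons, List.prod_cons, NC.mul_apply]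
            refine Finset.sum_eq_zero fun k _ => ?_
            rw [Yt_apply, map_zero, zero_mul]
          rw [this, mul_zero]
      have e2 : linf f (fun i => t1 i [m] - tz i [m]) = 0 := by
        have : (fun i => t1 i [m] - tz i [m]) = P m := by
          funext i; exact sub_zero _
        rw [this, hP]
      rw [e1, e2, add_zero]
    · have : v = [] := List.length_eq_zero_iff.mp (by omega)
      subst this; rfl
  | [a, b] =>
    rw [evF_first f t0 t1 ht0 ht1 2 (by norm_num) (fun i v hv => ?_) [a, b] rfl]
    · have e1 : evF f t0 [a, b] = quad f (P a) (P b) := by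
        rw [evF_apply, sum_words_two (n := [a, b].length) (by simp)]
        · have h0 : ∑ i, f [i] * (List.map (Yt B t0) [i]).prod [a, b] = 0 := by
            refine Finset.sum_eq_zero fun i _ => ?_
            simp only [List.map_cons, List.map_nil, List.prod_cons, List.prod_nil, mul_one,
              Yt_apply]
            show f [i] * algebraMap K B 0 = 0
            rw [map_zero, mul_zero]
          rw [h0, zero_add, quad]
          refine Finset.sum_congr rfl fun i _ => Finset.sum_congr rfl fun j _ => ?_
          simp only [List.map_cons, List.map_nil, List.prod_cons, List.prod_nil, mul_one]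
          rw [NC.mul_cons, NC.mul_cons, NC.mul_nil]
          simp only [NC.sh_apply, Yt_apply]
          have q1 : t0 i [] = 0 := rfl
          have q2 : t0 j [] = 0 := rfl
          have q3 : t0 i [a] = P a i := rfl
          have q4 : t0 j [b] = P b j := rfl
          rw [q1, q3, q4, map_zero, zero_mul, zero_add, add_zero, ← map_mul,
            ← Algebra.commutes, ← Algebra.smul_def]
        · simp
        · intro w hw
          rw [prod_zero _ (Yt_nil ht0), mul_zero]
          simp only [List.length_cons, List.length_nil]; omega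
      have e2 : linf f (fun i => t1 i [a, b] - t0 i [a, b]) = - quad f (P a) (P b) := by
        have : (fun i => t1 i [a, b] - t0 i [a, b]) = fun i => - p a b i := by
          funext i; exact sub_zero _
        rw [this, linf_neg_apply, hp]
      rw [e1, e2, add_neg_cancel]
    · match v with
      | [] => rfl
      | [m] => rfl
      | _ :: _ :: _ => simp at hv
  | _ :: _ :: _ :: _ => simp at h2

theorem step [DecidableEq J] [CharZero K] [FiniteDimensional K B]
    (f : NC I B) (hf : ∀ w, f w ∈ cen K (f []))
    (Coo : Submodule K B) {ι : Type} (c : ι → B)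
    (hc : ∀ b, c b ∈ Cs K f)
    (hspan : Cs K f ≤ Coo ⊔ Submodule.span K (Set.range c))
    (P : J → I → K) (hP : ∀ m, linf f (P m) = 0)
    (hoo : ∀ x ∈ Coo, ∀ p q : I → K, linf f p = 0 → linf f q = 0 → tr K B (x * quad f p q) = 0)
    (hanti : ∀ (b : ι) (p q : I → K), linf f p = 0 → linf f q = 0 →
      tr K B (c b * quad f p q) = - tr K B (c b * quad f q p))
    (honto : ∀ z : J → ι → K, ∃ q, linf f q = 0 ∧ ∀ m b, tr K B (c b * quad f (P m) q) = z m b)
    (hobs : Obs f (Cs K f) Coo P)
    (n : ℕ) (hn : 2 ≤ n) (t : I → List J → K) (ht : Good f P n t) :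
    ∃ t', Good f P (n + 1) t' ∧ ∀ i v, v.length < n → t' i v = t i v := by
  obtain ⟨ob1, ob2⟩ := hobs (n + 1) t (by omega) ht.nil ht.lin
    (fun ω h1 h2 => ht.ev ω h1 (by omega))
  choose g hg using (fun b => ob2 (c b) (hc b) : ∀ b, ∃ g : J → List J → K, ∀ a u b', _ → _)
  choose q hq1 hq2 using (fun w : List J => honto (fun m b => - g b m w) :
    ∀ w : List J, ∃ q : I → K, linf f q = 0 ∧ ∀ m b, tr K B (c b * quad f (P m) q) = - g b m w)
  -- first correction, in degree `n`
  let t1 : I → List J → K := fun i v => if v.length = n then t i v + q v i else t i v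
  have h1 : ∀ i v, v.length ≠ n → t1 i v = t i v := fun i v hv => if_neg hv
  have h1' : ∀ i v, v.length = n → t1 i v = t i v + q v i := fun i v hv => if_pos hv
  have ht1 : ∀ i, t1 i [] = 0 := fun i => by rw [h1 i [] (by simp; omega), ht.nil]
  -- the degree `n + 1` part after the correction is orthogonal to `C`
  have key : ∀ x ∈ Cs K f, ∀ ω : List J,
      ω.length = n + 1 → tr K B (x * evF f t1 ω) = 0 := by
    intro x hx ω hω
    obtain ⟨a, u, b, rfl, hu⟩ := exists_cons_append (ω := ω) (by omega)
    have hu' : u.length + 1 = n := by omega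
    have e := evF_second f t t1 ht.nil n hn h1 a b u hu'
    have ea : (fun i => t i [a]) = P a := funext fun i => ht.lin i a
    have eb : (fun i => t i [b]) = P b := funext fun i => ht.lin i b
    have e1 : (fun j => t1 j (u ++ [b]) - t j (u ++ [b])) = q (u ++ [b]) := by
      funext j; rw [h1' j _ (by simp; omega)]; ring
    have e2 : (fun j => t1 j (a :: u) - t j (a :: u)) = q (a :: u) := by
      funext j; rw [h1' j _ (by simp; omega)]; ring
    rw [ea, eb, e1, e2] at e
    have hoo' : ∀ y ∈ Coo, tr K B (y * evF f t1 (a :: (u ++ [b]))) = 0 := by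
      intro y hy
      rw [e, mul_add, mul_add, map_add, map_add, ob1 y hy _ hω, hoo y hy _ _ (hP a) (hq1 _),
        hoo y hy _ _ (hq1 _) (hP b)]
      simp
    have hc' : ∀ k, tr K B (c k * evF f t1 (a :: (u ++ [b]))) = 0 := by
      intro k
      rw [e, mul_add, mul_add, map_add, map_add, hg k a u b (by omega), hq2,
        hanti k _ _ (hq1 _) (hP b), hq2]
      ring
    have hle : Coo ⊔ Submodule.span K (Set.range c) ≤
        LinearMap.ker ((tr K B) ∘ₗ (LinearMap.mulRight K (evF f t1 (a :: (u ++ [b]))))) := by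
      apply sup_le
      · intro y hy
        rw [LinearMap.mem_ker]
        exact hoo' y hy
      · rw [Submodule.span_le]
        rintro _ ⟨k, rfl⟩
        show _ ∈ LinearMap.ker _
        rw [LinearMap.mem_ker]
        exact hc' k
    have := hle (hspan hx)
    rw [LinearMap.mem_ker] at this
    exact this
  have hW : ∀ ω : List J, ω.length = n + 1 → ∃ p : I → K, linf f p = evF f t1 ω := by
    intro ω hω
    have hle : Ws K f ≤ cen K (f []) := by
      rintro _ ⟨p, rfl⟩
      rw [linf_apply]
      exact Submodule.sum_mem _ fun i _ => Submodule.smul_mem _ _ (hf _)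
    have hpp := perp_perp (cen K (f [])) (Ws K f)
      (fun z hz => inv_mem_cen hz) hle
    have hmem : evF f t1 ω ∈ perp (cen K (f [])) (Cs K f) := by
      refine ⟨evF_mem f t1 _ hf ω, fun x hx => ?_⟩
      rw [tr_mul_comm]
      exact key x hx ω hω
    rw [hpp] at hmem
    exact hmem
  choose! p hp using hW
  let t2 : I → List J → K := fun i v => if v.length = n + 1 then t1 i v - p v i else t1 i v
  have h2 : ∀ i v, v.length ≠ n + 1 → t2 i v = t1 i v := fun i v hv => if_neg hv
  have h2' : ∀ i v, v.length = n + 1 → t2 i v = t1 i v - p v i := fun i v hv => if_pos hv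
  have ht2 : ∀ i, t2 i [] = 0 := fun i => by rw [h2 i [] (by simp), ht1]
  refine ⟨t2, ⟨ht2, fun i m => ?_, fun ω hω1 hω2 => ?_⟩, fun i v hv => ?_⟩
  · rw [h2 i [m] (by simp; omega), h1 i [m] (by simp; omega), ht.lin]
  · rcases Nat.lt_or_ge ω.length (n + 1) with hlt | hge
    · rw [evF_congr f t1 t2 ht1 ht2 (n + 1) (fun i v hv => h2 i v (by omega)) ω hlt]
      rcases Nat.lt_or_ge ω.length n with hlt' | hge'
      · rw [evF_congr f t t1 ht.nil ht1 n (fun i v hv => h1 i v (by omega)) ω hlt']
        exact ht.ev ω hω1 (by omega)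
      · have hlen : ω.length = n := by omega
        rw [evF_first f t t1 ht.nil ht1 n (by omega) (fun i v hv => h1 i v (by omega)) ω hlen,
          ht.ev ω hω1 (by omega)]
        have : (fun i => t1 i ω - t i ω) = q ω := by
          funext i; rw [h1' i ω hlen]; ring
        rw [this, hq1, add_zero]
    · have hlen : ω.length = n + 1 := by omega
      rw [evF_first f t1 t2 ht1 ht2 (n + 1) (by omega) (fun i v hv => h2 i v (by omega)) ω hlen]
      have : (fun i => t2 i ω - t1 i ω) = fun i => - p ω i := by
        funext i; rw [h2' i ω hlen]; ring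
      rw [this, linf_neg_apply, hp ω hlen, add_neg_cancel]
  · rw [h2 i v (by omega), h1 i v (by omega)]

/-- (B8.2) the final family -/
theorem final_family [DecidableEq J] [CharZero K] [FiniteDimensional K B]
    (f : NC I B) (hf : ∀ w, f w ∈ cen K (f []))
    (Coo : Submodule K B) {ι : Type} (c : ι → B)
    (hc : ∀ b, c b ∈ Cs K f)
    (hspan : Cs K f ≤ Coo ⊔ Submodule.span K (Set.range c))
    (P : J → I → K) (hP : ∀ m, linf f (P m) = 0)
    (hPP : ∀ b m m', tr K B (c b * quad f (P m) (P m')) = 0)
    (hoo : ∀ x ∈ Coo, ∀ p q : I → K, linf f p = 0 → linf f q = 0 → tr K B (x * quad f p q) = 0)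
    (hanti : ∀ (b : ι) (p q : I → K), linf f p = 0 → linf f q = 0 →
      tr K B (c b * quad f p q) = - tr K B (c b * quad f q p))
    (honto : ∀ z : J → ι → K, ∃ q, linf f q = 0 ∧ ∀ m b, tr K B (c b * quad f (P m) q) = z m b)
    (hobs : Obs f (Cs K f) Coo P) :
    ∃ t : I → List J → K, (∀ i, t i [] = 0) ∧ (∀ i m, t i [m] = P m i) ∧
      evF f t = NC.C (f []) := by
  have hle : Ws K f ≤ cen K (f []) := by
    rintro _ ⟨p, rfl⟩
    rw [linf_apply]
    exact Submodule.sum_mem _ fun i _ => Submodule.smul_mem _ _ (hf _)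
  have hpp := perp_perp (cen K (f [])) (Ws K f)
    (fun z hz => inv_mem_cen hz) hle
  have hQ : ∀ a b, ∃ p : I → K, linf f p = quad f (P a) (P b) := by
    intro a b
    have hmem : quad f (P a) (P b) ∈ perp (cen K (f [])) (Cs K f) := by
      refine ⟨?_, fun x hx => ?_⟩
      · exact Submodule.sum_mem _ fun i _ => Submodule.sum_mem _ fun j _ =>
          Submodule.smul_mem _ _ (hf _)
      · rw [tr_mul_comm]
        have hle : Coo ⊔ Submodule.span K (Set.range c) ≤
            LinearMap.ker ((tr K B) ∘ₗ (LinearMap.mulRight K (quad f (P a) (P b)))) := by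
          apply sup_le
          · intro y hy
            rw [LinearMap.mem_ker]
            exact hoo y hy _ _ (hP a) (hP b)
          · rw [Submodule.span_le]
            rintro _ ⟨k, rfl⟩
            show _ ∈ LinearMap.ker _
            rw [LinearMap.mem_ker]
            exact hPP k a b
        have := hle (hspan hx)
        rw [LinearMap.mem_ker] at this
        exact this
    rw [hpp] at hmem
    exact hmem
  obtain ⟨t0, ht0⟩ := base f P hP hQ
  have hstep : ∀ n, 2 ≤ n → ∀ t : I → List J → K, Good f P n t →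
      ∃ t', Good f P (n + 1) t' ∧ ∀ i v, v.length < n → t' i v = t i v := fun n hn t ht =>
    step f hf Coo c hc hspan P hP hoo hanti honto hobs n hn t ht
  choose! nx hnx1 hnx2 using hstep
  let T : ℕ → (I → List J → K) := fun k => Nat.rec t0 (fun k t => nx (k + 2) t) k
  have hT : ∀ k, Good f P (k + 2) (T k) := by
    intro k
    induction k with
    | zero => exact ht0
    | succ k ih => exact hnx1 (k + 2) (by omega) (T k) ih
  have hT1 : ∀ k i v, v.length < k + 2 → T (k + 1) i v = T k i v := fun k i v hv =>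
    hnx2 (k + 2) (by omega) (T k) (hT k) i v hv
  have hT2 : ∀ i v k, v.length ≤ k → T k i v = T v.length i v := by
    intro i v k hk
    induction k with
    | zero => rw [Nat.le_zero.mp hk]
    | succ k ih =>
      rcases Nat.lt_or_ge v.length (k + 1) with h | h
      · rw [hT1 k i v (by omega), ih (by omega)]
      · rw [show v.length = k + 1 by omega]
  refine ⟨fun i v => T v.length i v, fun i => (hT 0).nil i, fun i m => (hT 1).lin i m, ?_⟩
  apply NC.ext
  intro ω
  rw [evF_congr f (T ω.length) (fun i v => T v.length i v) (hT _).nil (fun i => (hT 0).nil i)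
    (ω.length + 1) (fun i v hv => (hT2 i v ω.length (by omega)).symm) ω (by omega)]
  rcases ω with _ | ⟨a, ω⟩
  · rw [evF_nil f _ (hT _).nil, NC.C_nil]
  · rw [(hT _).ev (a :: ω) (by simp) (by omega), NC.C_cons]

/-! ### (B8.1) -/

/-- linear family with directions `P` -/
def lin0 (P : J → I → K) : I → List J → K := fun i w => match w with
  | [m] => P m i
  | _ => 0

theorem lin0_nil (P : J → I → K) (i : I) : lin0 P i [] = 0 := rfl
theorem lin0_one (P : J → I → K) (i : I) (m : J) : lin0 P i [m] = P m i := rfl

theorem evF_lin0_one (f : NC I B) (P : J → I → K) (m : J) :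
    evF f (lin0 P) [m] = linf f (P m) := by
  rw [evF_apply, sum_words_one (n := [m].length) (by simp), linf_apply]
  · refine Finset.sum_congr rfl fun i _ => ?_
    simp only [List.map_cons, List.map_nil, List.prod_cons, List.prod_nil, mul_one, Yt_apply]
    rw [lin0_one, ← Algebra.commutes, ← Algebra.smul_def]
  · simp
  · intro w hw
    rw [prod_zero _ (Yt_nil (lin0_nil P)), mul_zero]
    simp only [List.length_cons, List.length_nil]; omega

theorem evF_lin0_two (f : NC I B) (P : J → I → K) (a b : J) :
    evF f (lin0 P) [a, b] = quad f (P a) (P b) := by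
  rw [evF_apply, sum_words_two (n := [a, b].length) (by simp)]
  · have h0 : ∑ i, f [i] * (List.map (Yt B (lin0 P)) [i]).prod [a, b] = 0 := by
      refine Finset.sum_eq_zero fun i _ => ?_
      simp only [List.map_cons, List.map_nil, List.prod_cons, List.prod_nil, mul_one,
        Yt_apply]
      show f [i] * algebraMap K B 0 = 0
      rw [map_zero, mul_zero]
    rw [h0, zero_add, quad]
    refine Finset.sum_congr rfl fun i _ => Finset.sum_congr rfl fun j _ => ?_
    simp only [List.map_cons, List.map_nil, List.prod_cons, List.prod_nil, mul_one]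
    rw [NC.mul_cons, NC.mul_cons, NC.mul_nil]
    simp only [NC.sh_apply, Yt_apply]
    have q1 : lin0 P i [] = 0 := rfl
    have q3 : lin0 P i [a] = P a i := rfl
    have q4 : lin0 P j [b] = P b j := rfl
    have q5 : lin0 P i [a, b] = 0 := rfl
    rw [q1, q3, q4, q5, map_zero, zero_mul, zero_mul, zero_add, add_zero, ← map_mul,
      ← Algebra.commutes, ← Algebra.smul_def]
  · simp
  · intro w hw
    rw [prod_zero _ (Yt_nil (lin0_nil P)), mul_zero]
    simp only [List.length_cons, List.length_nil]; omega

/-- the degree 2 case of the obstruction property -/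
theorem obs_two (f : NC I B) (C Coo : Submodule K B) (P : J → I → K)
    (hP : ∀ m, linf f (P m) = 0) (h : Obs f C Coo P) :
    (∀ x ∈ Coo, ∀ a b, tr K B (x * quad f (P a) (P b)) = 0) ∧
    (∀ x ∈ C, ∀ a b, tr K B (x * quad f (P a) (P b)) = - tr K B (x * quad f (P b) (P a))) := by
  obtain ⟨h1, h2⟩ := h 2 (lin0 P) le_rfl (lin0_nil P) (fun i m => lin0_one P i m) (by
    intro ω hω1 hω2
    match ω with
    | [] => simp at hω1
    | [m] => rw [evF_lin0_one, hP]
    | _ :: _ :: _ => simp at hω2)
  refine ⟨fun x hx a b => ?_, fun x hx a b => ?_⟩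
  · rw [← evF_lin0_two]; exact h1 x hx [a, b] rfl
  · obtain ⟨g, hg⟩ := h2 x hx
    have e1 := hg a [] b rfl
    have e2 := hg b [] a rfl
    simp only [List.nil_append] at e1 e2
    rw [← evF_lin0_two, ← evF_lin0_two, e1, e2]; ring

/-- independence modulo a subspace -/
def Ind (Inn : Submodule K (I → K)) (p q : I → K) : Prop :=
  ∀ a b : K, a • p + b • q ∈ Inn → a = 0 ∧ b = 0

theorem Ind.left {Inn : Submodule K (I → K)} {p q : I → K} (h : Ind Inn p q) : p ∉ Inn := by
  intro hp
  have := (h 1 0 (by simpa using hp)).1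
  exact one_ne_zero this

theorem Ind.symm {Inn : Submodule K (I → K)} {p q : I → K} (h : Ind Inn p q) : Ind Inn q p := by
  intro a b hab
  have := h b a (by rw [add_comm]; exact hab)
  exact ⟨this.2, this.1⟩

theorem dep_of_not {Inn : Submodule K (I → K)} {p q : I → K} (hp : p ∉ Inn)
    (h : ¬ Ind Inn p q) : ∃ c : K, q - c • p ∈ Inn := by
  unfold Ind at h
  push Not at h
  obtain ⟨a, b, hab, hne⟩ := h
  have hb : b ≠ 0 := by
    intro hb
    subst hb
    have ha : a ≠ 0 := fun ha => hne ha rfl
    rw [zero_smul, add_zero] at hab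
    exact hp ((Submodule.smul_mem_iff _ ha).mp hab)
  refine ⟨-(b⁻¹ * a), ?_⟩
  have := Inn.smul_mem b⁻¹ hab
  rw [smul_add, smul_smul, smul_smul, inv_mul_cancel₀ hb, one_smul] at this
  rw [neg_smul, sub_neg_eq_add, add_comm]
  exact this

theorem ind_add {Inn : Submodule K (I → K)} {p q r : I → K} (h : Ind Inn p r)
    (hq : ∃ c : K, q - c • p ∈ Inn) : Ind Inn p (q + r) := by
  obtain ⟨c, hc⟩ := hq
  intro a b hab
  have h1 : (a + b * c) • p + b • r ∈ Inn := by
    have := Inn.sub_mem hab (Inn.smul_mem b hc)
    have e : a • p + b • (q + r) - b • (q - c • p) = (a + b * c) • p + b • r := by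
      rw [smul_add, smul_sub, add_smul, mul_smul]; abel
    rw [e] at this
    exact this
  obtain ⟨h2, h3⟩ := h _ _ h1
  subst h3
  exact ⟨by simpa using h2, rfl⟩

theorem exists_ind {Inn : Submodule K (I → K)} {P Q p : I → K} (h : Ind Inn P Q) (hp : p ∉ Inn) :
    Ind Inn p P ∨ Ind Inn p Q := by
  by_contra hcon
  rw [not_or] at hcon
  obtain ⟨c, hc⟩ := dep_of_not hp hcon.1
  obtain ⟨d, hd⟩ := dep_of_not hp hcon.2
  have h1 : d • P + (-c) • Q ∈ Inn := by
    have := Inn.sub_mem (Inn.smul_mem d hc) (Inn.smul_mem c hd)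
    have e : d • (P - c • p) - c • (Q - d • p) = d • P + (-c) • Q := by
      rw [smul_sub, smul_sub, neg_smul, smul_smul, smul_smul, mul_comm d c]; abel
    rw [e] at this
    exact this
  obtain ⟨h2, h3⟩ := h _ _ h1
  have h4 : c = 0 := neg_eq_zero.mp h3
  subst h4
  rw [zero_smul, sub_zero] at hc
  exact h.left hc

/-- (B8.1) -/
theorem b81 [CharZero K] (f : NC I B) (C Coo : Submodule K B) (hCC : Coo ≤ C)
    (Inn : Submodule K (I → K)) (hInn : ∀ p ∈ Inn, linf f p = 0)
    (P Q : I → K) (hP : linf f P = 0) (hQ : linf f Q = 0) (hPQ : Ind Inn P Q)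
    (H : ∀ p q : I → K, linf f p = 0 → linf f q = 0 → Ind Inn p q →
      (∀ x ∈ Coo, tr K B (x * quad f p q) = 0) ∧
      (∀ x ∈ C, tr K B (x * quad f p p) = 0)) :
    (∀ x ∈ C, ∀ p q : I → K, linf f p = 0 → linf f q = 0 →
      tr K B (x * quad f p q) = - tr K B (x * quad f q p)) ∧
    (∀ x ∈ Coo, ∀ p q : I → K, linf f p = 0 → linf f q = 0 → tr K B (x * quad f p q) = 0) := by
  have hr : ∀ p, p ∉ Inn → ∃ r, linf f r = 0 ∧ Ind Inn p r := by
    intro p hp
    rcases exists_ind hPQ hp with h | h
    · exact ⟨P, hP, h⟩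
    · exact ⟨Q, hQ, h⟩
  have hPn : P ∉ Inn := hPQ.left
  have d1 : ∀ x ∈ C, ∀ p : I → K, linf f p = 0 → p ∉ Inn → tr K B (x * quad f p p) = 0 := by
    intro x hx p hp hpn
    obtain ⟨r, hr1, hr2⟩ := hr p hpn
    exact (H p r hp hr1 hr2).2 x hx
  have d2 : ∀ x ∈ C, ∀ p : I → K, linf f p = 0 → tr K B (x * quad f p p) = 0 := by
    intro x hx p hp
    by_cases hpn : p ∈ Inn
    · have h1 := d1 x hx (p + P) (by rw [map_add, hp, hP, add_zero])
        (fun h => hPn ((Submodule.add_mem_iff_right _ hpn).mp h))
      have h2 := d1 x hx (p + (-1 : K) • P) (by rw [map_add, map_smul, hp, hP, smul_zero, add_zero])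
        (fun h => hPn (by
          have := (Submodule.add_mem_iff_right _ hpn).mp h
          rwa [Submodule.smul_mem_iff _ (by norm_num)] at this))
      have h3 := d1 x hx P hP hPn
      simp only [quad_add_left, quad_add_right, quad_smul_left, quad_smul_right, mul_add, map_add,
        mul_smul_comm, map_smul, smul_eq_mul] at h1 h2
      have h4 : (2 : K) * tr K B (x * quad f p p) = 0 := by
        rw [h3] at h1 h2
        linear_combination h1 + h2
      exact (mul_eq_zero.mp h4).resolve_left two_ne_zero
    · exact d1 x hx p hp hpn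
  have d3 : ∀ x ∈ C, ∀ p q : I → K, linf f p = 0 → linf f q = 0 →
      tr K B (x * quad f p q) = - tr K B (x * quad f q p) := by
    intro x hx p q hp hq
    have h1 := d2 x hx (p + q) (by rw [map_add, hp, hq, add_zero])
    simp only [quad_add_left, quad_add_right, mul_add, map_add, d2 x hx p hp, d2 x hx q hq] at h1
    linear_combination h1
  refine ⟨d3, ?_⟩
  have d4 : ∀ x ∈ Coo, ∀ p q : I → K, linf f p = 0 → linf f q = 0 → p ∉ Inn →
      tr K B (x * quad f p q) = 0 := by
    intro x hx p q hp hq hpn
    by_cases hi : Ind Inn p q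
    · exact (H p q hp hq hi).1 x hx
    · obtain ⟨r, hr1, hr2⟩ := hr p hpn
      have h1 := (H p (q + r) hp (by rw [map_add, hq, hr1, add_zero])
        (ind_add hr2 (dep_of_not hpn hi))).1 x hx
      have h2 := (H p r hp hr1 hr2).1 x hx
      rw [quad_add_right, mul_add, map_add, h2, add_zero] at h1
      exact h1
  intro x hx p q hp hq
  by_cases hpn : p ∈ Inn
  · have h1 := d4 x hx (p + P) q (by rw [map_add, hp, hP, add_zero]) hq
      (fun h => hPn ((Submodule.add_mem_iff_right _ hpn).mp h))
    have h2 := d4 x hx P q hP hq hPn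
    rw [quad_add_left, mul_add, map_add, h2, add_zero] at h1
    exact h1
  · exact d4 x hx p q hp hq hpn

/-- (B8) the final family from the obstruction property for all pairs of directions independent
modulo `Inn`, the relation `A^c(P 0, P 1) = 0` and the surjectivity. -/
theorem final [CharZero K] [FiniteDimensional K B]
    (f : NC I B) (hf : ∀ w, f w ∈ cen K (f []))
    (Coo : Submodule K B) (hCC : Coo ≤ Cs K f) {ι : Type} (c : ι → B)
    (hc : ∀ b, c b ∈ Cs K f)
    (hspan : Cs K f ≤ Coo ⊔ Submodule.span K (Set.range c))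
    (Inn : Submodule K (I → K)) (hInn : ∀ p : I → K, p ∈ Inn → linf f p = 0)
    (P : Fin 2 → I → K) (hP : ∀ m, linf f (P m) = 0) (hPQ : Ind Inn (P 0) (P 1))
    (hPP : ∀ b, tr K B (c b * quad f (P 0) (P 1)) = 0)
    (honto : ∀ z : Fin 2 → ι → K, ∃ q : I → K, linf f q = 0 ∧
      ∀ m b, tr K B (c b * quad f (P m) q) = z m b)
    (hobs : ∀ P' : Fin 2 → I → K, Ind Inn (P' 0) (P' 1) → Obs f (Cs K f) Coo P') :
    ∃ t : I → List (Fin 2) → K, (∀ i, t i [] = 0) ∧ (∀ i m, t i [m] = P m i) ∧
      evF f t = NC.C (f []) := by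
  have H : ∀ p q : I → K, linf f p = 0 → linf f q = 0 → Ind Inn p q →
      (∀ x ∈ Coo, tr K B (x * quad f p q) = 0) ∧
      (∀ x ∈ Cs K f, tr K B (x * quad f p p) = 0) := by
    intro p q hp hq hpq
    have hm : ∀ m, linf f ((![p, q] : Fin 2 → I → K) m) = 0 := by
      intro m; fin_cases m
      · exact hp
      · exact hq
    obtain ⟨h1, h2⟩ := obs_two f (Cs K f) Coo ![p, q] hm (hobs ![p, q] hpq)
    refine ⟨fun x hx => h1 x hx 0 1, fun x hx => ?_⟩
    have h3 := h2 x hx 0 0
    have h4 : (2 : K) * tr K B (x * quad f p p) = 0 := by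
      have h5 : tr K B (x * quad f p p) = - tr K B (x * quad f p p) := h3
      linear_combination h5
    exact (mul_eq_zero.mp h4).resolve_left two_ne_zero
  obtain ⟨a1, a2⟩ := b81 f (Cs K f) Coo hCC Inn hInn (P 0) (P 1) (hP 0) (hP 1) hPQ H
  have a3 : ∀ x ∈ Cs K f, ∀ p : I → K, linf f p = 0 → tr K B (x * quad f p p) = 0 := by
    intro x hx p hp
    have h5 := a1 x hx p p hp hp
    have h4 : (2 : K) * tr K B (x * quad f p p) = 0 := by linear_combination h5
    exact (mul_eq_zero.mp h4).resolve_left two_ne_zero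
  refine final_family f hf Coo c hc hspan P hP ?_ a2 (fun b => a1 (c b) (hc b)) honto
    (hobs P hPQ)
  intro b m m'
  fin_cases m <;> fin_cases m'
  · exact a3 _ (hc b) _ (hP 0)
  · exact hPP b
  · show tr K B (c b * quad f (P 1) (P 0)) = 0
    rw [a1 _ (hc b) _ _ (hP 1) (hP 0), hPP, neg_zero]
  · exact a3 _ (hc b) _ (hP 1)

end B8
end Vale.P199
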