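import Vale.Agent.P199.GenBim
import Vale.Agent.P199.RedL
import Vale.Agent.P199.Laur

/-!
# P199, (gen) of B2 : generation of the shifted constant terms, abstract form
-/

open HahnSeries

namespace Vale.P199

/-- A subalgebra `R` of `B((z))` whose integral elements have constant coefficients generating `B`
is everything. -/
theorem subalgebra_eq_top_of_red {K B : Type*} [Field K] [DivisionRing B] [Algebra K B]
    [FiniteDimensional K B] (R : Subalgebra K⟦ℤ⟧ B⟦ℤ⟧) (s : Set B)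
    (hs : Algebra.adjoin K s = ⊤)
    (h : ∀ b ∈ s, ∃ x ∈ R, (∀ k < 0, x.coeff k = 0) ∧ x.coeff 0 = b) : R = ⊤ := by
  have key : ∀ b : B, b ∈ redL (K := K) (Subalgebra.toSubmodule R) := by
    intro b
    have hb : b ∈ Algebra.adjoin K s := by rw [hs]; trivial
    induction hb using Algebra.adjoin_induction with
    | mem x hx =>
      obtain ⟨y, hy, h1, h2⟩ := h x hx
      exact ⟨y, hy, h1, h2⟩
    | algebraMap c =>
      refine ⟨algebraMap K⟦ℤ⟧ B⟦ℤ⟧ (C c), R.algebraMap_mem _, fun k hk => ?_, ?_⟩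
      · show (algebraMap K⟦ℤ⟧ B⟦ℤ⟧ (C c)).coeff k = 0
        rw [algebraMap_coeff, C_apply, coeff_single_of_ne hk.ne, map_zero]
      · show (algebraMap K⟦ℤ⟧ B⟦ℤ⟧ (C c)).coeff 0 = _
        rw [algebraMap_coeff, C_apply, coeff_single_same]
    | add x y _ _ hx hy => exact Submodule.add_mem _ hx hy
    | mul x y _ _ hx hy =>
      obtain ⟨u, hu, hu1, hu2⟩ := hx
      obtain ⟨v, hv, hv1, hv2⟩ := hy
      have h1 := hahn_lead u v 0 0 hu1 hv1
      refine ⟨u * v, R.mul_mem hu hv, fun k hk => h1.1 k (by simpa using hk), ?_⟩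
      have h2 := h1.2
      rw [add_zero] at h2
      show (u * v).coeff 0 = _
      rw [h2]
      have hu3 : u.coeff 0 = x := hu2
      have hv3 : v.coeff 0 = y := hv2
      rw [hu3, hv3]
  have hred : redL (K := K) (Subalgebra.toSubmodule R) = ⊤ := by
    rw [eq_top_iff]
    exact fun b _ => key b
  have h1 : Module.finrank K⟦ℤ⟧ (Subalgebra.toSubmodule R) = Module.finrank K⟦ℤ⟧ B⟦ℤ⟧ := by
    rw [← finrank_redL, hred, finrank_top, lmod_finrank]
  have h2 : Subalgebra.toSubmodule R = ⊤ := by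
    have : Module.Finite K⟦ℤ⟧ B⟦ℤ⟧ := lmodFinite
    exact Submodule.eq_top_of_finrank_eq h1
  rw [eq_top_iff]
  intro x _
  have : x ∈ Subalgebra.toSubmodule R := by rw [h2]; trivial
  exact this

/-- (gen) : if `Φ g = g[] + z^κ (g_1(P₁) V₁ + g_1(P₂) V₂) + O(z^(κ+1))` then the images of `X, Y`
generate `B₁((z))`, provided `P₁, P₂` are independent modulo inner directions and `V₁, V₂` generate `B₁`
together with `B`. -/
theorem gen_abs (S : State) {K1 B1 : Type*} [Field K1] [DivisionRing B1] [Algebra K1 B1]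
    [FiniteDimensional K1 B1] (jK : S.K →+* K1) (jB : S.B →+* B1)
    (P1 P2 : S.I → S.K) (hInd : S.Indep P1 P2) (V1 V2 : B1)
    (hadj : Algebra.adjoin K1 (Set.range jB ∪ {V1, V2}) = ⊤) (κ : ℕ)
    (Φ : NC S.I S.B →+* B1⟦ℤ⟧)
    (hΦK : ∀ c : S.K, Φ (NC.C (algebraMap S.K S.B c)) = algebraMap K1⟦ℤ⟧ B1⟦ℤ⟧ (C (jK c)))
    (hneg : ∀ g, ∀ k < (0 : ℤ), (Φ g).coeff k = 0)
    (h0 : ∀ g, (Φ g).coeff 0 = jB (g []))
    (hl : ∀ g, ∀ l : ℤ, 0 < l → l < κ → (Φ g).coeff l = 0)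
    (h1 : ∀ g, (Φ g).coeff κ = jB (State.lin g P1) * V1 + jB (State.lin g P2) * V2) :
    Algebra.adjoin K1⟦ℤ⟧ {Φ S.X, Φ S.Y} = ⊤ := by
  have hmem : ∀ g ∈ Algebra.adjoin S.K {S.X, S.Y}, Φ g ∈ Algebra.adjoin K1⟦ℤ⟧ {Φ S.X, Φ S.Y} := by
    intro g hg
    induction hg using Algebra.adjoin_induction with
    | mem x hx =>
      rcases hx with rfl | hx
      · exact Algebra.subset_adjoin (Or.inl rfl)
      · rw [Set.mem_singleton_iff] at hx
        subst hx
        exact Algebra.subset_adjoin (Or.inr rfl)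
    | algebraMap c =>
      rw [NC.algebraMap_eq, hΦK]
      exact Subalgebra.algebraMap_mem _ _
    | add x y _ _ hx hy => rw [map_add]; exact Subalgebra.add_mem _ hx hy
    | mul x y _ _ hx hy => rw [map_mul]; exact Subalgebra.mul_mem _ hx hy
  -- dividing by `z^κ`
  have hdiv : ∀ g ∈ Algebra.adjoin S.K {S.X, S.Y}, g [] = 0 →
      ∃ x ∈ Algebra.adjoin K1⟦ℤ⟧ {Φ S.X, Φ S.Y}, (∀ k < 0, x.coeff k = 0) ∧
        x.coeff 0 = jB (State.lin g P1) * V1 + jB (State.lin g P2) * V2 := by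
    intro g hg hg0
    have hlow : ∀ l : ℤ, l < κ → (Φ g).coeff l = 0 := by
      intro l hlκ
      rcases lt_trichotomy l 0 with h | h | h
      · exact hneg g l h
      · rw [h, h0, hg0, map_zero]
      · exact hl g l h hlκ
    refine ⟨(single (-(κ : ℤ)) (1 : K1) : K1⟦ℤ⟧) • Φ g, Subalgebra.smul_mem _ (hmem g hg) _, ?_, ?_⟩
    · intro k hk
      rw [single_smul_coeff, one_smul]
      exact hlow _ (by omega)
    · rw [single_smul_coeff, one_smul, ← h1]
      congr 1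
      omega
  refine subalgebra_eq_top_of_red _ _ hadj ?_
  rintro b (⟨b, rfl⟩ | hb | hb)
  · obtain ⟨g, hg, hg0⟩ := S.exists_adjoin b
    exact ⟨Φ g, hmem g hg, hneg g, by rw [h0, hg0]⟩
  · subst hb
    obtain ⟨g, hg, hg0, hg1, hg2⟩ := S.bim P1 P2 hInd 1 0
    obtain ⟨x, hx, hx1, hx2⟩ := hdiv g hg hg0
    exact ⟨x, hx, hx1, by rw [hx2, hg1, hg2, map_one, map_zero, one_mul, zero_mul, add_zero]⟩
  · rw [Set.mem_singleton_iff] at hb
    subst hb
    obtain ⟨g, hg, hg0, hg1, hg2⟩ := S.bim P1 P2 hInd 0 1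
    obtain ⟨x, hx, hx1, hx2⟩ := hdiv g hg hg0
    exact ⟨x, hx, hx1, by rw [hx2, hg1, hg2, map_one, map_zero, one_mul, zero_mul, zero_add]⟩

end Vale.P199
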