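import Vale.Agent.P199.Subst
import Vale.Agent.P199.Gen

/-!
# P199 : low-order terms of a substitution, and (gen) for substitutions
-/

open HahnSeries

namespace Vale.P199

/-- `f = f[] + Σ t_i (f shifted by i)` -/
theorem NC.eq_C_add_sum {I B : Type} [Fintype I] [DecidableEq I] [Ring B] (f : NC I B) :
    f = NC.C (f []) + ∑ i, NC.T i * NC.sh i f := by
  ext w
  rw [NC.add_apply, NC.sum_apply]
  cases w with
  | nil => simp [NC.T]
  | cons j w =>
    rw [NC.C_cons, zero_add, Finset.sum_eq_single j]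
    · rw [NC.T_mul_cons, if_pos rfl]
      rfl
    · intro i _ hi
      rw [NC.T_mul_cons, if_neg hi]
    · intro h
      exact absurd (Finset.mem_univ j) h

theorem ofPowerSeries_coeff_neg {R : Type*} [Semiring R] (x : PowerSeries R) (k : ℤ) (hk : k < 0) :
    (HahnSeries.ofPowerSeries ℤ R x).coeff k = 0 := by
  rw [HahnSeries.ofPowerSeries_apply]
  apply HahnSeries.embDomain_of_notMem_range
  rintro ⟨n, hn⟩
  have : ((n : ℕ) : ℤ) = k := hn
  omega

section Low

variable {I J B R : Type} [Fintype I] [DecidableEq I] [Ring B] [Ring R]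
  {jB : B →+* R} {Y : I → NC J (PowerSeries R)} (h : SubOK jB Y)

theorem substHom_rec (f : NC I B) : substHom jB Y h f =
    NC.C (PowerSeries.C (jB (f []))) + ∑ i, Y i * substHom jB Y h (NC.sh i f) := by
  conv_lhs => rw [NC.eq_C_add_sum f]
  rw [map_add, substHom_C, map_sum]
  refine congrArg _ (Finset.sum_congr rfl fun i _ => ?_)
  rw [map_mul, substHom_T]

theorem substHom_nil (f : NC I B) : substHom jB Y h f [] =
    PowerSeries.C (jB (f [])) + ∑ i, Y i [] * substHom jB Y h (NC.sh i f) [] := by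
  conv_lhs => rw [substHom_rec h f]
  rw [NC.add_apply, NC.C_nil, NC.sum_apply]
  refine congrArg _ (Finset.sum_congr rfl fun i _ => ?_)
  rw [NC.mul_nil]

theorem coeff_mul_of_low {x y : PowerSeries R} {κ n : ℕ}
    (hx : ∀ m < κ, PowerSeries.coeff m x = 0) (hn : n < κ) :
    PowerSeries.coeff n (x * y) = 0 := by
  rw [PowerSeries.coeff_mul]
  refine Finset.sum_eq_zero fun p hp => ?_
  rw [Finset.HasAntidiagonal.mem_antidiagonal] at hp
  rw [hx p.1 (by omega), zero_mul]

theorem coeff_mul_of_low' {x y : PowerSeries R} {κ : ℕ}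
    (hx : ∀ m < κ, PowerSeries.coeff m x = 0) :
    PowerSeries.coeff κ (x * y) = PowerSeries.coeff κ x * PowerSeries.coeff 0 y := by
  rw [PowerSeries.coeff_mul, Finset.sum_eq_single (κ, 0)]
  · intro p hp hne
    rw [Finset.HasAntidiagonal.mem_antidiagonal] at hp
    rw [hx p.1 (by
      rcases Nat.lt_or_ge p.1 κ with h1 | h1
      · exact h1
      · exact absurd (Prod.ext (by simp; omega) (by simp; omega)) hne), zero_mul]
  · intro h1
    exact absurd (Finset.HasAntidiagonal.mem_antidiagonal.2 (by simp)) h1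

/-- the constant coefficient -/
theorem substHom_coeff_zero (f : NC I B) :
    PowerSeries.coeff 0 (substHom jB Y h f []) = jB (f []) := by
  rw [substHom_nil, map_add, PowerSeries.coeff_zero_C, map_sum, Finset.sum_eq_zero, add_zero]
  intro i _
  rw [PowerSeries.coeff_zero_eq_constantCoeff_apply, map_mul, h.const, zero_mul]

/-- coefficients between `0` and `κ` vanish -/
theorem substHom_coeff_low {κ : ℕ} (low : ∀ i, ∀ n < κ, PowerSeries.coeff n (Y i []) = 0)
    (f : NC I B) (n : ℕ) (h0 : 0 < n) (hn : n < κ) :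
    PowerSeries.coeff n (substHom jB Y h f []) = 0 := by
  rw [substHom_nil, map_add, PowerSeries.coeff_C, if_neg (by omega), zero_add, map_sum]
  exact Finset.sum_eq_zero fun i _ => coeff_mul_of_low (low i) hn

/-- the coefficient of `z^κ` -/
theorem substHom_coeff_lead {κ : ℕ} (hκ : 0 < κ)
    (low : ∀ i, ∀ n < κ, PowerSeries.coeff n (Y i []) = 0) (f : NC I B) :
    PowerSeries.coeff κ (substHom jB Y h f []) =
      ∑ i, PowerSeries.coeff κ (Y i []) * jB (f [i]) := by
  rw [substHom_nil, map_add, PowerSeries.coeff_C, if_neg (by omega), zero_add, map_sum]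
  refine Finset.sum_congr rfl fun i _ => ?_
  rw [coeff_mul_of_low' (low i), substHom_coeff_zero]
  rfl

end Low

/-- `B` and `V₁, V₂` generate `B₁` -/
theorem adjoin_of_basis {K B K1 B1 ι : Type} [Field K] [DivisionRing B] [Algebra K B] [Field K1]
    [DivisionRing B1] [Algebra K1 B1] (jB : B →+* B1) {r : ℕ} (b : ι → B) (u v V1 V2 : B1)
    (b1 : Module.Basis (ι × Fin r × Fin r) K1 B1)
    (hb1 : ∀ x, b1 x = jB (b x.1) * (u ^ (x.2.1 : ℕ) * v ^ (x.2.2 : ℕ)))
    (gen : u ∈ Algebra.adjoin K1 {V1, V2} ∧ v ∈ Algebra.adjoin K1 {V1, V2}) :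
    Algebra.adjoin K1 (Set.range jB ∪ {V1, V2}) = ⊤ := by
  have hsub : Algebra.adjoin K1 {V1, V2} ≤ Algebra.adjoin K1 (Set.range jB ∪ {V1, V2}) :=
    Algebra.adjoin_mono Set.subset_union_right
  have h1 : ∀ x, b1 x ∈ Algebra.adjoin K1 (Set.range jB ∪ {V1, V2}) := by
    intro x
    rw [hb1]
    refine Subalgebra.mul_mem _ (Algebra.subset_adjoin (Or.inl ⟨_, rfl⟩)) ?_
    exact Subalgebra.mul_mem _ (Subalgebra.pow_mem _ (hsub gen.1) _)
      (Subalgebra.pow_mem _ (hsub gen.2) _)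
  rw [eq_top_iff]
  intro x _
  have h2 : x ∈ Submodule.span K1 (Set.range b1) := by rw [b1.span_eq]; trivial
  have h3 : Submodule.span K1 (Set.range b1) ≤
      Subalgebra.toSubmodule (Algebra.adjoin K1 (Set.range jB ∪ {V1, V2})) := by
    rw [Submodule.span_le]
    rintro _ ⟨y, rfl⟩
    exact h1 y
  exact h3 h2

/-- the `z^κ`-coefficient in terms of the two directions -/
theorem sum_lead_mul {K B K1 B1 I : Type} [Fintype I] [Field K] [Ring B] [Algebra K B] [Field K1]
    [Ring B1] [Algebra K1 B1] (jK : K →+* K1) (jB : B →+* B1)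
    (comp : ∀ k, jB (algebraMap K B k) = algebraMap K1 B1 (jK k))
    (P1 P2 : I → K) (V1 V2 : B1) (V1Q : ∀ b, jB b * V1 = V1 * jB b)
    (V2Q : ∀ b, jB b * V2 = V2 * jB b) (f : NC I B) :
    ∑ i, (jK (P1 i) • V1 + jK (P2 i) • V2) * jB (f [i]) =
      jB (State.lin f P1) * V1 + jB (State.lin f P2) * V2 := by
  have key : ∀ (P : I → K) (V : B1) (_ : ∀ b, jB b * V = V * jB b),
      ∑ i, (jK (P i) • V) * jB (f [i]) = jB (State.lin f P) * V := by
    intro P V hV
    rw [State.lin, map_sum, Finset.sum_mul]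
    refine Finset.sum_congr rfl fun i _ => ?_
    rw [Algebra.smul_def (P i), map_mul, comp, Algebra.smul_def, mul_assoc, mul_assoc, hV]
  simp only [add_mul, Finset.sum_add_distrib]
  rw [key P1 V1 V1Q, key P2 V2 V2Q]

/-- (gen) for a substitution -/
theorem gen_subst (S : State) {J K1 B1 : Type} [Field K1] [DivisionRing B1] [Algebra K1 B1]
    [FiniteDimensional K1 B1] (jK : S.K →+* K1) (jB : S.B →+* B1)
    (comp : ∀ k, jB (algebraMap S.K S.B k) = algebraMap K1 B1 (jK k))
    (P1 P2 : S.I → S.K) (hInd : S.Indep P1 P2) (V1 V2 : B1)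
    (V1Q : ∀ b, jB b * V1 = V1 * jB b) (V2Q : ∀ b, jB b * V2 = V2 * jB b)
    (hadj : Algebra.adjoin K1 (Set.range jB ∪ {V1, V2}) = ⊤)
    (Y : S.I → NC J (PowerSeries B1)) (h : SubOK jB Y) (κ : ℕ) (hκ : 0 < κ)
    (low : ∀ i, ∀ n < κ, PowerSeries.coeff n (Y i []) = 0)
    (lead : ∀ i, PowerSeries.coeff κ (Y i []) = jK (P1 i) • V1 + jK (P2 i) • V2) :
    Algebra.adjoin K1⟦ℤ⟧ {((NC.map (HahnSeries.ofPowerSeries ℤ B1)).comp (substHom jB Y h)) S.X [],
      ((NC.map (HahnSeries.ofPowerSeries ℤ B1)).comp (substHom jB Y h)) S.Y []} = ⊤ := by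
  let Φ : NC S.I S.B →+* B1⟦ℤ⟧ :=
    NC.ε.comp ((NC.map (HahnSeries.ofPowerSeries ℤ B1)).comp (substHom jB Y h))
  have hΦ : ∀ g, Φ g = HahnSeries.ofPowerSeries ℤ B1 (substHom jB Y h g []) := fun g => rfl
  have hcoeff : ∀ g, ∀ n : ℕ, (Φ g).coeff n = PowerSeries.coeff n (substHom jB Y h g []) := by
    intro g n
    rw [hΦ, HahnSeries.ofPowerSeries_apply_coeff]
  refine gen_abs S jK jB P1 P2 hInd V1 V2 hadj κ Φ ?_ ?_ ?_ ?_ ?_
  · intro c
    rw [hΦ, substHom_C, NC.C_nil, comp, algebraMap_C, HahnSeries.ofPowerSeries_C]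
  · intro g k hk
    rw [hΦ]
    exact ofPowerSeries_coeff_neg _ k hk
  · intro g
    have := hcoeff g 0
    rw [Nat.cast_zero] at this
    rw [this, substHom_coeff_zero]
  · intro g l h0 hl
    obtain ⟨n, rfl⟩ := Int.eq_ofNat_of_zero_le h0.le
    have := hcoeff g n
    rw [this]
    exact substHom_coeff_low h low g n (by exact_mod_cast h0) (by exact_mod_cast hl)
  · intro g
    rw [hcoeff, substHom_coeff_lead h hκ low, ← sum_lead_mul jK jB comp P1 P2 V1 V2 V1Q V2Q]
    exact Finset.sum_congr rfl fun i _ => by rw [lead]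

end Vale.P199
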