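import Vale.Agent.P199.Low
import Vale.Agent.P199.GenCore

/-!
# P199 : (G3) for substitutions
-/

open HahnSeries

namespace Vale.P199

section

variable {I J B R : Type} [Fintype I] [DecidableEq I] [Ring B] [Ring R]
  {jB : B →+* R} {Y : I → NC J (PowerSeries R)} (h : SubOK jB Y)

/-- the constant coefficient of the linear part of a substitution -/
theorem substHom_letter_zero (f : NC I B) (j : J) :
    PowerSeries.coeff 0 (substHom jB Y h f [j]) =
      ∑ i, PowerSeries.coeff 0 (Y i [j]) * jB (f [i]) := by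
  conv_lhs => rw [substHom_rec h f]
  rw [NC.add_apply, NC.C_cons, zero_add, NC.sum_apply, map_sum]
  refine Finset.sum_congr rfl fun i _ => ?_
  have h0 := h.const i
  rw [NC.mul_singleton, map_add, PowerSeries.coeff_zero_eq_constantCoeff_apply,
    PowerSeries.coeff_zero_eq_constantCoeff_apply, map_mul, map_mul, h0, zero_mul, zero_add,
    ← PowerSeries.coeff_zero_eq_constantCoeff_apply (substHom jB Y h (NC.sh i f) []),
    substHom_coeff_zero, PowerSeries.coeff_zero_eq_constantCoeff_apply]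
  rfl

end

/-- (G3) for a substitution -/
theorem indep_subst (S : State) {J K1 B1 : Type} [Fintype J] [Field K1] [CharZero K1]
    [DivisionRing B1] [Algebra K1 B1]
    [FiniteDimensional K1 B1] (jK : S.K →+* K1) (jB : S.B →+* B1)
    (comp : ∀ k, jB (algebraMap S.K S.B k) = algebraMap K1 B1 (jK k))
    (central : ∀ a : B1, (∀ b, a * b = b * a) → ∃ k, algebraMap K1 B1 k = a)
    (P1 P2 : S.I → S.K) (hInd : S.Indep P1 P2) (V1 V2 : B1)
    (V1Q : ∀ b, jB b * V1 = V1 * jB b) (V2Q : ∀ b, jB b * V2 = V2 * jB b)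
    (hadj : Algebra.adjoin K1 (Set.range jB ∪ {V1, V2}) = ⊤)
    (Y : S.I → NC J (PowerSeries B1)) (h : SubOK jB Y) (κ : ℕ) (hκ : 0 < κ)
    (low : ∀ i, ∀ n < κ, PowerSeries.coeff n (Y i []) = 0)
    (lead : ∀ i, PowerSeries.coeff κ (Y i []) = jK (P1 i) • V1 + jK (P2 i) • V2)
    (c1 c2 : J → K1)
    (hc1 : ∀ i, ∑ j, c1 j • PowerSeries.coeff 0 (Y i [j]) = algebraMap K1 B1 (jK (P1 i)))
    (hc2 : ∀ i, ∑ j, c2 j • PowerSeries.coeff 0 (Y i [j]) = algebraMap K1 B1 (jK (P2 i)))
    (a b : K1⟦ℤ⟧) (y : B1⟦ℤ⟧)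
    (hX : State.lin (((NC.map (HahnSeries.ofPowerSeries ℤ B1)).comp (substHom jB Y h)) S.X)
      (fun j => a * HahnSeries.C (c1 j) + b * HahnSeries.C (c2 j)) =
      y * ((NC.map (HahnSeries.ofPowerSeries ℤ B1)).comp (substHom jB Y h)) S.X [] -
      ((NC.map (HahnSeries.ofPowerSeries ℤ B1)).comp (substHom jB Y h)) S.X [] * y)
    (hY : State.lin (((NC.map (HahnSeries.ofPowerSeries ℤ B1)).comp (substHom jB Y h)) S.Y)
      (fun j => a * HahnSeries.C (c1 j) + b * HahnSeries.C (c2 j)) =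
      y * ((NC.map (HahnSeries.ofPowerSeries ℤ B1)).comp (substHom jB Y h)) S.Y [] -
      ((NC.map (HahnSeries.ofPowerSeries ℤ B1)).comp (substHom jB Y h)) S.Y [] * y) :
    a = 0 ∧ b = 0 := by
  classical
  set Φ : NC S.I S.B →+* NC J (B1⟦ℤ⟧) :=
    (NC.map (HahnSeries.ofPowerSeries ℤ B1)).comp (substHom jB Y h) with hΦ
  have hΦw : ∀ g w, Φ g w = HahnSeries.ofPowerSeries ℤ B1 (substHom jB Y h g w) := fun g w => rfl
  have hcoeff : ∀ g w, ∀ n : ℕ, (Φ g w).coeff n = PowerSeries.coeff n (substHom jB Y h g w) := by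
    intro g w n
    rw [hΦw, HahnSeries.ofPowerSeries_apply_coeff]
  have hneg : ∀ g w, ∀ k < 0, (Φ g w).coeff k = 0 := by
    intro g w k hk
    rw [hΦw]; exact ofPowerSeries_coeff_neg _ k hk
  have hΦC : ∀ c, Φ (algebraMap S.K (NC S.I S.B) c) =
      algebraMap K1⟦ℤ⟧ (NC J (B1⟦ℤ⟧)) (HahnSeries.C (jK c)) := by
    intro c
    ext w : 1
    rw [hΦw, NC.algebraMap_eq, substHom_C, NC.algebraMap_eq, algebraMap_C, ← comp, NC.C_apply,
      NC.C_apply]
    split_ifs
    · rw [HahnSeries.ofPowerSeries_C]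
    · rw [map_zero]
  -- the image of the algebra generated by `X, Y`
  have hmem : ∀ g ∈ Algebra.adjoin S.K {S.X, S.Y}, Φ g ∈ Algebra.adjoin K1⟦ℤ⟧ {Φ S.X, Φ S.Y} := by
    intro g hg
    induction hg using Algebra.adjoin_induction with
    | mem x hx =>
      rcases hx with rfl | hx
      · exact Algebra.subset_adjoin (by simp)
      · rw [Set.mem_singleton_iff] at hx; subst hx
        exact Algebra.subset_adjoin (by simp)
    | algebraMap c => rw [hΦC]; exact Subalgebra.algebraMap_mem _ _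
    | add x y _ _ hx hy => rw [map_add]; exact add_mem hx hy
    | mul x y _ _ hx hy => rw [map_mul]; exact mul_mem hx hy
  -- linear parts in constant directions
  have hlinc : ∀ (c : J → K1) (g : NC S.I S.B) (k : ℤ),
      (State.lin (Φ g) (fun j => (HahnSeries.C (c j) : K1⟦ℤ⟧))).coeff k = ∑ j, c j • (Φ g [j]).coeff k := by
    intro c g k
    rw [State.lin, HahnSeries.coeff_sum]
    refine Finset.sum_congr rfl fun j _ => ?_
    rw [C_smul_eq]
    rfl
  have hlin0 : ∀ (c : J → K1) (P : S.I → S.K)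
      (_ : ∀ i, ∑ j, c j • PowerSeries.coeff 0 (Y i [j]) = algebraMap K1 B1 (jK (P i)))
      (g : NC S.I S.B),
      (State.lin (Φ g) (fun j => (HahnSeries.C (c j) : K1⟦ℤ⟧))).coeff 0 = jB (State.lin g P) := by
    intro c P hc g
    rw [hlinc]
    have e1 : ∀ j, c j • (Φ g [j]).coeff 0 =
        ∑ i, (c j • PowerSeries.coeff 0 (Y i [j])) * jB (g [i]) := by
      intro j
      have := hcoeff g [j] 0
      rw [Nat.cast_zero] at this
      rw [this, substHom_letter_zero, Finset.smul_sum]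
      exact Finset.sum_congr rfl fun i _ => by rw [smul_mul_assoc]
    rw [Finset.sum_congr rfl fun j _ => e1 j, Finset.sum_comm, State.lin, map_sum]
    refine Finset.sum_congr rfl fun i _ => ?_
    rw [← Finset.sum_mul, hc, Algebra.smul_def, map_mul, comp]
  have hsplit : ∀ g : NC S.I S.B,
      State.lin (Φ g) (fun j => a * HahnSeries.C (c1 j) + b * HahnSeries.C (c2 j)) =
      a • State.lin (Φ g) (fun j => (HahnSeries.C (c1 j) : K1⟦ℤ⟧)) +
      b • State.lin (Φ g) (fun j => (HahnSeries.C (c2 j) : K1⟦ℤ⟧)) := by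
    intro g
    rw [← State.lin_smul_dir, ← State.lin_smul_dir, ← State.lin_add_dir]
    rfl
  refine g3_core (H := Algebra.adjoin S.K {S.X, S.Y}) jB κ (by exact_mod_cast hκ)
    (fun g => g.1 []) (fun g => State.lin g.1 P1) (fun g => State.lin g.1 P2)
    (fun g => Φ g.1 []) (fun g => State.lin (Φ g.1) (fun j => (HahnSeries.C (c1 j) : K1⟦ℤ⟧)))
    (fun g => State.lin (Φ g.1) (fun j => (HahnSeries.C (c2 j) : K1⟦ℤ⟧))) V1 V2 ?_ ?_ ?_ ?_ ?_ ?_ ?_ ?_ ?_
    a b y ?_
  · intro g k hk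
    rcases lt_trichotomy k 0 with hk0 | hk0 | hk0
    · rw [if_neg hk0.ne]; exact hneg _ _ k hk0
    · subst hk0
      rw [if_pos rfl]
      have := hcoeff g.1 [] 0
      rw [Nat.cast_zero] at this
      rw [this, substHom_coeff_zero]
    · rw [if_neg hk0.ne']
      obtain ⟨n, rfl⟩ := Int.eq_ofNat_of_zero_le hk0.le
      have := hcoeff g.1 [] n
      rw [this]
      exact substHom_coeff_low h low g.1 n (by exact_mod_cast hk0) (by exact_mod_cast hk)
  · intro g
    have := hcoeff g.1 [] κ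
    rw [this, substHom_coeff_lead h hκ low, ← sum_lead_mul jK jB comp P1 P2 V1 V2 V1Q V2Q]
    exact Finset.sum_congr rfl fun i _ => by rw [lead]
  · intro g k hk
    rw [hlinc]
    exact Finset.sum_eq_zero fun j _ => by rw [hneg _ _ k hk, smul_zero]
  · intro g k hk
    rw [hlinc]
    exact Finset.sum_eq_zero fun j _ => by rw [hneg _ _ k hk, smul_zero]
  · intro g; exact hlin0 c1 P1 hc1 g.1
  · intro g; exact hlin0 c2 P2 hc2 g.1
  · intro x
    obtain ⟨g, hg, h0⟩ := S.exists_adjoin x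
    exact ⟨⟨g, hg⟩, h0⟩
  · intro x1 x2
    obtain ⟨g, hg, h0, h1, h2⟩ := S.bim P1 P2 hInd x1 x2
    exact ⟨⟨g, hg⟩, h0, h1, h2⟩
  · intro x hxB hx1 hx2
    refine central x fun z => ?_
    have hz : z ∈ Algebra.adjoin K1 (Set.range jB ∪ {V1, V2}) := by rw [hadj]; trivial
    induction hz using Algebra.adjoin_induction with
    | mem z hz =>
      rcases hz with ⟨s, rfl⟩ | hz
      · exact hxB s
      · rcases hz with rfl | hz
        · exact hx1
        · rw [Set.mem_singleton_iff] at hz; subst hz; exact hx2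
    | algebraMap c => exact (Algebra.commutes c x).symm
    | add z w _ _ hz hw => rw [mul_add, add_mul, hz, hw]
    | mul z w _ _ hz hw => rw [← mul_assoc, hz, mul_assoc, hw, mul_assoc]
  · intro g
    have := State.lin_adjoin_of_inner (Φ S.X) (Φ S.Y)
      (fun j => a * HahnSeries.C (c1 j) + b * HahnSeries.C (c2 j)) y hX hY (Φ g.1) (hmem g.1 g.2)
    rw [hsplit] at this
    exact this

end Vale.P199
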