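import Vale.Agent.P199.Defs

/-!
# Substitution homomorphisms `B<<t_i>> → R[[z]]<<s_j>>`, `t_i ↦ Y_i`
-/

namespace Vale.P199

/-- all words of length `≤ n` -/
def words (I : Type) [Fintype I] [DecidableEq I] (n : ℕ) : Finset (List I) :=
  (Finset.range (n + 1)).biUnion fun k =>
    (Finset.univ : Finset (Fin k → I)).image fun w => List.ofFn w

theorem mem_words {I : Type} [Fintype I] [DecidableEq I] (n : ℕ) (w : List I) :
    w ∈ words I n ↔ w.length ≤ n := by
  simp only [words, Finset.mem_biUnion, Finset.mem_range, Finset.mem_image, Finset.mem_univ,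
    true_and]
  constructor
  · rintro ⟨k, hk, v, rfl⟩
    rw [List.length_ofFn]
    omega
  · intro h
    exact ⟨w.length, by omega, fun i => w.get i, List.ofFn_get w⟩

theorem words_zero (I : Type) [Fintype I] [DecidableEq I] : words I 0 = {[]} := by
  ext w
  rw [mem_words, Finset.mem_singleton, Nat.le_zero, List.length_eq_zero_iff]

theorem sum_words_succ {I : Type} [Fintype I] [DecidableEq I] {S : Type} [AddCommMonoid S]
    (n : ℕ) (G : List I → S) :
    ∑ w ∈ words I (n + 1), G w = G [] + ∑ i, ∑ w ∈ words I n, G (i :: w) := by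
  have h : words I (n + 1) =
      insert [] ((Finset.univ ×ˢ words I n).image fun p => p.1 :: p.2) := by
    ext w
    simp only [Finset.mem_insert, Finset.mem_image, Finset.mem_product, Finset.mem_univ, true_and,
      mem_words]
    cases w with
    | nil => simp
    | cons i w =>
      simp only [List.length_cons, reduceCtorEq, false_or]
      constructor
      · intro h
        exact ⟨(i, w), by simpa using h, rfl⟩
      · rintro ⟨⟨j, v⟩, hv, he⟩
        simp only [List.cons.injEq] at he
        rw [← he.2]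
        simpa using hv
  rw [h, Finset.sum_insert (by simp), Finset.sum_image, Finset.sum_product]
  rintro ⟨a, b⟩ _ ⟨a', b'⟩ _ he
  simpa using he

/-- coefficientwise map of nc series -/
def NC.map {J R R' : Type} [Ring R] [Ring R'] (φ : R →+* R') : NC J R →+* NC J R' where
  toFun f := NC.mk fun w => φ (f w)
  map_one' := by
    ext w
    by_cases h : w = [] <;> simp [NC.one_apply, h]
  map_zero' := by ext w; simp
  map_add' f g := by ext w; simp
  map_mul' f g := by
    ext w
    simp only [NC.mk_apply, NC.mul_apply, map_sum, map_mul]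

/-! ### abstract filtered rings -/

namespace SubstAux

/-- a separated multiplicative filtration -/
structure Filt (S : Type) [Ring S] where
  F : ℕ → AddSubgroup S
  top : ∀ x, x ∈ F 0
  mul : ∀ {m n : ℕ} {x y : S}, x ∈ F m → y ∈ F n → x * y ∈ F (m + n)
  anti : ∀ {m n : ℕ}, m ≤ n → F n ≤ F m
  sep : ∀ x, (∀ n, x ∈ F n) → x = 0

variable {I B S : Type} [Fintype I] [DecidableEq I] [Ring B] [Ring S]

/-- finite partial sums -/
def P (c : B →+* S) (Y : I → S) (f : NC I B) (n : ℕ) : S :=
  ∑ w ∈ words I n, c (f w) * (w.map Y).prod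

section
variable (c : B →+* S) (Y : I → S)

theorem P_zero (f : NC I B) : P c Y f 0 = c (f []) := by
  simp [P, words_zero]

theorem P_succ (hc : ∀ b i, c b * Y i = Y i * c b) (f : NC I B) (n : ℕ) :
    P c Y f (n + 1) = c (f []) + ∑ i, Y i * P c Y (NC.sh i f) n := by
  rw [P, sum_words_succ]
  congr 1
  · simp
  · refine Finset.sum_congr rfl fun i _ => ?_
    rw [P, Finset.mul_sum]
    refine Finset.sum_congr rfl fun w _ => ?_
    rw [List.map_cons, List.prod_cons, ← mul_assoc, hc, mul_assoc]
    rfl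

theorem P_add (f g : NC I B) (n : ℕ) : P c Y (f + g) n = P c Y f n + P c Y g n := by
  simp only [P, NC.add_apply, map_add, add_mul, Finset.sum_add_distrib]

theorem P_C_mul (b : B) (f : NC I B) (n : ℕ) : P c Y (NC.C b * f) n = c b * P c Y f n := by
  simp only [P, NC.C_mul_apply, map_mul, Finset.mul_sum, mul_assoc]

theorem P_zero_fun (n : ℕ) : P c Y (0 : NC I B) n = 0 := by
  simp [P]

theorem P_C (b : B) (n : ℕ) : P c Y (NC.C b) n = c b := by
  rw [P, Finset.sum_eq_single []]
  · simp
  · intro w _ hw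
    rw [NC.C_apply, if_neg hw, map_zero, zero_mul]
  · intro h
    exact absurd ((mem_words _ _).mpr (Nat.zero_le _)) h

theorem P_T (i : I) (n : ℕ) : P c Y (NC.T i) (n + 1) = Y i := by
  rw [P, Finset.sum_eq_single [i]]
  · simp [NC.T]
  · intro w _ hw
    simp [NC.T, hw]
  · intro h
    exact absurd ((mem_words _ _).mpr (by simp)) h

omit [Fintype I] [DecidableEq I] in
theorem sh_mul (i : I) (f g : NC I B) :
    NC.sh i (f * g) = NC.C (f []) * NC.sh i g + NC.sh i f * g := by
  ext w
  rw [NC.sh_apply, NC.mul_cons, NC.add_apply, NC.C_mul_apply, NC.sh_apply]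

end

section
variable (𝓕 : Filt S) {c : B →+* S} {Y : I → S}

omit [Fintype I] [DecidableEq I] in
theorem prod_mem (hY : ∀ i, Y i ∈ 𝓕.F 1) (w : List I) : (w.map Y).prod ∈ 𝓕.F w.length := by
  induction w with
  | nil => exact 𝓕.top _
  | cons i w ih =>
    rw [List.map_cons, List.prod_cons, List.length_cons, add_comm]
    exact 𝓕.mul (hY i) ih

theorem mul_mem_right {n : ℕ} {x : S} (hx : x ∈ 𝓕.F n) (y : S) : x * y ∈ 𝓕.F n := by
  have := 𝓕.mul hx (𝓕.top y)
  simpa using this

theorem mul_mem_left {n : ℕ} (x : S) {y : S} (hy : y ∈ 𝓕.F n) : x * y ∈ 𝓕.F n := by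
  have := 𝓕.mul (𝓕.top x) hy
  simpa using this

theorem P_stab (hc : ∀ b i, c b * Y i = Y i * c b) (hY : ∀ i, Y i ∈ 𝓕.F 1) (n : ℕ) :
    ∀ f : NC I B, P c Y f (n + 1) - P c Y f n ∈ 𝓕.F (n + 1) := by
  induction n with
  | zero =>
    intro f
    rw [P_succ c Y hc, P_zero, add_sub_cancel_left]
    exact sum_mem fun i _ => mul_mem_right 𝓕 (hY i) _
  | succ n ih =>
    intro f
    rw [P_succ c Y hc f (n + 1), P_succ c Y hc f n, add_sub_add_left_eq_sub,
      ← Finset.sum_sub_distrib]
    refine sum_mem fun i _ => ?_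
    rw [← mul_sub, add_comm (n + 1) 1]
    exact 𝓕.mul (hY i) (ih _)

theorem P_stab' (hc : ∀ b i, c b * Y i = Y i * c b) (hY : ∀ i, Y i ∈ 𝓕.F 1) {n m : ℕ}
    (h : n ≤ m) (f : NC I B) : P c Y f m - P c Y f n ∈ 𝓕.F (n + 1) := by
  induction m, h using Nat.le_induction with
  | base => rw [sub_self]; exact zero_mem _
  | succ m hm ih =>
    have h1 := 𝓕.anti (Nat.succ_le_succ hm) (P_stab 𝓕 hc hY m f)
    have h2 := add_mem h1 ih
    simpa using h2

theorem P_mul (hc : ∀ b i, c b * Y i = Y i * c b) (hY : ∀ i, Y i ∈ 𝓕.F 1) (g : NC I B) (n : ℕ) :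
    ∀ f : NC I B, P c Y (f * g) n - P c Y f n * P c Y g n ∈ 𝓕.F (n + 1) := by
  induction n with
  | zero =>
    intro f
    rw [P_zero, P_zero, P_zero, NC.mul_nil, map_mul, sub_self]
    exact zero_mem _
  | succ n ih =>
    intro f
    have h : P c Y (f * g) (n + 1) - P c Y f (n + 1) * P c Y g (n + 1) =
        ∑ i, Y i * ((P c Y (NC.sh i f * g) n - P c Y (NC.sh i f) n * P c Y g n) -
          P c Y (NC.sh i f) n * (P c Y g (n + 1) - P c Y g n)) := by
      have e1 : P c Y (f * g) (n + 1) = c (f []) * c (g []) +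
          ∑ i, (c (f []) * (Y i * P c Y (NC.sh i g) n) + Y i * P c Y (NC.sh i f * g) n) := by
        rw [P_succ c Y hc, NC.mul_nil, map_mul]
        congr 1
        refine Finset.sum_congr rfl fun i _ => ?_
        rw [sh_mul, P_add, P_C_mul, mul_add, ← mul_assoc, ← hc, mul_assoc]
      have e2 : P c Y f (n + 1) * P c Y g (n + 1) = c (f []) * c (g []) +
          ∑ i, (c (f []) * (Y i * P c Y (NC.sh i g) n) +
            Y i * (P c Y (NC.sh i f) n * P c Y g (n + 1))) := by
        rw [P_succ c Y hc f, add_mul, Finset.sum_mul, Finset.sum_add_distrib]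
        conv_lhs => enter [1]; rw [P_succ c Y hc g, mul_add, Finset.mul_sum]
        rw [add_assoc]
        simp only [mul_assoc]
      rw [e1, e2, add_sub_add_left_eq_sub, ← Finset.sum_sub_distrib]
      refine Finset.sum_congr rfl fun i _ => ?_
      rw [add_sub_add_left_eq_sub, ← mul_sub]
      congr 1
      rw [mul_sub]
      abel
    rw [h]
    refine sum_mem fun i _ => ?_
    rw [add_comm (n + 1) 1]
    refine 𝓕.mul (hY i) (sub_mem (ih _) ?_)
    exact mul_mem_left 𝓕 _ (P_stab 𝓕 hc hY n g)

theorem P_mem (hY : ∀ i, Y i ∈ 𝓕.F 1) {f : NC I B} {n : ℕ}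
    (hf : ∀ w : List I, w.length < n → f w = 0) (m : ℕ) : P c Y f m ∈ 𝓕.F n := by
  refine sum_mem fun w _ => ?_
  by_cases h : w.length < n
  · rw [hf w h, map_zero, zero_mul]; exact zero_mem _
  · exact mul_mem_left 𝓕 _ (𝓕.anti (by omega) (prod_mem 𝓕 hY w))

/-- uniqueness of the limit -/
theorem lim_unique {f : NC I B} {x x' : S} (hx : ∀ n, x - P c Y f n ∈ 𝓕.F (n + 1))
    (hx' : ∀ n, x' - P c Y f n ∈ 𝓕.F (n + 1)) : x = x' := by
  rw [← sub_eq_zero]
  refine 𝓕.sep _ fun n => 𝓕.anti (Nat.le_succ n) ?_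
  have := sub_mem (hx n) (hx' n)
  rwa [sub_sub_sub_cancel_right] at this

/-- the ring homomorphism given by limits of partial sums -/
def hom (hc : ∀ b i, c b * Y i = Y i * c b) (hY : ∀ i, Y i ∈ 𝓕.F 1) (σ : NC I B → S)
    (hσ : ∀ f n, σ f - P c Y f n ∈ 𝓕.F (n + 1)) : NC I B →+* S where
  toFun := σ
  map_one' := by
    refine lim_unique 𝓕 (hσ 1) fun n => ?_
    have : (1 : NC I B) = NC.C 1 := (map_one _).symm
    rw [this, P_C, map_one, sub_self]; exact zero_mem _
  map_zero' := by
    refine lim_unique 𝓕 (hσ 0) fun n => ?_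
    rw [P_zero_fun, sub_self]; exact zero_mem _
  map_add' f g := by
    refine lim_unique 𝓕 (hσ (f + g)) fun n => ?_
    rw [P_add, add_sub_add_comm]
    exact add_mem (hσ f n) (hσ g n)
  map_mul' f g := by
    refine lim_unique 𝓕 (hσ (f * g)) fun n => ?_
    have h1 := mul_mem_right 𝓕 (hσ f n) (σ g)
    have h2 := mul_mem_left 𝓕 (P c Y f n) (hσ g n)
    have h3 := P_mul 𝓕 hc hY g n f
    have h4 := sub_mem (add_mem h1 h2) h3
    have e : σ f * σ g - P c Y (f * g) n = (σ f - P c Y f n) * σ g +
        P c Y f n * (σ g - P c Y g n) - (P c Y (f * g) n - P c Y f n * P c Y g n) := by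
      rw [sub_mul, mul_sub]; abel
    rw [e]; exact h4

theorem lim_C (σ : NC I B → S) (hσ : ∀ f n, σ f - P c Y f n ∈ 𝓕.F (n + 1)) (b : B) :
    σ (NC.C b) = c b :=
  lim_unique 𝓕 (hσ (NC.C b)) fun n => by rw [P_C, sub_self]; exact zero_mem _

theorem lim_T (hY : ∀ i, Y i ∈ 𝓕.F 1) (σ : NC I B → S)
    (hσ : ∀ f n, σ f - P c Y f n ∈ 𝓕.F (n + 1)) (i : I) : σ (NC.T i) = Y i :=
  lim_unique 𝓕 (hσ (NC.T i)) fun n => by
    cases n with
    | zero =>
      rw [P_zero]
      have : (NC.T i : NC I B) [] = 0 := by simp [NC.T]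
      rw [this, map_zero, sub_zero]
      exact hY i
    | succ n => rw [P_T, sub_self]; exact zero_mem _

theorem lim_mem (hY : ∀ i, Y i ∈ 𝓕.F 1) (σ : NC I B → S)
    (hσ : ∀ f n, σ f - P c Y f n ∈ 𝓕.F (n + 1)) {f : NC I B} {n : ℕ}
    (hf : ∀ w : List I, w.length < n → f w = 0) : σ f ∈ 𝓕.F n := by
  have h1 := 𝓕.anti (Nat.le_succ n) (hσ f n)
  have h2 := add_mem h1 (P_mem 𝓕 (c := c) hY hf n)
  simpa using h2

end

section
variable {J R : Type} [Ring R]

/-- filtration by total degree -/
def filt : Filt (NC J (PowerSeries R)) where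
  F n :=
    { carrier := {x | ∀ (ω : List J) (k : ℕ), ω.length + k < n → PowerSeries.coeff k (x ω) = 0}
      add_mem' := by
        intro x y hx hy ω k h
        rw [NC.add_apply, map_add, hx ω k h, hy ω k h, add_zero]
      zero_mem' := by intro ω k _; simp
      neg_mem' := by
        intro x hx ω k h
        rw [NC.neg_apply, map_neg, hx ω k h, neg_zero] }
  top x := by intro ω k h; omega
  mul := by
    intro m n x y hx hy ω k h
    rw [NC.mul_apply, map_sum]
    refine Finset.sum_eq_zero fun j hj => ?_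
    have hj' : j ≤ ω.length := by simpa [Nat.lt_succ_iff] using hj
    rw [PowerSeries.coeff_mul]
    refine Finset.sum_eq_zero fun p hp => ?_
    have hp' : p.1 + p.2 = k := by simpa using hp
    by_cases h1 : (ω.take j).length + p.1 < m
    · rw [hx _ _ h1, zero_mul]
    · have h2 : (ω.drop j).length + p.2 < n := by
        rw [List.length_take] at h1
        rw [List.length_drop]
        omega
      rw [hy _ _ h2, mul_zero]
  anti := by
    intro m n hmn x hx ω k h
    exact hx ω k (by omega)
  sep x hx := by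
    ext ω : 1
    ext k
    rw [hx (ω.length + k + 1) ω k (by omega)]
    simp

/-- filtration by the length of the word -/
def filt0 : Filt (NC J R) where
  F n :=
    { carrier := {x | ∀ (ω : List J), ω.length < n → x ω = 0}
      add_mem' := by
        intro x y hx hy ω h
        rw [NC.add_apply, hx ω h, hy ω h, add_zero]
      zero_mem' := by intro ω _; simp
      neg_mem' := by
        intro x hx ω h
        rw [NC.neg_apply, hx ω h, neg_zero] }
  top x := by intro ω h; omega
  mul := by
    intro m n x y hx hy ω h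
    rw [NC.mul_apply]
    refine Finset.sum_eq_zero fun j hj => ?_
    have hj' : j ≤ ω.length := by simpa [Nat.lt_succ_iff] using hj
    by_cases h1 : (ω.take j).length < m
    · rw [hx _ h1, zero_mul]
    · have h2 : (ω.drop j).length < n := by
        rw [List.length_take] at h1
        rw [List.length_drop]
        omega
      rw [hy _ h2, mul_zero]
  anti := by
    intro m n hmn x hx ω h
    exact hx ω (by omega)
  sep x hx := by
    ext ω
    rw [hx (ω.length + 1) ω (by omega)]
    simp

theorem mem_filt {x : NC J (PowerSeries R)} {n : ℕ} : x ∈ (filt (J := J) (R := R)).F n ↔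
    ∀ (ω : List J) (k : ℕ), ω.length + k < n → PowerSeries.coeff k (x ω) = 0 := Iff.rfl

theorem mem_filt0 {x : NC J R} {n : ℕ} : x ∈ (filt0 (J := J) (R := R)).F n ↔
    ∀ (ω : List J), ω.length < n → x ω = 0 := Iff.rfl

end

end SubstAux

/-- hypotheses on the images of the letters: no constant term at `z = 0`, coefficients commute with `B` -/
structure SubOK {I J B R : Type} [Ring B] [Ring R] (jB : B →+* R)
    (Y : I → NC J (PowerSeries R)) : Prop where
  const : ∀ i, PowerSeries.constantCoeff (Y i []) = 0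
  comm : ∀ i w n b, jB b * PowerSeries.coeff n (Y i w) = PowerSeries.coeff n (Y i w) * jB b

/-- the finite sum over words of length `≤ n` -/
noncomputable def partialSub {I J B R : Type} [Fintype I] [DecidableEq I] [Ring B] [Ring R]
    (jB : B →+* R) (Y : I → NC J (PowerSeries R)) (f : NC I B) (n : ℕ) : NC J (PowerSeries R) :=
  ∑ w ∈ words I n, NC.C (PowerSeries.C (jB (f w))) * (w.map Y).prod

section
variable {I J B R : Type} [Fintype I] [DecidableEq I] [Ring B] [Ring R]

/-- constants -/
noncomputable def cHom (J : Type) (jB : B →+* R) : B →+* NC J (PowerSeries R) :=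
  NC.C.comp ((PowerSeries.C : R →+* PowerSeries R).comp jB)

theorem partialSub_eq (jB : B →+* R) (Y : I → NC J (PowerSeries R)) (f : NC I B) (n : ℕ) :
    partialSub jB Y f n = SubstAux.P (cHom J jB) Y f n := rfl

omit [Fintype I] [DecidableEq I] in
theorem SubOK.hc {jB : B →+* R} {Y : I → NC J (PowerSeries R)} (h : SubOK jB Y) (b : B) (i : I) :
    cHom J jB b * Y i = Y i * cHom J jB b := by
  ext ω : 1
  show ((NC.C (PowerSeries.C (jB b)) : NC J (PowerSeries R)) * Y i) ω =
    (Y i * (NC.C (PowerSeries.C (jB b)) : NC J (PowerSeries R))) ω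
  rw [NC.C_mul_apply, NC.mul_C_apply]
  ext n
  rw [PowerSeries.coeff_C_mul, PowerSeries.coeff_mul_C]
  exact h.comm i ω n b

omit [Fintype I] [DecidableEq I] in
theorem SubOK.hY {jB : B →+* R} {Y : I → NC J (PowerSeries R)} (h : SubOK jB Y) (i : I) :
    Y i ∈ (SubstAux.filt (J := J) (R := R)).F 1 := by
  intro ω k hk
  have h1 : ω = [] := List.eq_nil_of_length_eq_zero (by omega)
  have h2 : k = 0 := by omega
  subst h1 h2
  rw [PowerSeries.coeff_zero_eq_constantCoeff]
  exact h.const i

end

/-- the substituted series: coefficient of `z^n` at the word `ω` only uses words of length `≤ n + |ω|` -/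
noncomputable def substFun {I J B R : Type} [Fintype I] [DecidableEq I] [Ring B] [Ring R]
    (jB : B →+* R) (Y : I → NC J (PowerSeries R)) (f : NC I B) : NC J (PowerSeries R) :=
  NC.mk fun ω => PowerSeries.mk fun n => PowerSeries.coeff n (partialSub jB Y f (ω.length + n) ω)

/-- stability: using longer words does not change the coefficient -/
theorem coeff_partialSub {I J B R : Type} [Fintype I] [DecidableEq I] [Ring B] [Ring R]
    {jB : B →+* R} {Y : I → NC J (PowerSeries R)} (h : SubOK jB Y) (f : NC I B)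
    (ω : List J) (n N : ℕ) (hN : ω.length + n ≤ N) :
    PowerSeries.coeff n (partialSub jB Y f N ω) = PowerSeries.coeff n (substFun jB Y f ω) := by
  have h1 := SubstAux.P_stab' SubstAux.filt h.hc h.hY hN f ω n (by omega)
  rw [NC.sub_apply, map_sub, sub_eq_zero] at h1
  rw [partialSub_eq, h1, substFun, NC.mk_apply, PowerSeries.coeff_mk, partialSub_eq]

theorem substFun_sub_mem {I J B R : Type} [Fintype I] [DecidableEq I] [Ring B] [Ring R]
    {jB : B →+* R} {Y : I → NC J (PowerSeries R)} (h : SubOK jB Y) (f : NC I B) (n : ℕ) :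
    substFun jB Y f - SubstAux.P (cHom J jB) Y f n ∈ (SubstAux.filt (J := J) (R := R)).F (n + 1) := by
  intro ω k hk
  rw [NC.sub_apply, map_sub, ← partialSub_eq, coeff_partialSub h f ω k n (by omega), sub_self]

/-- substitution as a ring homomorphism -/
noncomputable def substHom {I J B R : Type} [Fintype I] [DecidableEq I] [Ring B] [Ring R]
    (jB : B →+* R) (Y : I → NC J (PowerSeries R)) (h : SubOK jB Y) :
    NC I B →+* NC J (PowerSeries R) where
  toFun := substFun jB Y
  map_one' := map_one (SubstAux.hom SubstAux.filt h.hc h.hY (substFun jB Y) (substFun_sub_mem h))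
  map_zero' := map_zero (SubstAux.hom SubstAux.filt h.hc h.hY (substFun jB Y) (substFun_sub_mem h))
  map_add' := map_add (SubstAux.hom SubstAux.filt h.hc h.hY (substFun jB Y) (substFun_sub_mem h))
  map_mul' := map_mul (SubstAux.hom SubstAux.filt h.hc h.hY (substFun jB Y) (substFun_sub_mem h))

@[simp] theorem substHom_C {I J B R : Type} [Fintype I] [DecidableEq I] [Ring B] [Ring R]
    (jB : B →+* R) (Y : I → NC J (PowerSeries R)) (h : SubOK jB Y) (b : B) :
    substHom jB Y h (NC.C b) = NC.C (PowerSeries.C (jB b)) :=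
  SubstAux.lim_C SubstAux.filt (substFun jB Y) (substFun_sub_mem h) b

@[simp] theorem substHom_T {I J B R : Type} [Fintype I] [DecidableEq I] [Ring B] [Ring R]
    (jB : B →+* R) (Y : I → NC J (PowerSeries R)) (h : SubOK jB Y) (i : I) :
    substHom jB Y h (NC.T i) = Y i :=
  SubstAux.lim_T SubstAux.filt h.hY (substFun jB Y) (substFun_sub_mem h) i

/-- a ring hom `NC I B → NC J (R[[z]])` is adic if `words of length ≥ n` go to total degree `≥ n`
(total degree = length of the word + exponent of `z`) -/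
def Adic {I J B R : Type} [Ring B] [Ring R] (Φ : NC I B →+* NC J (PowerSeries R)) : Prop :=
  ∀ (f : NC I B) (n : ℕ), (∀ w : List I, w.length < n → f w = 0) →
    ∀ (ω : List J) (k : ℕ), ω.length + k < n → PowerSeries.coeff k (Φ f ω) = 0

theorem substHom_adic {I J B R : Type} [Fintype I] [DecidableEq I] [Ring B] [Ring R]
    (jB : B →+* R) (Y : I → NC J (PowerSeries R)) (h : SubOK jB Y) : Adic (substHom jB Y h) := by
  intro f n hf ω k hk
  exact SubstAux.lim_mem SubstAux.filt h.hY (substFun jB Y) (substFun_sub_mem h) hf ω k hk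

theorem NC.sum_apply {I B ι : Type} [Ring B] (s : Finset ι) (F : ι → NC I B) (v : List I) :
    (∑ i ∈ s, F i : NC I B) v = ∑ i ∈ s, (F i) v := by
  classical
  induction s using Finset.induction_on with
  | empty => simp
  | insert a s ha ihs => rw [Finset.sum_insert ha, Finset.sum_insert ha, NC.add_apply, ihs]

theorem NC.T_mul_nil {I B : Type} [DecidableEq I] [Ring B] (i : I) (g : NC I B) :
    (NC.T i * g : NC I B) [] = 0 := by
  rw [NC.mul_nil]
  simp [NC.T]

theorem NC.T_mul_cons {I B : Type} [DecidableEq I] [Ring B] (i j : I) (g : NC I B) (w : List I) :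
    (NC.T i * g : NC I B) (j :: w) = if i = j then g w else 0 := by
  rw [NC.mul_cons]
  have h0 : (NC.T i : NC I B) [] = 0 := by simp [NC.T]
  rw [h0, zero_mul, zero_add]
  by_cases h : i = j
  · subst h
    have : NC.sh i (NC.T i : NC I B) = 1 := by
      ext v
      simp [NC.T, NC.one_apply]
    rw [this, one_mul, if_pos rfl]
  · have : NC.sh j (NC.T i : NC I B) = 0 := by
      ext v
      simp [NC.T, Ne.symm h]
    rw [this, zero_mul, if_neg h]; rfl

theorem NC.C_mul_T {I B : Type} [DecidableEq I] [Ring B] (b : B) (i : I) :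
    (NC.C b : NC I B) * NC.T i = NC.T i * NC.C b := by
  ext w
  rw [NC.C_mul_apply, NC.mul_C_apply]
  by_cases h : w = [i] <;> simp [NC.T, h]

/-- a series is determined up to length `n` by its partial sums -/
theorem P_C_T_apply {I B : Type} [Fintype I] [DecidableEq I] [Ring B] (n : ℕ) :
    ∀ (f : NC I B) (w : List I), w.length ≤ n →
      SubstAux.P (NC.C : B →+* NC I B) NC.T f n w = f w := by
  induction n with
  | zero =>
    intro f w hw
    have : w = [] := List.eq_nil_of_length_eq_zero (by omega)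
    subst this
    rw [SubstAux.P_zero]; simp
  | succ n ih =>
    intro f w hw
    rw [SubstAux.P_succ _ _ NC.C_mul_T, NC.add_apply]
    have hs : ∀ v : List I,
        (∑ i, NC.T i * SubstAux.P (NC.C : B →+* NC I B) NC.T (NC.sh i f) n : NC I B) v =
        ∑ i, (NC.T i * SubstAux.P (NC.C : B →+* NC I B) NC.T (NC.sh i f) n : NC I B) v := by
      intro v
      exact NC.sum_apply _ _ v
    rw [hs]
    cases w with
    | nil =>
      rw [Finset.sum_eq_zero fun i _ => NC.T_mul_nil i _]
      simp
    | cons j w =>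
      rw [NC.C_cons, zero_add, Finset.sum_eq_single j]
      · rw [NC.T_mul_cons, if_pos rfl, ih _ _ (by simpa using hw), NC.sh_apply]
      · intro i _ hij
        rw [NC.T_mul_cons, if_neg hij]
      · intro h; exact absurd (Finset.mem_univ _) h

theorem map_P {I B S : Type} [Fintype I] [DecidableEq I] [Ring B] [Ring S]
    (Φ : NC I B →+* S) (f : NC I B) (n : ℕ) :
    Φ (SubstAux.P (NC.C : B →+* NC I B) NC.T f n) =
      SubstAux.P (Φ.comp NC.C) (fun i => Φ (NC.T i)) f n := by
  rw [SubstAux.P, SubstAux.P, map_sum]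
  refine Finset.sum_congr rfl fun w _ => ?_
  rw [map_mul, map_list_prod, List.map_map]
  rfl

/-- uniqueness -/
theorem adic_ext {I J B R : Type} [Fintype I] [DecidableEq I] [Ring B] [Ring R]
    {Φ Φ' : NC I B →+* NC J (PowerSeries R)} (h : Adic Φ) (h' : Adic Φ')
    (hC : ∀ b, Φ (NC.C b) = Φ' (NC.C b)) (hT : ∀ i, Φ (NC.T i) = Φ' (NC.T i)) : Φ = Φ' := by
  ext1 f
  have hP : ∀ n, Φ (SubstAux.P (NC.C : B →+* NC I B) NC.T f n) =
      Φ' (SubstAux.P (NC.C : B →+* NC I B) NC.T f n) := by
    intro n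
    rw [map_P, map_P]
    have e1 : Φ.comp (NC.C : B →+* NC I B) = Φ'.comp NC.C := RingHom.ext hC
    have e2 : (fun i => Φ (NC.T i)) = (fun i => Φ' (NC.T i)) := funext hT
    rw [e1, e2]
  rw [← sub_eq_zero]
  refine SubstAux.filt.sep _ fun n => ?_
  have hv : ∀ w : List I, w.length < n → (f - SubstAux.P (NC.C : B →+* NC I B) NC.T f n) w = 0 := by
    intro w hw
    rw [NC.sub_apply, P_C_T_apply n f w hw.le, sub_self]
  have h1 : Φ (f - SubstAux.P (NC.C : B →+* NC I B) NC.T f n) ∈ SubstAux.filt.F n :=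
    fun ω k hk => h _ n hv ω k hk
  have h2 : Φ' (f - SubstAux.P (NC.C : B →+* NC I B) NC.T f n) ∈ SubstAux.filt.F n :=
    fun ω k hk => h' _ n hv ω k hk
  have h3 := sub_mem h1 h2
  rw [map_sub, map_sub, hP n, sub_sub_sub_cancel_right] at h3
  exact h3

/-! ### substitution without `z` -/

structure SubOK0 {I J B R : Type} [Ring B] [Ring R] (jB : B →+* R) (Y : I → NC J R) : Prop where
  const : ∀ i, Y i [] = 0
  comm : ∀ i w b, jB b * Y i w = Y i w * jB b

noncomputable def subst0Fun {I J B R : Type} [Fintype I] [DecidableEq I] [Ring B] [Ring R]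
    (jB : B →+* R) (Y : I → NC J R) (f : NC I B) : NC J R :=
  NC.mk fun ω => (∑ w ∈ words I ω.length, NC.C (jB (f w)) * (w.map Y).prod : NC J R) ω

section
variable {I J B R : Type} [Fintype I] [DecidableEq I] [Ring B] [Ring R]

omit [Fintype I] [DecidableEq I] in
theorem SubOK0.hc {jB : B →+* R} {Y : I → NC J R} (h : SubOK0 jB Y) (b : B) (i : I) :
    ((NC.C : R →+* NC J R).comp jB) b * Y i = Y i * ((NC.C : R →+* NC J R).comp jB) b := by
  ext ω
  show ((NC.C (jB b) : NC J R) * Y i) ω = (Y i * (NC.C (jB b) : NC J R)) ω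
  rw [NC.C_mul_apply, NC.mul_C_apply]
  exact h.comm i ω b

omit [Fintype I] [DecidableEq I] in
theorem SubOK0.hY {jB : B →+* R} {Y : I → NC J R} (h : SubOK0 jB Y) (i : I) :
    Y i ∈ (SubstAux.filt0 (J := J) (R := R)).F 1 := by
  intro ω hω
  have h1 : ω = [] := List.eq_nil_of_length_eq_zero (by omega)
  subst h1
  exact h.const i

theorem subst0Fun_sub_mem {jB : B →+* R} {Y : I → NC J R} (h : SubOK0 jB Y) (f : NC I B) (n : ℕ) :
    subst0Fun jB Y f - SubstAux.P ((NC.C : R →+* NC J R).comp jB) Y f n ∈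
      (SubstAux.filt0 (J := J) (R := R)).F (n + 1) := by
  intro ω hω
  have h1 := SubstAux.P_stab' SubstAux.filt0 h.hc h.hY (Nat.lt_succ_iff.mp hω) f ω (by omega)
  rw [NC.sub_apply, sub_eq_zero] at h1
  rw [NC.sub_apply, h1, sub_eq_zero]
  rfl

end

noncomputable def subst0Hom {I J B R : Type} [Fintype I] [DecidableEq I] [Ring B] [Ring R]
    (jB : B →+* R) (Y : I → NC J R) (h : SubOK0 jB Y) : NC I B →+* NC J R where
  toFun := subst0Fun jB Y
  map_one' := map_one (SubstAux.hom SubstAux.filt0 h.hc h.hY (subst0Fun jB Y) (subst0Fun_sub_mem h))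
  map_zero' := map_zero (SubstAux.hom SubstAux.filt0 h.hc h.hY (subst0Fun jB Y) (subst0Fun_sub_mem h))
  map_add' := map_add (SubstAux.hom SubstAux.filt0 h.hc h.hY (subst0Fun jB Y) (subst0Fun_sub_mem h))
  map_mul' := map_mul (SubstAux.hom SubstAux.filt0 h.hc h.hY (subst0Fun jB Y) (subst0Fun_sub_mem h))

@[simp] theorem subst0Hom_C {I J B R : Type} [Fintype I] [DecidableEq I] [Ring B] [Ring R]
    (jB : B →+* R) (Y : I → NC J R) (h : SubOK0 jB Y) (b : B) :
    subst0Hom jB Y h (NC.C b) = NC.C (jB b) :=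
  SubstAux.lim_C SubstAux.filt0 (subst0Fun jB Y) (subst0Fun_sub_mem h) b

@[simp] theorem subst0Hom_T {I J B R : Type} [Fintype I] [DecidableEq I] [Ring B] [Ring R]
    (jB : B →+* R) (Y : I → NC J R) (h : SubOK0 jB Y) (i : I) :
    subst0Hom jB Y h (NC.T i) = Y i :=
  SubstAux.lim_T SubstAux.filt0 h.hY (subst0Fun jB Y) (subst0Fun_sub_mem h) i

/-- words of length `≥ n` go to words of length `≥ n` -/
theorem subst0Hom_adic {I J B R : Type} [Fintype I] [DecidableEq I] [Ring B] [Ring R]
    (jB : B →+* R) (Y : I → NC J R) (h : SubOK0 jB Y) (f : NC I B) (n : ℕ)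
    (hf : ∀ w : List I, w.length < n → f w = 0) (ω : List J) (hω : ω.length < n) :
    subst0Hom jB Y h f ω = 0 :=
  SubstAux.lim_mem SubstAux.filt0 h.hY (subst0Fun jB Y) (subst0Fun_sub_mem h) hf ω hω

end Vale.P199
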