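import Vale.Agent.P199.QExt
import Vale.Agent.P199.Subst
import Vale.Agent.P199.Tr
import Vale.Agent.P199.RedL
import Vale.Agent.P199.Laur
import Vale.Agent.P199.Slice
import Vale.Agent.P199.Low
import Vale.Agent.P199.LowIndep

/-!
# P199 part B: definitions (Q-extensions, moves, points, invariants)
-/

open HahnSeries

namespace Vale.P199

/-! ### general lemmas on `NC` -/

section NCaux

variable {I B : Type}

theorem NC.map_C {J R R' : Type} [Ring R] [Ring R'] (φ : R →+* R') (b : R) :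
    NC.map (J := J) φ (NC.C b) = NC.C (φ b) := by
  ext w
  show φ ((NC.C b : NC J R) w) = _
  rw [NC.C_apply, NC.C_apply]
  split_ifs
  · rfl
  · exact map_zero φ

@[simp] theorem NC.map_apply {J R R' : Type} [Ring R] [Ring R'] (φ : R →+* R') (f : NC J R)
    (w : List J) : NC.map φ f w = φ (f w) := rfl

theorem NC.exists_right_inv [DivisionRing B] (f : NC I B) (hf : f [] ≠ 0) :
    ∃ h : NC I B, f * h = 1 := by
  classical
  let P : (List I → B) → List I → B → Prop := fun h w b =>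
    (∑ k ∈ Finset.range w.length, f (w.take (k + 1)) * h (w.drop (k + 1))) + f [] * b =
      (1 : NC I B) w
  have : Inhabited B := ⟨0⟩
  obtain ⟨h, hh⟩ := exists_rec_word (β := B) P (by
    intro h w
    refine ⟨(f [])⁻¹ * ((1 : NC I B) w -
      ∑ k ∈ Finset.range w.length, f (w.take (k + 1)) * h (w.drop (k + 1))), ?_⟩
    show _ + f [] * _ = _
    rw [← mul_assoc, mul_inv_cancel₀ hf, one_mul]
    abel) (by
    intro h h' w b hv hb
    show _ = _
    rw [← hb]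
    congr 1
    refine Finset.sum_congr rfl fun k hk => ?_
    have := Finset.mem_range.mp hk
    rw [hv _ (by rw [List.length_drop]; omega)])
  refine ⟨NC.mk h, ?_⟩
  ext w
  rw [NC.mul_apply, Finset.sum_range_succ']
  simpa using hh w

/-- a series with nonzero constant term is a unit -/
theorem NC.exists_unit [DivisionRing B] (f : NC I B) (hf : f [] ≠ 0) :
    ∃ g : (NC I B)ˣ, (g : NC I B) = f := by
  obtain ⟨h, hh⟩ := NC.exists_right_inv f hf
  have h0 : h [] ≠ 0 := by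
    intro h0
    have := congrArg (fun s : NC I B => s []) hh
    simp [h0] at this
  obtain ⟨k, hk⟩ := NC.exists_right_inv h h0
  have e : f = k := by
    calc f = f * (h * k) := by rw [hk, mul_one]
      _ = k := by rw [← mul_assoc, hh, one_mul]
  exact ⟨⟨f, h, hh, by rw [e]; exact hk⟩, rfl⟩

end NCaux

/-- Symbol algebra extension `B ⊗ Q_r`. -/
structure QExt (K B : Type) [Field K] [DivisionRing B] [Algebra K B] (r : ℕ) (ζ : K) where
  K1 : Type
  B1 : Type
  [fieldK1 : Field K1]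
  [charK1 : CharZero K1]
  [divB1 : DivisionRing B1]
  [alg1 : Algebra K1 B1]
  [fin1 : FiniteDimensional K1 B1]
  jK : K →+* K1
  jB : B →+* B1
  comp : ∀ k, jB (algebraMap K B k) = algebraMap K1 B1 (jK k)
  u : B1
  v : B1
  hu : ∀ b, jB b * u = u * jB b
  hv : ∀ b, jB b * v = v * jB b
  huv : u * v = jB (algebraMap K B ζ) * (v * u)
  hur : ∃ α : K1, α ≠ 0 ∧ u ^ r = algebraMap K1 B1 α
  hvr : ∃ α : K1, α ≠ 0 ∧ v ^ r = algebraMap K1 B1 α
  basis : ∀ {ι : Type} [Fintype ι] (b : Module.Basis ι K B),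
    ∃ b1 : Module.Basis (ι × Fin r × Fin r) K1 B1,
      ∀ x, b1 x = jB (b x.1) * (u ^ (x.2.1 : ℕ) * v ^ (x.2.2 : ℕ))
  central : ∀ a : B1, (∀ b, a * b = b * a) → ∃ k, algebraMap K1 B1 k = a

attribute [instance] QExt.fieldK1 QExt.charK1 QExt.divB1 QExt.alg1 QExt.fin1

/-- T10 -/
theorem exists_QExt (K B : Type) [Field K] [CharZero K] [DivisionRing B] [Algebra K B]
    [FiniteDimensional K B] (central : ∀ a : B, (∀ b, a * b = b * a) → ∃ k, algebraMap K B k = a)
    (r : ℕ) (hr : 0 < r) (ζ : K) (hζ : IsPrimitiveRoot ζ r) : Nonempty (QExt K B r ζ) := by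
  have : NeZero r := ⟨hr.ne'⟩
  refine ⟨@QExt.mk K B _ _ _ r ζ (HahnSeries QX.G K) (QX.S B hζ) inferInstance QX.charZero_K1
    (QX.divS hζ) (QX.algS B hζ) (QX.S_fin hζ) HahnSeries.C (QX.jB hζ) ?_ (QX.u B hζ) (QX.v B hζ)
    ?_ ?_ ?_ ?_ ?_ ?_ ?_⟩
  · intro k
    refine ((QX.emb_single hζ 0 k).trans ?_).symm
    rw [nsmul_zero]
    rfl
  · exact QX.comm_u hζ
  · exact QX.comm_v hζ
  · exact QX.u_mul_v hζ
  · refine ⟨HahnSeries.single (QX.mkG 1 0) 1, HahnSeries.single_ne_zero one_ne_zero, ?_⟩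
    refine (QX.u_pow hζ r).trans ((QX.emb_single hζ _ 1).trans ?_).symm
    rw [map_one]
    congr 1
    apply QX.G_ext
    · rw [QX.fs_nsmul, QX.fs_mk, QX.fs_mk, mul_one]
    · rw [QX.sn_nsmul, QX.sn_mk, QX.sn_mk, mul_zero]
  · refine ⟨HahnSeries.single (QX.mkG 0 1) 1, HahnSeries.single_ne_zero one_ne_zero, ?_⟩
    refine (QX.v_pow hζ r).trans ((QX.emb_single hζ _ 1).trans ?_).symm
    rw [map_one]
    congr 1
    apply QX.G_ext
    · rw [QX.fs_nsmul, QX.fs_mk, QX.fs_mk, mul_zero]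
    · rw [QX.sn_nsmul, QX.sn_mk, QX.sn_mk, mul_one]
  · intro ι _ b
    exact QX.exists_basis hζ b
  · exact QX.central_S hζ central

section Invariants

variable (K : Type) {B : Type} [Field K] [DivisionRing B] [Algebra K B]

/-- center of the centralizer of `a` (= commutant of `cen K a`, as `a ∈ cen K a`) -/
def cc (a : B) : Submodule K B where
  carrier := {x | ∀ z ∈ Tr.cen K a, x * z = z * x}
  add_mem' := by intro x y hx hy z hz; rw [add_mul, mul_add, hx z hz, hy z hz]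
  zero_mem' := by intro z _; simp
  smul_mem' := by intro c x hx z hz; rw [Algebra.smul_mul_assoc, hx z hz, Algebra.mul_smul_comm]

/-- the field generated by the ratios of `W` -/
noncomputable def ratioAlg (W : Submodule K B) : Subalgebra K B :=
  Algebra.adjoin K {x | ∃ w ∈ W, ∃ w' ∈ W, w' ≠ 0 ∧ x = w'⁻¹ * w}

/-- `C_oo`: orthogonal in `Z` of `W·H` (H = ratioAlg W) -/
noncomputable def coo (Z W : Submodule K B) : Submodule K B :=
  Tr.perp Z (Submodule.span K {x | ∃ w ∈ W, ∃ h ∈ ratioAlg K W, x = w * h})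

end Invariants

/-- span of the linear coefficients -/
def Wspan (K : Type) {I B : Type} [Field K] [Ring B] [Algebra K B] (f : NC I B) : Submodule K B :=
  Submodule.span K (Set.range fun i => f [i])

/-- A point: a state `S` reached from `S0` by a morphism, with a normalised conjugate `f` of the image of `f0`. -/
structure Pt (S0 : State) (f0 : NC S0.I S0.B) where
  S : State
  m : Mor S0 S
  f : NC S.I S.B
  g : (NC S.I S.B)ˣ
  hf : f = g * m.Ψ f0 * (↑g⁻¹ : NC S.I S.B)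
  norm : ∀ w, f w * f [] = f [] * f w
  g3 : ∃ p q, S.Indep p q

namespace Pt

variable {S0 : State} {f0 : NC S0.I S0.B}

/-- constant term -/
def a (x : Pt S0 f0) : x.S.B := x.f []
noncomputable def Z (x : Pt S0 f0) : Submodule x.S.K x.S.B := Tr.cen x.S.K x.a
noncomputable def M (x : Pt S0 f0) : Submodule x.S.K x.S.B := cc x.S.K x.a
noncomputable def W (x : Pt S0 f0) : Submodule x.S.K x.S.B := Wspan x.S.K x.f
noncomputable def C (x : Pt S0 f0) : Submodule x.S.K x.S.B := Tr.perp x.Z x.W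
noncomputable def H (x : Pt S0 f0) : Subalgebra x.S.K x.S.B := ratioAlg x.S.K x.W
noncomputable def Coo (x : Pt S0 f0) : Submodule x.S.K x.S.B := coo x.S.K x.Z x.W

/-- `dim_M Z` -/
noncomputable def q (x : Pt S0 f0) : ℕ := Module.finrank x.S.K x.Z / Module.finrank x.S.K x.M
/-- `dim_K H` -/
noncomputable def η (x : Pt S0 f0) : ℕ := Module.finrank x.S.K x.H
/-- `[M:H]` -/
noncomputable def s (x : Pt S0 f0) : ℕ := Module.finrank x.S.K x.M / x.η
/-- excess -/
noncomputable def ξ (x : Pt S0 f0) : ℕ := x.η - Module.finrank x.S.K x.W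

def QMin (x : Pt S0 f0) : Prop := x.W ≠ ⊥ ∧ ∀ y : Pt S0 f0, y.W ≠ ⊥ → x.q ≤ y.q
def SMin (x : Pt S0 f0) : Prop := x.QMin ∧ ∀ y : Pt S0 f0, y.QMin → x.s ≤ y.s
def InP (x : Pt S0 f0) : Prop := x.SMin ∧ 4 * (x.s + 1) * x.ξ + 3 < x.η
def XMin (x : Pt S0 f0) : Prop := x.InP ∧ ∀ y : Pt S0 f0, y.InP → x.ξ ≤ y.ξ

end Pt

/-! ### the move -/

/-- Data of a move (Q-extension, then shift by `y ∈ z (K^I ⊗ Q)[[z]]` with leading term
`z^κ (P1 V1 + P2 V2)`, `P1,P2` independent modulo inner, `V1,V2` generating `Q`). -/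
structure MoveData (S : State) where
  r : ℕ
  hr : 0 < r
  ζ : S.K
  hζ : IsPrimitiveRoot ζ r
  E : QExt S.K S.B r ζ
  y : S.I → PowerSeries E.B1
  yQ : ∀ i n b, E.jB b * PowerSeries.coeff n (y i) = PowerSeries.coeff n (y i) * E.jB b
  κ : ℕ
  hκ : 0 < κ
  P1 : S.I → S.K
  P2 : S.I → S.K
  indep : S.Indep P1 P2
  V1 : E.B1
  V2 : E.B1
  V1Q : ∀ b, E.jB b * V1 = V1 * E.jB b
  V2Q : ∀ b, E.jB b * V2 = V2 * E.jB b
  gen : E.u ∈ Algebra.adjoin E.K1 {V1, V2} ∧ E.v ∈ Algebra.adjoin E.K1 {V1, V2}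
  low : ∀ i n, n < κ → PowerSeries.coeff n (y i) = 0
  lead : ∀ i, PowerSeries.coeff κ (y i) = E.jK (P1 i) • V1 + E.jK (P2 i) • V2

namespace MoveData

variable {S : State} (D : MoveData S)

/-- new letters -/
abbrev I' : Type := S.I × Fin D.r × Fin D.r

/-- images of the letters: `t_i ↦ y_i + Σ_{j,k} u^j v^k t'_{(i,j,k)}` -/
noncomputable def Y (i : S.I) : NC D.I' (PowerSeries D.E.B1) :=
  NC.C (D.y i) + ∑ jk : Fin D.r × Fin D.r,
    NC.C (PowerSeries.C (D.E.u ^ (jk.1 : ℕ) * D.E.v ^ (jk.2 : ℕ))) * NC.T (i, jk.1, jk.2)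

theorem Y_nil (i : S.I) : D.Y i [] = D.y i := by
  rw [Y, NC.add_apply, NC.sum_apply, Finset.sum_eq_zero, add_zero, NC.C_nil]
  intro jk _
  rw [NC.mul_nil]
  show _ * ((NC.T (i, jk.1, jk.2) : NC D.I' (PowerSeries D.E.B1)) []) = 0
  simp [NC.T]

theorem Y_apply (i : S.I) (w : List D.I') (hw : w ≠ []) :
    D.Y i w = ∑ jk : Fin D.r × Fin D.r, if w = [(i, jk.1, jk.2)] then
      PowerSeries.C (D.E.u ^ (jk.1 : ℕ) * D.E.v ^ (jk.2 : ℕ)) else 0 := by
  rw [Y, NC.add_apply, NC.sum_apply, NC.C_apply, if_neg hw, zero_add]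
  refine Finset.sum_congr rfl fun jk _ => ?_
  rw [NC.C_mul_apply]
  show _ * (if w = [(i, jk.1, jk.2)] then (1 : PowerSeries D.E.B1) else 0) = _
  rw [mul_ite, mul_one, mul_zero]

theorem uv_comm (b : S.B) (j k : ℕ) :
    D.E.jB b * (D.E.u ^ j * D.E.v ^ k) = D.E.u ^ j * D.E.v ^ k * D.E.jB b := by
  have h1 : Commute (D.E.jB b) D.E.u := D.E.hu b
  have h2 : Commute (D.E.jB b) D.E.v := D.E.hv b
  exact (h1.pow_right j).mul_right (h2.pow_right k)

theorem subOK : SubOK D.E.jB D.Y := by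
  constructor
  · intro i
    rw [Y_nil, ← PowerSeries.coeff_zero_eq_constantCoeff_apply]
    exact D.low i 0 D.hκ
  · intro i w n b
    by_cases hw : w = []
    · rw [hw, Y_nil]
      exact D.yQ i n b
    · rw [D.Y_apply i w hw, map_sum, Finset.mul_sum, Finset.sum_mul]
      refine Finset.sum_congr rfl fun jk _ => ?_
      split_ifs
      · rw [PowerSeries.coeff_C]
        split_ifs
        · exact D.uv_comm b _ _
        · simp
      · simp

/-- the shift homomorphism, power series version -/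
noncomputable def shP : NC S.I S.B →+* NC D.I' (PowerSeries D.E.B1) := substHom D.E.jB D.Y D.subOK

/-- the shift homomorphism -/
noncomputable def sh : NC S.I S.B →+* NC D.I' (D.E.B1⟦ℤ⟧) :=
  (NC.map (HahnSeries.ofPowerSeries ℤ D.E.B1)).comp D.shP

theorem sh_C (b : S.B) : D.sh (NC.C b) = NC.C (HahnSeries.C (D.E.jB b)) := by
  rw [sh, RingHom.comp_apply, shP, substHom_C, NC.map_C, HahnSeries.ofPowerSeries_C]

theorem roots1 : HasRoots D.E.K1⟦ℤ⟧ := by
  apply hasRoots_laur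
  intro r hr
  obtain ⟨ζ, hζ⟩ := S.roots r hr
  exact ⟨D.E.jK ζ, hζ.map_of_injective D.E.jK.injective⟩

theorem finrank1 : Module.finrank D.E.K1 D.E.B1 = D.r * D.r * Module.finrank S.K S.B := by
  obtain ⟨b1, -⟩ := D.E.basis (Module.finBasis S.K S.B)
  rw [Module.finrank_eq_card_basis b1, Fintype.card_prod, Fintype.card_prod, Fintype.card_fin,
    Fintype.card_fin, mul_comm]

theorem finrankL : Module.finrank D.E.K1⟦ℤ⟧ D.E.B1⟦ℤ⟧ = D.r * D.r * Module.finrank S.K S.B := by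
  rw [← D.finrank1]
  exact lmod_finrank

/-- GEN, first half -/
theorem gen' : Algebra.adjoin (D.E.K1⟦ℤ⟧) {D.sh S.X [], D.sh S.Y []} = ⊤ := by
  obtain ⟨b1, hb1⟩ := D.E.basis (Module.finBasis S.K S.B)
  exact gen_subst S D.E.jK D.E.jB D.E.comp D.P1 D.P2 D.indep D.V1 D.V2 D.V1Q D.V2Q
    (adjoin_of_basis (K := S.K) D.E.jB _ D.E.u D.E.v D.V1 D.V2 b1 hb1 D.gen) D.Y D.subOK D.κ D.hκ
    (fun i n hn => by rw [D.Y_nil]; exact D.low i n hn)
    (fun i => by rw [D.Y_nil]; exact D.lead i)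

/-- the new state -/
noncomputable abbrev state : State where
  K := D.E.K1⟦ℤ⟧
  B := D.E.B1⟦ℤ⟧
  I := D.I'
  charK := laurCharZero
  roots := D.roots1
  central := laur_central D.E.central
  X := D.sh S.X
  Y := D.sh S.Y
  gen := D.gen'

/-- the morphism of states -/
noncomputable def mor : Mor S D.state where
  j := (HahnSeries.C : D.E.K1 →+* D.E.K1⟦ℤ⟧).comp D.E.jK
  Ψ := D.sh
  hC := by
    intro k
    rw [D.sh_C, D.E.comp, RingHom.comp_apply]
    exact congrArg NC.C (algebraMap_C (D.E.jK k)).symm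
  hX := rfl
  hY := rfl
  grow := by
    show _ ≤ Module.finrank D.E.K1⟦ℤ⟧ D.E.B1⟦ℤ⟧
    rw [D.finrankL]
    have := D.hr
    nlinarith [Nat.zero_le (Module.finrank S.K S.B), Nat.mul_le_mul this this]

/-- dimension formula -/
theorem finrank_state :
    Module.finrank D.state.K D.state.B = D.r * D.r * Module.finrank S.K S.B := D.finrankL

/-- the direction `P ⊗ 1` in coordinates -/
noncomputable def c0 (P : S.I → S.K) (i : D.I') : D.E.K1 :=
  if (i.2.1 : ℕ) = 0 ∧ (i.2.2 : ℕ) = 0 then D.E.jK (P i.1) else 0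

theorem sum_c0 (P : S.I → S.K) (i : S.I) :
    ∑ j, D.c0 P j • PowerSeries.coeff 0 (D.Y i [j]) = algebraMap D.E.K1 D.E.B1 (D.E.jK (P i)) := by
  have hr := D.hr
  rw [Finset.sum_eq_single (i, (⟨0, hr⟩ : Fin D.r), (⟨0, hr⟩ : Fin D.r))]
  · rw [c0, if_pos ⟨rfl, rfl⟩, D.Y_apply i _ (by simp), Finset.sum_eq_single
      ((⟨0, hr⟩ : Fin D.r), (⟨0, hr⟩ : Fin D.r))]
    · rw [if_pos rfl, PowerSeries.coeff_zero_C]
      show _ • (D.E.u ^ 0 * D.E.v ^ 0) = _
      rw [pow_zero, pow_zero, mul_one, Algebra.algebraMap_eq_smul_one]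
    · intro jk _ hne
      rw [if_neg]
      intro h
      apply hne
      simp only [List.cons.injEq, Prod.mk.injEq, and_true, true_and] at h
      exact (Prod.ext h.1 h.2).symm
    · intro h; exact absurd (Finset.mem_univ _) h
  · rintro ⟨i', j, k⟩ _ hne
    by_cases hjk : (j : ℕ) = 0 ∧ (k : ℕ) = 0
    · have hi : i' ≠ i := by
        rintro rfl
        apply hne
        have h1 : j = ⟨0, hr⟩ := Fin.ext hjk.1
        have h2 : k = ⟨0, hr⟩ := Fin.ext hjk.2
        rw [h1, h2]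
      rw [D.Y_apply i _ (by simp), Finset.sum_eq_zero, map_zero, smul_zero]
      intro jk _
      rw [if_neg]
      intro h
      simp only [List.cons.injEq, Prod.mk.injEq, and_true] at h
      exact hi h.1
    · rw [c0, if_neg hjk, zero_smul]
  · intro h; exact absurd (Finset.mem_univ _) h

/-- GEN, second half: `P1 ⊗ 1` and `P2 ⊗ 1` are independent modulo inner directions -/
theorem indep' : D.state.Indep
    (fun i => if (i.2.1 : ℕ) = 0 ∧ (i.2.2 : ℕ) = 0 then HahnSeries.C (D.E.jK (D.P1 i.1)) else 0)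
    (fun i => if (i.2.1 : ℕ) = 0 ∧ (i.2.2 : ℕ) = 0 then HahnSeries.C (D.E.jK (D.P2 i.1)) else 0) := by
  obtain ⟨b1, hb1⟩ := D.E.basis (Module.finBasis S.K S.B)
  rintro a b ⟨y, hX, hY⟩
  have hc : ∀ P : S.I → S.K, (fun i : D.I' => if (i.2.1 : ℕ) = 0 ∧ (i.2.2 : ℕ) = 0 then
      (HahnSeries.C (D.E.jK (P i.1)) : D.E.K1⟦ℤ⟧) else 0) = fun i => HahnSeries.C (D.c0 P i) := by
    intro P
    funext i
    rw [c0]
    split_ifs
    · rfl
    · rw [map_zero]
  have h1 := congrFun (hc D.P1)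
  have h2 := congrFun (hc D.P2)
  simp only [h1, h2] at hX hY
  exact indep_subst S D.E.jK D.E.jB D.E.comp D.E.central D.P1 D.P2 D.indep D.V1 D.V2 D.V1Q D.V2Q
    (adjoin_of_basis (K := S.K) D.E.jB _ D.E.u D.E.v D.V1 D.V2 b1 hb1 D.gen) D.Y D.subOK D.κ D.hκ
    (fun i n hn => by rw [D.Y_nil]; exact D.low i n hn)
    (fun i => by rw [D.Y_nil]; exact D.lead i) (D.c0 D.P1) (D.c0 D.P2) (D.sum_c0 D.P1)
    (D.sum_c0 D.P2) a b y hX hY

end MoveData

namespace Pt

variable {S0 : State} {f0 : NC S0.I S0.B}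

/-- composition of morphisms -/
noncomputable def _root_.Vale.P199.Mor.comp {S S' S'' : State} (m' : Mor S' S'') (m : Mor S S') : Mor S S'' where
  j := m'.j.comp m.j
  Ψ := m'.Ψ.comp m.Ψ
  hC := by intro k; simp [m.hC, m'.hC]
  hX := by simp [m.hX, m'.hX]
  hY := by simp [m.hY, m'.hY]
  grow := m.grow.trans m'.grow

end Pt

/-- B0.1 (slice), unit form -/
theorem exists_normal {K B I : Type} [Field K] [CharZero K] [DivisionRing B] [Algebra K B]
    [FiniteDimensional K B] (f : NC I B) :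
    ∃ g : (NC I B)ˣ, (g : NC I B) [] = 1 ∧
      ∀ w, ((g : NC I B) * f * (↑g⁻¹ : NC I B)) w * f [] =
        f [] * ((g : NC I B) * f * (↑g⁻¹ : NC I B)) w := by
  obtain ⟨g, F, hg, -, hF, hc⟩ := NC.slice f (fun b => by
    obtain ⟨z, y, hz, hb⟩ := Tr.exists_decomp (K := K) (f []) b
    exact ⟨z, y, hz.symm, hb⟩)
  obtain ⟨u, rfl⟩ := NC.exists_unit g (by rw [hg]; exact one_ne_zero)
  refine ⟨u, hg, ?_⟩
  have : (u : NC I B) * f * (↑u⁻¹ : NC I B) = F := by
    rw [hc, mul_assoc, Units.mul_inv, mul_one]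
  rw [this]
  exact hF

/-- a chosen normalising unit for `f`, with constant term `1` -/
noncomputable def nrm (K : Type) {B I : Type} [Field K] [CharZero K] [DivisionRing B] [Algebra K B]
    [FiniteDimensional K B] (f : NC I B) : (NC I B)ˣ := Classical.choose (exists_normal (K := K) f)

namespace Pt

variable {S0 : State} {f0 : NC S0.I S0.B}

/-- the normalising unit of a move -/
noncomputable def G (x : Pt S0 f0) (D : MoveData x.S) : (NC D.I' (D.E.B1⟦ℤ⟧))ˣ :=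
  nrm (D.E.K1⟦ℤ⟧) (D.sh x.f)

/-- the normalised new series of a move -/
noncomputable def F (x : Pt S0 f0) (D : MoveData x.S) : NC D.I' (D.E.B1⟦ℤ⟧) :=
  (x.G D : NC D.I' (D.E.B1⟦ℤ⟧)) * D.sh x.f * (↑(x.G D)⁻¹ : NC D.I' (D.E.B1⟦ℤ⟧))

theorem G_nil (x : Pt S0 f0) (D : MoveData x.S) : (x.G D : NC D.I' (D.E.B1⟦ℤ⟧)) [] = 1 :=
  (Classical.choose_spec (exists_normal (K := D.E.K1⟦ℤ⟧) (D.sh x.f))).1

theorem F_nil (x : Pt S0 f0) (D : MoveData x.S) : x.F D [] = D.sh x.f [] := by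
  have h : ((x.G D : NC D.I' (D.E.B1⟦ℤ⟧)) * (↑(x.G D)⁻¹ : NC D.I' (D.E.B1⟦ℤ⟧))) [] = 1 := by
    rw [Units.mul_inv, NC.one_nil]
  rw [NC.mul_nil, x.G_nil, one_mul] at h
  rw [F, NC.mul_nil, NC.mul_nil, x.G_nil, one_mul, h, mul_one]

theorem move_norm (x : Pt S0 f0) (D : MoveData x.S) (w : List D.I') :
    x.F D w * x.F D [] = x.F D [] * x.F D w := by
  rw [F_nil]
  exact (Classical.choose_spec (exists_normal (K := D.E.K1⟦ℤ⟧) (D.sh x.f))).2 w

theorem move_hf (x : Pt S0 f0) (D : MoveData x.S) :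
    x.F D = ((x.G D * Units.map (D.sh : NC x.S.I x.S.B →* NC D.I' (D.E.B1⟦ℤ⟧)) x.g :
      (NC D.I' (D.E.B1⟦ℤ⟧))ˣ) : NC D.I' (D.E.B1⟦ℤ⟧)) * (D.mor.comp x.m).Ψ f0 *
      ((↑(x.G D * Units.map (D.sh : NC x.S.I x.S.B →* NC D.I' (D.E.B1⟦ℤ⟧)) x.g)⁻¹ :
      NC D.I' (D.E.B1⟦ℤ⟧))) := by
  have h := congrArg D.sh x.hf
  rw [map_mul, map_mul] at h
  rw [F, h, mul_inv_rev, Units.val_mul, Units.val_mul]
  simp only [mul_assoc]
  rfl

/-- The point obtained by a move: series `F = G * D.sh x.f * G⁻¹`, `G [] = 1`. -/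
noncomputable abbrev move (x : Pt S0 f0) (D : MoveData x.S) : Pt S0 f0 where
  S := D.state
  m := D.mor.comp x.m
  f := x.F D
  g := x.G D * Units.map (D.sh : NC x.S.I x.S.B →* NC D.I' (D.E.B1⟦ℤ⟧)) x.g
  hf := x.move_hf D
  norm := x.move_norm D
  g3 := ⟨_, _, D.indep'⟩

/-- the linear coefficients of the normalised series differ from those of `D.sh x.f` by commutators with the
constant term -/
theorem F_lin (x : Pt S0 f0) (D : MoveData x.S) (i : D.I') :
    ∃ c : D.E.B1⟦ℤ⟧, x.F D [i] = D.sh x.f [i] + (c * D.sh x.f [] - D.sh x.f [] * c) := by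
  refine ⟨(x.G D : NC D.I' (D.E.B1⟦ℤ⟧)) [i], ?_⟩
  have h : x.F D * (x.G D : NC D.I' (D.E.B1⟦ℤ⟧)) = (x.G D : NC D.I' (D.E.B1⟦ℤ⟧)) * D.sh x.f := by
    rw [F, mul_assoc, Units.inv_mul, mul_one]
  have h1 := congrArg (fun s : NC D.I' (D.E.B1⟦ℤ⟧) => s [i]) h
  simp only [NC.mul_singleton, G_nil, F_nil, one_mul, mul_one] at h1
  rw [← add_sub_assoc, ← h1]
  abel

end Pt

end Vale.P199
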