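import Vale.Agent.P199.BDefs

/-! # further definitions used in the statements of BL1 - BL9 (no theorems here) -/

open HahnSeries

namespace Vale.P199

/-- identity morphism -/
noncomputable def Mor.id (S : State) : Mor S S where
  j := RingHom.id _
  Ψ := RingHom.id _
  hC := by intro k; rfl
  hX := rfl
  hY := rfl
  grow := le_refl _

/-- a symbol pair of the extension -/
structure SymPair {K B : Type} [Field K] [DivisionRing B] [Algebra K B] {r : ℕ} {ζ : K}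
    (E : QExt K B r ζ) where
  u' : E.B1
  v' : E.B1
  ζ' : K
  prim : IsPrimitiveRoot ζ' r
  hu : ∀ b, E.jB b * u' = u' * E.jB b
  hv : ∀ b, E.jB b * v' = v' * E.jB b
  huv : u' * v' = E.jB (algebraMap K B ζ') * (v' * u')
  hur : ∃ α : E.K1, α ≠ 0 ∧ u' ^ r = algebraMap E.K1 E.B1 α
  hvr : ∃ α : E.K1, α ≠ 0 ∧ v' ^ r = algebraMap E.K1 E.B1 α
  basis : ∀ {ι : Type} [Fintype ι] (b : Module.Basis ι K B),
    ∃ b1 : Module.Basis (ι × Fin r × Fin r) E.K1 E.B1,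
      ∀ x, b1 x = E.jB (b x.1) * (u' ^ (x.2.1 : ℕ) * v' ^ (x.2.2 : ℕ))

/-- the tautological pair -/
def SymPair.self {K B : Type} [Field K] [DivisionRing B] [Algebra K B] {r : ℕ} {ζ : K}
    (E : QExt K B r ζ) (hζ : IsPrimitiveRoot ζ r) : SymPair E :=
  ⟨E.u, E.v, ζ, hζ, E.hu, E.hv, E.huv, E.hur, E.hvr, E.basis⟩

namespace Pt

variable {S0 : State} {f0 : NC S0.I S0.B}

/-- `𝒞(X)`: elements of `Z ⊗ Q` commuting with `X` and orthogonal to `W ⊗ Q` -/
noncomputable def calC (x : Pt S0 f0) {r : ℕ} {ζ : x.S.K} (E : QExt x.S.K x.S.B r ζ) (X : E.B1) :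
    Submodule E.K1 E.B1 where
  carrier := {δ | E.jB x.a * δ = δ * E.jB x.a ∧ X * δ = δ * X ∧
    ∀ w ∈ x.W, ∀ t : E.B1, (∀ b, E.jB b * t = t * E.jB b) → tr E.K1 E.B1 (δ * (E.jB w * t)) = 0}
  add_mem' := by
    intro p q hp hq
    refine ⟨by rw [mul_add, add_mul, hp.1, hq.1], by rw [mul_add, add_mul, hp.2.1, hq.2.1], ?_⟩
    intro w hw t ht
    rw [add_mul, map_add, hp.2.2 w hw t ht, hq.2.2 w hw t ht, add_zero]
  zero_mem' := ⟨by simp, by simp, by intro w _ t _; simp⟩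
  smul_mem' := by
    intro c p hp
    refine ⟨by rw [mul_smul_comm, smul_mul_assoc, hp.1], by rw [mul_smul_comm, smul_mul_assoc, hp.2.1], ?_⟩
    intro w hw t ht
    rw [smul_mul_assoc, map_smul, hp.2.2 w hw t ht, smul_zero]

/-- centralizer of `X` in `Z ⊗ Q` -/
noncomputable def calZ (x : Pt S0 f0) {r : ℕ} {ζ : x.S.K} (E : QExt x.S.K x.S.B r ζ) (X : E.B1) :
    Submodule E.K1 E.B1 := Tr.cen E.K1 (E.jB x.a) ⊓ Tr.cen E.K1 X

/-- the constant term after the move has leading deviation `z^k X` from `jB a` -/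
def Leads (x : Pt S0 f0) (D : MoveData x.S) (k : ℕ) (X : D.E.B1) : Prop :=
  (∀ n : ℤ, n < k → n ≠ 0 → (D.sh x.f []).coeff n = 0) ∧ (D.sh x.f []).coeff k = X

/-- (Gd) -/
def GoodPair (x : Pt S0 f0) (w1 w2 : x.S.B) : Prop :=
  w1 ∈ x.W ∧ w2 ∈ x.W ∧ w1 ≠ 0 ∧ w2 ≠ 0 ∧
    ∀ β ∈ x.Z, β * w1 ∈ x.C → β * w2 ∈ x.C → β * w1 ∈ x.Coo

end Pt

/-- scalar substitution `t_i ↦ τ_i(v)`, as a series over `B` -/
noncomputable def scal {K B I : Type} [Field K] [Ring B] [Algebra K B] (τ : I → NC (Fin 2) K) :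
    I → NC (Fin 2) B := fun i => NC.map (algebraMap K B) (τ i)

/-- `f(τ(v))` -/
noncomputable def evalS {K B I : Type} [Fintype I] [DecidableEq I] [Field K] [Ring B] [Algebra K B]
    (τ : I → NC (Fin 2) K) (f : NC I B) : NC (Fin 2) B :=
  subst0Fun (RingHom.id B) (scal (B := B) τ) f

/-- quadratic part -/
def quad {K B I : Type} [Field K] [Ring B] [Algebra K B] [Fintype I] (f : NC I B) (p q : I → K) : B :=
  ∑ i, ∑ j, (p i * q j) • f [i, j]

end Vale.P199
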