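import Vale.Agent.P199.BDefs2

/-! # scalar substitutions, quadratic part -/

open HahnSeries

namespace Vale.P199

theorem scal_ok {K B I : Type} [Field K] [Ring B] [Algebra K B] {τ : I → NC (Fin 2) K}
    (h : ∀ i, τ i [] = 0) : SubOK0 (RingHom.id B) (scal (B := B) τ) where
  const i := by
    rw [scal, NC.map_apply, h i, map_zero]
  comm i w b := by
    rw [scal, NC.map_apply, RingHom.id_apply]
    exact (Algebra.commutes _ _).symm

end Vale.P199
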