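import Mathlib

/-!
# P199, T3 : sub-bimodules of `B^n`

`B` a division ring with center `K` (hypothesis `hc`), `U ⊆ B^n` an additive subgroup stable under left and
right multiplication by `B`, `U ≠ ⊤`. Then there is a nonzero `l ∈ K^n` with `∑ l_i x_i = 0` on `U`.
-/

namespace Vale.P199

variable {K B : Type*} [Field K] [DivisionRing B] [Algebra K B]

/-- a two-sided ideal (as an additive subgroup) of a division ring is `⊥` or `⊤` -/
theorem ideal_bot_or_top (J : AddSubgroup B) (hl : ∀ b : B, ∀ x ∈ J, b * x ∈ J) :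
    (∀ x ∈ J, x = 0) ∨ (∀ x : B, x ∈ J) := by
  by_cases h : ∀ x ∈ J, x = 0
  · exact Or.inl h
  · right
    push Not at h
    obtain ⟨x, hx, hx0⟩ := h
    intro y
    have := hl (y * x⁻¹) x hx
    rwa [mul_assoc, inv_mul_cancel₀ hx0, mul_one] at this

theorem subBim (hc : ∀ a : B, (∀ b : B, a * b = b * a) → ∃ k : K, algebraMap K B k = a) :
    ∀ (n : ℕ) (U : AddSubgroup (Fin n → B)),
      (∀ b : B, ∀ x ∈ U, (fun i => b * x i) ∈ U) →
      (∀ b : B, ∀ x ∈ U, (fun i => x i * b) ∈ U) →
      (∃ x, x ∉ U) →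
      ∃ l : Fin n → K, l ≠ 0 ∧ ∀ x ∈ U, ∑ i, l i • x i = 0 := by
  intro n
  induction n with
  | zero =>
    rintro U - - ⟨x, hx⟩
    exact absurd (by have : x = 0 := Subsingleton.elim _ _; rw [this]; exact U.zero_mem) hx
  | succ n ih =>
    intro U hl hr hne
    -- first coordinates
    let U0 : AddSubgroup B := U.map (AddMonoidHom.mk' (fun x : Fin (n+1) → B => x 0) (by intro a b; rfl))
    have hU0 : ∀ y : B, y ∈ U0 ↔ ∃ x ∈ U, x 0 = y := by
      intro y; rfl
    have hU0l : ∀ b : B, ∀ x ∈ U0, b * x ∈ U0 := by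
      intro b x hx
      obtain ⟨z, hz, rfl⟩ := (hU0 x).1 hx
      exact (hU0 _).2 ⟨fun i => b * z i, hl b z hz, rfl⟩
    -- the part with vanishing first coordinate
    let inc : (Fin n → B) →+ (Fin (n+1) → B) :=
      AddMonoidHom.mk' (fun x => Fin.cons 0 x) (by
        intro a b; funext i; refine Fin.cases ?_ (fun j => ?_) i <;> simp)
    let U' : AddSubgroup (Fin n → B) := U.comap inc
    have hU' : ∀ x : Fin n → B, x ∈ U' ↔ (Fin.cons 0 x : Fin (n+1) → B) ∈ U := by
      intro x; rfl
    have hU'l : ∀ b : B, ∀ x ∈ U', (fun i => b * x i) ∈ U' := by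
      intro b x hx
      rw [hU'] at hx ⊢
      have := hl b _ hx
      have e : (fun i => b * (Fin.cons 0 x : Fin (n+1) → B) i) = Fin.cons 0 (fun i => b * x i) := by
        funext i; refine Fin.cases ?_ (fun j => ?_) i <;> simp
      rwa [e] at this
    have hU'r : ∀ b : B, ∀ x ∈ U', (fun i => x i * b) ∈ U' := by
      intro b x hx
      rw [hU'] at hx ⊢
      have := hr b _ hx
      have e : (fun i => (Fin.cons 0 x : Fin (n+1) → B) i * b) = Fin.cons 0 (fun i => x i * b) := by
        funext i; refine Fin.cases ?_ (fun j => ?_) i <;> simp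
      rwa [e] at this
    rcases ideal_bot_or_top U0 hU0l with h0 | h0
    · refine ⟨fun i => if i = 0 then 1 else 0, ?_, ?_⟩
      · intro h; have := congrFun h 0; simp at this
      · intro x hx
        have : x 0 = 0 := h0 _ ((hU0 _).2 ⟨x, hx, rfl⟩)
        rw [Finset.sum_eq_single 0]
        · simp [this]
        · intro i _ hi; simp [hi]
        · intro h; exact absurd (Finset.mem_univ _) h
    · have hne' : ∃ x, x ∉ U' := by
        by_contra hcon
        push Not at hcon
        obtain ⟨x, hx⟩ := hne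
        apply hx
        obtain ⟨z, hz, hz0⟩ := (hU0 _).1 (h0 (x 0))
        have h1 : (Fin.cons 0 (fun i => x i.succ - z i.succ) : Fin (n+1) → B) ∈ U := (hU' _).1 (hcon _)
        have h2 := U.add_mem hz h1
        have e : z + (Fin.cons 0 (fun i => x i.succ - z i.succ) : Fin (n+1) → B) = x := by
          funext i; refine Fin.cases ?_ (fun j => ?_) i <;> simp [hz0]
        rwa [e] at h2
      obtain ⟨l, hl0, hlU⟩ := ih U' hU'l hU'r hne'
      -- θ x = Σ l_i x_{i+1}
      let θ : (Fin (n+1) → B) → B := fun x => ∑ i : Fin n, l i • x i.succ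
      have θsub : ∀ x y, θ (x - y) = θ x - θ y := by
        intro x y; simp only [θ, Pi.sub_apply, smul_sub, Finset.sum_sub_distrib]
      have θl : ∀ b x, θ (fun i => b * x i) = b * θ x := by
        intro b x; simp only [θ, Finset.mul_sum, mul_smul_comm]
      have θr : ∀ b x, θ (fun i => x i * b) = θ x * b := by
        intro b x; simp only [θ, Finset.sum_mul, smul_mul_assoc]
      have key : ∀ x ∈ U, x 0 = 0 → θ x = 0 := by
        intro x hx hx0
        have : (fun i : Fin n => x i.succ) ∈ U' := by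
          rw [hU']
          have e : (Fin.cons 0 (fun i => x i.succ) : Fin (n+1) → B) = x := by
            funext i; refine Fin.cases ?_ (fun j => ?_) i <;> simp [hx0]
          rwa [e]
        exact hlU _ this
      obtain ⟨e1, he1, he10⟩ := (hU0 1).1 (h0 1)
      have key2 : ∀ x ∈ U, θ x = x 0 * θ e1 := by
        intro x hx
        have h1 : (x - fun i => x 0 * e1 i) ∈ U := U.sub_mem hx (hl _ _ he1)
        have h2 := key _ h1 (by simp [he10])
        rw [θsub, θl, sub_eq_zero] at h2
        exact h2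
      have hcen : ∀ b : B, θ e1 * b = b * θ e1 := by
        intro b
        have h1 := key2 _ (hr b e1 he1)
        rw [θr] at h1
        rw [h1]; simp [he10]
      obtain ⟨k, hk⟩ := hc _ hcen
      refine ⟨Fin.cons (-k) l, ?_, ?_⟩
      · intro h
        apply hl0
        funext i
        have := congrFun h i.succ
        simpa using this
      · intro x hx
        rw [Fin.sum_univ_succ]
        simp only [Fin.cons_zero, Fin.cons_succ]
        have := key2 x hx
        change _ + θ x = 0
        rw [this, ← hk, neg_smul, Algebra.smul_def, ← Algebra.commutes k (x 0)]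
        simp

/-- the case of `B × B` -/
theorem subBim_prod (hc : ∀ a : B, (∀ b : B, a * b = b * a) → ∃ k : K, algebraMap K B k = a)
    (U : AddSubgroup (B × B))
    (hl : ∀ b : B, ∀ x ∈ U, (b * x.1, b * x.2) ∈ U)
    (hr : ∀ b : B, ∀ x ∈ U, (x.1 * b, x.2 * b) ∈ U)
    (hne : ∃ x, x ∉ U) :
    ∃ l₁ l₂ : K, ¬ (l₁ = 0 ∧ l₂ = 0) ∧ ∀ x ∈ U, l₁ • x.1 + l₂ • x.2 = 0 := by
  let φ : (Fin 2 → B) →+ B × B :=
    AddMonoidHom.mk' (fun x => (x 0, x 1)) (by intro a b; rfl)
  obtain ⟨x, hx⟩ := hne
  obtain ⟨l, hl0, hlU⟩ := subBim hc 2 (U.comap φ)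
    (fun b x hx => hl b _ hx) (fun b x hx => hr b _ hx)
    ⟨![x.1, x.2], fun h => hx (by simpa [φ] using h)⟩
  refine ⟨l 0, l 1, ?_, ?_⟩
  · rintro ⟨h0, h1⟩
    apply hl0
    funext i
    fin_cases i
    · exact h0
    · exact h1
  · intro y hy
    have := hlU ![y.1, y.2] (by simpa [φ] using hy)
    simpa [Fin.sum_univ_two] using this

end Vale.P199
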