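import Vale.Agent.P199.Slice
import Vale.Agent.P199.Tr
import Vale.Agent.P199.SubBim

/-!
# P199, (BIM) of B2, and the versions of B0.1 / B1.1 with the trace-form facts plugged in
-/

namespace Vale.P199

/-- B0.1 over a finite-dimensional division algebra -/
theorem NC.slice' (K : Type) {I B : Type} [Field K] [CharZero K] [DivisionRing B] [Algebra K B]
    [FiniteDimensional K B] (f : NC I B) :
    ∃ g F : NC I B, g [] = 1 ∧ F [] = f [] ∧ (∀ w, F w * f [] = f [] * F w) ∧ g * f = F * g := by
  refine NC.slice f fun b => ?_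
  obtain ⟨z, x, hz, hb⟩ := Tr.exists_decomp (K := K) (f []) b
  exact ⟨z, x, hz.symm, hb⟩

/-- a commutator `[L, a]` commuting with `a` vanishes -/
theorem comm_eq_zero (K : Type) {B : Type} [Field K] [CharZero K] [DivisionRing B] [Algebra K B]
    [FiniteDimensional K B] (a L : B) (h : (L * a - a * L) * a = a * (L * a - a * L)) :
    L * a - a * L = 0 := by
  have h1 : L * a - a * L ∈ Tr.cen K a := Tr.mem_cen.mpr h.symm
  have h2 : L * a - a * L ∈ LinearMap.range (Tr.ad K a) := ⟨-L, by rw [Tr.ad_apply]; noncomm_ring⟩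
  exact (Submodule.disjoint_def.mp (Tr.disjoint_cen_range a)) _ h1 h2

/-- B1.1 over a finite-dimensional division algebra -/
theorem lin_eq_zero_of_inner' {K B I : Type} [Field K] [CharZero K] [DivisionRing B] [Algebra K B]
    [FiniteDimensional K B] [Fintype I]
    (X Y : NC I B) (p : I → K) (y : B)
    (hX : State.lin X p = y * X [] - X [] * y) (hY : State.lin Y p = y * Y [] - Y [] * y)
    (h g F : NC I B) (hh : h ∈ Algebra.adjoin K {X, Y}) (hg : g [] ≠ 0) (hc : g * h = F * g)
    (hF : State.lin F p * F [] = F [] * State.lin F p) : State.lin F p = 0 :=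
  lin_eq_zero_of_inner X Y p y hX hY h g F hh hg hc hF fun L => comm_eq_zero K (F []) L

/-- the algebra generated by `X, Y` surjects onto `B` via the constant term -/
theorem State.exists_adjoin (S : State) (b : S.B) :
    ∃ h ∈ Algebra.adjoin S.K {S.X, S.Y}, h [] = b := by
  have hb : b ∈ Algebra.adjoin S.K {S.X [], S.Y []} := by rw [S.gen]; trivial
  induction hb using Algebra.adjoin_induction with
  | mem x hx =>
    rcases hx with rfl | hx
    · exact ⟨S.X, Algebra.subset_adjoin (by simp), rfl⟩
    · rw [Set.mem_singleton_iff] at hx; subst hx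
      exact ⟨S.Y, Algebra.subset_adjoin (by simp), rfl⟩
  | algebraMap c =>
    exact ⟨algebraMap _ _ c, Subalgebra.algebraMap_mem _ c, by rw [NC.algebraMap_eq, NC.C_nil]⟩
  | add x y _ _ hx hy =>
    obtain ⟨h, hh, rfl⟩ := hx
    obtain ⟨k, hk, rfl⟩ := hy
    exact ⟨h + k, add_mem hh hk, rfl⟩
  | mul x y _ _ hx hy =>
    obtain ⟨h, hh, rfl⟩ := hx
    obtain ⟨k, hk, rfl⟩ := hy
    exact ⟨h * k, mul_mem hh hk, NC.mul_nil _ _⟩

/-- (BIM): if the directions `P, Q` are independent modulo inner ones then the pairs of first order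
variations of the elements of the algebra generated by `X, Y` with zero constant term fill `B × B`. -/
theorem State.bim (S : State) (P Q : S.I → S.K) (hPQ : S.Indep P Q) (b₁ b₂ : S.B) :
    ∃ h ∈ Algebra.adjoin S.K {S.X, S.Y}, h [] = 0 ∧ State.lin h P = b₁ ∧ State.lin h Q = b₂ := by
  classical
  let N : AddSubgroup (S.B × S.B) :=
    { carrier := {x | ∃ h ∈ Algebra.adjoin S.K {S.X, S.Y}, h [] = 0 ∧
        State.lin h P = x.1 ∧ State.lin h Q = x.2}
      zero_mem' := ⟨0, zero_mem _, rfl, by simp [State.lin], by simp [State.lin]⟩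
      add_mem' := by
        rintro x y ⟨h, hh, h0, hx1, hx2⟩ ⟨k, hk, k0, hy1, hy2⟩
        refine ⟨h + k, add_mem hh hk, by rw [NC.add_apply, h0, k0, add_zero], ?_, ?_⟩
        · rw [State.lin_add, hx1, hy1]; rfl
        · rw [State.lin_add, hx2, hy2]; rfl
      neg_mem' := by
        rintro x ⟨h, hh, h0, hx1, hx2⟩
        have hl : ∀ p : S.I → S.K, State.lin (-h) p = - State.lin h p := by
          intro p; simp [State.lin]
        exact ⟨-h, neg_mem hh, by rw [NC.neg_apply, h0, neg_zero], by rw [hl, hx1]; rfl,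
          by rw [hl, hx2]; rfl⟩ }
  by_contra hcon
  have hne : ∃ x, x ∉ N := ⟨(b₁, b₂), hcon⟩
  obtain ⟨l₁, l₂, hl, hN⟩ := subBim_prod (K := S.K) S.central N
    (by
      rintro b x ⟨h, hh, h0, hx1, hx2⟩
      obtain ⟨k, hk, rfl⟩ := S.exists_adjoin b
      refine ⟨k * h, mul_mem hk hh, by rw [NC.mul_nil, h0, mul_zero], ?_, ?_⟩
      · rw [State.lin_mul, h0, mul_zero, zero_add, hx1]
      · rw [State.lin_mul, h0, mul_zero, zero_add, hx2])
    (by
      rintro b x ⟨h, hh, h0, hx1, hx2⟩
      obtain ⟨k, hk, rfl⟩ := S.exists_adjoin b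
      refine ⟨h * k, mul_mem hh hk, by rw [NC.mul_nil, h0, zero_mul], ?_, ?_⟩
      · rw [State.lin_mul, h0, zero_mul, add_zero, hx1]
      · rw [State.lin_mul, h0, zero_mul, add_zero, hx2])
    hne
  -- the direction
  set p : S.I → S.K := fun i => l₁ * P i + l₂ * Q i with hp
  have hlin : ∀ h : NC S.I S.B, State.lin h p = l₁ • State.lin h P + l₂ • State.lin h Q := by
    intro h
    have : p = l₁ • P + l₂ • Q := rfl
    rw [this, State.lin_add_dir, State.lin_smul_dir, State.lin_smul_dir]
  have hker : ∀ h ∈ Algebra.adjoin S.K {S.X, S.Y}, h [] = 0 → State.lin h p = 0 := by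
    intro h hh h0
    rw [hlin]
    exact hN (State.lin h P, State.lin h Q) ⟨h, hh, h0, rfl, rfl⟩
  -- the induced derivation
  choose s hs hs0 using S.exists_adjoin
  have hwd : ∀ h ∈ Algebra.adjoin S.K {S.X, S.Y}, State.lin (s (h [])) p = State.lin h p := by
    intro h hh
    have h1 := hker (s (h []) - h) (sub_mem (hs _) hh) (by rw [NC.sub_apply, hs0, sub_self])
    have h2 : State.lin (s (h []) - h) p = State.lin (s (h [])) p - State.lin h p := by
      simp [State.lin, smul_sub, Finset.sum_sub_distrib]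
    rw [h2] at h1
    exact sub_eq_zero.mp h1
  let D : S.B →ₗ[S.K] S.B :=
    { toFun := fun b => State.lin (s b) p
      map_add' := by
        intro x y
        have h1 := hwd (s x + s y) (add_mem (hs x) (hs y))
        rw [NC.add_apply, hs0, hs0] at h1
        rw [h1, State.lin_add]
      map_smul' := by
        intro c x
        have h1 := hwd (c • s x) (Subalgebra.smul_mem _ (hs x) c)
        rw [NC.smul_apply, hs0] at h1
        rw [h1]
        simp only [State.lin, NC.smul_apply, RingHom.id_apply, Finset.smul_sum]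
        exact Finset.sum_congr rfl fun i _ => smul_comm _ _ _ }
  have hD : ∀ x y, D (x * y) = D x * y + x * D y := by
    intro x y
    have h1 := hwd (s x * s y) (mul_mem (hs x) (hs y))
    rw [NC.mul_nil, hs0, hs0] at h1
    show State.lin (s (x * y)) p = State.lin (s x) p * y + x * State.lin (s y) p
    rw [h1, State.lin_mul, hs0, hs0]
  obtain ⟨y, hy⟩ := der_inner D hD
  have hin : S.Inner p := by
    refine ⟨y, ?_, ?_⟩
    · have h1 := hwd S.X (Algebra.subset_adjoin (by simp))
      rw [← h1]; exact hy _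
    · have h1 := hwd S.Y (Algebra.subset_adjoin (by simp))
      rw [← h1]; exact hy _
  exact hl (hPQ l₁ l₂ hin)

end Vale.P199
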