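import Vale.Agent.P199.BDefs2
import Vale.Agent.P199.B1Red
import Vale.Agent.P199.Taylor
import Vale.Agent.P199.GenBim
import Vale.Agent.P199.A3

/-! # proofs of B1.1 - B1.4 -/

open HahnSeries Module

namespace Vale.P199
namespace Pt

open Tr

variable {S0 : State} {f0 : NC S0.I S0.B}

theorem lin_mul_comm (x : Pt S0 f0) (p : x.S.I → x.S.K) :
    State.lin x.f p * x.f [] = x.f [] * State.lin x.f p := by
  simp only [State.lin, Finset.sum_mul, Finset.mul_sum]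
  refine Finset.sum_congr rfl fun i _ => ?_
  rw [smul_mul_assoc, mul_smul_comm, x.norm]

theorem g_mul (x : Pt S0 f0) : (x.g : NC x.S.I x.S.B) * x.m.Ψ f0 = x.f * x.g := by
  rw [x.hf, mul_assoc ((x.g : NC x.S.I x.S.B) * x.m.Ψ f0), Units.inv_mul, mul_one]

theorem g_nil_ne (x : Pt S0 f0) : (x.g : NC x.S.I x.S.B) [] ≠ 0 := by
  intro h
  have h1 : ((x.g : NC x.S.I x.S.B) * (↑x.g⁻¹ : NC x.S.I x.S.B)) [] = 1 := by
    rw [Units.mul_inv, NC.one_nil]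
  rw [NC.mul_nil, h, zero_mul] at h1
  exact zero_ne_one h1

theorem lin_inner_proof (x : Pt S0 f0) (hf0 : f0 ∈ Algebra.adjoin S0.K {S0.X, S0.Y})
    (p : x.S.I → x.S.K) (hp : x.S.Inner p) : State.lin x.f p = 0 := by
  obtain ⟨y, hX, hY⟩ := hp
  exact lin_eq_zero_of_inner' x.S.X x.S.Y p y hX hY (x.m.Ψ f0) x.g x.f
    (A3.map_adjoin x.m hf0) x.g_nil_ne x.g_mul (x.lin_mul_comm p)

/-- the constant term of the new point -/
theorem move_a (x : Pt S0 f0) (D : MoveData x.S) : (x.move D).a = D.sh x.f [] := x.F_nil D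

theorem mem_Z_move (x : Pt S0 f0) (D : MoveData x.S) (b : D.E.B1⟦ℤ⟧) :
    b ∈ (x.move D).Z ↔ D.sh x.f [] * b = b * D.sh x.f [] := by
  show b ∈ cen _ ((x.move D).a) ↔ _
  rw [move_a, mem_cen]

theorem Z_move_eq (x : Pt S0 f0) (D : MoveData x.S) :
    (x.move D).Z = cen (D.E.K1⟦ℤ⟧) (D.sh x.f []) := by
  show cen _ ((x.move D).a) = _
  rw [move_a]

theorem sh_nil_mem_cen (x : Pt S0 f0) (D : MoveData x.S) (n : ℤ) :
    (D.sh x.f []).coeff n ∈ cen D.E.K1 (D.E.jB x.a) :=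
  mem_cen.mpr (MoveData.sh_coeff_comm D x.norm [] n).symm

theorem Z_move_coeff_proof (x : Pt S0 f0) (D : MoveData x.S) (b : D.E.B1⟦ℤ⟧)
    (hb : b ∈ (x.move D).Z) (n : ℤ) : D.E.jB x.a * b.coeff n = b.coeff n * D.E.jB x.a := by
  have h := B1Red.coeff_mem_cen (K := D.E.K1) (a' := D.sh x.f []) (α := D.E.jB x.a)
    (fun n hn => MoveData.sh_coeff_neg D x.f [] hn) (MoveData.sh_nil_coeff_zero D x.f)
    (x.sh_nil_mem_cen D) ((x.mem_Z_move D b).mp hb) n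
  exact mem_cen.mp h

theorem mem_C_move_proof (x : Pt S0 f0) (D : MoveData x.S) (b : D.E.B1⟦ℤ⟧) :
    b ∈ (x.move D).C ↔ b ∈ (x.move D).Z ∧
      ∀ i : D.I', tr (D.E.K1⟦ℤ⟧) (D.E.B1⟦ℤ⟧) (b * D.sh x.f [i]) = 0 := by
  have key : b ∈ (x.move D).Z → ∀ i : D.I', tr (D.E.K1⟦ℤ⟧) (D.E.B1⟦ℤ⟧) (b * x.F D [i]) =
      tr (D.E.K1⟦ℤ⟧) (D.E.B1⟦ℤ⟧) (b * D.sh x.f [i]) := by
    intro hb i
    obtain ⟨c, hc⟩ := x.F_lin D i
    rw [hc, mul_add, map_add]
    have hb' : b ∈ cen (D.E.K1⟦ℤ⟧) (D.sh x.f []) := by rw [← x.Z_move_eq D]; exact hb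
    have h0 := (mem_cen_iff_tr (K := D.E.K1⟦ℤ⟧)).mp hb' (-c)
    have e : c * D.sh x.f [] - D.sh x.f [] * c =
        D.sh x.f [] * (-c) - (-c) * D.sh x.f [] := by
      rw [mul_neg, neg_mul]; abel
    rw [e, h0, add_zero]
  constructor
  · intro h
    refine ⟨h.1, fun i => ?_⟩
    rw [← key h.1 i]
    exact h.2 _ (Submodule.subset_span ⟨i, rfl⟩)
  · rintro ⟨h1, h2⟩
    refine ⟨h1, fun w hw => ?_⟩
    induction hw using Submodule.span_induction with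
    | mem y hy =>
      obtain ⟨i, rfl⟩ := hy
      exact (key h1 i).trans (h2 i)
    | zero => rw [mul_zero, map_zero]
    | add y z _ _ hy hz => rw [mul_add, map_add, hy, hz, add_zero]
    | smul k y _ hy => rw [mul_smul_comm, map_smul, hy, smul_zero]

theorem redZ_le_proof (x : Pt S0 f0) (D : MoveData x.S) (k : ℕ) (hk : 0 < k) (X : D.E.B1)
    (hL : x.Leads D k X) : redL (x.move D).Z ≤ x.calZ D.E X := by
  rw [Z_move_eq]
  exact B1Red.redL_cen_le (K := D.E.K1) (k := (k : ℤ)) (by exact_mod_cast hk)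
    (fun n hn => MoveData.sh_coeff_neg D x.f [] hn) (MoveData.sh_nil_coeff_zero D x.f)
    (fun n h0 hn => hL.1 n hn h0.ne') hL.2 (x.sh_nil_mem_cen D)

end Pt
end Vale.P199
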