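import Vale.Agent.P199.BL1b
import Vale.Agent.P199.BL1a
import Vale.Agent.P199.B1c
import Vale.Agent.P199.BDefs2

/-! # B1.2 - B1.6 : the invariants after a move (exact statements; fill the sorries) -/

open HahnSeries

namespace Vale.P199
namespace Pt

variable {S0 : State} {f0 : NC S0.I S0.B}

/-- linear forms on `x.f` vanish in inner directions (B1.1) -/
theorem lin_inner (x : Pt S0 f0) (hf0 : f0 ∈ Algebra.adjoin S0.K {S0.X, S0.Y}) (p : x.S.I → x.S.K)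
    (hp : x.S.Inner p) : State.lin x.f p = 0 :=
  lin_inner_proof x hf0 p hp

/-- B1.2 -/
theorem Z_move_coeff (x : Pt S0 f0) (D : MoveData x.S) (b : D.E.B1⟦ℤ⟧) (hb : b ∈ (x.move D).Z)
    (n : ℤ) : D.E.jB x.a * b.coeff n = b.coeff n * D.E.jB x.a :=
  Z_move_coeff_proof x D b hb n

/-- B1.3 -/
theorem mem_C_move (x : Pt S0 f0) (D : MoveData x.S) (b : D.E.B1⟦ℤ⟧) :
    b ∈ (x.move D).C ↔ b ∈ (x.move D).Z ∧
      ∀ i : D.I', tr (D.E.K1⟦ℤ⟧) (D.E.B1⟦ℤ⟧) (b * D.sh x.f [i]) = 0 :=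
  mem_C_move_proof x D b

/-- B1.4 for `Z` -/
theorem redZ_le (x : Pt S0 f0) (D : MoveData x.S) (k : ℕ) (hk : 0 < k) (X : D.E.B1)
    (hL : x.Leads D k X) : redL (x.move D).Z ≤ x.calZ D.E X :=
  redZ_le_proof x D k hk X hL

/-- B1.4 for `C` -/
theorem redC_le (x : Pt S0 f0) (D : MoveData x.S) (k : ℕ) (hk : 0 < k) (X : D.E.B1)
    (hL : x.Leads D k X) : redL (x.move D).C ≤ x.calC D.E X :=
  redC_le_proof x D k hk X hL

/-- B1.4, equality case -/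
theorem lift_calC (x : Pt S0 f0) (D : MoveData x.S) (k : ℕ) (hk : 0 < k) (X : D.E.B1)
    (hL : x.Leads D k X)
    (heq : Module.finrank (D.E.K1⟦ℤ⟧) (x.move D).C = Module.finrank D.E.K1 (x.calC D.E X))
    (δ : D.E.B1) (hδ : δ ∈ x.calC D.E X) :
    ∃ b ∈ (x.move D).C, (∀ n < 0, HahnSeries.coeff b n = 0) ∧ HahnSeries.coeff b 0 = δ :=
  lift_calC_proof x D k hk X hL heq δ hδ

/-- B1.5 -/
theorem W_move_ne_bot (x : Pt S0 f0) (D : MoveData x.S)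
    (h : D.sh x.f [] ≠ HahnSeries.C (D.E.jB x.a)) : (x.move D).W ≠ ⊥ :=
  W_move_ne_bot_proof x D h

/-- B1.6 -/
theorem M_move (x : Pt S0 f0) (D : MoveData x.S) :
    (∀ b ∈ x.M, HahnSeries.C (D.E.jB b) ∈ (x.move D).M) ∧ D.sh x.f [] ∈ (x.move D).M ∧
    (∀ b c : D.E.B1⟦ℤ⟧, b ∈ (x.move D).M → c ∈ (x.move D).M → b * c ∈ (x.move D).M) :=
  M_move_proof x D

end Pt
end Vale.P199
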