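import Vale.Agent.P199.QCoord
import Vale.Agent.P199.BDefs2

/-!
# P199 : more on Q-extensions: centralizers, `mem_Q`, symbol pairs, traces
-/

open HahnSeries

set_option linter.unusedSectionVars false

namespace Vale.P199

namespace QExt

section fin

variable {K B : Type} [Field K] [DivisionRing B] [Algebra K B] [FiniteDimensional K B]
  {r : ℕ} {ζ : K} (E : QExt K B r ζ)

theorem e0_cen_le (a : B) : E.e0 (Tr.cen K a) ≤ Tr.cen E.K1 (E.jB a) := by
  rw [e0, Submodule.span_le]
  rintro _ ⟨b, hb, rfl⟩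
  show E.jB b ∈ Tr.cen E.K1 (E.jB a)
  rw [Tr.mem_cen, ← map_mul, ← map_mul, Tr.mem_cen.mp hb]

/-- `x` commutes with `jB a` iff all its coordinates are in `Z(a) ⊗ K1` -/
theorem mem_cen_jB (a : B) (x : E.B1) :
    x ∈ Tr.cen E.K1 (E.jB a) ↔ ∀ ij, E.co ij x ∈ E.e0 (Tr.cen K a) := by
  constructor
  · intro hx ij
    have h1 : E.jB a * E.co ij x = E.co ij x * E.jB a := by
      rw [← E.co_left_mul (E.jB_mem Submodule.mem_top), ← E.co_right_mul (E.jB_mem Submodule.mem_top),
        Tr.mem_cen.mp hx]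
    refine E.e0_descent (A := Unit) (fun _ => Tr.ad K a) (fun _ => Tr.ad E.K1 (E.jB a)) ?_ ?_
      (E.co_mem ij x) ?_
    · intro _ b
      simp
    · intro v _ hv
      exact Tr.mem_cen.mpr (sub_eq_zero.mp (hv ()))
    · intro _
      rw [Tr.ad_apply, h1, sub_self]
  · intro h
    rw [← E.sum_co x]
    refine sum_mem fun ij _ => ?_
    have h1 := Tr.mem_cen.mp (E.e0_cen_le a (h ij))
    rw [Tr.mem_cen, ← mul_assoc, h1, mul_assoc, E.jB_mul_mon, mul_assoc]

/-- elements commuting with `jB a` commute with `jB b` for `b` in the center of `Z(a)` -/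
theorem comm_of_cc {a b : B} (hb : b ∈ cc K a) {x : E.B1} (hx : E.jB a * x = x * E.jB a) :
    E.jB b * x = x * E.jB b := by
  have h1 := (E.mem_cen_jB a x).mp (Tr.mem_cen.mpr hx)
  rw [← E.sum_co x, Finset.mul_sum, Finset.sum_mul]
  refine Finset.sum_congr rfl fun ij _ => ?_
  have h2 : E.e0 (Tr.cen K a) ≤ Tr.cen E.K1 (E.jB b) := by
    rw [e0, Submodule.span_le]
    rintro _ ⟨c, hc, rfl⟩
    show E.jB c ∈ Tr.cen E.K1 (E.jB b)
    rw [Tr.mem_cen, ← map_mul, ← map_mul, hb c hc]
  rw [← mul_assoc, Tr.mem_cen.mp (h2 (h1 ij)), mul_assoc, E.jB_mul_mon, mul_assoc]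

/-- elements commuting with `jB B` are the `K1`-combinations of the monomials -/
theorem mem_Q_proof (central : ∀ a : B, (∀ b, a * b = b * a) → ∃ k, algebraMap K B k = a)
    (t : E.B1) :
    (∀ b, E.jB b * t = t * E.jB b) ↔
      ∃ c : Fin r × Fin r → E.K1, t = ∑ ij, c ij • (E.u ^ (ij.1 : ℕ) * E.v ^ (ij.2 : ℕ)) := by
  constructor
  · intro ht
    have h1 : ∀ ij, ∃ c : E.K1, E.co ij t = c • (1 : E.B1) := by
      intro ij
      have h2 : E.co ij t ∈ E.e0 (Submodule.span K {(1 : B)}) := by
        refine E.e0_descent (A := B) (fun b => Tr.ad K b) (fun b => Tr.ad E.K1 (E.jB b)) ?_ ?_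
          (E.co_mem ij t) ?_
        · intro a b
          simp
        · intro v _ hv
          obtain ⟨k, hk⟩ := central v (fun b => (sub_eq_zero.mp (hv b)).symm)
          rw [Submodule.mem_span_singleton]
          exact ⟨k, by rw [← hk, Algebra.smul_def, mul_one]⟩
        · intro b
          rw [Tr.ad_apply, ← E.co_left_mul (E.jB_mem Submodule.mem_top),
            ← E.co_right_mul (E.jB_mem Submodule.mem_top), ht b, sub_self]
      obtain ⟨n, e, y, -, hy, h3⟩ := E.e0_expand h2
      choose k hk using fun l => Submodule.mem_span_singleton.mp (hy l)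
      refine ⟨∑ l, e l * E.jK (k l), ?_⟩
      rw [h3, Finset.sum_smul]
      refine Finset.sum_congr rfl fun l _ => ?_
      rw [← hk l, E.jB_smul, smul_smul, map_one]
    choose c hc using h1
    refine ⟨c, ?_⟩
    conv_lhs => rw [← E.sum_co t]
    refine Finset.sum_congr rfl fun ij _ => ?_
    rw [hc ij, smul_mul_assoc, one_mul, mon_def]
  · rintro ⟨c, rfl⟩ b
    rw [Finset.mul_sum, Finset.sum_mul]
    refine Finset.sum_congr rfl fun ij _ => ?_
    rw [mul_smul_comm, smul_mul_assoc]
    congr 1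
    exact E.jB_mul_mon b ij

/-- `jB` of an independent family is independent -/
theorem linearIndependent_jB {ι : Type} {f : ι → B} (hf : LinearIndependent K f) :
    LinearIndependent E.K1 (fun i => E.jB (f i)) := by
  classical
  have hfin : Finite ι := hf.finite
  have : Fintype ι := Fintype.ofFinite ι
  let b := Module.Basis.sumExtend hf
  have hb : ∀ i, b (Sum.inl i) = f i := by
    intro i
    simp [b, Module.Basis.sumExtend]
    rfl
  have hfin2 : Finite (ι ⊕ Module.Basis.sumExtendIndex hf) := Module.Finite.finite_basis b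
  have : Fintype (ι ⊕ Module.Basis.sumExtendIndex hf) := Fintype.ofFinite _
  obtain ⟨b1, hb1⟩ := E.basis b
  have hr := E.r_pos
  have h1 := b1.linearIndependent.comp (fun i : ι => (Sum.inl i, (⟨0, hr⟩ : Fin r), (⟨0, hr⟩ : Fin r)))
    (fun i j h => by simpa using h)
  have h2 : (b1 ∘ fun i : ι => (Sum.inl i, (⟨0, hr⟩ : Fin r), (⟨0, hr⟩ : Fin r))) =
      fun i => E.jB (f i) := by
    funext i
    simp [hb1, hb]
  rwa [h2] at h1

/-- the dimension of `V ⊗ K1` -/
theorem finrank_e0 (V : Submodule K B) : Module.finrank E.K1 (E.e0 V) = Module.finrank K V := by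
  let b := Module.finBasis K V
  have h1 : LinearIndependent K (fun i => (b i : B)) :=
    b.linearIndependent.map' V.subtype V.ker_subtype
  have h2 := E.linearIndependent_jB h1
  have h3 : E.e0 V = Submodule.span E.K1 (Set.range fun i => E.jB (b i : B)) := by
    apply le_antisymm
    · rw [e0, Submodule.span_le]
      rintro _ ⟨v, hv, rfl⟩
      have h4 := congrArg (fun z : V => (z : B)) (b.sum_repr ⟨v, hv⟩)
      simp only [AddSubmonoidClass.coe_finsetSum, SetLike.val_smul] at h4
      rw [← h4, map_sum]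
      refine sum_mem fun i _ => ?_
      rw [E.jB_smul]
      exact Submodule.smul_mem _ _ (Submodule.subset_span ⟨i, rfl⟩)
    · rw [Submodule.span_le]
      rintro _ ⟨i, rfl⟩
      exact E.jB_mem (b i).2
  rw [h3, finrank_span_eq_card h2, Fintype.card_fin]

end fin

end QExt

end Vale.P199
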