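import Vale.Agent.P199.BL1a
import Vale.Agent.P199.QCoord2
import Vale.Agent.P199.Dz

/-! # proofs of B1.4 for `C` -/

open HahnSeries Module

namespace Vale.P199
namespace Pt

open Tr

variable {S0 : State} {f0 : NC S0.I S0.B}

theorem redC_le_proof (x : Pt S0 f0) (D : MoveData x.S) (k : ℕ) (hk : 0 < k) (X : D.E.B1)
    (hL : x.Leads D k X) : redL (x.move D).C ≤ x.calC D.E X := by
  intro δ hδ
  have hCZ : (x.move D).C ≤ (x.move D).Z := fun b hb => hb.1
  have h1 := x.redZ_le_proof D k hk X hL ((Co.lmod _ _).red_mono hCZ hδ)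
  rw [mem_redL] at hδ
  obtain ⟨b, hb, hint, rfl⟩ := hδ
  refine ⟨mem_cen.mp h1.1, mem_cen.mp h1.2, ?_⟩
  have hb2 := ((x.mem_C_move_proof D b).mp hb).2
  -- the basic relations
  have key : ∀ (i : x.S.I) (jk : Fin D.r × Fin D.r), tr D.E.K1 D.E.B1
      (b.coeff 0 * (D.E.jB (x.f [i]) * (D.E.u ^ (jk.1 : ℕ) * D.E.v ^ (jk.2 : ℕ)))) = 0 := by
    intro i jk
    have h2 := congrArg (fun y : D.E.K1⟦ℤ⟧ => y.coeff 0) (hb2 (i, jk))
    simp only [tr_laur_coeff, coeff_zero] at h2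
    have h3 := (mul_coeff_of_lower (k := 0) (l := 0) (x := b) (y := D.sh x.f [(i, jk)]) hint
      (fun n hn => MoveData.sh_coeff_neg D x.f _ hn)).2
    rw [add_zero, MoveData.sh_single_coeff_zero] at h3
    rw [← h3]
    exact h2
  intro w hw t ht
  obtain ⟨c, rfl⟩ := (D.E.mem_Q_proof x.S.central t).mp ht
  rw [Finset.mul_sum, Finset.mul_sum, map_sum]
  refine Finset.sum_eq_zero fun jk _ => ?_
  rw [mul_smul_comm, mul_smul_comm, map_smul]
  have h4 : tr D.E.K1 D.E.B1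
      (b.coeff 0 * (D.E.jB w * (D.E.u ^ (jk.1 : ℕ) * D.E.v ^ (jk.2 : ℕ)))) = 0 := by
    induction hw using Submodule.span_induction with
    | mem y hy =>
      obtain ⟨i, rfl⟩ := hy
      exact key i jk
    | zero => simp
    | add y z _ _ hy hz => rw [map_add, add_mul, mul_add, map_add, hy, hz, add_zero]
    | smul a y _ hy =>
      have e : D.E.jB (a • y) = D.E.jK a • D.E.jB y := by
        rw [Algebra.smul_def, map_mul D.E.jB, D.E.comp, ← Algebra.smul_def]
      rw [e, smul_mul_assoc, mul_smul_comm, map_smul, hy, smul_zero]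
  rw [h4, smul_zero]

theorem lift_calC_proof (x : Pt S0 f0) (D : MoveData x.S) (k : ℕ) (hk : 0 < k) (X : D.E.B1)
    (hL : x.Leads D k X)
    (heq : Module.finrank (D.E.K1⟦ℤ⟧) (x.move D).C = Module.finrank D.E.K1 (x.calC D.E X))
    (δ : D.E.B1) (hδ : δ ∈ x.calC D.E X) :
    ∃ b ∈ (x.move D).C, (∀ n < 0, HahnSeries.coeff b n = 0) ∧ HahnSeries.coeff b 0 = δ := by
  have h1 : redL (x.move D).C = x.calC D.E X := by
    apply Submodule.eq_of_le_of_finrank_eq (x.redC_le_proof D k hk X hL)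
    rw [finrank_redL]
    exact heq
  rw [← h1, mem_redL] at hδ
  exact hδ

end Pt
end Vale.P199
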