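import Vale.Agent.P199.QCoord2

/-!
# P199, [L4a]: symbol pairs and traces of monomials
-/

open HahnSeries

set_option linter.unusedSectionVars false

namespace Vale.P199

/-! ### projective equality -/

section Peq

variable (F : Type) {R : Type} [Field F] [DivisionRing R] [Algebra F R]

/-- equality up to a nonzero scalar of `F` -/
def Peq (x y : R) : Prop := ∃ c : F, c ≠ 0 ∧ x = c • y

namespace Peq

variable {F} {x y z x' y' : R}

theorem refl (x : R) : Peq F x x := ⟨1, one_ne_zero, by rw [one_smul]⟩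

theorem of_eq (h : x = y) : Peq F x y := h ▸ refl x

theorem symm (h : Peq F x y) : Peq F y x := by
  obtain ⟨c, hc, rfl⟩ := h
  exact ⟨c⁻¹, inv_ne_zero hc, by rw [smul_smul, inv_mul_cancel₀ hc, one_smul]⟩

theorem trans (h : Peq F x y) (h' : Peq F y z) : Peq F x z := by
  obtain ⟨c, hc, rfl⟩ := h
  obtain ⟨d, hd, rfl⟩ := h'
  exact ⟨c * d, mul_ne_zero hc hd, by rw [smul_smul]⟩

theorem mul (h : Peq F x y) (h' : Peq F x' y') : Peq F (x * x') (y * y') := by
  obtain ⟨c, hc, rfl⟩ := h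
  obtain ⟨d, hd, rfl⟩ := h'
  exact ⟨c * d, mul_ne_zero hc hd, by rw [smul_mul_smul_comm]⟩

theorem pow (h : Peq F x y) (n : ℕ) : Peq F (x ^ n) (y ^ n) := by
  induction n with
  | zero => rw [pow_zero, pow_zero]; exact refl 1
  | succ n ih => rw [pow_succ, pow_succ]; exact ih.mul h

theorem swap_pow {u v : R} (h : Peq F (v * u) (u * v)) (n m : ℕ) :
    Peq F (v ^ n * u ^ m) (u ^ m * v ^ n) := by
  have h1 : ∀ m, Peq F (v * u ^ m) (u ^ m * v) := by
    intro m
    induction m with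
    | zero => simpa using refl v
    | succ m ih =>
      rw [pow_succ, ← mul_assoc]
      refine (ih.mul (refl u)).trans ?_
      rw [mul_assoc, mul_assoc]
      exact (refl _).mul h
  induction n with
  | zero => simpa using refl (u ^ m)
  | succ n ih =>
    rw [pow_succ, mul_assoc]
    refine ((refl _).mul (h1 m)).trans ?_
    rw [← mul_assoc, ← mul_assoc]
    exact ih.mul (refl v)

theorem mul_pow {u v : R} (h : Peq F (v * u) (u * v)) (i j n : ℕ) :
    Peq F ((u ^ i * v ^ j) ^ n) (u ^ (i * n) * v ^ (j * n)) := by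
  induction n with
  | zero => simpa using refl (1 : R)
  | succ n ih =>
    rw [pow_succ]
    refine (ih.mul (refl _)).trans ?_
    have h1 : u ^ (i * n) * v ^ (j * n) * (u ^ i * v ^ j) =
        u ^ (i * n) * (v ^ (j * n) * u ^ i) * v ^ j := by simp only [mul_assoc]
    rw [h1]
    refine ((refl _).mul (swap_pow h (j * n) i)).mul (refl _) |>.trans (of_eq ?_)
    rw [Nat.mul_succ, Nat.mul_succ, _root_.pow_add, _root_.pow_add]
    simp only [mul_assoc]

theorem pow_mod {u : R} {r : ℕ} {α : F} (hα : α ≠ 0) (hu : u ^ r = algebraMap F R α) (n : ℕ) :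
    Peq F (u ^ n) (u ^ (n % r)) := by
  have h1 : Peq F (u ^ r) 1 := ⟨α, hα, by rw [hu, Algebra.smul_def, mul_one]⟩
  conv_lhs => rw [← Nat.div_add_mod n r, _root_.pow_add, pow_mul]
  have h2 := (h1.pow (n / r)).mul (refl (u ^ (n % r)))
  rwa [one_pow, one_mul] at h2

theorem exists_algebraMap (h : Peq F x 1) : ∃ α : F, α ≠ 0 ∧ x = algebraMap F R α := by
  obtain ⟨c, hc, rfl⟩ := h
  exact ⟨c, hc, by rw [Algebra.smul_def, mul_one]⟩

end Peq

end Peq

namespace QExt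

section basic

variable {K B : Type} [Field K] [DivisionRing B] [Algebra K B] {r : ℕ} {ζ : K} (E : QExt K B r ζ)

theorem huv' : E.u * E.v = E.jK ζ • (E.v * E.u) := by
  rw [E.huv, E.comp, Algebra.smul_def]

theorem u_pow_v (j : ℕ) : E.u * E.v ^ j = (E.jK ζ) ^ j • (E.v ^ j * E.u) := by
  induction j with
  | zero => simp
  | succ j ih =>
    rw [pow_succ, ← mul_assoc, ih, smul_mul_assoc, mul_assoc, E.huv', mul_smul_comm, smul_smul,
      mul_assoc, ← pow_succ]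

theorem pow_u_v (i : ℕ) : E.u ^ i * E.v = (E.jK ζ) ^ i • (E.v * E.u ^ i) := by
  induction i with
  | zero => simp
  | succ i ih =>
    rw [pow_succ', mul_assoc, ih, mul_smul_comm, ← mul_assoc, E.huv', smul_mul_assoc, smul_smul,
      mul_assoc, ← pow_succ]

theorem u_mon (ij : Fin r × Fin r) :
    E.u * E.mon ij = (E.jK ζ) ^ (ij.2 : ℕ) • (E.mon ij * E.u) := by
  rw [mon_def, ← mul_assoc, ← pow_succ', pow_succ, mul_assoc, E.u_pow_v, mul_smul_comm, mul_assoc]

theorem mon_v (ij : Fin r × Fin r) :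
    E.mon ij * E.v = (E.jK ζ) ^ (ij.1 : ℕ) • (E.v * E.mon ij) := by
  rw [mon_def, mul_assoc, ← pow_succ, pow_succ', ← mul_assoc, E.pow_u_v, smul_mul_assoc, mul_assoc]

theorem tr_eq_zero_of_conj {s y : E.B1} {c : E.K1} (hs : s ≠ 0) (hc : c ≠ 1)
    (h : s * y = c • (y * s)) : tr E.K1 E.B1 y = 0 := by
  have h1 : y = s⁻¹ * (c • (y * s)) := by
    rw [← h, ← mul_assoc, inv_mul_cancel₀ hs, one_mul]
  have h2 : tr E.K1 E.B1 y = c * tr E.K1 E.B1 y := by
    conv_lhs => rw [h1]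
    rw [mul_smul_comm, map_smul, Tr.tr_mul_comm, mul_assoc, mul_inv_cancel₀ hs, mul_one, smul_eq_mul]
  have h3 : (c - 1) * tr E.K1 E.B1 y = 0 := by rw [sub_mul, one_mul, ← h2, sub_self]
  rcases mul_eq_zero.mp h3 with h4 | h4
  · exact absurd (sub_eq_zero.mp h4) hc
  · exact h4

theorem u_ne0 (hr : 0 < r) : E.u ≠ 0 := by
  obtain ⟨α, hα, h⟩ := E.hur
  intro h0
  rw [h0, zero_pow hr.ne'] at h
  exact hα ((map_eq_zero (algebraMap E.K1 E.B1)).mp h.symm)

theorem v_ne0 (hr : 0 < r) : E.v ≠ 0 := by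
  obtain ⟨α, hα, h⟩ := E.hvr
  intro h0
  rw [h0, zero_pow hr.ne'] at h
  exact hα ((map_eq_zero (algebraMap E.K1 E.B1)).mp h.symm)

theorem vu_peq (hr : 0 < r) : Peq E.K1 (E.v * E.u) (E.u * E.v) := by
  refine Peq.symm ⟨E.jK ζ, ?_, E.huv'⟩
  intro h0
  have h1 := E.huv'
  rw [h0, zero_smul] at h1
  exact mul_ne_zero (E.u_ne0 hr) (E.v_ne0 hr) h1

theorem mon_red (hr : 0 < r) (n m : ℕ) :
    Peq E.K1 (E.u ^ n * E.v ^ m) (E.mon (⟨n % r, Nat.mod_lt _ hr⟩, ⟨m % r, Nat.mod_lt _ hr⟩)) := by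
  obtain ⟨α, hα, h⟩ := E.hur
  obtain ⟨β, hβ, h'⟩ := E.hvr
  exact (Peq.pow_mod hα h n).mul (Peq.pow_mod hβ h' m)

end basic

section fin

variable {K B : Type} [Field K] [DivisionRing B] [Algebra K B] [FiniteDimensional K B]
  {r : ℕ} {ζ : K} (E : QExt K B r ζ)

theorem u_ne : E.u ≠ 0 := E.u_ne0 E.r_pos

theorem v_ne : E.v ≠ 0 := E.v_ne0 E.r_pos

theorem mon_ne (ij : Fin r × Fin r) : E.mon ij ≠ 0 :=
  mul_ne_zero (pow_ne_zero _ E.u_ne) (pow_ne_zero _ E.v_ne)

theorem jK_pow_ne (hζ : IsPrimitiveRoot ζ r) {i : ℕ} (hi : 0 < i) (hir : i < r) :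
    (E.jK ζ) ^ i ≠ 1 := by
  have h := hζ.map_of_injective E.jK.injective
  exact h.pow_ne_one_of_pos_of_lt hi.ne' hir

/-- the trace of `jB b` -/
theorem tr_jB (b : B) : tr E.K1 E.B1 (E.jB b) = (r : E.K1) ^ 2 * E.jK (tr K B b) := by
  classical
  have h1 : tr E.K1 E.B1 (E.jB b) = LinearMap.trace E.K1 E.B1 (LinearMap.mulLeft E.K1 (E.jB b)) := rfl
  have h2 : tr K B b = LinearMap.trace K B (LinearMap.mulLeft K b) := rfl
  rw [h1, h2, LinearMap.trace_eq_matrix_trace E.K1 E.bb,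
    LinearMap.trace_eq_matrix_trace K (Module.finBasis K B), Matrix.trace, Matrix.trace, map_sum,
    show (∑ i, (LinearMap.toMatrix E.bb E.bb (LinearMap.mulLeft E.K1 (E.jB b))).diag i) =
      ∑ ij, ∑ k, (LinearMap.toMatrix E.bb E.bb (LinearMap.mulLeft E.K1 (E.jB b))).diag (k, ij) from
    Fintype.sum_prod_type_right _]
  have h3 : ∀ ij : Fin r × Fin r, ∀ k, (LinearMap.toMatrix E.bb E.bb
      (LinearMap.mulLeft E.K1 (E.jB b))).diag (k, ij) =
      E.jK ((LinearMap.toMatrix (Module.finBasis K B) (Module.finBasis K B)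
        (LinearMap.mulLeft K b)).diag k) := by
    intro ij k
    rw [Matrix.diag_apply, Matrix.diag_apply, LinearMap.toMatrix_apply, LinearMap.toMatrix_apply,
      LinearMap.mulLeft_apply, LinearMap.mulLeft_apply, bb_apply, ← mul_assoc, ← map_mul]
    have h4 : E.jB (b * Module.finBasis K B k) * E.mon ij =
        ∑ l, E.jK ((Module.finBasis K B).repr (b * Module.finBasis K B k) l) • E.bb (l, ij) := by
      conv_lhs => rw [← (Module.finBasis K B).sum_repr (b * Module.finBasis K B k)]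
      rw [map_sum, Finset.sum_mul]
      refine Finset.sum_congr rfl fun l _ => ?_
      rw [E.jB_smul, smul_mul_assoc, bb_apply]
    rw [h4]
    simp only [map_sum, map_smul, Module.Basis.repr_self, Finsupp.coe_finsetSum, Finset.sum_apply,
      Finsupp.smul_single, smul_eq_mul, mul_one]
    rw [Finset.sum_eq_single k]
    · simp
    · intro l _ hl
      rw [Finsupp.single_apply, if_neg]
      intro h5
      exact hl (Prod.mk.inj h5).1
    · intro h; exact absurd (Finset.mem_univ k) h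
  simp only [h3]
  rw [Finset.sum_const, Finset.card_univ, Fintype.card_prod, Fintype.card_fin, nsmul_eq_mul]
  push_cast
  ring

theorem tr_mono_proof (hζ : IsPrimitiveRoot ζ r) (b : B) (i j : Fin r) :
    tr E.K1 E.B1 (E.jB b * (E.u ^ (i : ℕ) * E.v ^ (j : ℕ))) =
      if (i : ℕ) = 0 ∧ (j : ℕ) = 0 then (r : E.K1) ^ 2 * E.jK (tr K B b) else 0 := by
  split_ifs with h
  · rw [h.1, h.2, pow_zero, pow_zero, one_mul, mul_one, E.tr_jB]
  · rw [not_and_or] at h
    rcases h with h | h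
    · -- conjugate with `v`
      show tr E.K1 E.B1 (E.jB b * E.mon (i, j)) = 0
      apply E.tr_eq_zero_of_conj E.v_ne (c := ((E.jK ζ) ^ (i : ℕ))⁻¹)
      · intro h1
        exact E.jK_pow_ne hζ (Nat.pos_of_ne_zero h) i.2 (inv_eq_one.mp h1)
      · have h0 : (E.jK ζ) ^ (i : ℕ) ≠ 0 := pow_ne_zero _
          ((hζ.map_of_injective E.jK.injective).ne_zero (E.r_pos.ne'))
        have h1 : E.mon (i, j) * E.v = (E.jK ζ) ^ (i : ℕ) • (E.v * E.mon (i, j)) := E.mon_v (i, j)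
        rw [mul_assoc, h1, mul_smul_comm, smul_smul, inv_mul_cancel₀ h0, one_smul, ← mul_assoc,
          ← mul_assoc, E.hv]
    · show tr E.K1 E.B1 (E.jB b * E.mon (i, j)) = 0
      apply E.tr_eq_zero_of_conj E.u_ne (c := (E.jK ζ) ^ (j : ℕ))
      · exact E.jK_pow_ne hζ (Nat.pos_of_ne_zero h) j.2
      · have h1 : E.u * E.mon (i, j) = (E.jK ζ) ^ (j : ℕ) • (E.mon (i, j) * E.u) := E.u_mon (i, j)
        rw [← mul_assoc, ← E.hu, mul_assoc, h1, mul_smul_comm, mul_assoc]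

end fin

section basic2

variable {K B : Type} [Field K] [DivisionRing B] [Algebra K B] {r : ℕ} {ζ : K} (E : QExt K B r ζ)

/-- a monomial basis from a permutation of the exponents -/
theorem basis_of_peq {u' v' : E.B1} (σ : Fin r × Fin r → Fin r × Fin r) (hσ : Function.Injective σ)
    (h : ∀ x : Fin r × Fin r, Peq E.K1 (u' ^ (x.1 : ℕ) * v' ^ (x.2 : ℕ)) (E.mon (σ x)))
    {ι : Type} [Fintype ι] (b : Module.Basis ι K B) :
    ∃ b1 : Module.Basis (ι × Fin r × Fin r) E.K1 E.B1,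
      ∀ x, b1 x = E.jB (b x.1) * (u' ^ (x.2.1 : ℕ) * v' ^ (x.2.2 : ℕ)) := by
  obtain ⟨b1, hb1⟩ := E.basis b
  choose c hc hcx using h
  let e : Fin r × Fin r ≃ Fin r × Fin r := Equiv.ofBijective σ (Finite.injective_iff_bijective.mp hσ)
  refine ⟨(b1.reindex (Equiv.prodCongr (Equiv.refl ι) e).symm).unitsSMul
    (fun x => Units.mk0 (c x.2) (hc x.2)), ?_⟩
  rintro ⟨k, x⟩
  rw [Module.Basis.unitsSMul_apply, Module.Basis.reindex_apply, Equiv.symm_symm]
  show c x • b1 (k, σ x) = _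
  rw [hb1, hcx x, mul_smul_comm]
  rfl

/-- for `r` prime every monomial `≠ 1` is the first member of a symbol pair -/
theorem exists_symPair_proof (hr : r.Prime) (hζ : IsPrimitiveRoot ζ r) (i j : Fin r)
    (hij : ¬ ((i : ℕ) = 0 ∧ (j : ℕ) = 0)) :
    ∃ P : SymPair E, P.u' = E.u ^ (i : ℕ) * E.v ^ (j : ℕ) := by
  obtain ⟨α, hα, hα'⟩ := E.hur
  obtain ⟨β, hβ, hβ'⟩ := E.hvr
  have hur1 : Peq E.K1 (E.u ^ r) 1 := ⟨α, hα, by rw [hα', Algebra.smul_def, mul_one]⟩
  have hvr1 : Peq E.K1 (E.v ^ r) 1 := ⟨β, hβ, by rw [hβ', Algebra.smul_def, mul_one]⟩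
  have hmonr : Peq E.K1 ((E.u ^ (i : ℕ) * E.v ^ (j : ℕ)) ^ r) 1 := by
    refine (Peq.mul_pow (E.vu_peq hr.pos) i j r).trans ?_
    rw [mul_comm (i : ℕ), mul_comm (j : ℕ), pow_mul, pow_mul]
    have h1 := (hur1.pow (i : ℕ)).mul (hvr1.pow (j : ℕ))
    rwa [one_pow, one_pow, one_mul] at h1
  have hcom : ∀ b, E.jB b * (E.u ^ (i : ℕ) * E.v ^ (j : ℕ)) =
      E.u ^ (i : ℕ) * E.v ^ (j : ℕ) * E.jB b := fun b => E.jB_mul_mon b (i, j)
  by_cases hi : (i : ℕ) = 0
  · -- `u' = v^j`, `v' = u`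
    have hj : (j : ℕ) ≠ 0 := fun hj => hij ⟨hi, hj⟩
    have hcop : Nat.Coprime (j : ℕ) r :=
      ((Nat.Prime.coprime_iff_not_dvd hr).mpr fun h => by
        have := Nat.le_of_dvd (Nat.pos_of_ne_zero hj) h
        have := j.2
        omega).symm
    refine ⟨⟨E.u ^ (i : ℕ) * E.v ^ (j : ℕ), E.u, (ζ⁻¹) ^ (j : ℕ),
      hζ.inv.pow_of_coprime _ hcop, hcom, E.hu, ?_, Peq.exists_algebraMap hmonr,
      ⟨α, hα, hα'⟩, ?_⟩, rfl⟩
    · rw [hi, pow_zero, one_mul, E.u_pow_v, E.comp, map_pow, map_inv₀, ← Algebra.smul_def, smul_smul,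
        ← mul_pow, inv_mul_cancel₀, one_pow, one_smul]
      exact (hζ.map_of_injective E.jK.injective).ne_zero hr.pos.ne'
    · intro ι _ b
      refine E.basis_of_peq (fun x => (x.2, ⟨((j : ℕ) * (x.1 : ℕ)) % r, Nat.mod_lt _ hr.pos⟩)) ?_ ?_ b
      · rintro ⟨a, c⟩ ⟨a', c'⟩ h
        simp only [Prod.mk.injEq, Fin.mk.injEq] at h
        have h1 : (a : ℕ) ≡ a' [MOD r] := Nat.ModEq.cancel_left_of_coprime hcop.symm h.2
        have h2 : (a : ℕ) = a' := by
          have := Nat.mod_eq_of_lt a.2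
          have := Nat.mod_eq_of_lt a'.2
          unfold Nat.ModEq at h1
          omega
        rw [Prod.mk.injEq]
        exact ⟨Fin.ext h2, h.1⟩
      · rintro ⟨a, c⟩
        show Peq E.K1 ((E.u ^ (i : ℕ) * E.v ^ (j : ℕ)) ^ (a : ℕ) * E.u ^ (c : ℕ)) _
        rw [hi, pow_zero, one_mul, ← pow_mul]
        refine (Peq.swap_pow (E.vu_peq hr.pos) _ _).trans ?_
        refine (E.mon_red hr.pos _ _).trans (Peq.of_eq ?_)
        congr 1
        refine Prod.ext (Fin.ext ?_) rfl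
        exact Nat.mod_eq_of_lt c.2
  · have hcop : Nat.Coprime (i : ℕ) r :=
      ((Nat.Prime.coprime_iff_not_dvd hr).mpr fun h => by
        have := Nat.le_of_dvd (Nat.pos_of_ne_zero hi) h
        have := i.2
        omega).symm
    refine ⟨⟨E.u ^ (i : ℕ) * E.v ^ (j : ℕ), E.v, ζ ^ (i : ℕ),
      hζ.pow_of_coprime _ hcop, hcom, E.hv, ?_, Peq.exists_algebraMap hmonr,
      ⟨β, hβ, hβ'⟩, ?_⟩, rfl⟩
    · rw [E.comp, map_pow, ← Algebra.smul_def]
      exact E.mon_v (i, j)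
    · intro ι _ b
      refine E.basis_of_peq (fun x => (⟨((i : ℕ) * (x.1 : ℕ)) % r, Nat.mod_lt _ hr.pos⟩,
        ⟨((j : ℕ) * (x.1 : ℕ) + (x.2 : ℕ)) % r, Nat.mod_lt _ hr.pos⟩)) ?_ ?_ b
      · rintro ⟨a, c⟩ ⟨a', c'⟩ h
        simp only [Prod.mk.injEq, Fin.mk.injEq] at h
        have h1 : (a : ℕ) ≡ a' [MOD r] := Nat.ModEq.cancel_left_of_coprime hcop.symm h.1
        have h2 : (a : ℕ) = a' := by
          have := Nat.mod_eq_of_lt a.2
          have := Nat.mod_eq_of_lt a'.2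
          unfold Nat.ModEq at h1
          omega
        have h3 := h.2
        rw [h2] at h3
        have h4 : (c : ℕ) ≡ c' [MOD r] := Nat.ModEq.add_left_cancel' _ h3
        have h5 : (c : ℕ) = c' := by
          have := Nat.mod_eq_of_lt c.2
          have := Nat.mod_eq_of_lt c'.2
          unfold Nat.ModEq at h4
          omega
        rw [Prod.mk.injEq]
        exact ⟨Fin.ext h2, Fin.ext h5⟩
      · rintro ⟨a, c⟩
        show Peq E.K1 ((E.u ^ (i : ℕ) * E.v ^ (j : ℕ)) ^ (a : ℕ) * E.v ^ (c : ℕ)) _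
        refine ((Peq.mul_pow (E.vu_peq hr.pos) i j a).mul (Peq.refl _)).trans ?_
        rw [mul_assoc, ← _root_.pow_add]
        exact E.mon_red hr.pos _ _

end basic2

end QExt

end Vale.P199
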