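import Vale.Agent.P199.Sym1

/-!
# P199, B4: commutant of `X = w₁ u + w₂ v` and the space `𝒞(X)`
-/

namespace Vale.P199

open Finset Module

namespace Sym

section abs

variable {F R : Type*} [Field F] [DivisionRing R] [Algebra F R] [CharZero F]
  {r : ℕ} {ζ : F} {u v w₁ w₂ : R}

omit [CharZero F] in
theorem coef_add (i j : ℕ) (x y : R) :
    coef F r ζ u v i j (x + y) = coef F r ζ u v i j x + coef F r ζ u v i j y := by
  rw [coef, add_mul, map_add, coef, coef]

omit [CharZero F] in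
theorem coef_sub (i j : ℕ) (x y : R) :
    coef F r ζ u v i j (x - y) = coef F r ζ u v i j x - coef F r ζ u v i j y := by
  rw [coef, sub_mul, map_sub, coef, coef]

omit [CharZero F] in
theorem coef_sum {ι : Type*} (i j : ℕ) (s : Finset ι) (f : ι → R) :
    coef F r ζ u v i j (∑ m ∈ s, f m) = ∑ m ∈ s, coef F r ζ u v i j (f m) := by
  simp only [coef, sum_mul, map_sum]

theorem pj_zero_eq (h : Pair F r ζ u v) (x : R) :
    pj r ζ⁻¹ v 0 x = ∑ j ∈ range r, coef F r ζ u v 0 j x * v ^ j := by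
  have h1 : ∀ j, coef F r ζ u v 0 j x * v ^ j = pj r ζ u j (pj r ζ⁻¹ v 0 x) := by
    intro j
    have := coef_mul h 0 j x
    rwa [pow_zero, one_mul] at this
  simp only [h1, sum_pj h.gu]

/-- uniqueness of the expansion in powers of `X` -/
theorem X_unique (h : Pair F r ζ u v) (hw : Wts u v w₁ w₂) {β : Fin r → R}
    (hβ : ∀ k, u * β k = β k * u ∧ v * β k = β k * v)
    (h0 : ∑ k : Fin r, β k * (w₁ * u + w₂ * v) ^ (k : ℕ) = 0) (k : Fin r) : β k = 0 := by
  have h1 := congrArg (coef F r ζ u v 0 (k : ℕ)) h0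
  rw [coef_sum, sum_eq_single k] at h1
  · rw [coef_X_pow h hw (hβ k).1 (hβ k).2 k.2 h.pos k.2, if_pos (zero_add _), qb_zero, one_smul,
      pow_zero, one_mul] at h1
    have h2 : coef F r ζ u v 0 (k : ℕ) (0 : R) = 0 := by rw [coef, zero_mul, map_zero]
    rw [h2] at h1
    exact (mul_eq_zero.mp h1).resolve_right (pow_ne_zero _ hw.ne2)
  · intro m _ hm
    rw [coef_X_pow h hw (hβ m).1 (hβ m).2 m.2 h.pos k.2, if_neg]
    intro hh
    exact hm (Fin.ext (by omega))
  · intro hh; exact absurd (mem_univ _) hh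

theorem w_comm_X (hw : Wts u v w₁ w₂) : w₂ * (w₁ * u + w₂ * v) = (w₁ * u + w₂ * v) * w₂ := by
  rw [mul_add, add_mul, ← mul_assoc, ← hw.w12, mul_assoc, ← hw.u2, mul_assoc, mul_assoc, hw.v2]

/-- B4.2: the commutant of `X` -/
theorem comm_decomp (h : Pair F r ζ u v) (hw : Wts u v w₁ w₂) {x : R}
    (hX : (w₁ * u + w₂ * v) * x = x * (w₁ * u + w₂ * v)) (h1 : w₁ * x = x * w₁)
    (h2 : w₂ * x = x * w₂) :
    ∃ β : ℕ → R, (∀ k, u * β k = β k * u ∧ v * β k = β k * v) ∧
      (∀ a, u * a = a * u → v * a = a * v → w₂ * a = a * w₂ → a * x = x * a →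
        ∀ k, a * β k = β k * a) ∧
      x = ∑ k ∈ range r, β k * (w₁ * u + w₂ * v) ^ k := by
  set X := w₁ * u + w₂ * v with hXd
  set β : ℕ → R := fun k => coef F r ζ u v 0 k x * (w₂ ^ k)⁻¹ with hβ
  have hu2 : ∀ k, u * (w₂ ^ k)⁻¹ = (w₂ ^ k)⁻¹ * u := fun k =>
    (((show Commute u w₂ from hw.u2).pow_right k).inv_right₀).eq
  have hv2 : ∀ k, v * (w₂ ^ k)⁻¹ = (w₂ ^ k)⁻¹ * v := fun k =>
    (((show Commute v w₂ from hw.v2).pow_right k).inv_right₀).eq
  have hcomm : ∀ k, u * β k = β k * u ∧ v * β k = β k * v := by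
    intro k
    constructor
    · show u * (coef F r ζ u v 0 k x * (w₂ ^ k)⁻¹) = coef F r ζ u v 0 k x * (w₂ ^ k)⁻¹ * u
      rw [coef, ← mul_assoc, u_mul_P0 h, mul_assoc, hu2, mul_assoc]
    · show v * (coef F r ζ u v 0 k x * (w₂ ^ k)⁻¹) = coef F r ζ u v 0 k x * (w₂ ^ k)⁻¹ * v
      rw [coef, ← mul_assoc, v_mul_P0 h, mul_assoc, hv2, mul_assoc]
  have hall : ∀ a, u * a = a * u → v * a = a * v → w₂ * a = a * w₂ → a * x = x * a →
        ∀ k, a * β k = β k * a := by
    intro a hua hva h2a hax k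
    show a * (coef F r ζ u v 0 k x * (w₂ ^ k)⁻¹) = coef F r ζ u v 0 k x * (w₂ ^ k)⁻¹ * a
    have h3 : a * (w₂ ^ k)⁻¹ = (w₂ ^ k)⁻¹ * a :=
      (((show Commute a w₂ from h2a.symm).pow_right k).inv_right₀).eq
    rw [← mul_assoc, coef_commute hua hva hax, mul_assoc, h3, mul_assoc]
  refine ⟨β, hcomm, hall, ?_⟩
  have hdef : ∀ j, β j * w₂ ^ j = coef F r ζ u v 0 j x := by
    intro j
    show coef F r ζ u v 0 j x * (w₂ ^ j)⁻¹ * w₂ ^ j = _
    rw [mul_assoc, inv_mul_cancel₀ (pow_ne_zero _ hw.ne2), mul_one]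
  clear_value β
  have hβ1 := hall w₁ hw.u1 hw.v1 hw.w12.symm h1
  have hβ2 := hall w₂ hw.u2 hw.v2 rfl h2
  have hβX : ∀ k, X * β k = β k * X := by
    intro k
    have e1 : w₁ * u * β k = β k * (w₁ * u) := by
      rw [mul_assoc, (hcomm k).1, ← mul_assoc, hβ1 k, mul_assoc]
    have e2 : w₂ * v * β k = β k * (w₂ * v) := by
      rw [mul_assoc, (hcomm k).2, ← mul_assoc, hβ2 k, mul_assoc]
    rw [hXd, add_mul, mul_add, e1, e2]
  have hterm : ∀ k, X * (β k * X ^ k) = β k * X ^ k * X := by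
    intro k
    rw [← mul_assoc, hβX, mul_assoc, mul_assoc, ← pow_succ', ← pow_succ]
  have hterm2 : ∀ k, w₂ * (β k * X ^ k) = β k * X ^ k * w₂ := by
    intro k
    have e3 : w₂ * X ^ k = X ^ k * w₂ := ((show Commute w₂ X from w_comm_X hw).pow_right k).eq
    rw [← mul_assoc, hβ2, mul_assoc, e3, mul_assoc]
  have key : x - ∑ k ∈ range r, β k * X ^ k = 0 := by
    apply eq_zero_of_comm h hw
    · rw [← hXd, mul_sub, sub_mul, hX, mul_sum, sum_mul, sum_congr rfl fun k _ => hterm k]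
    · rw [mul_sub, sub_mul, h2, mul_sum, sum_mul, sum_congr rfl fun k _ => hterm2 k]
    · rw [pj_zero_eq h]
      refine sum_eq_zero fun j hj => ?_
      rw [mem_range] at hj
      have e4 : coef F r ζ u v 0 j (x - ∑ k ∈ range r, β k * X ^ k) = 0 := by
        rw [coef_sub, coef_sum, sum_eq_single j]
        · rw [hXd, coef_X_pow h hw (hcomm j).1 (hcomm j).2 hj h.pos hj, if_pos (zero_add _), qb_zero,
            one_smul, pow_zero, one_mul, hdef, sub_self]
        · intro m hm hmj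
          rw [mem_range] at hm
          rw [hXd, coef_X_pow h hw (hcomm m).1 (hcomm m).2 hm h.pos hj, if_neg]
          omega
        · intro hh; exact absurd (mem_range.mpr hj) hh
      rw [e4, zero_mul]
  exact sub_eq_zero.mp key

end abs

namespace SD

variable {K B F R : Type} [Field K] [DivisionRing B] [Algebra K B] [Field F] [DivisionRing R]
  [Algebra F R] {jK : K →+* F} {jB : B →+* R} {r : ℕ} {ζ : K} {u v : R}

/-- the span of the `jB s * X^k`, `s ∈ S k`, `k < r` -/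
def Dmod (F : Type) {K B R : Type} [Field K] [DivisionRing B] [Algebra K B] [Field F]
    [DivisionRing R] [Algebra F R] (jB : B →+* R) (r : ℕ) (X : R) (S : ℕ → Submodule K B) :
    Submodule F R :=
  Submodule.span F {y | ∃ k < r, ∃ s ∈ S k, y = jB s * X ^ k}

theorem mul_pow_mem_Dmod {X : R} {S : ℕ → Submodule K B} {k : ℕ} (hk : k < r) {β : R}
    (hβ : β ∈ Ext F jB (S k)) : β * X ^ k ∈ Dmod F jB r X S := by
  unfold Ext at hβ
  induction hβ using Submodule.span_induction with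
  | mem x hx =>
    obtain ⟨s, hs, rfl⟩ := hx
    exact Submodule.subset_span ⟨k, hk, s, hs, rfl⟩
  | zero => simp
  | add x y _ _ hx hy => rw [add_mul]; exact add_mem hx hy
  | smul c x _ hx => rw [smul_mul_assoc]; exact Submodule.smul_mem _ _ hx

variable [FiniteDimensional K B] [CharZero F] (h : SD jK jB r ζ u v)

include h

omit [FiniteDimensional K B] [CharZero F] in
theorem wts {w1 w2 : B} (h12 : w1 * w2 = w2 * w1) (n1 : w1 ≠ 0) (n2 : w2 ≠ 0) :
    Wts u v (jB w1) (jB w2) where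
  u1 := (h.hu _).symm
  v1 := (h.hv _).symm
  u2 := (h.hu _).symm
  v2 := (h.hv _).symm
  w12 := by rw [← map_mul, h12, map_mul]
  ne1 := (map_ne_zero jB).mpr n1
  ne2 := (map_ne_zero jB).mpr n2

theorem finrank_Dmod {w1 w2 : B} (h12 : w1 * w2 = w2 * w1) (n1 : w1 ≠ 0) (n2 : w2 ≠ 0)
    (S : ℕ → Submodule K B) :
    finrank F (Dmod F jB r (jB w1 * u + jB w2 * v) S) = ∑ k : Fin r, finrank K (S k) := by
  classical
  set X := jB w1 * u + jB w2 * v with hX
  set g : (Σ k : Fin r, Fin (finrank K (S k))) → R :=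
    fun p => jB (finBasis K (S p.1) p.2 : B) * X ^ (p.1 : ℕ) with hg
  have hind : LinearIndependent F g := by
    rw [Fintype.linearIndependent_iff]
    intro c hc
    set β : Fin r → R := fun k => ∑ a, c ⟨k, a⟩ • jB (finBasis K (S k) a : B) with hβ
    have h1 : ∑ k : Fin r, β k * X ^ (k : ℕ) = 0 := by
      rw [← hc, Fintype.sum_sigma]
      refine sum_congr rfl fun k _ => ?_
      rw [hβ, sum_mul]
      refine sum_congr rfl fun a _ => ?_
      rw [smul_mul_assoc]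
    have h2 : ∀ k, u * β k = β k * u ∧ v * β k = β k * v := by
      intro k
      constructor
      · rw [hβ, mul_sum, sum_mul]
        exact sum_congr rfl fun a _ => by rw [mul_smul_comm, smul_mul_assoc, h.hu]
      · rw [hβ, mul_sum, sum_mul]
        exact sum_congr rfl fun a _ => by rw [mul_smul_comm, smul_mul_assoc, h.hv]
    have h3 := X_unique h.pair (h.wts h12 n1 n2) h2 h1
    rintro ⟨k, a⟩
    have h4 : LinearIndependent K (fun a => (finBasis K (S k) a : B)) := by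
      have := (finBasis K (S k)).linearIndependent.map' (S k).subtype (Submodule.ker_subtype _)
      exact this
    exact h.linInd h4 (c := fun a => c ⟨k, a⟩) (h3 k) a
  have hspan : Dmod F jB r X S = Submodule.span F (Set.range g) := by
    apply le_antisymm
    · refine Submodule.span_le.mpr ?_
      rintro y ⟨k, hk, s, hs, rfl⟩
      have h5 : (⟨s, hs⟩ : S k) = ∑ a, (finBasis K (S k)).repr ⟨s, hs⟩ a • finBasis K (S k) a :=
        ((finBasis K (S k)).sum_repr _).symm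
      have h6 : s = ∑ a, (finBasis K (S k)).repr ⟨s, hs⟩ a • (finBasis K (S k) a : B) := by
        have := congrArg (Submodule.subtype (S k)) h5
        rw [map_sum] at this
        simp only [map_smul, Submodule.subtype_apply] at this
        exact this
      have h7 : jB s * X ^ k = ∑ a, jK ((finBasis K (S k)).repr ⟨s, hs⟩ a) • g ⟨⟨k, hk⟩, a⟩ := by
        conv_lhs => rw [h6]
        rw [map_sum, sum_mul]
        refine sum_congr rfl fun a _ => ?_
        rw [h.jB_smul, smul_mul_assoc]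
      rw [SetLike.mem_coe, h7]
      exact sum_mem fun a _ => Submodule.smul_mem _ _ (Submodule.subset_span ⟨_, rfl⟩)
    · refine Submodule.span_le.mpr ?_
      rintro y ⟨⟨k, a⟩, rfl⟩
      exact Submodule.subset_span ⟨k, k.2, _, (finBasis K (S k) a).2, rfl⟩
  rw [hspan, finrank_span_eq_card hind, Fintype.card_sigma]
  simp

/-- elements commuting with `jB a` commute with `jB w` for `w` in the bicommutant -/
theorem comm_of_cc {a w : B} (hw : ∀ z ∈ Tr.cen K a, w * z = z * w) {δ : R}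
    (hδ : jB a * δ = δ * jB a) : jB w * δ = δ * jB w := by
  rw [← sub_eq_zero]
  refine h.eq_zero_of_all fun l i j _ _ => ?_
  have hm : ∀ b : B, (u ^ i * v ^ j)⁻¹ * jB b = jB b * (u ^ i * v ^ j)⁻¹ := fun b =>
    ((show Commute (jB b) (u ^ i * v ^ j) from h.mono_comm b i j).inv_right₀).eq.symm
  set z := h.tw l (δ * (u ^ i * v ^ j)⁻¹) with hz
  have h1 : h.tw l (jB w * δ * (u ^ i * v ^ j)⁻¹) = w * z := by rw [mul_assoc, tw_mul_left]
  have h2 : ∀ b, h.tw l (δ * jB b * (u ^ i * v ^ j)⁻¹) = z * b := by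
    intro b
    rw [mul_assoc, ← hm, ← mul_assoc, tw_mul_right]
  have h3 : a * z = z * a := by
    rw [← h2, ← hδ, mul_assoc, tw_mul_left]
  rw [sub_mul, map_sub, h1, h2, hw z (Tr.mem_cen.mpr h3), sub_self]

/-- the coefficient spaces of `𝒞(X)` -/
def Sk (K : Type) {B : Type} [Field K] [DivisionRing B] [Algebra K B] (Z C : Submodule K B)
    (w1 w2 : B) (k : ℕ) : Submodule K B where
  carrier := {β | β ∈ Z ∧ ∀ i ≤ k, β * (w1 ^ i * w2 ^ (k - i)) ∈ C}
  add_mem' := by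
    rintro x y ⟨hx, hx'⟩ ⟨hy, hy'⟩
    exact ⟨add_mem hx hy, fun i hi => by rw [add_mul]; exact add_mem (hx' i hi) (hy' i hi)⟩
  zero_mem' := ⟨zero_mem _, fun i _ => by rw [zero_mul]; exact zero_mem _⟩
  smul_mem' := by
    rintro c x ⟨hx, hx'⟩
    exact ⟨Submodule.smul_mem _ _ hx, fun i hi => by
      rw [smul_mul_assoc]; exact Submodule.smul_mem _ _ (hx' i hi)⟩

omit h in
omit [FiniteDimensional K B] [CharZero F] in
theorem mem_Sk {Z C : Submodule K B} {w1 w2 : B} {k : ℕ} {β : B} :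
    β ∈ Sk K Z C w1 w2 k ↔ β ∈ Z ∧ ∀ i ≤ k, β * (w1 ^ i * w2 ^ (k - i)) ∈ C := Iff.rfl

/-- elements of the commutant of `a` and `X` -/
theorem mem_Dmod_Z {a w1 w2 : B} (c1 : ∀ z ∈ Tr.cen K a, w1 * z = z * w1)
    (c2 : ∀ z ∈ Tr.cen K a, w2 * z = z * w2) (h1a : w1 ∈ Tr.cen K a) (h2a : w2 ∈ Tr.cen K a)
    (n1 : w1 ≠ 0) (n2 : w2 ≠ 0) {δ : R} (ha : jB a * δ = δ * jB a)
    (hX : (jB w1 * u + jB w2 * v) * δ = δ * (jB w1 * u + jB w2 * v)) :
    ∃ β : ℕ → R, (∀ k, u * β k = β k * u ∧ v * β k = β k * v) ∧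
      (∀ k (l : Lam jK), h.tw l (β k) ∈ Tr.cen K a) ∧
      δ = ∑ k ∈ range r, β k * (jB w1 * u + jB w2 * v) ^ k := by
  have h12 : w1 * w2 = w2 * w1 := c1 w2 h2a
  obtain ⟨β, hβ, hall, he⟩ := comm_decomp h.pair (h.wts h12 n1 n2) hX (h.comm_of_cc c1 ha)
    (h.comm_of_cc c2 ha)
  refine ⟨β, hβ, fun k l => ?_, he⟩
  have h3 : jB a * β k = β k * jB a := by
    refine hall (jB a) (h.hu a).symm (h.hv a).symm ?_ ha k
    rw [← map_mul, ← map_mul, Tr.mem_cen.mp h2a]
  rw [Tr.mem_cen, ← tw_mul_left, h3, tw_mul_right]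

/-- `𝒞(X)` is contained in `Dmod Sk` -/
theorem calC_le {a w1 w2 : B} (W : Submodule K B) (c1 : ∀ z ∈ Tr.cen K a, w1 * z = z * w1)
    (c2 : ∀ z ∈ Tr.cen K a, w2 * z = z * w2) (h1a : w1 ∈ Tr.cen K a) (h2a : w2 ∈ Tr.cen K a)
    [FiniteDimensional F R] [CharZero K]
    (n1 : w1 ≠ 0) (n2 : w2 ≠ 0) {δ : R} (ha : jB a * δ = δ * jB a)
    (hX : (jB w1 * u + jB w2 * v) * δ = δ * (jB w1 * u + jB w2 * v))
    (htr : ∀ w ∈ W, ∀ t : R, (∀ b, jB b * t = t * jB b) → tr F R (δ * (jB w * t)) = 0) :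
    δ ∈ Dmod F jB r (jB w1 * u + jB w2 * v)
      (Sk K (Tr.cen K a) (Tr.perp (Tr.cen K a) W) w1 w2) := by
  have h12 : w1 * w2 = w2 * w1 := c1 w2 h2a
  obtain ⟨β, hβ, hcen, he⟩ := h.mem_Dmod_Z c1 c2 h1a h2a n1 n2 ha hX
  have hP := h.pair
  have hW := h.wts h12 n1 n2
  rw [he]
  refine sum_mem fun k hk => mul_pow_mem_Dmod (mem_range.mp hk) ?_
  rw [mem_range] at hk
  refine h.mem_ext_of_tw (hβ k).1 (hβ k).2 fun l => ⟨hcen k l, fun i hi => ⟨?_, ?_⟩⟩
  · exact Tr.mul_mem_cen (hcen k l) (Tr.mul_mem_cen (Tr.pow_mem_cen h1a _) (Tr.pow_mem_cen h2a _))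
  · intro w hw
    set m := u ^ i * v ^ (k - i) with hm
    have hmc : ∀ b : B, m⁻¹ * jB b = jB b * m⁻¹ := fun b =>
      ((show Commute (jB b) m from h.mono_comm b i _).inv_right₀).eq.symm
    have hq : qb (jK ζ)⁻¹ k i ≠ 0 := qb_ne_zero hP.prim.inv hk hi
    -- the coefficient
    have hco : coef F r (jK ζ) u v i (k - i) δ =
        qb (jK ζ)⁻¹ k i • (β k * jB (w1 ^ i * w2 ^ (k - i))) := by
      rw [he, coef_sum, sum_eq_single k]
      · rw [coef_X_pow hP hW (hβ k).1 (hβ k).2 hk (by omega) (by omega), if_pos (by omega)]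
        congr 2
        rw [map_mul, map_pow, map_pow]
      · intro k' hk' hne
        rw [mem_range] at hk'
        rw [coef_X_pow hP hW (hβ k').1 (hβ k').2 hk' (by omega) (by omega), if_neg (by omega)]
      · intro hh; exact absurd (mem_range.mpr hk) hh
    have htr' := htr w hw m⁻¹ (fun b => (hmc b).symm)
    set l' : Lam jK := l.mulr (qb (jK ζ)⁻¹ k i)⁻¹ with hl'
    have h5 : δ * (jB w * m⁻¹) = δ * m⁻¹ * jB w := by rw [← hmc, mul_assoc]
    have h6 := h.tr_tw l' (δ * (jB w * m⁻¹))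
    rw [htr', map_zero, h5, tw_mul_right, ← h.tw_P0 l'] at h6
    have h7 : P0 F r (jK ζ) u v (δ * m⁻¹) = coef F r (jK ζ) u v i (k - i) δ := rfl
    rw [h7, hco, tw_smul] at h6
    have h8 : ∀ y : R, h.tw (l'.mulr (qb (jK ζ)⁻¹ k i)) y = h.tw l y := by
      intro y
      have : l'.mulr (qb (jK ζ)⁻¹ k i) = l := by
        rw [hl']
        cases l with
        | mk f lin =>
          simp only [Lam.mulr, Lam.mk.injEq]
          ext t
          simp [hq]
      rw [this]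
    rw [h8, tw_mul_right] at h6
    have hr0 : ((r : K) ^ 2) ≠ 0 := pow_ne_zero _ (by exact_mod_cast h.pos.ne')
    exact (mul_eq_zero.mp h6.symm).resolve_left hr0

omit [FiniteDimensional K B] [CharZero F] in
theorem jB_comm_X {s w1 w2 : B} (h1 : w1 * s = s * w1) (h2 : w2 * s = s * w2) :
    jB s * (jB w1 * u + jB w2 * v) = (jB w1 * u + jB w2 * v) * jB s := by
  rw [mul_add, add_mul, ← mul_assoc, ← mul_assoc, ← map_mul, ← map_mul, mul_assoc, mul_assoc,
    ← h.hu, ← h.hv, ← mul_assoc, ← mul_assoc, ← map_mul, ← map_mul, h1, h2]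

omit [FiniteDimensional K B] [CharZero F] in
/-- `jB s X^k` lies in the commutant -/
theorem Dmod_comm {a w1 w2 : B} (c1 : ∀ z ∈ Tr.cen K a, w1 * z = z * w1)
    (c2 : ∀ z ∈ Tr.cen K a, w2 * z = z * w2) (S : ℕ → Submodule K B) (hS : ∀ k, S k ≤ Tr.cen K a)
    {δ : R} (hδ : δ ∈ Dmod F jB r (jB w1 * u + jB w2 * v) S) :
    jB a * δ = δ * jB a ∧ (jB w1 * u + jB w2 * v) * δ = δ * (jB w1 * u + jB w2 * v) := by
  set X := jB w1 * u + jB w2 * v with hX
  have haX : Commute (jB a) X := h.jB_comm_X (c1 a (Tr.self_mem_cen a)) (c2 a (Tr.self_mem_cen a))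
  have hsX' : ∀ k, ∀ s ∈ S k, Commute (jB s) X := fun k s hs =>
    h.jB_comm_X (c1 s (hS k hs)) (c2 s (hS k hs))
  clear_value X
  unfold Dmod at hδ
  induction hδ using Submodule.span_induction with
  | mem y hy =>
    obtain ⟨k, _, s, hs, rfl⟩ := hy
    have hsX : Commute (jB s) X := hsX' k s hs
    have has : Commute (jB a) (jB s) := by
      show jB a * jB s = jB s * jB a
      rw [← map_mul, ← map_mul, Tr.mem_cen.mp (hS k hs)]
    exact ⟨(has.mul_right (haX.pow_right k)).eq, (hsX.symm.mul_right ((Commute.refl X).pow_right k)).eq⟩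
  | zero => simp
  | add x y _ _ hx hy =>
    exact ⟨by rw [mul_add, add_mul, hx.1, hy.1], by rw [mul_add, add_mul, hx.2, hy.2]⟩
  | smul c x _ hx =>
    exact ⟨by rw [mul_smul_comm, smul_mul_assoc, hx.1], by rw [mul_smul_comm, smul_mul_assoc, hx.2]⟩

/-- orthogonality: `tr (jB b * q) = 0` if `tr b = 0` and `q` commutes with `jB B` -/
theorem tr_jB_mul_Q [FiniteDimensional F R]
    (central : ∀ a : B, (∀ b : B, a * b = b * a) → ∃ k : K, algebraMap K B k = a) {b : B}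
    (hb : tr K B b = 0) {q : R} (hq : ∀ b', jB b' * q = q * jB b') : tr F R (jB b * q) = 0 := by
  by_contra hne
  obtain ⟨l, hl⟩ := Lam.exists_ne (jK := jK) hne
  apply hl
  rw [h.tr_tw, tw_mul_left]
  obtain ⟨k, hk⟩ := central (h.tw l q) (fun b' => by rw [← tw_mul_right, ← hq, tw_mul_left])
  rw [← hk, ← Algebra.commutes, ← Algebra.smul_def, map_smul, hb, smul_zero, mul_zero]

/-- `Dmod Sk` is orthogonal to `W ⊗ Q` -/
theorem Dmod_tr [FiniteDimensional F R]
    (central : ∀ a : B, (∀ b : B, a * b = b * a) → ∃ k : K, algebraMap K B k = a)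
    {a w1 w2 : B} (W : Submodule K B) (h12 : w1 * w2 = w2 * w1) (n1 : w1 ≠ 0) (n2 : w2 ≠ 0) {δ : R}
    (hδ : δ ∈ Dmod F jB r (jB w1 * u + jB w2 * v)
      (Sk K (Tr.cen K a) (Tr.perp (Tr.cen K a) W) w1 w2)) {w : B} (hw : w ∈ W) {t : R}
    (ht : ∀ b, jB b * t = t * jB b) : tr F R (δ * (jB w * t)) = 0 := by
  unfold Dmod at hδ
  induction hδ using Submodule.span_induction with
  | mem y hy =>
    obtain ⟨k, hk, s, hs, rfl⟩ := hy
    rw [X_pow h.pair (h.wts h12 n1 n2), mul_sum, sum_mul, map_sum]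
    refine sum_eq_zero fun i hi => ?_
    rw [mem_range] at hi
    have h1 : jB s * (qb (jK ζ)⁻¹ k i • (jB w1 ^ i * jB w2 ^ (k - i) * (u ^ i * v ^ (k - i)))) *
        (jB w * t) = qb (jK ζ)⁻¹ k i • (jB (s * (w1 ^ i * w2 ^ (k - i)) * w) *
          ((u ^ i * v ^ (k - i)) * t)) := by
      rw [mul_smul_comm, smul_mul_assoc]
      congr 1
      have h2 : u ^ i * v ^ (k - i) * jB w = jB w * (u ^ i * v ^ (k - i)) := (h.mono_comm w _ _).symm
      calc jB s * (jB w1 ^ i * jB w2 ^ (k - i) * (u ^ i * v ^ (k - i))) * (jB w * t)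
          = jB s * (jB w1 ^ i * jB w2 ^ (k - i)) * (u ^ i * v ^ (k - i) * jB w) * t := by
            simp only [mul_assoc]
        _ = jB s * (jB w1 ^ i * jB w2 ^ (k - i)) * jB w * ((u ^ i * v ^ (k - i)) * t) := by
            rw [h2]; simp only [mul_assoc]
        _ = _ := by rw [← map_pow, ← map_pow, ← map_mul, ← map_mul, ← map_mul]
    rw [h1, map_smul, h.tr_jB_mul_Q central ((hs.2 i (by omega)).2 w hw), smul_zero]
    intro b'
    rw [← mul_assoc, h.mono_comm, mul_assoc, ht, ← mul_assoc]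
  | zero => simp
  | add x y _ _ hx hy => rw [add_mul, map_add, hx, hy, add_zero]
  | smul c x _ hx => rw [smul_mul_assoc, map_smul, hx, smul_zero]

end SD

end Sym

end Vale.P199
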