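import Vale.Agent.P199.BDefs2
import Vale.Agent.P199.Inv
import Vale.Agent.P199.Sym2

/-! # P199, B4.2, B4.3: `calZ`, `calC` and their dimensions -/

open HahnSeries Finset Module

namespace Vale.P199

/-- bridge -/
theorem SymPair.sd {K B : Type} [Field K] [DivisionRing B] [Algebra K B] {r : ℕ} {ζ : K}
    {E : QExt K B r ζ} (P : SymPair E) (hr : 0 < r) : Sym.SD E.jK E.jB r P.ζ' P.u' P.v' where
  pos := hr
  comp := E.comp
  prim := P.prim
  hu := P.hu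
  hv := P.hv
  huv := P.huv
  hur := P.hur
  hvr := P.hvr
  basis := P.basis

/-- the powers `ρ^j`, `j < dim K[ρ]`, span `K[ρ]` -/
theorem adjoin_le_span_pow {K B : Type} [Field K] [DivisionRing B] [Algebra K B]
    [FiniteDimensional K B] (ρ : B) :
    (Algebra.adjoin K {ρ}).toSubmodule ≤
      Submodule.span K {y | ∃ j < finrank K (Algebra.adjoin K {ρ}), y = ρ ^ j} := by
  have hint : IsIntegral K ρ := IsIntegral.of_finite K ρ
  have hd : (minpoly K ρ).natDegree ≤ finrank K (Algebra.adjoin K {ρ}) := by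
    have h1 := linearIndependent_pow (K := K) ρ
    have h2 := finrank_span_eq_card h1
    rw [Fintype.card_fin] at h2
    rw [← h2]
    have h3 : Submodule.span K (Set.range fun i : Fin (minpoly K ρ).natDegree => ρ ^ (i : ℕ)) ≤
        (Algebra.adjoin K {ρ}).toSubmodule := by
      rw [Submodule.span_le]
      rintro _ ⟨i, rfl⟩
      exact pow_mem (Algebra.subset_adjoin (Set.mem_singleton ρ)) _
    exact Submodule.finrank_mono h3
  intro y hy
  have hy' : y ∈ Algebra.adjoin K {ρ} := hy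
  rw [Algebra.adjoin_singleton_eq_range_aeval] at hy'
  obtain ⟨p, rfl⟩ := hy'
  have hmonic := minpoly.monic hint
  have h1 : (Polynomial.aeval ρ) p = (Polynomial.aeval ρ) (p %ₘ minpoly K ρ) := by
    conv_lhs => rw [← Polynomial.modByMonic_add_div p (minpoly K ρ)]
    rw [map_add, map_mul, minpoly.aeval, zero_mul, add_zero]
  show (Polynomial.aeval ρ) p ∈ _
  rw [h1, Polynomial.aeval_eq_sum_range]
  refine sum_mem fun j hj => Submodule.smul_mem _ _ ?_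
  rw [Finset.mem_range] at hj
  by_cases h0 : minpoly K ρ = 1
  · have := minpoly.aeval K ρ
    rw [h0, map_one] at this
    exact absurd this one_ne_zero
  · have h2 : (p %ₘ minpoly K ρ).natDegree < (minpoly K ρ).natDegree :=
      Polynomial.natDegree_modByMonic_lt _ hmonic h0
    exact Submodule.subset_span ⟨j, by omega, rfl⟩

namespace Pt

variable {S0 : State} {f0 : NC S0.I S0.B}

theorem W_comm_Z {x : Pt S0 f0} (hWM : x.W ≤ x.M) {w : x.S.B} (hw : w ∈ x.W) :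
    ∀ z ∈ Tr.cen x.S.K x.a, w * z = z * w := hWM hw

theorem calZ_eq (x : Pt S0 f0) (hWM : x.W ≤ x.M) {r : ℕ} {ζ : x.S.K} (hr : 0 < r)
    (E : QExt x.S.K x.S.B r ζ) (P : SymPair E) (w1 w2 : x.S.B) (h1 : w1 ∈ x.W) (h2 : w2 ∈ x.W)
    (n1 : w1 ≠ 0) (n2 : w2 ≠ 0) :
    x.calZ E (E.jB w1 * P.u' + E.jB w2 * P.v') =
      Sym.SD.Dmod E.K1 E.jB r (E.jB w1 * P.u' + E.jB w2 * P.v') (fun _ => x.Z) := by
  have h := P.sd hr
  have c1 := W_comm_Z hWM h1
  have c2 := W_comm_Z hWM h2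
  apply le_antisymm
  · intro δ hδ
    obtain ⟨ha, hX⟩ := Submodule.mem_inf.mp hδ
    rw [Tr.mem_cen] at ha hX
    obtain ⟨β, hβ, hcen, he⟩ := h.mem_Dmod_Z c1 c2 (x.W_le_Z h1) (x.W_le_Z h2) n1 n2 ha hX
    rw [he]
    refine sum_mem fun k hk => Sym.SD.mul_pow_mem_Dmod (mem_range.mp hk) ?_
    exact h.mem_ext_of_tw (hβ k).1 (hβ k).2 (hcen k)
  · intro δ hδ
    obtain ⟨ha, hX⟩ := h.Dmod_comm c1 c2 _ (fun _ => le_refl _) hδ
    exact Submodule.mem_inf.mpr ⟨Tr.mem_cen.mpr ha, Tr.mem_cen.mpr hX⟩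

/-- B4.2 -/
theorem finrank_calZ_proof (x : Pt S0 f0) (hWM : x.W ≤ x.M) {r : ℕ} {ζ : x.S.K} (hr : 0 < r)
    (E : QExt x.S.K x.S.B r ζ) (P : SymPair E) (w1 w2 : x.S.B) (h1 : w1 ∈ x.W) (h2 : w2 ∈ x.W)
    (n1 : w1 ≠ 0) (n2 : w2 ≠ 0) :
    Module.finrank E.K1 (x.calZ E (E.jB w1 * P.u' + E.jB w2 * P.v')) =
      r * Module.finrank x.S.K x.Z := by
  rw [calZ_eq x hWM hr E P w1 w2 h1 h2 n1 n2,
    (P.sd hr).finrank_Dmod (W_comm_Z hWM h1 w2 (x.W_le_Z h2)) n1 n2]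
  simp

theorem calC_eq (x : Pt S0 f0) (hWM : x.W ≤ x.M) {r : ℕ} {ζ : x.S.K} (hr : 0 < r)
    (E : QExt x.S.K x.S.B r ζ) (P : SymPair E) (w1 w2 : x.S.B) (h1 : w1 ∈ x.W) (h2 : w2 ∈ x.W)
    (n1 : w1 ≠ 0) (n2 : w2 ≠ 0) :
    x.calC E (E.jB w1 * P.u' + E.jB w2 * P.v') =
      Sym.SD.Dmod E.K1 E.jB r (E.jB w1 * P.u' + E.jB w2 * P.v')
        (Sym.SD.Sk x.S.K x.Z x.C w1 w2) := by
  have h := P.sd hr
  have c1 := W_comm_Z hWM h1
  have c2 := W_comm_Z hWM h2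
  apply le_antisymm
  · rintro δ ⟨ha, hX, htr⟩
    exact h.calC_le x.W c1 c2 (x.W_le_Z h1) (x.W_le_Z h2) n1 n2 ha hX htr
  · intro δ hδ
    obtain ⟨ha, hX⟩ := h.Dmod_comm c1 c2 (Sym.SD.Sk x.S.K x.Z x.C w1 w2)
      (fun _ _ hb => (Sym.SD.mem_Sk.mp hb).1) hδ
    exact ⟨ha, hX, fun w hw t ht => h.Dmod_tr x.S.central x.W (c1 w2 (x.W_le_Z h2)) n1 n2 hδ hw ht⟩

theorem finrank_calC_eq (x : Pt S0 f0) (hWM : x.W ≤ x.M) {r : ℕ} {ζ : x.S.K} (hr : 0 < r)
    (E : QExt x.S.K x.S.B r ζ) (P : SymPair E) (w1 w2 : x.S.B) (h1 : w1 ∈ x.W) (h2 : w2 ∈ x.W)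
    (n1 : w1 ≠ 0) (n2 : w2 ≠ 0) :
    Module.finrank E.K1 (x.calC E (E.jB w1 * P.u' + E.jB w2 * P.v')) =
      ∑ k : Fin r, Module.finrank x.S.K (Sym.SD.Sk x.S.K x.Z x.C w1 w2 k) := by
  rw [calC_eq x hWM hr E P w1 w2 h1 h2 n1 n2,
    (P.sd hr).finrank_Dmod (W_comm_Z hWM h1 w2 (x.W_le_Z h2)) n1 n2]

/-- right multiplication by `c` as a linear map -/
theorem finrank_map_mulRight {K B : Type} [Field K] [DivisionRing B] [Algebra K B]
    (S : Submodule K B) {c : B} (hc : c ≠ 0) :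
    finrank K (S.map (LinearMap.mulRight K c)) = finrank K S := by
  have hinj : Function.Injective (LinearMap.mulRight K c) := fun a b hab =>
    mul_right_cancel₀ hc hab
  exact (Submodule.equivMapOfInjective _ hinj S).finrank_eq.symm

/-- elements of `Sk k`, `k ≥ η`: `β w1^k ∈ Coo` -/
theorem Sk_mul_mem_Coo (x : Pt S0 f0) (hWM : x.W ≤ x.M) {w1 w2 : x.S.B} (h1 : w1 ∈ x.W)
    (h2 : w2 ∈ x.W) (n1 : w1 ≠ 0) (hH : x.H = Algebra.adjoin x.S.K {w1⁻¹ * w2}) {k : ℕ}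
    (hk : x.η ≤ k) {β : x.S.B} (hβ : β ∈ Sym.SD.Sk x.S.K x.Z x.C w1 w2 k) :
    β * w1 ^ k ∈ x.Coo := by
  have h12 : Commute w1 w2 := W_comm_Z hWM h1 w2 (x.W_le_Z h2)
  refine ⟨Tr.mul_mem_cen hβ.1 (Tr.pow_mem_cen (x.W_le_Z h1) _), fun y hy => ?_⟩
  induction hy using Submodule.span_induction with
  | zero => simp
  | add y z _ _ hy hz => rw [mul_add, map_add, hy, hz, add_zero]
  | smul c y _ hy => rw [mul_smul_comm, map_smul, hy, smul_zero]
  | mem y hy =>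
    obtain ⟨w, hw, g, hg, rfl⟩ := hy
    have hη : finrank x.S.K (Algebra.adjoin x.S.K {w1⁻¹ * w2}) = x.η := by
      unfold η; rw [hH]
    have key : ∀ g ∈ Submodule.span x.S.K
        {y | ∃ j < finrank x.S.K (Algebra.adjoin x.S.K {w1⁻¹ * w2}), y = (w1⁻¹ * w2) ^ j},
        tr x.S.K x.S.B (β * w1 ^ k * (w * g)) = 0 := by
      intro g hg
      induction hg using Submodule.span_induction with
      | zero => simp
      | add y z _ _ hy hz => rw [mul_add, mul_add, map_add, hy, hz, add_zero]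
      | smul c y _ hy => rw [mul_smul_comm, mul_smul_comm, map_smul, hy, smul_zero]
      | mem y hy =>
        obtain ⟨j, hj, rfl⟩ := hy
        have hcw1 : Commute w w1 := W_comm_Z hWM hw w1 (x.W_le_Z h1)
        have hcw2 : Commute w w2 := W_comm_Z hWM hw w2 (x.W_le_Z h2)
        have e1 : w * (w1⁻¹ * w2) ^ j = (w1⁻¹ * w2) ^ j * w :=
          ((hcw1.inv_right₀.mul_right hcw2).pow_right j).eq
        have e2 : w1 ^ k * (w1⁻¹ * w2) ^ j = w1 ^ (k - j) * w2 ^ (k - (k - j)) := by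
          have e3 : k = (k - j) + j := by omega
          have e4 : w1 ^ k = w1 ^ (k - j) * w1 ^ j := by rw [← _root_.pow_add, ← e3]
          rw [(h12.inv_left₀).mul_pow, e4, inv_pow, mul_assoc, ← mul_assoc (w1 ^ j),
            mul_inv_cancel₀ (pow_ne_zero _ n1), one_mul, show k - (k - j) = j by omega]
        have e5 : β * w1 ^ k * (w * (w1⁻¹ * w2) ^ j) = β * (w1 ^ (k - j) * w2 ^ (k - (k - j))) * w := by
          rw [e1, ← mul_assoc, mul_assoc β, e2]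
        rw [e5]
        exact ((Sym.SD.mem_Sk.mp hβ).2 (k - j) (by omega)).2 w hw
    refine key g (adjoin_le_span_pow _ ?_)
    change g ∈ x.H at hg
    rw [hH] at hg
    exact hg

/-- B4.3a -/
theorem finrank_calC_le_proof (x : Pt S0 f0) (hWM : x.W ≤ x.M) {r : ℕ} {ζ : x.S.K} (hr : 0 < r)
    (E : QExt x.S.K x.S.B r ζ) (P : SymPair E) (w1 w2 : x.S.B) (h1 : w1 ∈ x.W) (h2 : w2 ∈ x.W)
    (n1 : w1 ≠ 0) (n2 : w2 ≠ 0) (hH : x.H = Algebra.adjoin x.S.K {w1⁻¹ * w2}) :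
    Module.finrank E.K1 (x.calC E (E.jB w1 * P.u' + E.jB w2 * P.v')) ≤
      r * Module.finrank x.S.K x.Coo + Module.finrank x.S.K x.Z * x.η := by
  rw [finrank_calC_eq x hWM hr E P w1 w2 h1 h2 n1 n2]
  have hb : ∀ k : Fin r, Module.finrank x.S.K (Sym.SD.Sk x.S.K x.Z x.C w1 w2 k) ≤
      Module.finrank x.S.K x.Coo + (if (k : ℕ) < x.η then Module.finrank x.S.K x.Z else 0) := by
    intro k
    split_ifs with hk
    · have : Module.finrank x.S.K (Sym.SD.Sk x.S.K x.Z x.C w1 w2 k) ≤ Module.finrank x.S.K x.Z :=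
        Submodule.finrank_mono fun _ hb => (Sym.SD.mem_Sk.mp hb).1
      omega
    · rw [add_zero, ← finrank_map_mulRight _ (pow_ne_zero (k : ℕ) n1)]
      apply Submodule.finrank_mono
      rintro _ ⟨β, hβ, rfl⟩
      exact Sk_mul_mem_Coo x hWM h1 h2 n1 hH (by omega) hβ
  have hsum : ∑ k : Fin r, (if (k : ℕ) < x.η then Module.finrank x.S.K x.Z else 0) ≤
      Module.finrank x.S.K x.Z * x.η := by
    rw [Fin.sum_univ_eq_sum_range (fun k => if k < x.η then Module.finrank x.S.K x.Z else 0) r,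
      ← Finset.sum_filter, Finset.sum_const, smul_eq_mul, mul_comm]
    apply Nat.mul_le_mul_left
    calc #(Finset.filter (fun k => k < x.η) (Finset.range r)) ≤ #(Finset.range x.η) := by
          apply Finset.card_le_card
          intro k hk
          rw [Finset.mem_filter] at hk
          exact Finset.mem_range.mpr hk.2
      _ = x.η := Finset.card_range _
  calc ∑ k : Fin r, Module.finrank x.S.K (Sym.SD.Sk x.S.K x.Z x.C w1 w2 k)
      ≤ ∑ k : Fin r, (Module.finrank x.S.K x.Coo +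
          (if (k : ℕ) < x.η then Module.finrank x.S.K x.Z else 0)) := Finset.sum_le_sum fun k _ => hb k
    _ = r * Module.finrank x.S.K x.Coo +
          ∑ k : Fin r, (if (k : ℕ) < x.η then Module.finrank x.S.K x.Z else 0) := by
        rw [Finset.sum_add_distrib]; simp
    _ ≤ _ := by omega

/-- the ratio is in `H` -/
theorem ratio_mem_H (x : Pt S0 f0) {w1 w2 : x.S.B} (h1 : w1 ∈ x.W) (h2 : w2 ∈ x.W) (n1 : w1 ≠ 0) :
    w1⁻¹ * w2 ∈ x.H := Algebra.subset_adjoin ⟨w2, h2, w1, h1, n1, rfl⟩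

/-- B4.3b -/
theorem finrank_calC_good_proof (x : Pt S0 f0) (hWM : x.W ≤ x.M) {r : ℕ} {ζ : x.S.K} (hr : 0 < r)
    (E : QExt x.S.K x.S.B r ζ) (P : SymPair E) (w1 w2 : x.S.B) (hg : x.GoodPair w1 w2) :
    Module.finrank E.K1 (x.calC E (E.jB w1 * P.u' + E.jB w2 * P.v')) =
      r * Module.finrank x.S.K x.Coo + x.ξ := by
  obtain ⟨h1, h2, n1, n2, hgd⟩ := hg
  have h12 : Commute w1 w2 := W_comm_Z hWM h1 w2 (x.W_le_Z h2)
  have hW : x.W ≠ ⊥ := fun h => n1 (by rw [h] at h1; exact (Submodule.mem_bot _).mp h1)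
  rw [finrank_calC_eq x hWM hr E P w1 w2 h1 h2 n1 n2]
  obtain ⟨r', rfl⟩ : ∃ r', r = r' + 1 := ⟨r - 1, by omega⟩
  rw [Fin.sum_univ_succ]
  have e0 : Sym.SD.Sk x.S.K x.Z x.C w1 w2 ((0 : Fin (r' + 1)) : ℕ) = x.C := by
    ext β
    rw [Sym.SD.mem_Sk]
    constructor
    · intro h
      have := h.2 0 (le_refl _)
      simpa using this
    · intro h
      refine ⟨h.1, fun i hi => ?_⟩
      have : i = 0 := by simpa using hi
      subst this
      simpa using h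
  have ek : ∀ k : Fin r', Module.finrank x.S.K (Sym.SD.Sk x.S.K x.Z x.C w1 w2 (k.succ : ℕ)) =
      Module.finrank x.S.K x.Coo := by
    intro k
    have hk : (k.succ : ℕ) = (k : ℕ) + 1 := Fin.val_succ k
    rw [hk, ← finrank_map_mulRight _ (pow_ne_zero ((k : ℕ) + 1) n1)]
    suffices hh : Submodule.map (LinearMap.mulRight x.S.K (w1 ^ ((k : ℕ) + 1)))
        (Sym.SD.Sk x.S.K x.Z x.C w1 w2 ((k : ℕ) + 1)) = x.Coo by rw [hh]
    apply le_antisymm
    · rintro _ ⟨β, hβ, rfl⟩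
      have hβ' := Sym.SD.mem_Sk.mp hβ
      show β * w1 ^ ((k : ℕ) + 1) ∈ x.Coo
      have e1 : β * w1 ^ (k : ℕ) * w1 ∈ x.C := by
        have := hβ'.2 ((k : ℕ) + 1) (le_refl _)
        rwa [Nat.sub_self, pow_zero, mul_one, pow_succ, ← mul_assoc] at this
      have e2 : β * w1 ^ (k : ℕ) * w2 ∈ x.C := by
        have := hβ'.2 (k : ℕ) (Nat.le_succ _)
        rwa [show (k : ℕ) + 1 - (k : ℕ) = 1 by omega, pow_one, ← mul_assoc] at this
      have e3 := hgd (β * w1 ^ (k : ℕ))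
        (Tr.mul_mem_cen hβ'.1 (Tr.pow_mem_cen (x.W_le_Z h1) _)) e1 e2
      rwa [mul_assoc, ← pow_succ] at e3
    · intro c hc
      refine ⟨c * (w1 ^ ((k : ℕ) + 1))⁻¹, ?_, ?_⟩
      · refine Sym.SD.mem_Sk.mpr ⟨Tr.mul_mem_cen hc.1
          (Tr.inv_mem_cen (Tr.pow_mem_cen (x.W_le_Z h1) _)), fun i hi => ?_⟩
        have e4 : c * (w1 ^ ((k : ℕ) + 1))⁻¹ * (w1 ^ i * w2 ^ ((k : ℕ) + 1 - i)) =
            c * (w1⁻¹ * w2) ^ ((k : ℕ) + 1 - i) := by
          rw [mul_assoc, (h12.inv_left₀).mul_pow]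
          congr 1
          have e5 : w1 ^ ((k : ℕ) + 1) = w1 ^ ((k : ℕ) + 1 - i) * w1 ^ i := by
            rw [← _root_.pow_add]; congr 1; omega
          rw [e5, mul_inv_rev, inv_pow, ← mul_assoc]
          congr 1
          have e6 : Commute (w1 ^ i)⁻¹ (w1 ^ ((k : ℕ) + 1 - i))⁻¹ :=
            (((show Commute w1 w1 from rfl).pow_pow i ((k : ℕ) + 1 - i) :
              Commute (w1 ^ i) (w1 ^ ((k : ℕ) + 1 - i))).inv_left₀).inv_right₀
          rw [e6.eq, mul_assoc, inv_mul_cancel₀ (pow_ne_zero _ n1), mul_one]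
        rw [e4]
        exact x.Coo_le_C (Coo_mul_H hWM hc (x.H.pow_mem (x.ratio_mem_H h1 h2 n1) _))
      · show c * (w1 ^ ((k : ℕ) + 1))⁻¹ * w1 ^ ((k : ℕ) + 1) = c
        rw [mul_assoc, inv_mul_cancel₀ (pow_ne_zero _ n1), mul_one]
  rw [e0, Finset.sum_congr rfl fun k _ => ek k, finrank_C_eq hWM hW]
  simp only [sum_const, card_univ, Fintype.card_fin, smul_eq_mul]
  ring

/-- constants from `C` -/
theorem C_mem_calC_proof (x : Pt S0 f0) (hWM : x.W ≤ x.M) {r : ℕ} {ζ : x.S.K} (hr : 0 < r)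
    (E : QExt x.S.K x.S.B r ζ) (P : SymPair E) (w1 w2 : x.S.B) (h1 : w1 ∈ x.W) (h2 : w2 ∈ x.W)
    (c : x.S.B) (hc : c ∈ x.C) :
    E.jB c ∈ x.calC E (E.jB w1 * P.u' + E.jB w2 * P.v') := by
  have h := P.sd hr
  refine ⟨?_, ?_, ?_⟩
  · rw [← map_mul, ← map_mul, Tr.mem_cen.mp hc.1]
  · exact (h.jB_comm_X (W_comm_Z hWM h1 c hc.1) (W_comm_Z hWM h2 c hc.1)).symm
  · intro w hw t ht
    rw [← mul_assoc, ← map_mul]
    exact h.tr_jB_mul_Q x.S.central (hc.2 w hw) ht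

/-- `β X` with `β w1 ∈ Coo` -/
theorem βX_mem_calC_proof (x : Pt S0 f0) (hWM : x.W ≤ x.M) {r : ℕ} {ζ : x.S.K} (hr : 0 < r)
    (E : QExt x.S.K x.S.B r ζ) (P : SymPair E) (w1 w2 : x.S.B) (h1 : w1 ∈ x.W) (h2 : w2 ∈ x.W)
    (n1 : w1 ≠ 0) (β : x.S.B) (hβ : β ∈ x.Z) (hc : β * w1 ∈ x.Coo) :
    E.jB β * (E.jB w1 * P.u' + E.jB w2 * P.v') ∈ x.calC E (E.jB w1 * P.u' + E.jB w2 * P.v') := by
  have h := P.sd hr
  have haX : E.jB x.a * (E.jB w1 * P.u' + E.jB w2 * P.v') =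
      (E.jB w1 * P.u' + E.jB w2 * P.v') * E.jB x.a :=
    h.jB_comm_X (W_comm_Z hWM h1 _ (Tr.self_mem_cen _)) (W_comm_Z hWM h2 _ (Tr.self_mem_cen _))
  have hβX : E.jB β * (E.jB w1 * P.u' + E.jB w2 * P.v') =
      (E.jB w1 * P.u' + E.jB w2 * P.v') * E.jB β :=
    h.jB_comm_X (W_comm_Z hWM h1 _ hβ) (W_comm_Z hWM h2 _ hβ)
  have b1 : β * w1 ∈ x.C := x.Coo_le_C hc
  have b2 : β * w2 ∈ x.C := by
    have := x.Coo_le_C (Coo_mul_H hWM hc (x.ratio_mem_H h1 h2 n1))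
    rwa [mul_assoc, ← mul_assoc w1, mul_inv_cancel₀ n1, one_mul] at this
  refine ⟨?_, ?_, ?_⟩
  · rw [← mul_assoc, ← map_mul, Tr.mem_cen.mp hβ, map_mul, mul_assoc, haX, ← mul_assoc]
  · rw [← mul_assoc, ← hβX]
  · intro w hw t ht
    have e1 : E.jB β * (E.jB w1 * P.u' + E.jB w2 * P.v') * (E.jB w * t) =
        E.jB (β * w1 * w) * (P.u' * t) + E.jB (β * w2 * w) * (P.v' * t) := by
      simp only [map_mul, mul_add, add_mul, mul_assoc]
      rw [← mul_assoc P.u', ← P.hu, ← mul_assoc P.v', ← P.hv]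
      simp only [mul_assoc]
    rw [e1, map_add, h.tr_jB_mul_Q x.S.central (b1.2 w hw) fun b => by
        rw [← mul_assoc, P.hu, mul_assoc, ht, mul_assoc],
      h.tr_jB_mul_Q x.S.central (b2.2 w hw) fun b => by
        rw [← mul_assoc, P.hv, mul_assoc, ht, mul_assoc], add_zero]

/-- independence of the `jB (m l) X^k` -/
theorem linearIndependent_X (x : Pt S0 f0) (hWM : x.W ≤ x.M) {r : ℕ} {ζ : x.S.K} (hr : 0 < r)
    (E : QExt x.S.K x.S.B r ζ) (P : SymPair E) (w1 w2 : x.S.B) (h1 : w1 ∈ x.W) (h2 : w2 ∈ x.W)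
    (n1 : w1 ≠ 0) (n2 : w2 ≠ 0) {ι : Type} [Fintype ι] (m : ι → x.S.B) (_hm : ∀ l, m l ∈ x.Z)
    (hli : LinearIndependent x.S.K m) :
    LinearIndependent E.K1
      (fun p : ι × Fin r => E.jB (m p.1) * (E.jB w1 * P.u' + E.jB w2 * P.v') ^ (p.2 : ℕ)) := by
  have h := P.sd hr
  have h12 : w1 * w2 = w2 * w1 := W_comm_Z hWM h1 w2 (x.W_le_Z h2)
  rw [Fintype.linearIndependent_iff]
  intro c hc
  set X := E.jB w1 * P.u' + E.jB w2 * P.v' with hX
  set β : Fin r → E.B1 := fun k => ∑ a, c (a, k) • E.jB (m a) with hβ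
  have e1 : ∑ k : Fin r, β k * X ^ (k : ℕ) = 0 := by
    rw [← hc, Fintype.sum_prod_type_right]
    refine sum_congr rfl fun k _ => ?_
    rw [hβ, sum_mul]
    refine sum_congr rfl fun a _ => ?_
    rw [smul_mul_assoc]
  have e2 : ∀ k, P.u' * β k = β k * P.u' ∧ P.v' * β k = β k * P.v' := by
    intro k
    constructor
    · rw [hβ, mul_sum, sum_mul]
      exact sum_congr rfl fun a _ => by rw [mul_smul_comm, smul_mul_assoc, h.hu]
    · rw [hβ, mul_sum, sum_mul]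
      exact sum_congr rfl fun a _ => by rw [mul_smul_comm, smul_mul_assoc, h.hv]
  have e3 := Sym.X_unique h.pair (h.wts h12 n1 n2) e2 e1
  rintro ⟨a, k⟩
  exact h.linInd hli (c := fun a => c (a, k)) (e3 k) a

end Pt

end Vale.P199
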