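import Mathlib

/-!
# P199 : a linear map of maximal rank in a linear space of maps

If `A` has maximal rank in a linear subspace `U ⊆ Hom(V, W)` over an infinite field then every
`B ∈ U` maps `ker A` into `range A`.
-/

namespace Vale.P199

open Polynomial Module

variable {K V W : Type*} [Field K] [AddCommGroup V] [Module K V] [AddCommGroup W] [Module K W]

/-- If `A x_i` (`i : Fin r`) together with `B v` are linearly independent and `A v = 0`, then for some
`t` the rank of `A + t B` is at least `r + 1`. -/
theorem exists_rank_gt [Infinite K] [FiniteDimensional K V] [FiniteDimensional K W]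
    (A B : V →ₗ[K] W) {v : V} (hv : A v = 0) (hBv : B v ∉ LinearMap.range A) :
    ∃ t : K, finrank K (LinearMap.range A) < finrank K (LinearMap.range (A + t • B)) := by
  classical
  set r := finrank K (LinearMap.range A) with hr
  -- a basis of the range of A, with preimages
  let e := finBasis K (LinearMap.range A)
  choose x hx using fun i => (e i).2
  -- the family
  let f : Fin (r + 1) → W := Fin.snoc (fun i => A (x i)) (B v)
  have hfc : ∀ i : Fin r, f i.castSucc = A (x i) := fun i => Fin.snoc_castSucc (α := fun _ => W) _ _ i
  have hfl : f (Fin.last r) = B v := Fin.snoc_last (α := fun _ => W) _ _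
  have hind : LinearIndependent K f := by
    refine linearIndependent_finSnoc.mpr ⟨?_, ?_⟩
    · have : (fun i => A (x i)) = fun i => ((e i : LinearMap.range A) : W) := funext hx
      rw [this]
      exact e.linearIndependent.map' (LinearMap.range A).subtype (Submodule.ker_subtype _)
    · intro hcon
      apply hBv
      refine Submodule.span_le.mpr ?_ hcon
      rintro _ ⟨i, rfl⟩
      exact ⟨x i, rfl⟩
  -- dual functionals
  obtain ⟨p, hp⟩ : ∃ p : W →ₗ[K] (Fin (r + 1) → K), ∀ j, p (f j) = Pi.single j 1 := by
    obtain ⟨p, hp⟩ := LinearMap.exists_leftInverse_of_injective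
      (Fintype.linearCombination K f)
      (LinearMap.ker_eq_bot.mpr (linearIndependent_iff_injective_fintypeLinearCombination.mp hind))
    refine ⟨p, fun j => ?_⟩
    have h1 := LinearMap.congr_fun hp (Pi.single j 1)
    simpa using h1
  -- the matrix of `A + t B` on `x_i, v / t`
  let y : Fin (r + 1) → V := Fin.snoc x v
  have hyc : ∀ i : Fin r, y i.castSucc = x i := fun i => Fin.snoc_castSucc (α := fun _ => V) _ _ i
  have hyl : y (Fin.last r) = v := Fin.snoc_last (α := fun _ => V) _ _
  let M : Matrix (Fin (r + 1)) (Fin (r + 1)) K[X] := fun i j =>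
    if j = Fin.last r then C (p (f j) i) else C (p (f j) i) + X * C (p (B (y j)) i)
  have hdet : M.det.eval 0 = 1 := by
    have h1 : (evalRingHom (0 : K)) M.det = ((evalRingHom (0 : K)).mapMatrix M).det :=
      RingHom.map_det _ _
    rw [coe_evalRingHom] at h1
    rw [h1]
    have h2 : (evalRingHom (0 : K)).mapMatrix M = 1 := by
      ext i j
      rw [RingHom.mapMatrix_apply, Matrix.map_apply, coe_evalRingHom]
      have h3 : (M i j).eval 0 = p (f j) i := by
        simp only [M]
        split_ifs <;> simp
      rw [h3, hp, Matrix.one_apply, Pi.single_apply]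
    rw [h2, Matrix.det_one]
  have hne : M.det * X ≠ 0 := by
    refine mul_ne_zero (fun h => ?_) X_ne_zero
    rw [h, eval_zero] at hdet
    exact zero_ne_one hdet
  obtain ⟨t, ht⟩ : ∃ t, (M.det * X).eval t ≠ 0 := by
    by_contra hcon
    push Not at hcon
    exact hne (Polynomial.zero_of_eval_zero _ hcon)
  rw [eval_mul, eval_X] at ht
  have ht0 : t ≠ 0 := right_ne_zero_of_mul ht
  have htd : M.det.eval t ≠ 0 := left_ne_zero_of_mul ht
  refine ⟨t, ?_⟩
  -- the images `(A + t B) y_j` are linearly independent
  let g : Fin (r + 1) → W := fun j => if j = Fin.last r then f j else f j + t • B (y j)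
  have hg : ∀ j, g j ∈ LinearMap.range (A + t • B) := by
    intro j
    refine Fin.lastCases ?_ (fun i => ?_) j
    · refine ⟨t⁻¹ • v, ?_⟩
      simp only [g, if_true]
      rw [hfl, map_smul, LinearMap.add_apply, hv, zero_add, LinearMap.smul_apply, smul_smul,
        inv_mul_cancel₀ ht0, one_smul]
    · refine ⟨x i, ?_⟩
      simp only [g]
      rw [if_neg (Fin.castSucc_lt_last i).ne, hfc, hyc, LinearMap.add_apply, LinearMap.smul_apply]
  have hgM : ∀ i j, p (g j) i = ((evalRingHom t).mapMatrix M) i j := by
    intro i j
    rw [RingHom.mapMatrix_apply, Matrix.map_apply, coe_evalRingHom]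
    simp only [g, M]
    split_ifs
    · simp
    · simp [mul_comm t]
  have hgi : LinearIndependent K g := by
    have h1 : LinearIndependent K (fun j => p (g j)) := by
      have h2 : (fun j => p (g j)) = ((evalRingHom t).mapMatrix M).transpose := by
        funext j i; exact hgM i j
      rw [h2]
      refine Matrix.linearIndependent_rows_of_det_ne_zero ?_
      rw [Matrix.det_transpose, ← RingHom.map_det]
      exact htd
    exact LinearIndependent.of_comp p h1
  have hgi' : LinearIndependent K (fun j => (⟨g j, hg j⟩ : LinearMap.range (A + t • B))) :=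
    LinearIndependent.of_comp (LinearMap.range (A + t • B)).subtype hgi
  have := hgi'.fintype_card_le_finrank
  rw [Fintype.card_fin] at this
  omega

/-- **Maximal rank lemma.** -/
theorem maxRank [Infinite K] [FiniteDimensional K V] [FiniteDimensional K W]
    (U : Submodule K (V →ₗ[K] W)) {A : V →ₗ[K] W} (hA : A ∈ U)
    (hmax : ∀ B ∈ U, finrank K (LinearMap.range B) ≤ finrank K (LinearMap.range A))
    {B : V →ₗ[K] W} (hB : B ∈ U) {v : V} (hv : A v = 0) : B v ∈ LinearMap.range A := by
  by_contra hcon
  obtain ⟨t, ht⟩ := exists_rank_gt A B hv hcon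
  exact absurd (hmax _ (U.add_mem hA (U.smul_mem t hB))) (not_le.mpr ht)

/-- the version with kernels: `A` has minimal kernel dimension in `U` -/
theorem minKer [Infinite K] [FiniteDimensional K V] [FiniteDimensional K W]
    (U : Submodule K (V →ₗ[K] W)) {A : V →ₗ[K] W} (hA : A ∈ U)
    (hmin : ∀ B ∈ U, finrank K (LinearMap.ker A) ≤ finrank K (LinearMap.ker B))
    {B : V →ₗ[K] W} (hB : B ∈ U) {v : V} (hv : A v = 0) : B v ∈ LinearMap.range A := by
  refine maxRank U hA (fun C hC => ?_) hB hv
  have h1 := LinearMap.finrank_range_add_finrank_ker A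
  have h2 := LinearMap.finrank_range_add_finrank_ker C
  have h3 := hmin C hC
  omega

end Vale.P199
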