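import Vale.Agent.P199.Inv
import Vale.Agent.P199.BDefs2
import Vale.Agent.P199.MaxRank

/-! # P199, B4.4 : existence of good pairs -/

open Module

namespace Vale.P199

namespace Pt

open Tr

variable {S0 : State} {f0 : NC S0.I S0.B}

/-- `c ↦ c (w1⁻¹ w)` from `C` to `B / C` -/
noncomputable def phiG (x : Pt S0 f0) (w1 w : x.S.B) : x.C →ₗ[x.S.K] (x.S.B ⧸ x.C) :=
  (x.C.mkQ.comp (LinearMap.mulRight x.S.K (w1⁻¹ * w))).comp x.C.subtype

theorem phiG_apply (x : Pt S0 f0) (w1 w : x.S.B) (c : x.C) :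
    x.phiG w1 w c = x.C.mkQ ((c : x.S.B) * (w1⁻¹ * w)) := rfl

theorem phiG_eq_zero (x : Pt S0 f0) (w1 w : x.S.B) (c : x.C) :
    x.phiG w1 w c = 0 ↔ (c : x.S.B) * (w1⁻¹ * w) ∈ x.C := by
  rw [phiG_apply, Submodule.mkQ_apply, Submodule.Quotient.mk_eq_zero]

/-- the linear family -/
noncomputable def famG (x : Pt S0 f0) (w1 : x.S.B) :
    x.W →ₗ[x.S.K] (x.C →ₗ[x.S.K] (x.S.B ⧸ x.C)) where
  toFun w := x.phiG w1 w
  map_add' w w' := by
    ext c
    rw [LinearMap.add_apply, phiG_apply, phiG_apply, phiG_apply, ← map_add, ← mul_add, ← mul_add]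
    rfl
  map_smul' k w := by
    ext c
    rw [LinearMap.smul_apply, phiG_apply, phiG_apply, ← map_smul, ← mul_smul_comm,
      ← mul_smul_comm]
    rfl

theorem famG_apply (x : Pt S0 f0) (w1 : x.S.B) (w : x.W) : x.famG w1 w = x.phiG w1 w := rfl

theorem ratio_mem (x : Pt S0 f0) {w1 w : x.S.B} (h1 : w1 ∈ x.W) (n1 : w1 ≠ 0) (hw : w ∈ x.W) :
    w1⁻¹ * w ∈ x.H := Algebra.subset_adjoin ⟨w, hw, w1, h1, n1, rfl⟩

theorem Coo_le_map (x : Pt S0 f0) (hWM : x.W ≤ x.M) {h : x.S.B} (hh : h ∈ x.H) (h0 : h ≠ 0) :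
    x.Coo ≤ x.C.map (LinearMap.mulRight x.S.K h) := by
  intro c hc
  refine ⟨c * h⁻¹, x.Coo_le_C (Coo_mul_H hWM hc (Inv.inv_mem x.H hh)), ?_⟩
  rw [LinearMap.mulRight_apply, mul_assoc, inv_mul_cancel₀ h0, mul_one]

/-- the main step: minimal kernel forces the kernel into `Coo` -/
theorem ker_le_Coo (x : Pt S0 f0) (hWM : x.W ≤ x.M) (hdim : 2 * x.ξ < finrank x.S.K x.W)
    {w1 : x.S.B} (h1 : w1 ∈ x.W) (n1 : w1 ≠ 0) (w2 : x.W)
    (hmin : ∀ w : x.W, finrank x.S.K (LinearMap.ker (x.phiG w1 w2)) ≤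
      finrank x.S.K (LinearMap.ker (x.phiG w1 w)))
    {c : x.S.B} (hc : c ∈ x.C) (hc2 : c * (w1⁻¹ * w2) ∈ x.C) : c ∈ x.Coo := by
  by_contra hcon
  have hWne : x.W ≠ ⊥ := fun h => by
    rw [h, finrank_bot] at hdim; omega
  have hinf : Infinite x.S.K := inferInstance
  -- every `c (w1⁻¹ w)` lies in `C (w1⁻¹ w2) + C`
  set A : Submodule x.S.K x.S.B := x.C.map (LinearMap.mulRight x.S.K (w1⁻¹ * (w2 : x.S.B))) with hA
  have hmem : ∀ w ∈ x.W, c * (w1⁻¹ * w) ∈ A ⊔ x.C := by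
    intro w hw
    have h2 := minKer (LinearMap.range (x.famG w1)) (A := x.phiG w1 w2) ⟨w2, rfl⟩
      (by rintro _ ⟨w', rfl⟩; exact hmin w') (B := x.phiG w1 w) ⟨⟨w, hw⟩, rfl⟩
      (v := ⟨c, hc⟩) ((x.phiG_eq_zero w1 w2 ⟨c, hc⟩).mpr hc2)
    obtain ⟨d, hd⟩ := h2
    rw [phiG_apply, phiG_apply, Submodule.mkQ_apply, Submodule.mkQ_apply] at hd
    have h3 : (d : x.S.B) * (w1⁻¹ * w2) - c * (w1⁻¹ * w) ∈ x.C :=
      (Submodule.Quotient.eq x.C).mp hd
    have h4 : c * (w1⁻¹ * w) =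
        (d : x.S.B) * (w1⁻¹ * w2) - ((d : x.S.B) * (w1⁻¹ * w2) - c * (w1⁻¹ * w)) := by abel
    rw [h4]
    refine Submodule.sub_mem _ (Submodule.mem_sup_left ⟨d, d.2, rfl⟩) (Submodule.mem_sup_right h3)
  -- dimension of `A ⊔ C`
  have hfC := finrank_C_eq hWM hWne
  have hdimS : finrank x.S.K (A ⊔ x.C : Submodule x.S.K x.S.B) + finrank x.S.K x.Coo ≤
      2 * finrank x.S.K x.C := by
    by_cases hz : (w2 : x.S.B) = 0
    · have hA0 : A = ⊥ := by
        rw [hA, hz, mul_zero, eq_bot_iff]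
        rintro _ ⟨d, _, rfl⟩
        simp
      rw [hA0, bot_sup_eq]
      omega
    · have e1 := Submodule.finrank_sup_add_finrank_inf_eq A x.C
      have e2 : finrank x.S.K A ≤ finrank x.S.K x.C := Submodule.finrank_map_le _ _
      have e3 : finrank x.S.K x.Coo ≤ finrank x.S.K (A ⊓ x.C : Submodule x.S.K x.S.B) :=
        Submodule.finrank_mono (le_inf (x.Coo_le_map hWM (x.ratio_mem h1 n1 w2.2)
          (mul_ne_zero (inv_ne_zero n1) hz)) x.Coo_le_C)
      omega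
  -- `W → (A ⊔ C) / Coo` is injective
  set V : Submodule x.S.K x.S.B := x.W.map (LinearMap.mulLeft x.S.K (c * w1⁻¹)) with hV
  have hc0 : c ≠ 0 := fun h => hcon (h ▸ x.Coo.zero_mem)
  have hV1 : finrank x.S.K V = finrank x.S.K x.W := by
    have hinj : Function.Injective (LinearMap.mulLeft x.S.K (c * w1⁻¹)) := fun a b hab =>
      mul_left_cancel₀ (mul_ne_zero hc0 (inv_ne_zero n1)) hab
    exact (LinearEquiv.finrank_eq (Submodule.equivMapOfInjective _ hinj _)).symm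
  have hV2 : V ⊓ x.Coo = ⊥ := by
    rw [eq_bot_iff]
    rintro _ ⟨⟨w, hw, rfl⟩, hy⟩
    rw [LinearMap.mulLeft_apply, mul_assoc] at hy ⊢
    rw [Submodule.mem_bot]
    by_contra h0
    have hr0 : w1⁻¹ * w ≠ 0 := right_ne_zero_of_mul h0
    apply hcon
    have := Coo_mul_H hWM hy (Inv.inv_mem x.H (x.ratio_mem h1 n1 hw))
    rwa [mul_assoc, mul_inv_cancel₀ hr0, mul_one] at this
  have hV3 : V ⊔ x.Coo ≤ A ⊔ x.C := by
    refine sup_le ?_ (le_trans x.Coo_le_C le_sup_right)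
    rintro _ ⟨w, hw, rfl⟩
    rw [LinearMap.mulLeft_apply, mul_assoc]
    exact hmem w hw
  have e4 := Submodule.finrank_sup_add_finrank_inf_eq V x.Coo
  rw [hV2, finrank_bot, hV1] at e4
  have e5 := Submodule.finrank_mono hV3
  omega

theorem exists_goodPair_proof (x : Pt S0 f0) (hWM : x.W ≤ x.M)
    (hdim : 2 * x.ξ < finrank x.S.K x.W) (h2 : 2 ≤ finrank x.S.K x.W) :
    ∃ w1 w2, x.GoodPair w1 w2 ∧ ∀ c : x.S.K, w2 ≠ c • w1 := by
  have hWne : x.W ≠ ⊥ := fun h => by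
    rw [h, finrank_bot] at hdim; omega
  obtain ⟨w1, h1, n1⟩ := (Submodule.ne_bot_iff x.W).mp hWne
  have hfC := finrank_C_eq hWM hWne
  by_cases hξ : x.ξ = 0
  · -- `C = Coo`
    have hCC : x.Coo = x.C := by
      apply Submodule.eq_of_le_of_finrank_eq x.Coo_le_C
      omega
    obtain ⟨w2, hw2, hnot⟩ : ∃ w2 ∈ x.W, w2 ∉ Submodule.span x.S.K {w1} := by
      by_contra hcon
      push Not at hcon
      have e1 : finrank x.S.K x.W ≤ finrank x.S.K (Submodule.span x.S.K {w1}) :=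
        Submodule.finrank_mono hcon
      have e2 := finrank_span_le_card (R := x.S.K) ({w1} : Set x.S.B)
      simp at e2
      omega
    have hk : ∀ c : x.S.K, w2 ≠ c • w1 := fun c hc =>
      hnot (hc ▸ Submodule.smul_mem _ _ (Submodule.mem_span_singleton_self w1))
    refine ⟨w1, w2, ⟨h1, hw2, n1, ?_, ?_⟩, hk⟩
    · intro h
      exact hk 0 (by rw [h, zero_smul])
    · intro β _ hb _
      rw [hCC]; exact hb
  · -- minimal kernel
    obtain ⟨w2, hmin⟩ : ∃ w2 : x.W, ∀ w : x.W,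
        finrank x.S.K (LinearMap.ker (x.phiG w1 w2)) ≤
          finrank x.S.K (LinearMap.ker (x.phiG w1 w)) := by
      obtain ⟨w2, hw2⟩ := (Set.range_nonempty fun w : x.W =>
        finrank x.S.K (LinearMap.ker (x.phiG w1 w))) |> fun h => WellFounded.min_mem
          (wellFounded_lt (α := ℕ)) _ h
      refine ⟨w2, fun w => ?_⟩
      have := WellFounded.not_lt_min (wellFounded_lt (α := ℕ))
        (Set.range fun w : x.W => finrank x.S.K (LinearMap.ker (x.phiG w1 w)))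
        ⟨w, rfl⟩
      simp only at hw2
      rw [hw2]
      exact not_lt.mp this
    have key : ∀ c ∈ x.C, c * (w1⁻¹ * w2) ∈ x.C → c ∈ x.Coo := fun c hc hc2 =>
      x.ker_le_Coo hWM hdim h1 n1 w2 hmin hc hc2
    have hk : ∀ c : x.S.K, (w2 : x.S.B) ≠ c • w1 := by
      intro k hk
      have hle : x.C ≤ x.Coo := by
        intro c hc
        refine key c hc ?_
        rw [hk, mul_smul_comm, inv_mul_cancel₀ n1, mul_smul_comm, mul_one]
        exact x.C.smul_mem k hc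
      have := Submodule.finrank_mono hle
      omega
    refine ⟨w1, w2, ⟨h1, w2.2, n1, ?_, ?_⟩, hk⟩
    · intro h
      exact hk 0 (by rw [h, zero_smul])
    · intro β _ hb1 hb2
      refine key _ hb1 ?_
      rw [mul_assoc, ← mul_assoc w1, mul_inv_cancel₀ n1, one_mul]
      exact hb2

end Pt

end Vale.P199
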