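import Vale.Agent.P199.Inv
import Vale.Agent.P199.BL1
import Vale.Agent.P199.BL4a
import Vale.Agent.P199.BL4b
import Vale.Agent.P199.BL4g

/-! # B4 : symbol algebra computations (bridge form; helper68's Sym.lean gives the internal computations) -/

open HahnSeries

namespace Vale.P199

/-- for `r` prime every monomial `≠ 1` is the first member of a symbol pair -/
theorem exists_symPair {K B : Type} [Field K] [DivisionRing B] [Algebra K B] {r : ℕ} {ζ : K}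
    (E : QExt K B r ζ) (hr : r.Prime) (hζ : IsPrimitiveRoot ζ r) (i j : Fin r)
    (hij : ¬ ((i : ℕ) = 0 ∧ (j : ℕ) = 0)) :
    ∃ P : SymPair E, P.u' = E.u ^ (i : ℕ) * E.v ^ (j : ℕ) :=
  E.exists_symPair_proof hr hζ i j hij

/-- B4.5 -/
theorem QExt.tr_mono {K B : Type} [Field K] [CharZero K] [DivisionRing B] [Algebra K B]
    [FiniteDimensional K B] {r : ℕ} {ζ : K} (E : QExt K B r ζ) (hr : 0 < r) (hζ : IsPrimitiveRoot ζ r)
    (b : B) (i j : Fin r) :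
    tr E.K1 E.B1 (E.jB b * (E.u ^ (i : ℕ) * E.v ^ (j : ℕ))) =
      if (i : ℕ) = 0 ∧ (j : ℕ) = 0 then (r : E.K1) ^ 2 * E.jK (tr K B b) else 0 :=
  E.tr_mono_proof hζ b i j

/-- elements commuting with `jB B` are the `K1`-combinations of the monomials -/
theorem QExt.mem_Q {K B : Type} [Field K] [CharZero K] [DivisionRing B] [Algebra K B]
    [FiniteDimensional K B] {r : ℕ} {ζ : K} (E : QExt K B r ζ) (hr : 0 < r)
    (central : ∀ a : B, (∀ b, a * b = b * a) → ∃ k, algebraMap K B k = a) (t : E.B1) :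
    (∀ b, E.jB b * t = t * E.jB b) ↔
      ∃ c : Fin r × Fin r → E.K1, t = ∑ ij, c ij • (E.u ^ (ij.1 : ℕ) * E.v ^ (ij.2 : ℕ)) :=
  E.mem_Q_proof central t

namespace Pt

variable {S0 : State} {f0 : NC S0.I S0.B}

/-- B4.2 -/
theorem finrank_calZ (x : Pt S0 f0) (hWM : x.W ≤ x.M) {r : ℕ} {ζ : x.S.K} (hr : 0 < r)
    (E : QExt x.S.K x.S.B r ζ) (P : SymPair E) (w1 w2 : x.S.B) (h1 : w1 ∈ x.W) (h2 : w2 ∈ x.W)
    (n1 : w1 ≠ 0) (n2 : w2 ≠ 0) :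
    Module.finrank E.K1 (x.calZ E (E.jB w1 * P.u' + E.jB w2 * P.v')) =
      r * Module.finrank x.S.K x.Z :=
  finrank_calZ_proof x hWM hr E P w1 w2 h1 h2 n1 n2

/-- B4.3a -/
theorem finrank_calC_le (x : Pt S0 f0) (hWM : x.W ≤ x.M) {r : ℕ} {ζ : x.S.K} (hr : 0 < r)
    (E : QExt x.S.K x.S.B r ζ) (P : SymPair E) (w1 w2 : x.S.B) (h1 : w1 ∈ x.W) (h2 : w2 ∈ x.W)
    (n1 : w1 ≠ 0) (n2 : w2 ≠ 0) (hH : x.H = Algebra.adjoin x.S.K {w1⁻¹ * w2}) :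
    Module.finrank E.K1 (x.calC E (E.jB w1 * P.u' + E.jB w2 * P.v')) ≤
      r * Module.finrank x.S.K x.Coo + Module.finrank x.S.K x.Z * x.η :=
  finrank_calC_le_proof x hWM hr E P w1 w2 h1 h2 n1 n2 hH

/-- B4.3b -/
theorem finrank_calC_good (x : Pt S0 f0) (hWM : x.W ≤ x.M) {r : ℕ} {ζ : x.S.K} (hr : 0 < r)
    (E : QExt x.S.K x.S.B r ζ) (P : SymPair E) (w1 w2 : x.S.B) (hg : x.GoodPair w1 w2) :
    Module.finrank E.K1 (x.calC E (E.jB w1 * P.u' + E.jB w2 * P.v')) =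
      r * Module.finrank x.S.K x.Coo + x.ξ :=
  finrank_calC_good_proof x hWM hr E P w1 w2 hg

/-- elements of `𝒞(X)`: constants from `C` -/
theorem C_mem_calC (x : Pt S0 f0) (hWM : x.W ≤ x.M) {r : ℕ} {ζ : x.S.K} (hr : 0 < r)
    (E : QExt x.S.K x.S.B r ζ) (P : SymPair E) (w1 w2 : x.S.B) (h1 : w1 ∈ x.W) (h2 : w2 ∈ x.W)
    (c : x.S.B) (hc : c ∈ x.C) :
    E.jB c ∈ x.calC E (E.jB w1 * P.u' + E.jB w2 * P.v') :=
  C_mem_calC_proof x hWM hr E P w1 w2 h1 h2 c hc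

/-- elements of `𝒞(X)`: `β X` with `β w1 ∈ Coo` -/
theorem βX_mem_calC (x : Pt S0 f0) (hWM : x.W ≤ x.M) {r : ℕ} {ζ : x.S.K} (hr : 0 < r)
    (E : QExt x.S.K x.S.B r ζ) (P : SymPair E) (w1 w2 : x.S.B) (h1 : w1 ∈ x.W) (h2 : w2 ∈ x.W)
    (n1 : w1 ≠ 0) (β : x.S.B) (hβ : β ∈ x.Z) (hc : β * w1 ∈ x.Coo) :
    E.jB β * (E.jB w1 * P.u' + E.jB w2 * P.v') ∈ x.calC E (E.jB w1 * P.u' + E.jB w2 * P.v') :=
  βX_mem_calC_proof x hWM hr E P w1 w2 h1 h2 n1 β hβ hc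

/-- basic dimension facts of the invariants when `W ⊆ M`, `W ≠ 0` -/
theorem basic_facts (x : Pt S0 f0) (hWM : x.W ≤ x.M) (hW : x.W ≠ ⊥) :
    x.H.toSubmodule ≤ x.M ∧ Module.finrank x.S.K x.W ≤ x.η ∧
    Module.finrank x.S.K x.Coo + x.η = Module.finrank x.S.K x.Z ∧
    Module.finrank x.S.K x.C + Module.finrank x.S.K x.W = Module.finrank x.S.K x.Z ∧
    x.Coo ≤ x.C ∧ (∀ c ∈ x.Coo, ∀ h ∈ x.H, c * h ∈ x.Coo) ∧
    Module.finrank x.S.K x.M ∣ Module.finrank x.S.K x.Z ∧ x.η ∣ Module.finrank x.S.K x.M :=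
  basic_facts_proof x hWM hW

/-- divisibility (no hypothesis on `W`) -/
theorem M_dvd_Z (x : Pt S0 f0) : Module.finrank x.S.K x.M ∣ Module.finrank x.S.K x.Z :=
  M_dvd_Z_proof x

/-- B4.4 -/
theorem exists_goodPair (x : Pt S0 f0) (hWM : x.W ≤ x.M) (hdim : 2 * x.ξ < Module.finrank x.S.K x.W)
    (h2 : 2 ≤ Module.finrank x.S.K x.W) :
    ∃ w1 w2, x.GoodPair w1 w2 ∧ ∀ c : x.S.K, w2 ≠ c • w1 :=
  exists_goodPair_proof x hWM hdim h2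

end Pt
end Vale.P199
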