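import Vale.Agent.P199.BL4
import Vale.Agent.P199.Taylor

/-!
# P199, B3.4 : for a `q`-minimal point `W ≤ M`
-/

open HahnSeries

namespace Vale.P199

/-- the trivial extension (`r = 1`) -/
noncomputable abbrev QExt.triv (K B : Type) [Field K] [CharZero K] [DivisionRing B] [Algebra K B]
    [FiniteDimensional K B]
    (central : ∀ a : B, (∀ b, a * b = b * a) → ∃ k, algebraMap K B k = a) :
    QExt K B 1 (1 : K) where
  K1 := K
  B1 := B
  jK := RingHom.id K
  jB := RingHom.id B
  comp := fun _ => rfl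
  u := 1
  v := 1
  hu := fun b => by simp
  hv := fun b => by simp
  huv := by simp
  hur := ⟨1, one_ne_zero, by simp⟩
  hvr := ⟨1, one_ne_zero, by simp⟩
  basis := fun {ι} _ b => ⟨b.reindex
    { toFun := fun x => (x, 0, 0), invFun := fun x => x.1, left_inv := fun _ => rfl,
      right_inv := fun x => by
        obtain ⟨x, j, k⟩ := x
        rw [Subsingleton.elim j 0, Subsingleton.elim k 0] }, fun x => by
    rw [Module.Basis.reindex_apply]
    simp⟩
  central := central

namespace State

/-- inner directions form a subspace -/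
def inn (S : State) : Submodule S.K (S.I → S.K) where
  carrier := {p | S.Inner p}
  add_mem' := by
    rintro p q ⟨y, hy1, hy2⟩ ⟨z, hz1, hz2⟩
    refine ⟨y + z, ?_, ?_⟩
    · rw [lin_add_dir, hy1, hz1]; noncomm_ring
    · rw [lin_add_dir, hy2, hz2]; noncomm_ring
  zero_mem' := ⟨0, by simp [lin], by simp [lin]⟩
  smul_mem' := by
    rintro c p ⟨y, hy1, hy2⟩
    refine ⟨c • y, ?_, ?_⟩
    · rw [lin_smul_dir, hy1, smul_sub, smul_mul_assoc, mul_smul_comm]
    · rw [lin_smul_dir, hy2, smul_sub, smul_mul_assoc, mul_smul_comm]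

theorem mem_inn (S : State) (p : S.I → S.K) : p ∈ S.inn ↔ S.Inner p := Iff.rfl

theorem indep_iff (S : State) (p q : S.I → S.K) :
    S.Indep p q ↔ ∀ a b : S.K, a • p + b • q ∈ S.inn → a = 0 ∧ b = 0 := Iff.rfl

/-- a non-inner direction can be completed to a pair which is independent modulo inner ones -/
theorem exists_indep (S : State) (h : ∃ p q, S.Indep p q) (p : S.I → S.K) (hp : ¬ S.Inner p) :
    ∃ q, S.Indep p q := by
  obtain ⟨p0, q0, h0⟩ := h
  rw [indep_iff] at h0
  by_contra hcon
  push Not at hcon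
  have key : ∀ q, ∃ α : S.K, q - α • p ∈ S.inn := by
    intro q
    have h1 := hcon q
    rw [indep_iff] at h1
    push Not at h1
    obtain ⟨a, b, hab, hne⟩ := h1
    by_cases hb : b = 0
    · exfalso
      have ha : a ≠ 0 := fun ha => hne ha hb
      subst hb
      rw [zero_smul, add_zero] at hab
      have := S.inn.smul_mem a⁻¹ hab
      rw [smul_smul, inv_mul_cancel₀ ha, one_smul] at this
      exact hp this
    · refine ⟨-(b⁻¹ * a), ?_⟩
      have := S.inn.smul_mem b⁻¹ hab
      rw [smul_add, smul_smul, smul_smul, inv_mul_cancel₀ hb, one_smul] at this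
      rw [neg_smul, sub_neg_eq_add, add_comm]
      exact this
  obtain ⟨α, hα⟩ := key p0
  obtain ⟨β, hβ⟩ := key q0
  have h1 : β • p0 + (-α) • q0 ∈ S.inn := by
    have := S.inn.sub_mem (S.inn.smul_mem β hα) (S.inn.smul_mem α hβ)
    have e : β • p0 + (-α) • q0 = β • (p0 - α • p) - α • (q0 - β • p) := by
      rw [smul_sub, smul_sub, smul_smul, smul_smul, mul_comm α β, neg_smul]; abel
    rw [e]; exact this
  have h2 := (h0 β (-α) h1).2
  have hα0 : α = 0 := neg_eq_zero.mp h2
  rw [hα0, zero_smul, sub_zero] at hα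
  have h3 : (1 : S.K) • p0 + (0 : S.K) • q0 ∈ S.inn := by
    rw [one_smul, zero_smul, add_zero]; exact hα
  exact one_ne_zero (h0 1 0 h3).1

end State

/-- the move with `r = 1`, `y = z P1` -/
noncomputable abbrev moveOne (S : State) (P1 P2 : S.I → S.K) (h : S.Indep P1 P2) : MoveData S where
  r := 1
  hr := one_pos
  ζ := 1
  hζ := IsPrimitiveRoot.one
  E := QExt.triv S.K S.B S.central
  y := fun i => PowerSeries.X * PowerSeries.C (algebraMap S.K S.B (P1 i))
  yQ := by
    intro i n b
    rcases n with - | n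
    · rw [PowerSeries.coeff_zero_X_mul, mul_zero, zero_mul]
    · rw [PowerSeries.coeff_succ_X_mul, PowerSeries.coeff_C]
      split_ifs
      · exact (Algebra.commutes _ _).symm
      · rw [mul_zero, zero_mul]
  κ := 1
  hκ := one_pos
  P1 := P1
  P2 := P2
  indep := h
  V1 := (1 : S.B)
  V2 := (0 : S.B)
  V1Q := fun b => by rw [mul_one, one_mul]
  V2Q := fun b => by rw [mul_zero, zero_mul]
  gen := ⟨Subalgebra.one_mem _, Subalgebra.one_mem _⟩
  low := by
    intro i n hn
    obtain rfl : n = 0 := by omega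
    rw [PowerSeries.coeff_zero_X_mul]
  lead := by
    intro i
    show PowerSeries.coeff (0 + 1) (PowerSeries.X * PowerSeries.C (algebraMap S.K S.B (P1 i))) =
      (P1 i) • (1 : S.B) + (P2 i) • (0 : S.B)
    rw [PowerSeries.coeff_succ_X_mul, PowerSeries.coeff_zero_C, smul_zero, add_zero,
      Algebra.algebraMap_eq_smul_one]

namespace Pt

variable {S0 : State} {f0 : NC S0.I S0.B}

/-- B3.4 -/
theorem W_le_M_proof (x : Pt S0 f0) (hf0 : f0 ∈ Algebra.adjoin S0.K {S0.X, S0.Y}) (h : x.QMin) :
    x.W ≤ x.M := by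
  classical
  by_contra hcon
  -- a linear coefficient outside `M`
  obtain ⟨i, hi⟩ : ∃ i, x.f [i] ∉ x.M := by
    by_contra hall
    push Not at hall
    exact hcon (Submodule.span_le.mpr (by rintro _ ⟨i, rfl⟩; exact hall i))
  set w := x.f [i] with hw
  let p : x.S.I → x.S.K := fun j => if j = i then 1 else 0
  have hp : State.lin x.f p = w := by
    simp [State.lin, p, hw]
  have hw0 : w ≠ 0 := by rintro h0; rw [h0] at hi; exact hi x.M.zero_mem
  have hpi : ¬ x.S.Inner p := fun hin => hw0 (by rw [← hp]; exact x.lin_inner hf0 p hin)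
  obtain ⟨P2, hP2⟩ := x.S.exists_indep x.g3 p hpi
  let D := moveOne x.S p P2 hP2
  have hlead1 : (D.sh x.f []).coeff 1 = w := by
    have := D.sh_nil_coeff_κ x.f
    have e : ((D.κ : ℕ) : ℤ) = 1 := rfl
    rw [e] at this
    rw [this]
    show State.lin x.f p * (1 : x.S.B) + State.lin x.f P2 * (0 : x.S.B) = w
    rw [hp, mul_one, mul_zero, add_zero]
  have hL : x.Leads D 1 w := by
    refine ⟨fun n hn h0 => ?_, hlead1⟩
    exact D.sh_coeff_neg x.f [] (by omega)
  -- `Z` drops
  have hZ : Module.finrank (D.E.K1⟦ℤ⟧) (x.move D).Z < Module.finrank x.S.K x.Z := by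
    rw [← finrank_redL (x.move D).Z]
    have h1 : redL (x.move D).Z ≤ x.calZ D.E w := x.redZ_le D 1 one_pos w hL
    have h2 : (x.calZ D.E w : Submodule x.S.K x.S.B) < x.Z := by
      refine lt_of_le_of_ne inf_le_left ?_
      intro heq
      apply hi
      intro z hz
      have hz' : z ∈ (x.calZ D.E w : Submodule x.S.K x.S.B) := by rw [heq]; exact hz
      exact Tr.mem_cen.mp hz'.2
    exact lt_of_le_of_lt (Submodule.finrank_mono h1) (Submodule.finrank_lt_finrank_of_lt h2)
  -- `M` does not drop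
  have hM : Module.finrank x.S.K x.M ≤ Module.finrank (D.E.K1⟦ℤ⟧) (x.move D).M := by
    rw [← finrank_redL (x.move D).M]
    have h1 : x.M ≤ (redL (x.move D).M : Submodule x.S.K x.S.B) := by
      intro b hb
      refine ⟨HahnSeries.C b, (x.M_move D).1 b hb, ?_, ?_⟩
      · intro k hk
        show (HahnSeries.C b : x.S.B⟦ℤ⟧).coeff k = 0
        rw [HahnSeries.C_apply, HahnSeries.coeff_single_of_ne (by omega)]
      · show (HahnSeries.C b : x.S.B⟦ℤ⟧).coeff 0 = b
        simp
    exact Submodule.finrank_mono h1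
  have hW : (x.move D).W ≠ ⊥ := by
    apply x.W_move_ne_bot D
    intro h0
    have := congrArg (fun s : D.E.B1⟦ℤ⟧ => s.coeff 1) h0
    simp only [hlead1, HahnSeries.C_apply, HahnSeries.coeff_single_of_ne (one_ne_zero)] at this
    exact hw0 this
  have hq := h.2 (x.move D) hW
  have e1 := x.finrank_Z
  have e2 := (x.move D).finrank_Z
  have h3 : x.q * Module.finrank x.S.K x.M ≤
      (x.move D).q * Module.finrank (D.E.K1⟦ℤ⟧) (x.move D).M := Nat.mul_le_mul hq hM
  have h4 : Module.finrank x.S.K x.Z ≤ Module.finrank (D.E.K1⟦ℤ⟧) (x.move D).Z := by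
    rw [e1]; exact h3.trans (le_of_eq e2.symm)
  exact absurd hZ (not_lt.mpr h4)

end Pt
end Vale.P199
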