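import Vale.Agent.P199.Sym0
import Vale.Agent.P199.Tr

/-!
# P199, B4: symbol extensions `B ⊗ Q`, coordinates, trace, base change `K → K1`
-/

namespace Vale.P199

open Finset Module

namespace Sym

variable {K B F R : Type} [Field K] [DivisionRing B] [Algebra K B] [Field F] [DivisionRing R]
  [Algebra F R]

/-- a symbol pair of an extension `B → R`, `K → F` -/
structure SD (jK : K →+* F) (jB : B →+* R) (r : ℕ) (ζ : K) (u v : R) : Prop where
  pos : 0 < r
  comp : ∀ k, jB (algebraMap K B k) = algebraMap F R (jK k)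
  prim : IsPrimitiveRoot ζ r
  hu : ∀ b, jB b * u = u * jB b
  hv : ∀ b, jB b * v = v * jB b
  huv : u * v = jB (algebraMap K B ζ) * (v * u)
  hur : ∃ α : F, α ≠ 0 ∧ u ^ r = algebraMap F R α
  hvr : ∃ α : F, α ≠ 0 ∧ v ^ r = algebraMap F R α
  basis : ∀ {ι : Type} [Fintype ι] (b : Basis ι K B),
    ∃ b1 : Basis (ι × Fin r × Fin r) F R,
      ∀ x, b1 x = jB (b x.1) * (u ^ (x.2.1 : ℕ) * v ^ (x.2.2 : ℕ))

/-- additive maps `F → K`, `K`-linear through `jK` -/
structure Lam (jK : K →+* F) where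
  f : F →+ K
  lin : ∀ c k, f (jK c * k) = c * f k

theorem Lam.exists_ne {jK : K →+* F} {k : F} (hk : k ≠ 0) : ∃ l : Lam jK, l.f k ≠ 0 := by
  let _ : Algebra K F := jK.toAlgebra
  by_contra hcon
  push Not at hcon
  refine hk ((Module.forall_dual_apply_eq_zero_iff K k).mp fun φ => ?_)
  exact hcon ⟨φ.toAddMonoidHom, fun c k => by
    show φ (jK c * k) = c * φ k
    have : jK c * k = c • k := (Algebra.smul_def c k).symm
    rw [this, map_smul, smul_eq_mul]⟩

/-- precomposition with a multiplication -/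
def Lam.mulr {jK : K →+* F} (l : Lam jK) (a : F) : Lam jK where
  f := l.f.comp (AddMonoidHom.mulRight a)
  lin c k := by
    simp only [AddMonoidHom.comp_apply, AddMonoidHom.mulRight_apply, mul_assoc, l.lin]

@[simp] theorem Lam.mulr_f {jK : K →+* F} (l : Lam jK) (a k : F) : (l.mulr a).f k = l.f (k * a) := rfl

variable {jK : K →+* F} {jB : B →+* R} {r : ℕ} {ζ : K} {u v : R}

namespace SD

theorem pair (h : SD jK jB r ζ u v) : Pair F r (jK ζ) u v where
  pos := h.pos
  prim := h.prim.map_of_injective jK.injective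
  u0 := by
    rintro rfl
    obtain ⟨α, h0, h1⟩ := h.hur
    rw [zero_pow h.pos.ne'] at h1
    exact h0 ((map_eq_zero _).mp h1.symm)
  v0 := by
    rintro rfl
    obtain ⟨α, h0, h1⟩ := h.hvr
    rw [zero_pow h.pos.ne'] at h1
    exact h0 ((map_eq_zero _).mp h1.symm)
  ur := by
    obtain ⟨α, _, h1⟩ := h.hur
    intro x; rw [h1, Algebra.commutes]
  vr := by
    obtain ⟨α, _, h1⟩ := h.hvr
    intro x; rw [h1, Algebra.commutes]
  rel := by rw [h.huv, h.comp, Algebra.smul_def]

theorem jB_smul (h : SD jK jB r ζ u v) (c : K) (b : B) : jB (c • b) = jK c • jB b := by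
  rw [Algebra.smul_def, map_mul, h.comp, ← Algebra.smul_def]

variable [FiniteDimensional K B] (h : SD jK jB r ζ u v)

/-- the basis `b_l u^i v^j` of `R` -/
noncomputable def b1 : Basis (Fin (finrank K B) × Fin r × Fin r) F R :=
  Classical.choose (h.basis (finBasis K B))

theorem b1_apply (x : Fin (finrank K B) × Fin r × Fin r) :
    h.b1 x = jB (finBasis K B x.1) * (u ^ (x.2.1 : ℕ) * v ^ (x.2.2 : ℕ)) :=
  Classical.choose_spec (h.basis (finBasis K B)) x

include h in
theorem ind {p : R → Prop} (h0 : p 0) (hadd : ∀ x y, p x → p y → p (x + y))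
    (hgen : ∀ (k : F) (b : B) (i j : Fin r), p (k • (jB b * (u ^ (i : ℕ) * v ^ (j : ℕ))))) (x : R) :
    p x := by
  rw [← h.b1.sum_repr x]
  refine Finset.sum_induction _ p hadd h0 fun c _ => ?_
  rw [h.b1_apply]
  exact hgen _ _ _ _

include h

/-- the `B`-valued coordinate -/
noncomputable def tw (l : Lam jK) : R →+ B where
  toFun x := ∑ i, l.f (h.b1.repr x (i, ⟨0, h.pos⟩, ⟨0, h.pos⟩)) • finBasis K B i
  map_zero' := by simp
  map_add' x y := by simp [add_smul, sum_add_distrib]

theorem tw_gen (l : Lam jK) (k : F) (b : B) (i j : Fin r) :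
    h.tw l (k • (jB b * (u ^ (i : ℕ) * v ^ (j : ℕ)))) =
      if (i : ℕ) = 0 ∧ (j : ℕ) = 0 then l.f k • b else 0 := by
  have h1 : k • (jB b * (u ^ (i : ℕ) * v ^ (j : ℕ))) =
      ∑ m, (k * jK ((finBasis K B).repr b m)) • h.b1 (m, i, j) := by
    conv_lhs => rw [← (finBasis K B).sum_repr b]
    rw [map_sum, sum_mul, smul_sum]
    refine sum_congr rfl fun m _ => ?_
    rw [h.b1_apply, h.jB_smul, smul_mul_assoc, smul_smul]
  show ∑ l', l.f (h.b1.repr _ (l', ⟨0, h.pos⟩, ⟨0, h.pos⟩)) • finBasis K B l' = _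
  rw [h1]
  simp only [map_sum, map_smul, Basis.repr_self, Finsupp.coe_finsetSum, Finsupp.coe_smul,
    Finset.sum_apply, Pi.smul_apply, smul_eq_mul]
  have h2 : ∀ l' m : Fin (finrank K B), (Finsupp.single (m, i, j) (1 : F))
      (l', (⟨0, h.pos⟩ : Fin r), (⟨0, h.pos⟩ : Fin r)) =
      if m = l' ∧ ((i : ℕ) = 0 ∧ (j : ℕ) = 0) then 1 else 0 := by
    intro l' m
    rw [Finsupp.single_apply]
    congr 1
    simp [Fin.ext_iff, Prod.ext_iff]
  simp only [h2]
  split_ifs with hij
  · have h3 : ∀ l' : Fin (finrank K B),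
        (∑ m, l.f (k * jK ((finBasis K B).repr b m) * (if m = l' ∧ ((i : ℕ) = 0 ∧ (j : ℕ) = 0) then 1 else 0))) =
        (finBasis K B).repr b l' * l.f k := by
      intro l'
      rw [sum_eq_single l']
      · rw [if_pos ⟨rfl, hij⟩, mul_one, mul_comm, l.lin]
      · intro m _ hm
        rw [if_neg (fun hh => hm hh.1), mul_zero, map_zero]
      · intro hh; exact absurd (mem_univ _) hh
    rw [sum_congr rfl fun l' _ => by rw [h3 l']]
    conv_rhs => rw [← (finBasis K B).sum_repr b, smul_sum]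
    refine sum_congr rfl fun m _ => ?_
    rw [smul_smul, mul_comm]
  · refine sum_eq_zero fun l' _ => ?_
    rw [sum_eq_zero, zero_smul]
    intro m _
    rw [if_neg (fun hh => hij hh.2), mul_zero, map_zero]

theorem tw_jB (l : Lam jK) (k : F) (b : B) : h.tw l (k • jB b) = l.f k • b := by
  have := h.tw_gen l k b ⟨0, h.pos⟩ ⟨0, h.pos⟩
  simpa using this

omit [FiniteDimensional K B] in
theorem mono_comm (b : B) (i j : ℕ) : jB b * (u ^ i * v ^ j) = (u ^ i * v ^ j) * jB b :=
  (Commute.mul_right ((show Commute (jB b) u from h.hu b).pow_right i)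
    ((show Commute (jB b) v from h.hv b).pow_right j)).eq

theorem tw_mul_left (l : Lam jK) (b : B) (x : R) : h.tw l (jB b * x) = b * h.tw l x := by
  refine h.ind (p := fun x => h.tw l (jB b * x) = b * h.tw l x) (by simp) ?_ ?_ x
  · intro x y hx hy; rw [mul_add, map_add, map_add, hx, hy, mul_add]
  · intro k b' i j
    rw [mul_smul_comm, ← mul_assoc, ← map_mul, tw_gen, tw_gen]
    split_ifs <;> simp

theorem tw_mul_right (l : Lam jK) (b : B) (x : R) : h.tw l (x * jB b) = h.tw l x * b := by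
  refine h.ind (p := fun x => h.tw l (x * jB b) = h.tw l x * b) (by simp) ?_ ?_ x
  · intro x y hx hy; rw [add_mul, map_add, map_add, hx, hy, add_mul]
  · intro k b' i j
    rw [smul_mul_assoc, mul_assoc, ← h.mono_comm b, ← mul_assoc, ← map_mul, tw_gen, tw_gen]
    split_ifs <;> simp

theorem tw_smul (l : Lam jK) (c : F) (x : R) : h.tw l (c • x) = h.tw (l.mulr c) x := by
  refine h.ind (p := fun x => h.tw l (c • x) = h.tw (l.mulr c) x) (by simp) ?_ ?_ x
  · intro x y hx hy; rw [smul_add, map_add, map_add, hx, hy]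
  · intro k b' i j
    rw [smul_smul, tw_gen, tw_gen, Lam.mulr_f, mul_comm]

/-! ### degree `(0,0)` components -/

theorem P0_gen [CharZero F] (k : F) (b : B) (i j : Fin r) :
    P0 F r (jK ζ) u v (k • (jB b * (u ^ (i : ℕ) * v ^ (j : ℕ)))) =
      if (i : ℕ) = 0 ∧ (j : ℕ) = 0 then k • jB b else 0 := by
  have h1 := coef_mono h.pair (h.hu b).symm (h.hv b).symm i.2 j.2 h.pos h.pos
  simp only [coef, pow_zero, mul_one, inv_one] at h1
  rw [map_smul, h1]
  split_ifs <;> simp

theorem tw_P0 [CharZero F] (l : Lam jK) (x : R) : h.tw l (P0 F r (jK ζ) u v x) = h.tw l x := by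
  refine h.ind (p := fun x => h.tw l (P0 F r (jK ζ) u v x) = h.tw l x) (by simp) ?_ ?_ x
  · intro x y hx hy; rw [map_add, map_add, map_add, hx, hy]
  · intro k b i j
    rw [P0_gen h, tw_gen]
    split_ifs
    · rw [tw_jB]
    · simp

omit [FiniteDimensional K B] in
theorem P0_eq_self [CharZero F] {y : R} (hu : u * y = y * u) (hv : v * y = y * v) :
    P0 F r (jK ζ) u v y = y := by
  have h1 := coef_mono h.pair hu hv h.pos h.pos h.pos h.pos
  simpa [coef] using h1

/-- expansion of an element commuting with `u, v`, in any basis of `B` -/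
theorem exp_of_comm [CharZero F] {y : R} (hu : u * y = y * u) (hv : v * y = y * v) {ι : Type}
    [Fintype ι] (b : Basis ι K B) : ∃ c : ι → F, y = ∑ i, c i • jB (b i) := by
  obtain ⟨b1, hb1⟩ := h.basis b
  refine ⟨fun i => b1.repr y (i, ⟨0, h.pos⟩, ⟨0, h.pos⟩), ?_⟩
  have h1 : y = P0 F r (jK ζ) u v (∑ c, b1.repr y c • b1 c) := by
    rw [b1.sum_repr, P0_eq_self h hu hv]
  have h2 : ∀ c : ι × Fin r × Fin r, P0 F r (jK ζ) u v (b1.repr y c • b1 c) =
      if (c.2.1 : ℕ) = 0 ∧ (c.2.2 : ℕ) = 0 then b1.repr y c • jB (b c.1) else 0 := by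
    intro c
    rw [hb1, P0_gen h]
  rw [map_sum, sum_congr rfl fun c _ => h2 c, Fintype.sum_prod_type] at h1
  refine h1.trans (sum_congr rfl fun i _ => ?_)
  rw [Fintype.sum_prod_type, sum_eq_single ⟨0, h.pos⟩]
  · rw [sum_eq_single ⟨0, h.pos⟩]
    · simp
    · intro j _ hj
      rw [if_neg]
      rintro ⟨_, h3⟩
      exact hj (Fin.ext h3)
    · intro hh; exact absurd (mem_univ _) hh
  · intro i' _ hi'
    refine sum_eq_zero fun j _ => ?_
    rw [if_neg]
    rintro ⟨h3, _⟩
    exact hi' (Fin.ext h3)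
  · intro hh; exact absurd (mem_univ _) hh

theorem eq_zero_of_tw [CharZero F] {y : R} (hu : u * y = y * u) (hv : v * y = y * v)
    (ht : ∀ l : Lam jK, h.tw l y = 0) : y = 0 := by
  obtain ⟨c, hc⟩ := h.exp_of_comm hu hv (finBasis K B)
  have h1 : ∀ i, c i = 0 := by
    intro i
    by_contra hne
    obtain ⟨l, hl⟩ := Lam.exists_ne (jK := jK) hne
    have h2 := ht l
    rw [hc, map_sum] at h2
    simp only [tw_jB] at h2
    exact hl (Fintype.linearIndependent_iff.mp (finBasis K B).linearIndependent _ h2 i)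
  rw [hc]
  simp [h1]

/-- all the coordinates determine `x` -/
theorem eq_zero_of_all [CharZero F] {x : R}
    (ht : ∀ (l : Lam jK) (i j : ℕ), i < r → j < r → h.tw l (x * (u ^ i * v ^ j)⁻¹) = 0) : x = 0 := by
  rw [← sum_coef h.pair x]
  refine sum_eq_zero fun i hi => sum_eq_zero fun j hj => ?_
  rw [mem_range] at hi hj
  have : coef F r (jK ζ) u v i j x = 0 := by
    refine h.eq_zero_of_tw (u_mul_P0 h.pair _) (v_mul_P0 h.pair _) fun l => ?_
    rw [coef, tw_P0]
    exact ht l i j hi hj
  rw [this, zero_mul]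

/-! ### base change of subspaces -/

/-- `S ⊗ K1` -/
def Ext (F : Type) {K B R : Type} [Field K] [DivisionRing B] [Algebra K B] [Field F] [DivisionRing R]
    [Algebra F R] (jB : B →+* R) (S : Submodule K B) : Submodule F R :=
  Submodule.span F (jB '' S)

theorem mem_ext_tw {S : Submodule K B} {y : R} (hy : y ∈ Ext F jB S) (l : Lam jK) :
    h.tw l y ∈ S := by
  induction hy using Submodule.span_induction generalizing l with
  | mem x hx =>
    obtain ⟨s, hs, rfl⟩ := hx
    have := h.tw_jB l 1 s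
    rw [one_smul] at this
    rw [this]
    exact S.smul_mem _ hs
  | zero => simp
  | add x y _ _ hx hy => rw [map_add]; exact add_mem (hx l) (hy l)
  | smul c x _ hx => rw [tw_smul]; exact hx _

omit [FiniteDimensional K B] h in
theorem ext_comm {S : Submodule K B} {y : R} (hy : y ∈ Ext F jB S) {a : R}
    (ha : ∀ b ∈ S, a * jB b = jB b * a) : a * y = y * a := by
  induction hy using Submodule.span_induction with
  | mem x hx => obtain ⟨s, hs, rfl⟩ := hx; exact ha s hs
  | zero => simp
  | add x y _ _ hx hy => rw [mul_add, add_mul, hx, hy]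
  | smul c x _ hx => rw [mul_smul_comm, smul_mul_assoc, hx]

theorem mem_ext_of_tw [CharZero F] {S : Submodule K B} {y : R} (hu : u * y = y * u)
    (hv : v * y = y * v) (ht : ∀ l : Lam jK, h.tw l y ∈ S) : y ∈ Ext F jB S := by
  obtain ⟨S', hS'⟩ := Submodule.exists_isCompl S
  set bb := ((finBasis K S).prod (finBasis K S')).map (Submodule.prodEquivOfIsCompl S S' hS') with hbb
  have b_inl : ∀ i, bb (Sum.inl i) = (finBasis K S i : B) := by
    intro i; simp [hbb, Basis.map_apply, Submodule.coe_prodEquivOfIsCompl']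
  have b_inr : ∀ i, bb (Sum.inr i) = (finBasis K S' i : B) := by
    intro i; simp [hbb, Basis.map_apply, Submodule.coe_prodEquivOfIsCompl']
  obtain ⟨c, hc⟩ := h.exp_of_comm hu hv bb
  have h1 : ∀ i, c (Sum.inr i) = 0 := by
    intro i
    by_contra hne
    obtain ⟨l, hl⟩ := Lam.exists_ne (jK := jK) hne
    have h2 := ht l
    rw [hc, map_sum] at h2
    simp only [tw_jB, Fintype.sum_sum_type, b_inl, b_inr] at h2
    have h3 : ∑ x, l.f (c (Sum.inl x)) • (finBasis K S x : B) ∈ S :=
      sum_mem fun x _ => S.smul_mem _ (finBasis K S x).2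
    have h4 : ∑ x, l.f (c (Sum.inr x)) • (finBasis K S' x : B) ∈ S := by
      have := S.sub_mem h2 h3
      simpa using this
    have h5 : ∑ x, l.f (c (Sum.inr x)) • (finBasis K S' x : B) ∈ S' :=
      sum_mem fun x _ => S'.smul_mem _ (finBasis K S' x).2
    have h6 : ∑ x, l.f (c (Sum.inr x)) • (finBasis K S' x : B) = 0 :=
      (Submodule.disjoint_def.mp hS'.disjoint) _ h4 h5
    have h7 : ∑ x, l.f (c (Sum.inr x)) • finBasis K S' x = 0 := by
      apply Subtype.ext
      simpa using h6
    exact hl (Fintype.linearIndependent_iff.mp (finBasis K S').linearIndependent _ h7 i)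
  rw [hc, Fintype.sum_sum_type]
  simp only [h1, zero_smul, sum_const_zero, add_zero, b_inl]
  exact sum_mem fun i _ => Submodule.smul_mem _ _
    (Submodule.subset_span ⟨_, (finBasis K S i).2, rfl⟩)

/-- independence is preserved -/
theorem linInd [CharZero F] {ι : Type} [Fintype ι] {s : ι → B} (hs : LinearIndependent K s)
    {c : ι → F} (hc : ∑ i, c i • jB (s i) = 0) (i : ι) : c i = 0 := by
  by_contra hne
  obtain ⟨l, hl⟩ := Lam.exists_ne (jK := jK) hne
  have h2 : h.tw l (∑ i, c i • jB (s i)) = 0 := by rw [hc, map_zero]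
  rw [map_sum] at h2
  simp only [tw_jB] at h2
  exact hl (Fintype.linearIndependent_iff.mp hs _ h2 i)

/-! ### trace -/

omit [FiniteDimensional K B] in
theorem tr_mono_ne [CharZero F] [FiniteDimensional F R] (b : B) {i j : ℕ} (hi : i < r) (hj : j < r)
    (hij : ¬ (i = 0 ∧ j = 0)) : tr F R (jB b * (u ^ i * v ^ j)) = 0 := by
  have hP := h.pair
  set y := jB b * (u ^ i * v ^ j) with hy
  -- conjugation invariance
  have key : ∀ (w : R) (c : F), w ≠ 0 → c ≠ 1 → w * y = c • (y * w) → tr F R y = 0 := by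
    intro w c hw hc he
    have h1 : tr F R (w * y * w⁻¹) = tr F R y := by
      rw [Tr.tr_mul_comm, ← mul_assoc, inv_mul_cancel₀ hw, one_mul]
    rw [he, smul_mul_assoc, mul_assoc, mul_inv_cancel₀ hw, mul_one, map_smul, smul_eq_mul] at h1
    have h2 : (c - 1) * tr F R y = 0 := by rw [sub_mul, h1, one_mul, sub_self]
    exact (mul_eq_zero.mp h2).resolve_left (sub_ne_zero.mpr hc)
  by_cases hi0 : i = 0
  · have hj0 : j ≠ 0 := fun hh => hij ⟨hi0, hh⟩
    refine key u (jK ζ ^ j) hP.u0 (hP.prim.pow_ne_one_of_pos_of_lt hj0 hj) ?_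
    exact u_mul_mono hP (h.hu b).symm i j
  · refine key v ((jK ζ)⁻¹ ^ i) hP.v0 (hP.prim.inv.pow_ne_one_of_pos_of_lt hi0 hi) ?_
    exact v_mul_mono hP (h.hv b).symm i j

theorem tr_jB (b : B) : tr F R (jB b) = (r : F) ^ 2 * jK (tr K B b) := by
  classical
  have h1 : tr F R (jB b) = ∑ c, h.b1.repr (jB b * h.b1 c) c := by
    show (LinearMap.trace F R) (LinearMap.mul F R (jB b)) = _
    rw [LinearMap.trace_eq_matrix_trace F h.b1, Matrix.trace]
    refine sum_congr rfl fun c _ => ?_
    rw [Matrix.diag_apply, LinearMap.toMatrix_apply, LinearMap.mul_apply']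
  have h2 : tr K B b = ∑ m, (finBasis K B).repr (b * finBasis K B m) m := by
    show (LinearMap.trace K B) (LinearMap.mul K B b) = _
    rw [LinearMap.trace_eq_matrix_trace K (finBasis K B), Matrix.trace]
    refine sum_congr rfl fun c _ => ?_
    rw [Matrix.diag_apply, LinearMap.toMatrix_apply, LinearMap.mul_apply']
  have h3 : ∀ c, h.b1.repr (jB b * h.b1 c) c = jK ((finBasis K B).repr (b * finBasis K B c.1) c.1) := by
    intro c
    have h4 : jB b * h.b1 c =
        ∑ m, jK ((finBasis K B).repr (b * finBasis K B c.1) m) • h.b1 (m, c.2) := by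
      rw [h.b1_apply, ← mul_assoc, ← map_mul]
      conv_lhs => rw [← (finBasis K B).sum_repr (b * finBasis K B c.1)]
      rw [map_sum, sum_mul]
      refine sum_congr rfl fun m _ => ?_
      rw [h.b1_apply, h.jB_smul, smul_mul_assoc]
    rw [h4]
    simp only [map_sum, map_smul, Basis.repr_self, Finsupp.coe_finsetSum, Finsupp.coe_smul,
      Finset.sum_apply, Pi.smul_apply, smul_eq_mul]
    rw [sum_eq_single c.1]
    · simp
    · intro m _ hm
      rw [Finsupp.single_apply, if_neg, mul_zero]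
      intro hh
      exact hm (congrArg Prod.fst hh)
    · intro hh; exact absurd (mem_univ _) hh
  rw [h1, sum_congr rfl fun c _ => h3 c, Fintype.sum_prod_type]
  simp only [sum_const, card_univ, Fintype.card_prod, Fintype.card_fin, nsmul_eq_mul]
  rw [h2, map_sum, mul_sum]
  refine sum_congr rfl fun m _ => ?_
  push_cast
  ring

/-- B4.5 in the form of coordinates -/
theorem tr_tw [CharZero F] [FiniteDimensional F R] (l : Lam jK) (x : R) :
    l.f (tr F R x) = (r : K) ^ 2 * tr K B (h.tw l x) := by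
  refine h.ind (p := fun x => l.f (tr F R x) = (r : K) ^ 2 * tr K B (h.tw l x)) (by simp) ?_ ?_ x
  · intro x y hx hy; rw [map_add, map_add, map_add, map_add, hx, hy, mul_add]
  · intro k b i j
    rw [tw_gen]
    split_ifs with hij
    · rw [hij.1, hij.2, pow_zero, pow_zero, mul_one, mul_one, map_smul, smul_eq_mul, tr_jB h,
        map_smul, smul_eq_mul]
      have h1 : k * ((r : F) ^ 2 * jK (tr K B b)) = jK ((r : K) ^ 2 * tr K B b) * k := by
        rw [map_mul, map_pow, map_natCast]; ring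
      rw [h1, l.lin]; ring
    · rw [map_smul, h.tr_mono_ne b i.2 j.2 hij]
      simp

theorem tr_mono [CharZero F] [FiniteDimensional F R] (b : B) (i j : Fin r) :
    tr F R (jB b * (u ^ (i : ℕ) * v ^ (j : ℕ))) =
      if (i : ℕ) = 0 ∧ (j : ℕ) = 0 then (r : F) ^ 2 * jK (tr K B b) else 0 := by
  split_ifs with hij
  · rw [hij.1, hij.2, pow_zero, pow_zero, mul_one, mul_one, tr_jB h]
  · exact h.tr_mono_ne b i.2 j.2 hij

end SD

end Sym

end Vale.P199
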