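import Vale.Agent.P199.BDefs2
import Vale.Agent.P199.Inv
import Vale.Agent.P199.Sym1

/-! # P199 : the elements `jB (m_l) * X^k` (`m_l ∈ Z` independent, `k < r`) are independent over `K1` -/

open HahnSeries Module

namespace Vale.P199

/-- a symbol pair of the extension in the form of `Sym1.lean` -/
theorem SymPair.sd' {K B : Type} [Field K] [DivisionRing B] [Algebra K B] {r : ℕ} {ζ : K}
    {E : QExt K B r ζ} (P : SymPair E) (hr : 0 < r) : Sym.SD E.jK E.jB r P.ζ' P.u' P.v' where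
  pos := hr
  comp := E.comp
  prim := P.prim
  hu := P.hu
  hv := P.hv
  huv := P.huv
  hur := P.hur
  hvr := P.hvr
  basis := P.basis

namespace Pt

open Tr

variable {S0 : State} {f0 : NC S0.I S0.B}

/-- the independence needed in the common chain -/
def IndepX (x : Pt S0 f0) {r : ℕ} {ζ : x.S.K} (E : QExt x.S.K x.S.B r ζ) (X : E.B1) : Prop :=
  ∀ {ι : Type} [Fintype ι] (m : ι → x.S.B), LinearIndependent x.S.K m →
    LinearIndependent E.K1 (fun p : ι × Fin r => E.jB (m p.1) * X ^ (p.2 : ℕ))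

theorem indepX (x : Pt S0 f0) (hWM : x.W ≤ x.M) {r : ℕ} {ζ : x.S.K} (hr : 0 < r)
    (E : QExt x.S.K x.S.B r ζ) (P : SymPair E) (w1 w2 : x.S.B) (h1 : w1 ∈ x.W) (h2 : w2 ∈ x.W)
    (n1 : w1 ≠ 0) (n2 : w2 ≠ 0) : x.IndepX E (E.jB w1 * P.u' + E.jB w2 * P.v') := by
  intro ι _ m hli
  have hS := P.sd' hr
  have hP := hS.pair
  have hw : Sym.Wts P.u' P.v' (E.jB w1) (E.jB w2) := by
    refine ⟨(P.hu w1).symm, (P.hv w1).symm, (P.hu w2).symm, (P.hv w2).symm, ?_, ?_, ?_⟩
    · rw [← map_mul, ← map_mul]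
      congr 1
      exact hWM h1 w2 (x.W_le_Z h2)
    · exact (map_ne_zero _).mpr n1
    · exact (map_ne_zero _).mpr n2
  rw [Fintype.linearIndependent_iff]
  intro c hc
  -- group by powers
  set β : Fin r → E.B1 := fun k => ∑ l, c (l, k) • E.jB (m l) with hβ
  have hβu : ∀ k, P.u' * β k = β k * P.u' := by
    intro k
    rw [hβ]
    simp only [Finset.mul_sum, Finset.sum_mul, mul_smul_comm, smul_mul_assoc, P.hu]
  have hβv : ∀ k, P.v' * β k = β k * P.v' := by
    intro k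
    rw [hβ]
    simp only [Finset.mul_sum, Finset.sum_mul, mul_smul_comm, smul_mul_assoc, P.hv]
  have hsum : ∑ k : Fin r, β k * (E.jB w1 * P.u' + E.jB w2 * P.v') ^ (k : ℕ) = 0 := by
    rw [← hc, Fintype.sum_prod_type_right]
    refine Finset.sum_congr rfl fun k _ => ?_
    rw [hβ]
    simp only [Finset.sum_mul, smul_mul_assoc]
  have hβ0 : ∀ k, β k = 0 := by
    intro k
    have h3 : ∑ j : Fin r, Sym.coef E.K1 r (E.jK P.ζ') P.u' P.v' k 0
        (β j * (E.jB w1 * P.u' + E.jB w2 * P.v') ^ (j : ℕ)) = 0 := by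
      have h4 : Sym.coef E.K1 r (E.jK P.ζ') P.u' P.v' k 0 (∑ j : Fin r,
          β j * (E.jB w1 * P.u' + E.jB w2 * P.v') ^ (j : ℕ)) = 0 := by
        rw [hsum]; simp [Sym.coef]
      rw [← h4]
      simp only [Sym.coef, Finset.sum_mul, map_sum]
    rw [Finset.sum_eq_single k] at h3
    · rw [Sym.coef_X_pow hP hw (hβu k) (hβv k) k.2 k.2 hr, add_zero, if_pos rfl, pow_zero,
        mul_one] at h3
      have hq : Sym.qb (E.jK P.ζ')⁻¹ (k : ℕ) (k : ℕ) ≠ 0 :=
        Sym.qb_ne_zero hP.prim.inv k.2 le_rfl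
      have h5 := (smul_eq_zero.mp h3).resolve_left hq
      exact (mul_eq_zero.mp h5).resolve_right (pow_ne_zero _ hw.ne1)
    · intro j _ hj
      rw [Sym.coef_X_pow hP hw (hβu j) (hβv j) j.2 k.2 hr, if_neg]
      intro he
      exact hj (Fin.ext (by omega))
    · intro h; exact absurd (Finset.mem_univ _) h
  rintro ⟨l, k⟩
  exact hS.linInd hli (hβ0 k) l

end Pt
end Vale.P199
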