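import Vale.Agent.P199.BL4
import Vale.Agent.P199.IndX

/-! # B5.1 (common chain) and B5.3 (persistence) -/

open HahnSeries Module

namespace Vale.P199
namespace Pt

open Tr

variable {S0 : State} {f0 : NC S0.I S0.B}

theorem IndepX.ne_zero {x : Pt S0 f0} {r : ℕ} {ζ : x.S.K} {E : QExt x.S.K x.S.B r ζ} {X : E.B1}
    (h : x.IndepX E X) (hr : 2 ≤ r) : X ≠ 0 := by
  have h1 := h (ι := Unit) (fun _ => 1)
    (LinearIndependent.of_subsingleton (i := ()) (v := fun _ => (1 : x.S.B)) one_ne_zero)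
  have h2 := h1.ne_zero ((), (⟨1, by omega⟩ : Fin r))
  simpa using h2

theorem a_mem_M (x : Pt S0 f0) : x.a ∈ x.M := fun _ hz => mem_cen.mp hz

/-- `η = a' - a` -/
noncomputable def dev (x : Pt S0 f0) (D : MoveData x.S) : D.E.B1⟦ℤ⟧ :=
  D.sh x.f [] - HahnSeries.C (D.E.jB x.a)

theorem dev_coeff (x : Pt S0 f0) (D : MoveData x.S) {k : ℕ} (hk : 0 < k) {X : D.E.B1}
    (hL : x.Leads D k X) : (∀ n : ℤ, n < k → (x.dev D).coeff n = 0) ∧ (x.dev D).coeff k = X := by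
  have hC : ∀ n : ℤ, n ≠ 0 → (HahnSeries.C (D.E.jB x.a) : D.E.B1⟦ℤ⟧).coeff n = 0 := by
    intro n hn
    rw [HahnSeries.C_apply]
    exact coeff_single_of_ne hn
  constructor
  · intro n hn
    rw [dev, coeff_sub]
    by_cases h0 : n = 0
    · subst h0
      rw [MoveData.sh_nil_coeff_zero, HahnSeries.C_apply, coeff_single_same]
      exact sub_self _
    · rw [hL.1 n hn h0, hC n h0, sub_zero]
  · rw [dev, coeff_sub, hL.2, hC _ (by exact_mod_cast hk.ne'), sub_zero]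

theorem dev_pow_coeff (x : Pt S0 f0) (D : MoveData x.S) {k : ℕ} (hk : 0 < k) {X : D.E.B1}
    (hL : x.Leads D k X) (i : ℕ) :
    (∀ n : ℤ, n < (k * i : ℕ) → ((x.dev D) ^ i).coeff n = 0) ∧
      ((x.dev D) ^ i).coeff (k * i : ℕ) = X ^ i := by
  induction i with
  | zero =>
    simp only [mul_zero, pow_zero, Nat.cast_zero]
    refine ⟨fun n hn => ?_, by simp⟩
    rw [coeff_one, if_neg (by omega)]
  | succ i ih =>
    have h := mul_coeff_of_lower (k := (k * i : ℕ)) (l := (k : ℤ)) ih.1 (x.dev_coeff D hk hL).1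
    rw [pow_succ, pow_succ]
    have e : ((k * (i + 1) : ℕ) : ℤ) = (k * i : ℕ) + (k : ℤ) := by push_cast; ring
    rw [e]
    refine ⟨h.1, ?_⟩
    rw [h.2, ih.2, (x.dev_coeff D hk hL).2]

theorem dev_mem (x : Pt S0 f0) (D : MoveData x.S) : x.dev D ∈ (x.move D).M :=
  sub_mem (x.M_move D).2.1 ((x.M_move D).1 _ x.a_mem_M)

theorem dev_pow_mem (x : Pt S0 f0) (D : MoveData x.S) (i : ℕ) :
    (x.dev D) ^ i ∈ (x.move D).M := by
  induction i with
  | zero =>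
    have h := (x.M_move D).1 1 (Inv.one_mem_cc _)
    rw [map_one, map_one] at h
    rw [pow_zero]; exact h
  | succ i ih =>
    rw [pow_succ]
    exact (x.M_move D).2.2 _ _ ih (x.dev_mem D)

/-- `μ' ≥ r μ` -/
theorem le_finrank_M_move (x : Pt S0 f0) (D : MoveData x.S) {k : ℕ} (hk : 0 < k) {X : D.E.B1}
    (hL : x.Leads D k X) (hX : x.IndepX D.E X) :
    D.r * finrank x.S.K x.M ≤ finrank (D.E.K1⟦ℤ⟧) (x.move D).M := by
  let e := Module.finBasis x.S.K x.M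
  have hli : LinearIndependent x.S.K (fun l => ((e l : x.M) : x.S.B)) :=
    e.linearIndependent.map' x.M.subtype (Submodule.ker_subtype _)
  have h1 := hX (fun l => ((e l : x.M) : x.S.B)) hli
  have hmem : ∀ p : Fin (finrank x.S.K x.M) × Fin D.r,
      D.E.jB (e p.1 : x.S.B) * X ^ (p.2 : ℕ) ∈ redL (x.move D).M := by
    intro p
    rw [mem_redL]
    have hp := x.dev_pow_coeff D hk hL (p.2 : ℕ)
    refine ⟨(single (-(k * (p.2 : ℕ) : ℕ) : ℤ) (1 : D.E.K1)) •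
      (HahnSeries.C (D.E.jB (e p.1 : x.S.B)) * (x.dev D) ^ (p.2 : ℕ)), ?_, ?_, ?_⟩
    · exact Submodule.smul_mem _ _
        ((x.M_move D).2.2 _ _ ((x.M_move D).1 _ (e p.1).2) (x.dev_pow_mem D _))
    · intro n hn
      rw [single_smul_coeff, C_mul_coeff, hp.1 _ (by omega), mul_zero, smul_zero]
    · rw [single_smul_coeff, C_mul_coeff, one_smul]
      have : (0 : ℤ) - -((k * (p.2 : ℕ) : ℕ) : ℤ) = ((k * (p.2 : ℕ) : ℕ) : ℤ) := by ring
      rw [this, hp.2]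
  have h2 : LinearIndependent D.E.K1
      (fun p => (⟨_, hmem p⟩ : redL (x.move D).M)) :=
    LinearIndependent.of_comp (redL (x.move D).M).subtype h1
  have h3 := h2.fintype_card_le_finrank
  rw [finrank_redL] at h3
  simp only [Fintype.card_prod, Fintype.card_fin] at h3
  rw [mul_comm]
  exact h3

/-- the numerical part of the chain -/
theorem chain_arith {q' q ζ' ζ μ' μ r s s' η η' C' Coo' Coo β ξ' : ℕ}
    (hζ' : ζ' = q' * μ') (hζ : ζ = q * μ) (hq : q ≤ q') (hq0 : 0 < q) (hμ'0 : 0 < μ')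
    (h1 : ζ' ≤ r * ζ) (h2 : r * μ ≤ μ') (hs : μ = s * η) (hs0 : 0 < s) (hs' : μ' = s' * η')
    (hss : q' = q → s ≤ s') (hCoo' : Coo' + η' = ζ') (hCoo : Coo + η = ζ) (hC' : C' = Coo' + ξ')
    (hβ : C' ≤ r * Coo + β) (hβ' : β * (s * (s + 1)) < r * μ) :
    q' = q ∧ s' = s ∧ η' = r * η ∧ ξ' ≤ β ∧ ζ' = r * ζ ∧ C' = r * Coo + ξ' := by
  have e1 : q' * μ' ≤ r * (q * μ) := by rw [← hζ', ← hζ]; exact h1
  have e2 : r * (q * μ) ≤ q * μ' := by
    calc r * (q * μ) = q * (r * μ) := by ring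
      _ ≤ q * μ' := Nat.mul_le_mul_left _ h2
  have e3 : q' = q := le_antisymm (Nat.le_of_mul_le_mul_right (e1.trans e2) hμ'0) hq
  have e4 : μ' = r * μ := by
    have : q * μ' ≤ q * (r * μ) := by
      calc q * μ' ≤ q' * μ' := Nat.mul_le_mul_right _ hq
        _ ≤ r * (q * μ) := e1
        _ = q * (r * μ) := by ring
    exact le_antisymm (Nat.le_of_mul_le_mul_left this hq0) h2
  have e5 : ζ' = r * ζ := by rw [hζ', hζ, e3, e4]; ring
  have hs1 := hss e3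
  -- `r η ≤ η' + β`
  have e6 : r * η ≤ η' + β := by
    have h3 : r * Coo + r * η = Coo' + η' := by rw [← mul_add, hCoo, hCoo', e5]
    omega
  have e7 : β * (s + 1) < r * η := by
    have h4 : s * (β * (s + 1)) < s * (r * η) := by
      calc s * (β * (s + 1)) = β * (s * (s + 1)) := by ring
        _ < r * μ := hβ'
        _ = s * (r * η) := by rw [hs]; ring
    exact Nat.lt_of_mul_lt_mul_left h4
  have e8 : s' * η' = s * (r * η) := by rw [← hs', e4, hs]; ring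
  have e9 : s' = s := by
    by_contra hne
    have h5 : s + 1 ≤ s' := by omega
    have h6 : (s + 1) * η' ≤ s * (r * η) := by
      rw [← e8]; exact Nat.mul_le_mul_right _ h5
    have h7 : (s + 1) * (r * η) ≤ (s + 1) * η' + (s + 1) * β := by
      rw [← mul_add]; exact Nat.mul_le_mul_left _ e6
    have h8 : (s + 1) * (r * η) = s * (r * η) + r * η := by ring
    have h9 : (s + 1) * β = β * (s + 1) := by ring
    omega
  have e10 : η' = r * η := by
    rw [e9] at e8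
    exact Nat.eq_of_mul_eq_mul_left hs0 e8
  have e11 : Coo' = r * Coo := by
    have h3 : r * Coo + r * η = Coo' + η' := by rw [← mul_add, hCoo, hCoo', e5]
    omega
  exact ⟨e3, e9, e10, by omega, e5, by omega⟩

theorem chain_proof (x : Pt S0 f0) (hWM : ∀ y : Pt S0 f0, y.QMin → y.W ≤ y.M) (h : x.SMin)
    (D : MoveData x.S) (P : SymPair D.E) (hr2 : 2 ≤ D.r) (w1 w2 : x.S.B) (h1 : w1 ∈ x.W)
    (h2 : w2 ∈ x.W) (n1 : w1 ≠ 0) (n2 : w2 ≠ 0) (k : ℕ) (hk : 0 < k)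
    (hL : x.Leads D k (D.E.jB w1 * P.u' + D.E.jB w2 * P.v')) (β : ℕ)
    (hβ : Module.finrank D.E.K1 (x.calC D.E (D.E.jB w1 * P.u' + D.E.jB w2 * P.v')) ≤
      D.r * Module.finrank x.S.K x.Coo + β)
    (hβ' : β * (x.s * (x.s + 1)) < D.r * Module.finrank x.S.K x.M) :
    (x.move D).SMin ∧ (x.move D).s = x.s ∧ (x.move D).η = D.r * x.η ∧ (x.move D).ξ ≤ β ∧
    Module.finrank (D.E.K1⟦ℤ⟧) (x.move D).Z = D.r * Module.finrank x.S.K x.Z ∧
    Module.finrank (D.E.K1⟦ℤ⟧) (x.move D).C = D.r * Module.finrank x.S.K x.Coo + (x.move D).ξ := by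
  have hX : x.IndepX D.E (D.E.jB w1 * P.u' + D.E.jB w2 * P.v') :=
    x.indepX (hWM x h.1) D.hr D.E P w1 w2 h1 h2 n1 n2
  have hXne := hX.ne_zero hr2
  have hWx : x.W ≠ ⊥ := h.1.1
  have hWMx := hWM x h.1
  have hne : D.sh x.f [] ≠ HahnSeries.C (D.E.jB x.a) := by
    intro he
    have h3 := (x.dev_coeff D hk hL).2
    rw [dev, he, sub_self, coeff_zero] at h3
    exact hXne h3.symm
  have hW' : (x.move D).W ≠ ⊥ := x.W_move_ne_bot D hne
  have hZ' : finrank (D.E.K1⟦ℤ⟧) (x.move D).Z ≤ D.r * finrank x.S.K x.Z := by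
    rw [← x.finrank_calZ hWMx D.hr D.E P w1 w2 h1 h2 n1 n2, ← finrank_redL]
    exact Submodule.finrank_mono (x.redZ_le D k hk _ hL)
  have hM' := x.le_finrank_M_move D hk hL hX
  have hC' : finrank (D.E.K1⟦ℤ⟧) (x.move D).C ≤ D.r * finrank x.S.K x.Coo + β := by
    refine le_trans ?_ hβ
    rw [← finrank_redL]
    exact Submodule.finrank_mono (x.redC_le D k hk _ hL)
  have hqq : x.q ≤ (x.move D).q := h.1.2 _ hW'
  -- once `q' = q` the new point is q-minimal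
  have hQ : (x.move D).q = x.q → (x.move D).QMin := fun he =>
    ⟨hW', fun y hy => by rw [he]; exact h.1.2 y hy⟩
  -- preliminary: `q' = q`
  have hq' : (x.move D).q = x.q := by
    have e0 : finrank (D.E.K1⟦ℤ⟧) (x.move D).Z = (x.move D).q * finrank (D.E.K1⟦ℤ⟧) (x.move D).M :=
      (x.move D).finrank_Z
    have e1 : finrank x.S.K x.Z = x.q * finrank x.S.K x.M := x.finrank_Z
    have hpos : 0 < finrank (D.E.K1⟦ℤ⟧) (x.move D).M := (x.move D).finrank_M_pos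
    refine le_antisymm (Nat.le_of_mul_le_mul_right (c := finrank (D.E.K1⟦ℤ⟧) (x.move D).M) ?_ hpos) hqq
    calc (x.move D).q * finrank (D.E.K1⟦ℤ⟧) (x.move D).M
        = finrank (D.E.K1⟦ℤ⟧) (x.move D).Z := e0.symm
      _ ≤ D.r * finrank x.S.K x.Z := hZ'
      _ = x.q * (D.r * finrank x.S.K x.M) := by rw [e1]; ring
      _ ≤ x.q * finrank (D.E.K1⟦ℤ⟧) (x.move D).M := Nat.mul_le_mul_left _ hM'
  have hQ' := hQ hq'
  have hWM' := hWM _ hQ'
  obtain ⟨-, a2, a3, a4, a5, a6⟩ := chain_arith (q' := (x.move D).q) (q := x.q)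
    (ζ' := finrank (D.E.K1⟦ℤ⟧) (x.move D).Z) (ζ := finrank x.S.K x.Z)
    (μ' := finrank (D.E.K1⟦ℤ⟧) (x.move D).M) (μ := finrank x.S.K x.M) (r := D.r)
    (s := x.s) (s' := (x.move D).s) (η := x.η) (η' := (x.move D).η)
    (C' := finrank (D.E.K1⟦ℤ⟧) (x.move D).C) (Coo' := finrank (D.E.K1⟦ℤ⟧) (x.move D).Coo)
    (Coo := finrank x.S.K x.Coo) (β := β) (ξ' := (x.move D).ξ)
    (x.move D).finrank_Z x.finrank_Z hqq x.q_pos (x.move D).finrank_M_pos hZ' hM'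
    (finrank_M hWMx) (s_pos hWMx) (finrank_M hWM') (fun _ => h.2 _ hQ')
    (finrank_Coo hWM' hW') (finrank_Coo hWMx hWx) (finrank_C_eq hWM' hW') hC' hβ'
  exact ⟨⟨hQ', fun y hy => by rw [a2]; exact h.2 y hy⟩, a2, a3, a4, a5, a6⟩

/-- the numerical condition for persistence -/
theorem persist_arith {s ξ η μ r : ℕ} (hs : 0 < s) (hη : 4 * (s + 1) * ξ + 3 < η) (hμ : μ = s * η)
    (hr : 1 ≤ r) : ξ * (s * (s + 1)) < r * μ := by
  have h1 : (s + 1) * ξ ≤ 4 * (s + 1) * ξ := by nlinarith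
  have h2 : (s + 1) * ξ < η := by omega
  calc ξ * (s * (s + 1)) = s * ((s + 1) * ξ) := by ring
    _ < s * η := Nat.mul_lt_mul_of_pos_left h2 hs
    _ = 1 * μ := by rw [hμ, one_mul]
    _ ≤ r * μ := Nat.mul_le_mul_right _ hr

theorem persist_proof (x : Pt S0 f0) (hWM : ∀ y : Pt S0 f0, y.QMin → y.W ≤ y.M) (h : x.XMin)
    (D : MoveData x.S) (P : SymPair D.E) (hr2 : 2 ≤ D.r) (w1 w2 : x.S.B) (hg : x.GoodPair w1 w2)
    (k : ℕ) (hk : 0 < k)
    (hL : x.Leads D k (D.E.jB w1 * P.u' + D.E.jB w2 * P.v')) :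
    (x.move D).XMin ∧ (x.move D).ξ = x.ξ ∧ (x.move D).η = D.r * x.η ∧
    Module.finrank (D.E.K1⟦ℤ⟧) (x.move D).Z = Module.finrank D.E.K1
      (x.calZ D.E (D.E.jB w1 * P.u' + D.E.jB w2 * P.v')) ∧
    Module.finrank (D.E.K1⟦ℤ⟧) (x.move D).C = Module.finrank D.E.K1
      (x.calC D.E (D.E.jB w1 * P.u' + D.E.jB w2 * P.v')) := by
  obtain ⟨h1, h2, n1, n2, -⟩ := id hg
  have hS : x.SMin := h.1.1
  have hWMx := hWM x hS.1
  have hcal := x.finrank_calC_good hWMx D.hr D.E P w1 w2 hg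
  have hβ' : x.ξ * (x.s * (x.s + 1)) < D.r * finrank x.S.K x.M :=
    persist_arith (s_pos hWMx) h.1.2 (finrank_M hWMx) (by omega)
  obtain ⟨c1, c2, c3, c4, c5, c6⟩ := x.chain_proof hWM hS D P hr2 w1 w2 h1 h2 n1 n2 k hk hL x.ξ
    hcal.le hβ'
  have hInP : (x.move D).InP := by
    refine ⟨c1, ?_⟩
    rw [c2, c3]
    have h3 : 4 * (x.s + 1) * (x.move D).ξ ≤ 4 * (x.s + 1) * x.ξ := Nat.mul_le_mul_left _ c4
    have h4 := h.1.2
    have h5 : 1 * x.η ≤ D.r * x.η := Nat.mul_le_mul_right _ (by omega)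
    omega
  have hξ : (x.move D).ξ = x.ξ := le_antisymm c4 (h.2 _ hInP)
  refine ⟨⟨hInP, fun y hy => by rw [hξ]; exact h.2 y hy⟩, hξ, c3, ?_, ?_⟩
  · rw [c5, x.finrank_calZ hWMx D.hr D.E P w1 w2 h1 h2 n1 n2]
  · rw [c6, hξ, hcal]

end Pt
end Vale.P199
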