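import Mathlib

/-!
# P199, T7: a generating subspace contains a primitive element
-/

namespace Vale.P199

open IntermediateField

/-- T7, commutative version. -/
theorem exists_prim_field {K M : Type*} [Field K] [CharZero K] [Field M] [Algebra K M]
    [FiniteDimensional K M] (V : Submodule K M) :
    ∃ γ ∈ V, IntermediateField.adjoin K {γ} = IntermediateField.adjoin K (V : Set M) := by
  classical
  have hfin : Finite (IntermediateField K M) :=
    Field.finite_intermediateField_of_exists_primitive_element K M
      (Field.exists_primitive_element K M)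
  -- the intermediate fields not containing `V`
  let J := {L : IntermediateField K M // ¬ (V : Set M) ⊆ L}
  let p : J → Subspace K V := fun L => (L.1.toSubalgebra.toSubmodule).comap V.subtype
  by_contra hcon
  push Not at hcon
  have hcov : ⋃ i, (p i : Set V) = Set.univ := by
    rw [Set.eq_univ_iff_forall]
    intro x
    rw [Set.mem_iUnion]
    have h1 := hcon x.1 x.2
    have h2 : ¬ (V : Set M) ⊆ (IntermediateField.adjoin K {x.1} : IntermediateField K M) := by
      intro hsub
      apply h1
      apply le_antisymm
      · rw [IntermediateField.adjoin_simple_le_iff]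
        exact IntermediateField.subset_adjoin K _ x.2
      · exact IntermediateField.adjoin_le_iff.mpr hsub
    refine ⟨⟨_, h2⟩, ?_⟩
    show (x : M) ∈ (IntermediateField.adjoin K {x.1}).toSubalgebra.toSubmodule
    exact IntermediateField.mem_adjoin_simple_self K x.1
  obtain ⟨L, hL⟩ := Subspace.exists_eq_top_of_iUnion_eq_univ hcov
  apply L.2
  intro v hv
  have : (⟨v, hv⟩ : V) ∈ p L := by rw [hL]; trivial
  exact this

/-- T7 inside a division algebra: if the elements of the subspace `V` commute with each other then
some `γ ∈ V` generates the same subalgebra (a field) as `V`. -/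
theorem exists_prim {K B : Type*} [Field K] [CharZero K] [DivisionRing B] [Algebra K B]
    [FiniteDimensional K B] (V : Submodule K B) (hV : ∀ a ∈ V, ∀ b ∈ V, a * b = b * a) :
    ∃ γ ∈ V, Algebra.adjoin K {γ} = Algebra.adjoin K (V : Set B) := by
  classical
  let A := Algebra.adjoin K (V : Set B)
  let : CommRing A := { (inferInstance : Ring A) with
    mul_comm := fun a b => by
      have := Algebra.isMulCommutative_adjoin K hV
      exact mul_comm' a b }
  have hA : IsField A := by
    refine ⟨⟨0, 1, zero_ne_one⟩, mul_comm, ?_⟩
    intro a ha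
    have hinj : Function.Injective (LinearMap.mulLeft K a) := by
      rw [← LinearMap.ker_eq_bot, LinearMap.ker_eq_bot']
      intro m hm
      rw [LinearMap.mulLeft_apply] at hm
      have h1 : (a : B) * (m : B) = 0 := by
        have := congrArg (Subtype.val) hm
        simpa using this
      rcases mul_eq_zero.mp h1 with h | h
      · exact absurd (Subtype.ext h) ha
      · exact Subtype.ext h
    obtain ⟨b, hb⟩ := LinearMap.surjective_of_injective hinj 1
    exact ⟨b, hb⟩
  let : Field A := hA.toField
  let V' : Submodule K A := V.comap A.val.toLinearMap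
  obtain ⟨γ, hγ, hγ'⟩ := exists_prim_field (K := K) (M := A) V'
  refine ⟨γ.1, hγ, ?_⟩
  apply le_antisymm
  · exact Algebra.adjoin_mono (Set.singleton_subset_iff.mpr hγ)
  · rw [Algebra.adjoin_le_iff]
    intro v hv
    have hv' : (⟨v, Algebra.subset_adjoin hv⟩ : A) ∈ V' := hv
    have h2 : (⟨v, Algebra.subset_adjoin hv⟩ : A) ∈ IntermediateField.adjoin K {γ} := by
      rw [hγ']
      exact IntermediateField.subset_adjoin K _ hv'
    have h3 : (⟨v, Algebra.subset_adjoin hv⟩ : A) ∈ Algebra.adjoin K {γ} := by
      rw [← IntermediateField.adjoin_simple_toSubalgebra_of_isAlgebraic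
        (Algebra.IsAlgebraic.isAlgebraic γ)]
      exact h2
    have h4 : v ∈ (Algebra.adjoin K {γ}).map A.val := Subalgebra.mem_map.mpr ⟨_, h3, rfl⟩
    rw [AlgHom.map_adjoin] at h4
    simpa using h4

end Vale.P199
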