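import Vale.Agent.P199.BDefs2
import Vale.Agent.P199.BL1
import Vale.Agent.P199.Inv
import Vale.Agent.P199.Taylor
import Vale.Agent.P199.Prim

/-! # Auxiliary lemmas for B5.2 -/

open HahnSeries

namespace Vale.P199

section Inner

variable {S : State}

theorem State.lin_add_smul {K B I : Type} [Field K] [Ring B] [Algebra K B] [Fintype I]
    (f : NC I B) (p q : I → K) (a b : K) :
    State.lin f (fun i => a * p i + b * q i) = a • State.lin f p + b • State.lin f q := by
  simp only [State.lin, add_smul, mul_smul, Finset.sum_add_distrib, Finset.smul_sum]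

theorem State.inner_comb {p q : S.I → S.K} (hp : S.Inner p) (hq : S.Inner q) (a b : S.K) :
    S.Inner (fun i => a * p i + b * q i) := by
  obtain ⟨y, h1, h2⟩ := hp
  obtain ⟨y', h1', h2'⟩ := hq
  refine ⟨a • y + b • y', ?_, ?_⟩
  · rw [State.lin_add_smul, h1, h1', smul_sub, smul_sub, add_mul, mul_add, smul_mul_assoc,
      smul_mul_assoc, mul_smul_comm, mul_smul_comm]
    abel
  · rw [State.lin_add_smul, h2, h2', smul_sub, smul_sub, add_mul, mul_add, smul_mul_assoc,
      smul_mul_assoc, mul_smul_comm, mul_smul_comm]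
    abel

/-- a non-inner direction has an independent partner -/
theorem State.exists_indep_partner (h : ∃ p q, S.Indep p q) {p1 : S.I → S.K} (h1 : ¬ S.Inner p1) :
    ∃ p2, S.Indep p1 p2 := by
  obtain ⟨p, q, hpq⟩ := h
  by_contra hcon
  push Not at hcon
  have key : ∀ p : S.I → S.K, ∃ c : S.K, S.Inner (fun i => c * p1 i + 1 * p i) := by
    intro p
    have := hcon p
    rw [State.Indep] at this
    push Not at this
    obtain ⟨a, b, hab, hne⟩ := this
    have hb : b ≠ 0 := by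
      rintro rfl
      have ha : a ≠ 0 := fun ha => hne ha rfl
      apply h1
      have := State.inner_comb hab hab a⁻¹ 0
      convert this using 2 with i
      field_simp
      ring
    refine ⟨b⁻¹ * a, ?_⟩
    have := State.inner_comb hab hab b⁻¹ 0
    convert this using 2 with i
    field_simp
    ring
  obtain ⟨c, hc⟩ := key p
  obtain ⟨d, hd⟩ := key q
  by_cases hc0 : c = 0
  · subst hc0
    have := hpq 1 0 (by convert hc using 2 with i; ring)
    exact one_ne_zero this.1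
  · have h3 := State.inner_comb hc hd d (-c)
    have := hpq d (-c) (by convert h3 using 2 with i; ring)
    exact hc0 (neg_eq_zero.mp this.2)

end Inner

namespace Pt

variable {S0 : State} {f0 : NC S0.I S0.B}

theorem exists_lin (x : Pt S0 f0) {w : x.S.B} (hw : w ∈ x.W) :
    ∃ p : x.S.I → x.S.K, State.lin x.f p = w := by
  have : w ∈ Submodule.span x.S.K (Set.range fun i => x.f [i]) := hw
  rw [Submodule.mem_span_range_iff_exists_fun] at this
  obtain ⟨c, hc⟩ := this
  exact ⟨c, hc⟩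

theorem lin_mem_W (x : Pt S0 f0) (p : x.S.I → x.S.K) : State.lin x.f p ∈ x.W := by
  refine Submodule.sum_mem _ fun i _ => Submodule.smul_mem _ _ ?_
  exact Submodule.subset_span ⟨i, rfl⟩

/-- elements of `W ≤ M` commute -/
theorem comm_W (x : Pt S0 f0) (hWM : x.W ≤ x.M) {a b : x.S.B} (ha : a ∈ x.W) (hb : b ∈ x.W) :
    a * b = b * a := hWM ha b (x.W_le_Z hb)

/-- a generator of `H` of the form `w1⁻¹ * w2` -/
theorem exists_ratio_gen (x : Pt S0 f0) (hWM : x.W ≤ x.M) {w1 : x.S.B} (h1 : w1 ∈ x.W)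
    (n1 : w1 ≠ 0) : ∃ w2 ∈ x.W, w2 ≠ 0 ∧ x.H = Algebra.adjoin x.S.K {w1⁻¹ * w2} := by
  classical
  set V : Submodule x.S.K x.S.B := x.W.map (LinearMap.mulLeft x.S.K w1⁻¹) with hV
  have hcomm : ∀ a ∈ V, ∀ b ∈ V, a * b = b * a := by
    rintro _ ⟨a, ha, rfl⟩ _ ⟨b, hb, rfl⟩
    rw [LinearMap.mulLeft_apply, LinearMap.mulLeft_apply]
    have c1 : Commute a b := x.comm_W hWM ha hb
    have c2 : Commute a w1 := x.comm_W hWM ha h1
    have c3 : Commute w1 b := x.comm_W hWM h1 hb
    have c4 : Commute (w1⁻¹) b := c3.inv_left₀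
    have c5 : Commute a (w1⁻¹) := c2.inv_right₀
    exact (Commute.mul_left (Commute.mul_right (Commute.refl _) c4) (c5.mul_right c1)).eq
  obtain ⟨γ, ⟨w, hw, hwγ⟩, hγ⟩ := exists_prim V hcomm
  have hHV : x.H = Algebra.adjoin x.S.K (V : Set x.S.B) := by
    apply le_antisymm
    · apply Algebra.adjoin_le
      rintro y ⟨a, ha, a', ha', hne, rfl⟩
      have e : a'⁻¹ * a = (w1⁻¹ * a')⁻¹ * (w1⁻¹ * a) := by
        rw [mul_inv_rev, inv_inv, mul_assoc, ← mul_assoc w1, mul_inv_cancel₀ n1, one_mul]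
      rw [e]
      exact Subalgebra.mul_mem _ (Inv.inv_mem _ (Algebra.subset_adjoin ⟨a', ha', rfl⟩))
        (Algebra.subset_adjoin ⟨a, ha, rfl⟩)
    · apply Algebra.adjoin_le
      rintro _ ⟨a, ha, rfl⟩
      exact Algebra.subset_adjoin ⟨a, ha, w1, h1, n1, rfl⟩
  rw [← hγ] at hHV
  have hwγ' : w1⁻¹ * w = γ := hwγ
  by_cases hγ0 : γ = 0
  · refine ⟨w1, h1, n1, ?_⟩
    rw [hHV, hγ0, inv_mul_cancel₀ n1]
    apply le_antisymm
    · apply Algebra.adjoin_le
      rintro _ rfl
      exact Subalgebra.zero_mem _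
    · apply Algebra.adjoin_le
      rintro _ rfl
      exact Subalgebra.one_mem _
  · refine ⟨w, hw, ?_, ?_⟩
    · rintro rfl
      exact hγ0 (by rw [← hwγ', mul_zero])
    · rw [hHV, hwγ']

/-- first-order data for the move of B5.2 -/
theorem exists_pair (x : Pt S0 f0) (hf0 : f0 ∈ Algebra.adjoin S0.K {S0.X, S0.Y})
    (hWM : x.W ≤ x.M) (hW : x.W ≠ ⊥) :
    ∃ w1 w2 : x.S.B, ∃ p1 p2 : x.S.I → x.S.K, w1 ∈ x.W ∧ w2 ∈ x.W ∧ w1 ≠ 0 ∧ w2 ≠ 0 ∧
      x.H = Algebra.adjoin x.S.K {w1⁻¹ * w2} ∧ State.lin x.f p1 = w1 ∧ State.lin x.f p2 = w2 ∧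
      x.S.Indep p1 p2 := by
  obtain ⟨w1, h1, n1⟩ := (Submodule.ne_bot_iff _).mp hW
  obtain ⟨w2, h2, n2, hH⟩ := x.exists_ratio_gen hWM h1 n1
  obtain ⟨p1, hp1⟩ := x.exists_lin h1
  by_cases hc : ∃ c : x.S.K, w2 = c • w1
  · obtain ⟨c, rfl⟩ := hc
    have hH' : x.H = Algebra.adjoin x.S.K {(1 : x.S.B)} := by
      rw [hH]
      apply le_antisymm
      · apply Algebra.adjoin_le
        rintro _ rfl
        rw [mul_smul_comm, inv_mul_cancel₀ n1]
        exact Subalgebra.smul_mem _ (Subalgebra.one_mem _) _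
      · apply Algebra.adjoin_le
        rintro _ rfl
        exact Subalgebra.one_mem _
    -- every element of `W` is a multiple of `w1`
    have hmul : ∀ w ∈ x.W, ∃ d : x.S.K, w = d • w1 := by
      intro w hw
      have h3 : w1⁻¹ * w ∈ x.H := Algebra.subset_adjoin ⟨w, hw, w1, h1, n1, rfl⟩
      rw [hH', Algebra.adjoin_singleton_one] at h3
      obtain ⟨d, hd⟩ := Algebra.mem_bot.mp h3
      refine ⟨d, ?_⟩
      have : w = w1 * (w1⁻¹ * w) := by rw [← mul_assoc, mul_inv_cancel₀ n1, one_mul]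
      rw [this, ← hd, ← Algebra.commutes, ← Algebra.smul_def]
    have hnin : ¬ x.S.Inner p1 := fun h => n1 (by rw [← hp1]; exact x.lin_inner hf0 p1 h)
    obtain ⟨p2, hp2⟩ := State.exists_indep_partner x.g3 hnin
    -- replace `p2` by `p2 + p1` if necessary
    obtain ⟨p3, hp3, hne⟩ : ∃ p3, x.S.Indep p1 p3 ∧ State.lin x.f p3 ≠ 0 := by
      by_cases h0 : State.lin x.f p2 = 0
      · refine ⟨fun i => 1 * p1 i + 1 * p2 i, ?_, ?_⟩
        · intro a b hab
          have := hp2 (a + b) b (by convert hab using 2 with i; ring)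
          refine ⟨?_, this.2⟩
          have h5 := this.1
          rw [this.2, add_zero] at h5
          exact h5
        · rw [State.lin_add_smul, h0, hp1, smul_zero, add_zero, one_smul]
          exact n1
      · exact ⟨p2, hp2, h0⟩
    obtain ⟨d, hd⟩ := hmul _ (x.lin_mem_W p3)
    have hd0 : d ≠ 0 := by
      rintro rfl
      exact hne (by rw [hd, zero_smul])
    refine ⟨w1, State.lin x.f p3, p1, p3, h1, x.lin_mem_W p3, n1, hne, ?_, hp1, rfl, hp3⟩
    rw [hH', hd]
    apply le_antisymm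
    · apply Algebra.adjoin_le
      rintro _ rfl
      exact Subalgebra.one_mem _
    · apply Algebra.adjoin_le
      rintro _ rfl
      rw [mul_smul_comm, inv_mul_cancel₀ n1]
      exact Subalgebra.smul_mem _ (Subalgebra.one_mem _) _
  · obtain ⟨p2, hp2⟩ := x.exists_lin h2
    refine ⟨w1, w2, p1, p2, h1, h2, n1, n2, hH, hp1, hp2, ?_⟩
    intro a b hab
    have h3 := x.lin_inner hf0 _ hab
    rw [State.lin_add_smul, hp1, hp2] at h3
    by_cases hb : b = 0
    · subst hb
      rw [zero_smul, add_zero] at h3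
      rcases smul_eq_zero.mp h3 with h | h
      · exact ⟨h, rfl⟩
      · exact absurd h n1
    · exfalso
      apply hc
      refine ⟨-(b⁻¹ * a), ?_⟩
      have h4 : b • w2 = -(a • w1) := by
        rw [add_comm] at h3
        exact eq_neg_of_add_eq_zero_left h3
      calc w2 = b⁻¹ • (b • w2) := by rw [smul_smul, inv_mul_cancel₀ hb, one_smul]
        _ = -(b⁻¹ * a) • w1 := by rw [h4, smul_neg, smul_smul, neg_smul]

end Pt

/-- the basic move `y = z (p1 V1 + p2 V2)` -/
noncomputable def MoveData.basic {S : State} (r : ℕ) (hr : 0 < r) (ζ : S.K)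
    (hζ : IsPrimitiveRoot ζ r) (E : QExt S.K S.B r ζ) (p1 p2 : S.I → S.K) (hind : S.Indep p1 p2)
    (V1 V2 : E.B1) (h1 : ∀ b, E.jB b * V1 = V1 * E.jB b) (h2 : ∀ b, E.jB b * V2 = V2 * E.jB b)
    (gen : E.u ∈ Algebra.adjoin E.K1 {V1, V2} ∧ E.v ∈ Algebra.adjoin E.K1 {V1, V2}) :
    MoveData S where
  r := r
  hr := hr
  ζ := ζ
  hζ := hζ
  E := E
  y i := PowerSeries.monomial 1 (E.jK (p1 i) • V1 + E.jK (p2 i) • V2)
  yQ i n b := by
    rw [PowerSeries.coeff_monomial]
    split_ifs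
    · rw [mul_add, add_mul, mul_smul_comm, mul_smul_comm, smul_mul_assoc, smul_mul_assoc, h1, h2]
    · rw [mul_zero, zero_mul]
  κ := 1
  hκ := Nat.one_pos
  P1 := p1
  P2 := p2
  indep := hind
  V1 := V1
  V2 := V2
  V1Q := h1
  V2Q := h2
  gen := gen
  low i n hn := by
    rw [PowerSeries.coeff_monomial, if_neg (by omega)]
  lead i := by
    rw [PowerSeries.coeff_monomial, if_pos rfl]

/-- leading term after a move with `κ`, whatever the higher terms -/
theorem Pt.leads_κ {S0 : State} {f0 : NC S0.I S0.B} (x : Pt S0 f0) (D : MoveData x.S) :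
    x.Leads D D.κ (D.E.jB (State.lin x.f D.P1) * D.V1 + D.E.jB (State.lin x.f D.P2) * D.V2) := by
  refine ⟨fun n hn hn0 => ?_, D.sh_nil_coeff_κ x.f⟩
  rcases lt_or_gt_of_ne hn0 with h | h
  · exact D.sh_coeff_neg x.f [] h
  · exact D.sh_coeff_lt x.f [] h hn

/-- the basic move with `V = (u, v)`, for every `r` -/
theorem Pt.exists_move {S0 : State} {f0 : NC S0.I S0.B} (x : Pt S0 f0) (r : ℕ) (hr : 0 < r)
    (p1 p2 : x.S.I → x.S.K) (hind : x.S.Indep p1 p2) :
    ∃ D : MoveData x.S, ∃ P : SymPair D.E, D.r = r ∧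
      x.Leads D 1 (D.E.jB (State.lin x.f p1) * P.u' + D.E.jB (State.lin x.f p2) * P.v') := by
  obtain ⟨ζ, hζ⟩ := x.S.roots r hr
  obtain ⟨E⟩ := exists_QExt x.S.K x.S.B x.S.central r hr ζ hζ
  refine ⟨MoveData.basic r hr ζ hζ E p1 p2 hind E.u E.v E.hu E.hv
    ⟨Algebra.subset_adjoin (by simp), Algebra.subset_adjoin (by simp)⟩, SymPair.self E hζ, rfl, ?_⟩
  exact x.leads_κ (MoveData.basic r hr ζ hζ E p1 p2 hind E.u E.v E.hu E.hv
    ⟨Algebra.subset_adjoin (by simp), Algebra.subset_adjoin (by simp)⟩)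

end Vale.P199
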