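import Vale.Agent.P199.BL4
import Vale.Agent.P199.BL5b
import Vale.Agent.P199.BL5a
import Vale.Agent.P199.BL5c

/-! # B3.4 and B5 : minimality and persistence -/

open HahnSeries

namespace Vale.P199
namespace Pt

variable {S0 : State} {f0 : NC S0.I S0.B}

/-- B3.4 -/
theorem W_le_M (x : Pt S0 f0) (hf0 : f0 ∈ Algebra.adjoin S0.K {S0.X, S0.Y}) (h : x.QMin) :
    x.W ≤ x.M := x.W_le_M_proof hf0 h

/-- B5.1 common chain -/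
theorem chain (x : Pt S0 f0) (hf0 : f0 ∈ Algebra.adjoin S0.K {S0.X, S0.Y}) (h : x.SMin)
    (D : MoveData x.S) (P : SymPair D.E) (hr2 : 2 ≤ D.r) (w1 w2 : x.S.B) (h1 : w1 ∈ x.W) (h2 : w2 ∈ x.W)
    (n1 : w1 ≠ 0) (n2 : w2 ≠ 0) (k : ℕ) (hk : 0 < k)
    (hL : x.Leads D k (D.E.jB w1 * P.u' + D.E.jB w2 * P.v')) (β : ℕ)
    (hβ : Module.finrank D.E.K1 (x.calC D.E (D.E.jB w1 * P.u' + D.E.jB w2 * P.v')) ≤
      D.r * Module.finrank x.S.K x.Coo + β)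
    (hβ' : β * (x.s * (x.s + 1)) < D.r * Module.finrank x.S.K x.M) :
    (x.move D).SMin ∧ (x.move D).s = x.s ∧ (x.move D).η = D.r * x.η ∧ (x.move D).ξ ≤ β ∧
    Module.finrank (D.E.K1⟦ℤ⟧) (x.move D).Z = D.r * Module.finrank x.S.K x.Z ∧
    Module.finrank (D.E.K1⟦ℤ⟧) (x.move D).C = D.r * Module.finrank x.S.K x.Coo + (x.move D).ξ :=
  x.chain_proof (fun y hy => y.W_le_M hf0 hy) h D P hr2 w1 w2 h1 h2 n1 n2 k hk hL β hβ hβ'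

theorem exists_SMin (h : ∃ x : Pt S0 f0, x.W ≠ ⊥) : ∃ x : Pt S0 f0, x.SMin := by
  classical
  have hq : ∃ n, ∃ x : Pt S0 f0, x.W ≠ ⊥ ∧ x.q = n := by
    obtain ⟨x, hx⟩ := h
    exact ⟨x.q, x, hx, rfl⟩
  obtain ⟨x0, hx0, hq0⟩ := Nat.find_spec hq
  have hQ : x0.QMin := ⟨hx0, fun y hy => by
    rw [hq0]
    exact Nat.find_min' hq ⟨y, hy, rfl⟩⟩
  have hs : ∃ n, ∃ x : Pt S0 f0, x.QMin ∧ x.s = n := ⟨x0.s, x0, hQ, rfl⟩
  obtain ⟨x1, hx1, hs1⟩ := Nat.find_spec hs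
  exact ⟨x1, hx1, fun y hy => by
    rw [hs1]
    exact Nat.find_min' hs ⟨y, hy, rfl⟩⟩

/-- B5.2 -/
theorem exists_InP (hf0 : f0 ∈ Algebra.adjoin S0.K {S0.X, S0.Y}) (h : ∃ x : Pt S0 f0, x.W ≠ ⊥) :
    ∃ x : Pt S0 f0, x.InP := by
  obtain ⟨x, hx⟩ := exists_SMin h
  have hWM : x.W ≤ x.M := x.W_le_M hf0 hx.1
  obtain ⟨w1, w2, p1, p2, h1, h2, n1, n2, hH, hp1, hp2, hind⟩ := x.exists_pair hf0 hWM hx.1.1
  set β : ℕ := Module.finrank x.S.K x.Z * x.η with hβ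
  set r : ℕ := β * (x.s * (x.s + 1)) + 4 * (x.s + 1) * β + 3 + 1 with hr
  have hr0 : 0 < r := Nat.succ_pos _
  obtain ⟨D, P, hDr, hL⟩ := x.exists_move r hr0 p1 p2 hind
  rw [hp1, hp2] at hL
  have hM := x.finrank_M_pos
  have hc := chain x hf0 hx D P (by rw [hDr, hr]; omega) w1 w2 h1 h2 n1 n2 1 Nat.one_pos hL β
    (x.finrank_calC_le hWM D.hr D.E P w1 w2 h1 h2 n1 n2 hH) (by
      rw [hDr]
      calc β * (x.s * (x.s + 1)) < r := by rw [hr]; omega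
        _ = r * 1 := (mul_one r).symm
        _ ≤ r * Module.finrank x.S.K x.M := Nat.mul_le_mul_left r hM)
  obtain ⟨hS, hs, hη, hξ, _, _⟩ := hc
  refine ⟨x.move D, hS, ?_⟩
  rw [hs, hη, hDr]
  have hη1 : 0 < x.η := x.η_pos
  calc 4 * (x.s + 1) * (x.move D).ξ + 3 ≤ 4 * (x.s + 1) * β + 3 := by
        have := Nat.mul_le_mul_left (4 * (x.s + 1)) hξ
        omega
    _ < r := by
        rw [hr]
        have : 0 ≤ β * (x.s * (x.s + 1)) := Nat.zero_le _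
        omega
    _ = r * 1 := (mul_one r).symm
    _ ≤ r * x.η := Nat.mul_le_mul_left r hη1

theorem exists_XMin (hf0 : f0 ∈ Algebra.adjoin S0.K {S0.X, S0.Y}) (h : ∃ x : Pt S0 f0, x.W ≠ ⊥) :
    ∃ x : Pt S0 f0, x.XMin := by
  classical
  obtain ⟨x, hx⟩ := exists_InP hf0 h
  have hq : ∃ n, ∃ x : Pt S0 f0, x.InP ∧ x.ξ = n := ⟨x.ξ, x, hx, rfl⟩
  obtain ⟨x0, hx0, hq0⟩ := Nat.find_spec hq
  exact ⟨x0, hx0, fun y hy => by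
    rw [hq0]
    exact Nat.find_min' hq ⟨y, hy, rfl⟩⟩

/-- B5.3 persistence -/
theorem persist (x : Pt S0 f0) (hf0 : f0 ∈ Algebra.adjoin S0.K {S0.X, S0.Y}) (h : x.XMin)
    (D : MoveData x.S) (P : SymPair D.E) (hr2 : 2 ≤ D.r) (w1 w2 : x.S.B) (hg : x.GoodPair w1 w2) (k : ℕ) (hk : 0 < k)
    (hL : x.Leads D k (D.E.jB w1 * P.u' + D.E.jB w2 * P.v')) :
    (x.move D).XMin ∧ (x.move D).ξ = x.ξ ∧ (x.move D).η = D.r * x.η ∧
    Module.finrank (D.E.K1⟦ℤ⟧) (x.move D).Z = Module.finrank D.E.K1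
      (x.calZ D.E (D.E.jB w1 * P.u' + D.E.jB w2 * P.v')) ∧
    Module.finrank (D.E.K1⟦ℤ⟧) (x.move D).C = Module.finrank D.E.K1
      (x.calC D.E (D.E.jB w1 * P.u' + D.E.jB w2 * P.v')) :=
  x.persist_proof (fun y hy => y.W_le_M hf0 hy) h D P hr2 w1 w2 hg k hk hL

end Pt
end Vale.P199
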