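import Vale.Agent.P199.PI

/-!
# P199, T6Q : polynomial identities and trace identities on a symbol algebra

`A` a `K`-algebra with a basis `u^i v^j` (`i,j < r`), `u v = ζ v u`, `u^r, v^r ∈ K^×`.
-/

namespace Vale.P199

open Matrix TensorProduct

section EvHom

variable {I : Type*} [Fintype I] {K : Type*} [Field K] {A A' : Type*} [Ring A] [Ring A']
  [Algebra K A] [Algebra K A']

omit [Fintype I] in
theorem wordProd_map {d : ℕ} (φ : A →ₐ[K] A') (V : I → A) (w : Fin d → I) :
    φ (wordProd V w) = wordProd (fun i => φ (V i)) w := by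
  simp only [wordProd, map_list_prod, List.map_ofFn]
  rfl

theorem ev_map {d : ℕ} (h : (Fin d → I) → K) (φ : A →ₐ[K] A') (V : I → A) :
    φ (ev h V) = ev h (fun i => φ (V i)) := by
  simp only [ev, map_sum, map_smul, wordProd_map]

end EvHom

section Transfer

variable {I : Type*} [Fintype I] {ι : Type*} [Fintype ι] {K L : Type*} [Field K] [Infinite K]
  [CommRing L] [Algebra K L]
  {A A' : Type*} [Ring A] [Ring A'] [Algebra K A] [Algebra L A'] [Algebra K A']
  [IsScalarTower K L A']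

/-- transfer of a polynomial identity from the `K`-points to the `L`-points. -/
theorem transfer {κ : Type*} [Fintype κ] {d : ℕ} (b : Module.Basis ι K A) (ρ : A →ₐ[K] A')
    (h : (Fin d → I) → K)
    (τ : κ → A →ₗ[K] K) (T : A' →ₗ[L] L) (c : κ → L)
    (hT : ∀ a, T (ρ a) = ∑ k, c k * algebraMap K L (τ k a))
    (H : ∀ k, ∀ V : I → A, τ k (ev h V) = 0) (x : I → ι → L) :
    T (ev h (fun i => ∑ k, x i k • ρ (b k))) = 0 := by
  classical
  let R := MvPolynomial (I × ι) K
  let G : I → R ⊗[K] A := fun i => ∑ k, (MvPolynomial.X (i, k) : R) ⊗ₜ[K] b k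
  let Hh : R ⊗[K] A := ev h G
  -- the functionals id ⊗ τ
  let τR : κ → R ⊗[K] A →ₗ[K] R := fun k =>
    (TensorProduct.rid K R).toLinearMap ∘ₗ (TensorProduct.map LinearMap.id (τ k))
  -- specialisation at K-points
  have hs : ∀ k, ∀ y : I × ι → K, MvPolynomial.eval y (τR k Hh) = 0 := by
    intro k y
    let s : R ⊗[K] A →ₐ[K] A :=
      Algebra.TensorProduct.lift ((Algebra.ofId K A).comp (MvPolynomial.aeval y)) (AlgHom.id K A)
        (fun a b => by
          simp only [AlgHom.comp_apply, AlgHom.id_apply]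
          exact Algebra.commutes _ _)
    have h1 : ∀ z : R ⊗[K] A, MvPolynomial.eval y (τR k z) = τ k (s z) := by
      intro z
      induction z with
      | zero => simp
      | add a b ha hb => simp only [map_add, ha, hb]
      | tmul p a =>
        have e1 : s (p ⊗ₜ[K] a) = (MvPolynomial.eval y p) • a := by
          simp only [s, Algebra.TensorProduct.lift_tmul]
          rw [Algebra.smul_def]; rfl
        have e2 : τR k (p ⊗ₜ[K] a) = τ k a • p := by
          simp only [τR, LinearMap.comp_apply, TensorProduct.map_tmul, LinearMap.id_apply,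
            LinearEquiv.coe_coe, TensorProduct.rid_tmul]
        have e3 : MvPolynomial.eval y (τ k a • p) = τ k a * MvPolynomial.eval y p :=
          MvPolynomial.smul_eval _ _ _
        rw [e1, e2, e3, (τ k).map_smul, smul_eq_mul, mul_comm]
    rw [h1, ev_map]
    exact H _ _
  have hz : ∀ k, τR k Hh = 0 := fun k => MvPolynomial.funext (fun y => by rw [hs k y, map_zero])
  -- specialisation at the L-point x
  let sL : R ⊗[K] A →ₐ[K] A' :=
    Algebra.TensorProduct.lift
      (((Algebra.ofId L A').restrictScalars K).comp (MvPolynomial.aeval (fun p : I × ι => x p.1 p.2))) ρ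
      (fun a b => by
        simp only [AlgHom.comp_apply]
        exact Algebra.commutes _ _)
  have h2 : ∀ z : R ⊗[K] A, T (sL z) =
      ∑ k, c k * MvPolynomial.aeval (fun p : I × ι => x p.1 p.2) (τR k z) := by
    intro z
    induction z with
    | zero => simp
    | add a b ha hb => simp only [map_add, ha, hb, mul_add, Finset.sum_add_distrib]
    | tmul p a =>
      simp only [τR, sL, LinearMap.comp_apply, TensorProduct.map_tmul, LinearMap.id_apply,
        LinearEquiv.coe_coe, TensorProduct.rid_tmul, Algebra.TensorProduct.lift_tmul,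
        AlgHom.comp_apply, AlgHom.restrictScalars_apply]
      rw [Algebra.ofId_apply, ← Algebra.smul_def, map_smul, hT, smul_eq_mul, Finset.mul_sum]
      refine Finset.sum_congr rfl ?_
      intro k _
      rw [map_smul, Algebra.smul_def]
      change MvPolynomial.aeval (fun p : I × ι => x p.1 p.2) p * _ = _
      ring
  have h3 := h2 Hh
  simp only [hz, map_zero, mul_zero, Finset.sum_const_zero] at h3
  rw [ev_map] at h3
  suffices hG : (fun i => ∑ k, x i k • ρ (b k)) = fun i => sL (G i) by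
    rw [hG]; exact h3
  funext i
  simp only [G, map_sum]
  refine Finset.sum_congr rfl ?_
  intro k _
  have : sL ((MvPolynomial.X (i, k) : R) ⊗ₜ[K] b k) =
      algebraMap L A' (MvPolynomial.aeval (fun p : I × ι => x p.1 p.2)
        (MvPolynomial.X (i, k) : MvPolynomial (I × ι) K)) * ρ (b k) := by
    simp only [sL, Algebra.TensorProduct.lift_tmul]
    rfl
  have e : x i k • ρ (b k) = algebraMap L A' (MvPolynomial.aeval (fun p : I × ι => x p.1 p.2)
      (MvPolynomial.X (i, k) : MvPolynomial (I × ι) K)) * ρ (b k) := by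
    rw [MvPolynomial.aeval_X, Algebra.smul_def]
  exact e.trans this.symm

end Transfer

section Symbol

variable {K : Type*} [Field K] {A : Type*} [Ring A] [Algebra K A]

/-- relations of a symbol pair -/
structure SymRel (r : ℕ) (ζ α β : K) (u v : A) : Prop where
  comm : u * v = ζ • (v * u)
  ur : u ^ r = algebraMap K A α
  vr : v ^ r = algebraMap K A β

theorem SymRel.v_pow_u {r : ℕ} {ζ α β : K} {u v : A} (h : SymRel r ζ α β u v) (hζ : ζ ≠ 0)
    (j : ℕ) : v ^ j * u = ζ⁻¹ ^ j • (u * v ^ j) := by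
  have h1 : v * u = ζ⁻¹ • (u * v) := by rw [h.comm, smul_smul, inv_mul_cancel₀ hζ, one_smul]
  induction j with
  | zero => simp
  | succ j ih =>
    rw [pow_succ, mul_assoc, h1, mul_smul_comm, ← mul_assoc, ih, smul_mul_assoc, smul_smul,
      pow_succ, mul_assoc, ← pow_succ, mul_comm]

theorem SymRel.v_pow_u_pow {r : ℕ} {ζ α β : K} {u v : A} (h : SymRel r ζ α β u v) (hζ : ζ ≠ 0)
    (j k : ℕ) : v ^ j * u ^ k = ζ⁻¹ ^ (j * k) • (u ^ k * v ^ j) := by
  induction k with
  | zero => simp
  | succ k ih =>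
    rw [pow_succ, ← mul_assoc, ih, smul_mul_assoc, mul_assoc (u ^ k), h.v_pow_u hζ, mul_smul_comm,
      smul_smul, Nat.mul_succ, pow_add, ← mul_assoc]

theorem SymRel.mon_mul {r : ℕ} {ζ α β : K} {u v : A} (h : SymRel r ζ α β u v) (hζ : ζ ≠ 0)
    (i j k l : ℕ) : (u ^ i * v ^ j) * (u ^ k * v ^ l) =
      ζ⁻¹ ^ (j * k) • (u ^ (i + k) * v ^ (j + l)) := by
  rw [mul_assoc, ← mul_assoc (v ^ j), h.v_pow_u_pow hζ, smul_mul_assoc, mul_smul_comm, pow_add,
    pow_add]
  simp only [mul_assoc]

theorem SymRel.mon_red {r : ℕ} (hr : 0 < r) {ζ α β : K} {u v : A} (h : SymRel r ζ α β u v)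
    (i j : ℕ) : u ^ i * v ^ j = (α ^ (i / r) * β ^ (j / r)) • (u ^ (i % r) * v ^ (j % r)) := by
  have h1 : u ^ i = α ^ (i / r) • u ^ (i % r) := by
    conv_lhs => rw [← Nat.div_add_mod i r]
    rw [pow_add, pow_mul, h.ur, ← map_pow, ← Algebra.smul_def]
  have h2 : v ^ j = β ^ (j / r) • v ^ (j % r) := by
    conv_lhs => rw [← Nat.div_add_mod j r]
    rw [pow_add, pow_mul, h.vr, ← map_pow, ← Algebra.smul_def]
  rw [h1, h2, smul_mul_smul_comm]

/-- universal property of a symbol algebra -/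
theorem SymRel.exists_hom {r : ℕ} (hr : 0 < r) {ζ α β : K} (hζ : ζ ≠ 0) {u v : A}
    (h : SymRel r ζ α β u v) (b : Module.Basis (Fin r × Fin r) K A)
    (hb : ∀ p, b p = u ^ (p.1 : ℕ) * v ^ (p.2 : ℕ))
    {A' : Type*} [Ring A'] [Algebra K A'] {U V : A'} (h' : SymRel r ζ α β U V) :
    ∃ ρ : A →ₐ[K] A', ∀ i j : ℕ, ρ (u ^ i * v ^ j) = U ^ i * V ^ j := by
  let f : A →ₗ[K] A' := b.constr K (fun p => U ^ (p.1 : ℕ) * V ^ (p.2 : ℕ))
  have hf : ∀ i j : ℕ, f (u ^ i * v ^ j) = U ^ i * V ^ j := by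
    intro i j
    rw [h.mon_red hr, h'.mon_red hr, map_smul]
    congr 1
    have := b.constr_basis K (fun p : Fin r × Fin r => U ^ (p.1 : ℕ) * V ^ (p.2 : ℕ))
      (⟨i % r, Nat.mod_lt _ hr⟩, ⟨j % r, Nat.mod_lt _ hr⟩)
    rw [hb] at this
    exact this
  have h1 : f 1 = 1 := by simpa using hf 0 0
  have hmul : ∀ x y, f (x * y) = f x * f y := by
    intro x y
    have key : (LinearMap.mul K A).compr₂ f = (LinearMap.mul K A').compl₁₂ f f := by
      refine b.ext fun p => b.ext fun q => ?_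
      simp only [LinearMap.compr₂_apply, LinearMap.mul_apply', LinearMap.compl₁₂_apply]
      rw [hb, hb, h.mon_mul hζ, map_smul, hf, hf, hf, h'.mon_mul hζ]
    have := congrArg (fun g => g x y) key
    simpa using this
  exact ⟨AlgHom.ofLinearMap f h1 hmul, hf⟩

end Symbol

section Curve

open Polynomial

variable {K : Type*} [Field K] {A : Type*} [Ring A] [Algebra K A]

/-- evaluation of a polynomial with coefficients in `A` at a scalar `μ ∈ K` -/
noncomputable def evK (A : Type*) [Ring A] [Algebra K A] (μ : K) : A[X] →ₐ[K] A :=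
  Polynomial.eval₂AlgHom (AlgHom.id K A) (algebraMap K A μ) (fun a => (Algebra.commutes μ a).symm)

theorem evK_C (μ : K) (a : A) : evK A μ (C a) = a := by
  change Polynomial.eval₂ ((AlgHom.id K A : A →ₐ[K] A) : A →+* A) (algebraMap K A μ) (C a) = _
  rw [Polynomial.eval₂_C]; rfl

theorem evK_X (μ : K) : evK A μ X = algebraMap K A μ := by
  change Polynomial.eval₂ ((AlgHom.id K A : A →ₐ[K] A) : A →+* A) (algebraMap K A μ) X = _
  rw [Polynomial.eval₂_X]

/-- the scalar polynomial `∑ τ(F_n) X^n` -/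
noncomputable def polyOf (τ : A →ₗ[K] K) (F : A[X]) : K[X] := F.sum fun n a => monomial n (τ a)

theorem polyOf_eval (τ : A →ₗ[K] K) (F : A[X]) (μ : K) :
    (polyOf τ F).eval μ = τ (evK A μ F) := by
  have h : evK A μ F = F.sum fun n a => a * (algebraMap K A μ) ^ n := by
    change Polynomial.eval₂ ((AlgHom.id K A : A →ₐ[K] A) : A →+* A) (algebraMap K A μ) F = _
    rw [Polynomial.eval₂_eq_sum]
    rfl
  rw [h, polyOf, Polynomial.sum, Polynomial.sum, Polynomial.eval_finsetSum, map_sum]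
  refine Finset.sum_congr rfl ?_
  intro n _
  rw [Polynomial.eval_monomial, ← map_pow, ← Algebra.commutes, ← Algebra.smul_def, map_smul,
    smul_eq_mul, mul_comm]

/-- a polynomial curve of families which is a basis at `0` spans for all but finitely many `μ`. -/
theorem finite_bad {ι : Type*} [Fintype ι] [DecidableEq ι] (b : Module.Basis ι K A) (F : ι → A[X])
    (h0 : ∀ p, evK A (0 : K) (F p) = b p) :
    {μ : K | ¬ Submodule.span K (Set.range fun p => evK A μ (F p)) = ⊤}.Finite := by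
  let M : Matrix ι ι K[X] := fun q p => polyOf (b.coord q) (F p)
  have hM : ∀ μ, M.det.eval μ = b.det (fun p => evK A μ (F p)) := by
    intro μ
    rw [Module.Basis.det_apply, ← Polynomial.coe_evalRingHom, RingHom.map_det]
    congr 1
    ext q p
    rw [Module.Basis.toMatrix_apply]
    change (polyOf (b.coord q) (F p)).eval μ = _
    rw [polyOf_eval, Module.Basis.coord_apply]
  have hne : M.det ≠ 0 := by
    intro h
    have := hM 0
    rw [h, Polynomial.eval_zero] at this
    simp_rw [h0] at this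
    rw [b.det_self] at this
    exact zero_ne_one this
  refine (Polynomial.finite_setOfPred_isRoot hne).subset ?_
  intro μ hμ
  change M.det.eval μ = 0
  by_contra hdet
  apply hμ
  have := (Module.Basis.is_basis_iff_det b (v := fun p => evK A μ (F p))).2
    (by rw [← hM]; exact isUnit_iff_ne_zero.2 hdet)
  exact this.2

theorem adjoin_pair_of_scaled {l : K} (hl : l ≠ 0) (V W : Fin 2 → A)
    (h : ∀ i, V i = l • W i) (hW : Algebra.adjoin K {W 0, W 1} = ⊤) :
    Algebra.adjoin K {V 0, V 1} = ⊤ := by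
  rw [eq_top_iff, ← hW]
  refine Algebra.adjoin_le ?_
  have e : ∀ i, W i = l⁻¹ • V i := by
    intro i; rw [h i, smul_smul, inv_mul_cancel₀ hl, one_smul]
  rintro x (rfl | rfl)
  · rw [e 0]
    exact Subalgebra.smul_mem _ (Algebra.subset_adjoin (by simp)) _
  · rw [e 1]
    exact Subalgebra.smul_mem _ (Algebra.subset_adjoin (by simp)) _

/-- (B3.2) a linear condition on `ev h V` valid for all generating pairs is valid for all pairs. -/
theorem all_of_generating [Infinite K] {r : ℕ} {ζ α β : K} {u v : A} (hr : 0 < r)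
    (b : Module.Basis (Fin r × Fin r) K A)
    (hb : ∀ p, b p = u ^ (p.1 : ℕ) * v ^ (p.2 : ℕ)) {d : ℕ} (h : (Fin d → Fin 2) → K)
    (τ : A →ₗ[K] K)
    (H : ∀ V : Fin 2 → A, Algebra.adjoin K {V 0, V 1} = ⊤ → τ (ev h V) = 0)
    (V : Fin 2 → A) : τ (ev h V) = 0 := by
  classical
  -- the curve (u + μ V0)^i (v + μ V1)^j
  let F : Fin r × Fin r → A[X] := fun p =>
    (C u + X * C (V 0)) ^ (p.1 : ℕ) * (C v + X * C (V 1)) ^ (p.2 : ℕ)
  have hF : ∀ (μ : K) p, evK A μ (F p) = (u + μ • V 0) ^ (p.1 : ℕ) * (v + μ • V 1) ^ (p.2 : ℕ) := by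
    intro μ p
    simp only [F, map_mul, map_pow, map_add, evK_C, evK_X, ← Algebra.smul_def]
  have hbad := finite_bad b F (by intro p; rw [hF]; simp [hb])
  set S := {μ : K | ¬ Submodule.span K (Set.range fun p => evK A μ (F p)) = ⊤} with hS
  have hgen : ∀ μ : K, μ ∉ S → Algebra.adjoin K {u + μ • V 0, v + μ • V 1} = ⊤ := by
    intro μ hμ
    have h1 : Submodule.span K (Set.range fun p => evK A μ (F p)) = ⊤ := by
      by_contra hc; exact hμ hc
    rw [eq_top_iff]
    intro x _
    have hx : x ∈ Submodule.span K (Set.range fun p => evK A μ (F p)) := by rw [h1]; trivial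
    have hle : Submodule.span K (Set.range fun p => evK A μ (F p)) ≤
        Subalgebra.toSubmodule (Algebra.adjoin K {u + μ • V 0, v + μ • V 1}) := by
      rw [Submodule.span_le]
      rintro _ ⟨p, rfl⟩
      change evK A μ (F p) ∈ (Algebra.adjoin K {u + μ • V 0, v + μ • V 1} : Subalgebra K A)
      rw [hF]
      exact mul_mem (pow_mem (Algebra.subset_adjoin (by simp)) _)
        (pow_mem (Algebra.subset_adjoin (by simp)) _)
    exact hle hx
  -- the polynomial g(λ) = τ (ev h (V + λ (u,v)))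
  let uu : Fin 2 → A := ![u, v]
  let G : A[X] := ev (L := K) h (fun i => C (V i) + X * C (uu i))
  have hG : ∀ l : K, (polyOf τ G).eval l = τ (ev h (fun i => V i + l • uu i)) := by
    intro l
    rw [polyOf_eval]
    congr 1
    rw [ev_map]
    congr 1
    funext i
    simp only [map_add, map_mul, evK_C, evK_X, ← Algebra.smul_def]
  have hz : polyOf τ G = 0 := by
    refine Polynomial.eq_zero_of_infinite_isRoot _ ?_
    have hinf : ({l : K | l ≠ 0 ∧ l⁻¹ ∉ S} : Set K).Infinite := by
      have hfin : (insert 0 (S.image (·⁻¹)) : Set K).Finite := (hbad.image _).insert 0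
      refine hfin.infinite_compl.mono ?_
      intro l hl
      simp only [Set.mem_compl_iff, Set.mem_insert_iff, not_or] at hl
      refine ⟨hl.1, fun hc => hl.2 ⟨l⁻¹, hc, inv_inv l⟩⟩
    refine hinf.mono ?_
    rintro l ⟨hl0, hlS⟩
    change (polyOf τ G).eval l = 0
    rw [hG]
    refine H _ ?_
    refine adjoin_pair_of_scaled hl0 (fun i => V i + l • uu i) (fun i => uu i + l⁻¹ • V i) ?_ ?_
    · intro i
      rw [smul_add, smul_smul, mul_inv_cancel₀ hl0, one_smul, add_comm]
    · simpa [uu] using hgen _ hlS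
  have := hG 0
  rw [hz, Polynomial.eval_zero] at this
  simpa using this.symm

end Curve

section MatrixModel

variable {L : Type*} [Field L]

/-- diagonal matrix `s·diag(η^a)` -/
def Dm (r : ℕ) (s η : L) : Matrix (Fin r) (Fin r) L := Matrix.diagonal fun a => s * η ^ (a : ℕ)

/-- `t·(cyclic shift)` -/
def Pm (r : ℕ) (t : L) : Matrix (Fin r) (Fin r) L :=
  Matrix.of fun a b => if (b : ℕ) = (a + 1) % r then t else 0

theorem Dm_pow (r : ℕ) (s η : L) (i : ℕ) :
    Dm r s η ^ i = Matrix.diagonal fun a : Fin r => s ^ i * η ^ ((a : ℕ) * i) := by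
  rw [Dm, Matrix.diagonal_pow]
  congr 1
  funext a
  simp only [Pi.pow_apply]
  rw [mul_pow, ← pow_mul]

theorem Pm_pow (r : ℕ) (hr : 0 < r) (t : L) (j : ℕ) (a b : Fin r) :
    (Pm r t ^ j) a b = if (b : ℕ) = (a + j) % r then t ^ j else 0 := by
  induction j generalizing a b with
  | zero =>
    rw [pow_zero, pow_zero, add_zero, Nat.mod_eq_of_lt a.isLt, Matrix.one_apply]
    by_cases h : a = b
    · subst h; simp
    · rw [if_neg h, if_neg]; intro h'; exact h (Fin.ext h'.symm)
  | succ j ih =>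
    rw [pow_succ', Matrix.mul_apply]
    have hlt : ((a : ℕ) + 1) % r < r := Nat.mod_lt _ hr
    rw [Finset.sum_eq_single (⟨((a : ℕ) + 1) % r, hlt⟩ : Fin r)]
    · rw [ih]
      simp only [Pm, Matrix.of_apply, if_true]
      rw [Nat.mod_add_mod, show (a : ℕ) + 1 + j = a + (j + 1) by ring]
      split_ifs
      · rw [pow_succ']
      · rw [mul_zero]
    · intro x _ hx
      have : ¬ ((x : ℕ) = (a + 1) % r) := fun h => hx (Fin.ext h)
      simp [Pm, this]
    · intro h; exact absurd (Finset.mem_univ _) h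

theorem DP_apply (r : ℕ) (hr : 0 < r) (s η t : L) (i j : ℕ) (a b : Fin r) :
    (Dm r s η ^ i * Pm r t ^ j) a b =
      if (b : ℕ) = (a + j) % r then s ^ i * η ^ ((a : ℕ) * i) * t ^ j else 0 := by
  rw [Dm_pow, Matrix.diagonal_mul, Pm_pow r hr]
  split_ifs <;> simp

theorem symRel_matrix {K : Type*} [Field K] [Algebra K L] {r : ℕ} (hr : 0 < r) {ζ α β : K}
    (hζ : IsPrimitiveRoot ζ r) {s t : L} (hs : s ^ r = algebraMap K L α)
    (ht : t ^ r = algebraMap K L β) :
    SymRel r ζ α β (Dm r s (algebraMap K L ζ)⁻¹) (Pm r t) := by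
  have hζ0 : ζ ≠ 0 := hζ.ne_zero hr.ne'
  have hz0 : algebraMap K L ζ ≠ 0 := by simpa using hζ0
  have hzr : (algebraMap K L ζ)⁻¹ ^ r = 1 := by
    rw [inv_pow, ← map_pow, hζ.pow_eq_one, map_one, inv_one]
  refine ⟨?_, ?_, ?_⟩
  · ext a b
    have h1 := DP_apply r hr s (algebraMap K L ζ)⁻¹ t 1 1 a b
    rw [pow_one, pow_one] at h1
    rw [h1, Matrix.smul_apply, Matrix.mul_apply]
    simp only [Dm, Pm, Matrix.of_apply, pow_one, mul_one]
    rw [Finset.sum_eq_single b]
    · rw [Matrix.diagonal_apply_eq]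
      by_cases hb : (b : ℕ) = (a + 1) % r
      · rw [if_pos hb, if_pos hb, hb, ← pow_mod_orderOf]
        have hpow : (algebraMap K L ζ)⁻¹ ^ (((a : ℕ) + 1) % r) = (algebraMap K L ζ)⁻¹ ^ ((a : ℕ) + 1) := by
          conv_rhs => rw [← Nat.div_add_mod ((a : ℕ) + 1) r, pow_add, pow_mul, hzr, one_pow, one_mul]
        rw [pow_mod_orderOf, hpow, Algebra.smul_def, pow_succ]
        field_simp
      · rw [if_neg hb, if_neg hb, zero_mul, smul_zero]
    · intro x _ hx
      rw [Matrix.diagonal_apply_ne _ hx, mul_zero]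
    · intro h; exact absurd (Finset.mem_univ _) h
  · rw [Dm_pow, Matrix.algebraMap_eq_diagonal]
    congr 1
    funext a
    rw [mul_comm (a : ℕ) r, pow_mul, hzr, one_pow, mul_one, hs]
    rfl
  · rw [Matrix.algebraMap_eq_diagonal]
    ext a b
    rw [Pm_pow r hr, Nat.add_mod_right, Nat.mod_eq_of_lt a.isLt, Matrix.diagonal_apply, ht]
    by_cases h : a = b
    · subst h; simp
    · rw [if_neg h, if_neg]; intro h'; exact h (Fin.ext h'.symm)

/-- every matrix is an `L`-combination of the `D^i P^j`. -/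
theorem exists_coeff {r : ℕ} (hr : 0 < r) [CharZero L] {η s t : L} (hη : IsPrimitiveRoot η r)
    (hs : s ≠ 0) (ht : t ≠ 0) (W : Matrix (Fin r) (Fin r) L) :
    ∃ x : Fin r × Fin r → L, W = ∑ p, x p • (Dm r s η⁻¹ ^ (p.1 : ℕ) * Pm r t ^ (p.2 : ℕ)) := by
  have hη0 : η ≠ 0 := hη.ne_zero hr.ne'
  have hr0 : (r : L) ≠ 0 := by exact_mod_cast hr.ne'
  refine ⟨fun p => (r : L)⁻¹ * (s ^ (p.1 : ℕ) * t ^ (p.2 : ℕ))⁻¹ *
    ∑ a : Fin r, η ^ ((a : ℕ) * p.1) * W a ⟨((a : ℕ) + p.2) % r, Nat.mod_lt _ hr⟩, ?_⟩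
  ext a' b'
  rw [Matrix.sum_apply, Fintype.sum_prod_type]
  simp only [Matrix.smul_apply, DP_apply r hr, smul_eq_mul]
  -- the unique j with b' = a' + j
  rw [Finset.sum_comm]
  have hj : ∃ j : Fin r, (b' : ℕ) = (a' + j) % r := by
    refine ⟨⟨((b' : ℕ) + (r - a')) % r, Nat.mod_lt _ hr⟩, ?_⟩
    have := a'.isLt
    simp only [Nat.add_mod_mod]
    rw [show (a' : ℕ) + ((b' : ℕ) + (r - a')) = b' + r by omega, Nat.add_mod_right,
      Nat.mod_eq_of_lt b'.isLt]
  obtain ⟨j, hj⟩ := hj
  have huniq : ∀ k : Fin r, (b' : ℕ) = (a' + k) % r → k = j := by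
    intro k hk
    have h1 : ((a' : ℕ) + k) % r = (a' + j) % r := by rw [← hk, ← hj]
    have h2 : (k : ℕ) ≡ j [MOD r] := Nat.ModEq.add_left_cancel' _ h1
    have h3 := Nat.ModEq.eq_of_lt_of_lt h2 k.isLt j.isLt
    exact Fin.ext h3
  rw [Finset.sum_eq_single j]
  · simp only [if_pos hj]
    have e1 : ∀ i : Fin r, (r : L)⁻¹ * (s ^ (i : ℕ) * t ^ (j : ℕ))⁻¹ *
        (∑ a : Fin r, η ^ ((a : ℕ) * i) * W a ⟨((a : ℕ) + j) % r, Nat.mod_lt _ hr⟩) *
        (s ^ (i : ℕ) * η⁻¹ ^ ((a' : ℕ) * i) * t ^ (j : ℕ)) =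
        ∑ a : Fin r, (r : L)⁻¹ * ((η ^ (a : ℕ) * η⁻¹ ^ (a' : ℕ)) ^ (i : ℕ) *
          W a ⟨((a : ℕ) + j) % r, Nat.mod_lt _ hr⟩) := by
      intro i
      rw [mul_assoc, Finset.sum_mul, Finset.mul_sum]
      refine Finset.sum_congr rfl ?_
      intro a _
      rw [mul_pow, ← pow_mul, ← pow_mul]
      field_simp
    simp_rw [e1]
    rw [Finset.sum_comm]
    rw [Finset.sum_eq_single a']
    · have : ∀ i : Fin r, (r : L)⁻¹ * ((η ^ (a' : ℕ) * η⁻¹ ^ (a' : ℕ)) ^ (i : ℕ) *
          W a' ⟨((a' : ℕ) + j) % r, Nat.mod_lt _ hr⟩) = (r : L)⁻¹ * W a' b' := by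
        intro i
        have hbb : (⟨((a' : ℕ) + j) % r, Nat.mod_lt _ hr⟩ : Fin r) = b' := Fin.ext hj.symm
        rw [hbb, ← mul_pow, mul_inv_cancel₀ hη0, one_pow, one_pow, one_mul]
      simp_rw [this]
      rw [Finset.sum_const, Finset.card_univ, Fintype.card_fin, nsmul_eq_mul]
      field_simp
    · intro a _ ha
      rw [← Finset.mul_sum, ← Finset.sum_mul]
      have hg : ∑ i : Fin r, (η ^ (a : ℕ) * η⁻¹ ^ (a' : ℕ)) ^ (i : ℕ) = 0 := by
        rw [Fin.sum_univ_eq_sum_range (fun i => (η ^ (a : ℕ) * η⁻¹ ^ (a' : ℕ)) ^ i) r]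
        have hne : η ^ (a : ℕ) * η⁻¹ ^ (a' : ℕ) ≠ 1 := by
          intro h
          apply ha
          rw [inv_pow, ← div_eq_mul_inv, div_eq_one_iff_eq (pow_ne_zero _ hη0)] at h
          exact Fin.ext (hη.pow_inj a.isLt a'.isLt h)
        have hpow : (η ^ (a : ℕ) * η⁻¹ ^ (a' : ℕ)) ^ r = 1 := by
          rw [mul_pow, ← pow_mul, ← pow_mul, mul_comm (a : ℕ), mul_comm (a' : ℕ), pow_mul, pow_mul,
            inv_pow, hη.pow_eq_one]
          simp
        have := mul_geom_sum (η ^ (a : ℕ) * η⁻¹ ^ (a' : ℕ)) r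
        rw [hpow, sub_self] at this
        rcases mul_eq_zero.1 this with h | h
        · exact absurd (sub_eq_zero.1 h) hne
        · exact h
      rw [hg, zero_mul, mul_zero]
    · intro h; exact absurd (Finset.mem_univ _) h
  · intro k _ hk
    refine Finset.sum_eq_zero ?_
    intro i _
    rw [if_neg (fun h => hk (huniq k h)), mul_zero]
  · intro h; exact absurd (Finset.mem_univ _) h

end MatrixModel

section Final

variable {K : Type*} [Field K] [CharZero K] {A : Type*} [Ring A] [Algebra K A]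

/-- the matrix model of a symbol algebra -/
theorem exists_model {r : ℕ} (hr : 0 < r) {ζ α β : K} (hζ : IsPrimitiveRoot ζ r) (hα : α ≠ 0)
    (hβ : β ≠ 0) {u v : A} (h : SymRel r ζ α β u v) (b : Module.Basis (Fin r × Fin r) K A)
    (hb : ∀ p, b p = u ^ (p.1 : ℕ) * v ^ (p.2 : ℕ)) :
    ∃ ρ : A →ₐ[K] Matrix (Fin r) (Fin r) (AlgebraicClosure K),
      (∀ W, ∃ x : Fin r × Fin r → AlgebraicClosure K, W = ∑ p, x p • ρ (b p)) ∧
      ∀ a, Matrix.trace (ρ a) =
        (r : AlgebraicClosure K) * algebraMap K _ (b.coord (⟨0, hr⟩, ⟨0, hr⟩) a) := by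
  obtain ⟨s, hs⟩ := IsAlgClosed.exists_pow_nat_eq (algebraMap K (AlgebraicClosure K) α) hr
  obtain ⟨t, ht⟩ := IsAlgClosed.exists_pow_nat_eq (algebraMap K (AlgebraicClosure K) β) hr
  have hs0 : s ≠ 0 := by
    rintro rfl
    rw [zero_pow hr.ne'] at hs
    exact hα (by simpa using hs.symm)
  have ht0 : t ≠ 0 := by
    rintro rfl
    rw [zero_pow hr.ne'] at ht
    exact hβ (by simpa using ht.symm)
  have hη : IsPrimitiveRoot (algebraMap K (AlgebraicClosure K) ζ) r :=
    hζ.map_of_injective (algebraMap K _).injective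
  have hη0 := hη.ne_zero hr.ne'
  obtain ⟨ρ, hρ⟩ := h.exists_hom hr (hζ.ne_zero hr.ne') b hb
    (symRel_matrix (L := AlgebraicClosure K) hr hζ hs ht)
  refine ⟨ρ, ?_, ?_⟩
  · intro W
    obtain ⟨x, hx⟩ := exists_coeff hr hη hs0 ht0 W
    refine ⟨x, ?_⟩
    rw [hx]
    refine Finset.sum_congr rfl ?_
    intro p _
    rw [hb, hρ]
  · -- trace
    have key : (Matrix.traceLinearMap (Fin r) K (AlgebraicClosure K)) ∘ₗ ρ.toLinearMap =
        ((r : AlgebraicClosure K) • (Algebra.linearMap K (AlgebraicClosure K) ∘ₗ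
          b.coord (⟨0, hr⟩, ⟨0, hr⟩))) := by
      refine b.ext fun p => ?_
      simp only [LinearMap.comp_apply, AlgHom.toLinearMap_apply, Matrix.traceLinearMap_apply,
        LinearMap.smul_apply, Algebra.linearMap_apply, Module.Basis.coord_apply,
        Module.Basis.repr_self]
      rw [hb, hρ, Matrix.trace]
      simp only [Matrix.diag_apply, DP_apply r hr]
      by_cases h2 : (p.2 : ℕ) = 0
      · have hcond : ∀ a : Fin r, ((a : ℕ) = (a + p.2) % r) := by
          intro a; rw [h2, add_zero, Nat.mod_eq_of_lt a.isLt]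
        have hsum : (∑ a : Fin r, if (a : ℕ) = (a + p.2) % r then
            s ^ (p.1 : ℕ) * (algebraMap K (AlgebraicClosure K) ζ)⁻¹ ^ ((a : ℕ) * (p.1 : ℕ)) * t ^ (p.2 : ℕ)
            else 0) = ∑ a : Fin r, s ^ (p.1 : ℕ) *
              (algebraMap K (AlgebraicClosure K) ζ)⁻¹ ^ ((a : ℕ) * (p.1 : ℕ)) := by
          refine Finset.sum_congr rfl ?_
          intro a _
          rw [if_pos (hcond a), h2, pow_zero, mul_one]
        rw [hsum]
        by_cases h1 : (p.1 : ℕ) = 0
        · have hp : p = (⟨0, hr⟩, ⟨0, hr⟩) := Prod.ext (Fin.ext h1) (Fin.ext h2)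
          rw [h1, hp]
          simp
        · rw [Finsupp.single_eq_of_ne (fun hp => h1 (by rw [← hp]))]
          rw [map_zero, smul_zero, ← Finset.mul_sum]
          have hg : ∑ a : Fin r, (algebraMap K (AlgebraicClosure K) ζ)⁻¹ ^ ((a : ℕ) * (p.1 : ℕ)) = 0 := by
            have e : ∀ a : Fin r, (algebraMap K (AlgebraicClosure K) ζ)⁻¹ ^ ((a : ℕ) * (p.1 : ℕ)) =
                ((algebraMap K (AlgebraicClosure K) ζ)⁻¹ ^ (p.1 : ℕ)) ^ (a : ℕ) := by
              intro a; rw [← pow_mul, mul_comm]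
            simp_rw [e]
            rw [Fin.sum_univ_eq_sum_range
              (fun a => ((algebraMap K (AlgebraicClosure K) ζ)⁻¹ ^ (p.1 : ℕ)) ^ a) r]
            have hne : (algebraMap K (AlgebraicClosure K) ζ)⁻¹ ^ (p.1 : ℕ) ≠ 1 := by
              intro hh
              rw [inv_pow, inv_eq_one] at hh
              exact h1 (Nat.eq_zero_of_dvd_of_lt (hη.dvd_of_pow_eq_one _ hh) p.1.isLt)
            have hpow : ((algebraMap K (AlgebraicClosure K) ζ)⁻¹ ^ (p.1 : ℕ)) ^ r = 1 := by
              rw [← pow_mul, mul_comm, pow_mul, inv_pow, hη.pow_eq_one, inv_one, one_pow]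
            have := mul_geom_sum ((algebraMap K (AlgebraicClosure K) ζ)⁻¹ ^ (p.1 : ℕ)) r
            rw [hpow, sub_self] at this
            rcases mul_eq_zero.1 this with h | h
            · exact absurd (sub_eq_zero.1 h) hne
            · exact h
          rw [hg, mul_zero]
      · have hcond : ∀ a : Fin r, ¬ ((a : ℕ) = (a + p.2) % r) := by
          intro a hh
          have h3 : ((a : ℕ) + p.2) ≡ a + 0 [MOD r] := by
            unfold Nat.ModEq
            rw [add_zero, Nat.mod_eq_of_lt a.isLt, ← hh]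
          have h4 := Nat.ModEq.add_left_cancel' _ h3
          exact h2 (Nat.ModEq.eq_of_lt_of_lt h4 p.2.isLt hr)
        simp only [if_neg (hcond _), Finset.sum_const_zero]
        rw [Finsupp.single_eq_of_ne (fun hp => h2 (by rw [← hp]))]
        rw [map_zero, smul_zero]
    intro a
    have := congrArg (fun g => g a) key
    simpa using this

/-- (B3.3a) for the symbol algebra. -/
theorem sym_a {r : ℕ} (hr : 0 < r) {ζ α β : K} (hζ : IsPrimitiveRoot ζ r) (hα : α ≠ 0)
    (hβ : β ≠ 0) {u v : A} (hs : SymRel r ζ α β u v) (b : Module.Basis (Fin r × Fin r) K A)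
    (hb : ∀ p, b p = u ^ (p.1 : ℕ) * v ^ (p.2 : ℕ)) {d : ℕ} (hd : d < r)
    (h : (Fin d → Fin 2) → K)
    (H : ∀ V : Fin 2 → A, Algebra.adjoin K {V 0, V 1} = ⊤ → ev h V = 0) : h = 0 := by
  obtain ⟨ρ, hρ, -⟩ := exists_model hr hζ hα hβ hs b hb
  have hall : ∀ k, ∀ V : Fin 2 → A, b.coord k (ev h V) = 0 := by
    intro k V
    exact all_of_generating (ζ := ζ) (α := α) (β := β) hr b hb h (b.coord k)
      (fun V hV => by rw [H V hV, map_zero]) V
  have h1 : ∀ W : Fin 2 → Matrix (Fin r) (Fin r) (AlgebraicClosure K), ev (L := K) h W = 0 := by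
    intro W
    choose x hx using fun i => hρ (W i)
    ext a0 b0
    have := transfer (L := AlgebraicClosure K) b ρ h (fun k => b.coord k)
      (Matrix.entryLinearMap (AlgebraicClosure K) (AlgebraicClosure K) a0 b0)
      (fun k => (ρ (b k)) a0 b0)
      (by
        intro a
        simp only [Matrix.entryLinearMap_apply]
        conv_lhs => rw [← b.sum_repr a]
        rw [map_sum, Matrix.sum_apply]
        refine Finset.sum_congr rfl ?_
        intro k _
        rw [map_smul, Matrix.smul_apply, Algebra.smul_def, mul_comm, Module.Basis.coord_apply])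
      hall x
    simp only [Matrix.entryLinearMap_apply] at this
    have hW : W = fun i => ∑ k, x i k • ρ (b k) := funext hx
    rw [Matrix.zero_apply, hW, this]
  -- compare ev over K and over L
  have h2 : (fun w => algebraMap K (AlgebraicClosure K) (h w)) = 0 := by
    refine pi_a hd _ ?_
    intro W
    have := h1 W
    simp only [ev] at this ⊢
    rw [← this]
    refine Finset.sum_congr rfl ?_
    intro w _
    rw [algebraMap_smul]
  funext w
  have := congrFun h2 w
  simpa using this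

/-- (B3.3b) for the symbol algebra. -/
theorem sym_b {r : ℕ} (hr : 0 < r) {ζ α β : K} (hζ : IsPrimitiveRoot ζ r) (hα : α ≠ 0)
    (hβ : β ≠ 0) {u v : A} (hs : SymRel r ζ α β u v) (b : Module.Basis (Fin r × Fin r) K A)
    (hb : ∀ p, b p = u ^ (p.1 : ℕ) * v ^ (p.2 : ℕ)) {n : ℕ} (hd : n + 1 ≤ r)
    (h : (Fin (n+1) → Fin 2) → K)
    (H : ∀ V : Fin 2 → A, Algebra.adjoin K {V 0, V 1} = ⊤ →
      b.coord (⟨0, hr⟩, ⟨0, hr⟩) (ev h V) = 0) :
    ∃ g : Fin 2 → (Fin n → Fin 2) → K, ∀ w : Fin (n+1) → Fin 2,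
      h w = g (w 0) (fun k => w k.succ) - g (w (Fin.last n)) (fun k => w k.castSucc) := by
  obtain ⟨ρ, hρ, hρt⟩ := exists_model hr hζ hα hβ hs b hb
  have hall : ∀ _ : Unit, ∀ V : Fin 2 → A, b.coord (⟨0, hr⟩, ⟨0, hr⟩) (ev h V) = 0 := by
    intro _ V
    exact all_of_generating (ζ := ζ) (α := α) (β := β) hr b hb h _ H V
  have h1 : ∀ W : Fin 2 → Matrix (Fin r) (Fin r) (AlgebraicClosure K),
      Matrix.trace (ev (L := K) h W) = 0 := by
    intro W
    choose x hx using fun i => hρ (W i)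
    have := transfer (L := AlgebraicClosure K) b ρ h
      (fun _ : Unit => b.coord (⟨0, hr⟩, ⟨0, hr⟩))
      (Matrix.traceLinearMap (Fin r) (AlgebraicClosure K) (AlgebraicClosure K))
      (fun _ => (r : AlgebraicClosure K))
      (by
        intro a
        simp only [Matrix.traceLinearMap_apply, Finset.univ_unique, Finset.sum_singleton]
        exact hρt a)
      hall x
    simp only [Matrix.traceLinearMap_apply] at this
    have hW : W = fun i => ∑ k, x i k • ρ (b k) := funext hx
    rw [hW, this]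
  have h2 := pi_b (L := AlgebraicClosure K) hd (fun w => algebraMap K (AlgebraicClosure K) (h w)) (by
    intro W
    have := h1 W
    simp only [ev] at this ⊢
    rw [← this]
    congr 1
    refine Finset.sum_congr rfl ?_
    intro w _
    rw [algebraMap_smul])
  refine commutator_form h ?_
  intro w
  have := h2 w
  rw [← map_sum] at this
  exact (map_eq_zero_iff _ (algebraMap K (AlgebraicClosure K)).injective).1 this

end Final

end Vale.P199
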