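import Vale.Agent.P199.BDefs
import Vale.Agent.P199.SymPI

/-!
# P199 : polynomial and trace identities on `Q ⊂ B1` for a `QExt` (B3.3)
-/

open HahnSeries

namespace Vale.P199

namespace QPI

section

variable {F R : Type*} [Field F] [CharZero F] [DivisionRing R] [Algebra F R]
  {r : ℕ} {ζ α β : F} {u v : R}

/-- the span of the monomials `u^i v^j` -/
def P (F : Type*) {R : Type*} [Field F] [DivisionRing R] [Algebra F R] (r : ℕ) (u v : R) :
    Submodule F R :=
  Submodule.span F (Set.range fun p : Fin r × Fin r => u ^ (p.1 : ℕ) * v ^ (p.2 : ℕ))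

omit [CharZero F] in
theorem mon_mem (hr : 0 < r) (h : SymRel r ζ α β u v) (i j : ℕ) : u ^ i * v ^ j ∈ P F r u v := by
  rw [h.mon_red hr]
  exact Submodule.smul_mem _ _ (Submodule.subset_span
    ⟨(⟨i % r, Nat.mod_lt _ hr⟩, ⟨j % r, Nat.mod_lt _ hr⟩), rfl⟩)

omit [CharZero F] in
theorem mul_mem_P (hr : 0 < r) (hζ : ζ ≠ 0) (h : SymRel r ζ α β u v) {x y : R}
    (hx : x ∈ P F r u v) (hy : y ∈ P F r u v) : x * y ∈ P F r u v := by
  unfold P at hx hy
  induction hx using Submodule.span_induction with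
  | mem x hx =>
    obtain ⟨p, rfl⟩ := hx
    induction hy using Submodule.span_induction with
    | mem y hy =>
      obtain ⟨q, rfl⟩ := hy
      simp only
      rw [h.mon_mul hζ]
      exact Submodule.smul_mem _ _ (mon_mem hr h _ _)
    | zero => rw [mul_zero]; exact Submodule.zero_mem _
    | add a b _ _ ha hb => rw [mul_add]; exact Submodule.add_mem _ ha hb
    | smul c a _ ha => rw [mul_smul_comm]; exact Submodule.smul_mem _ _ ha
  | zero => rw [zero_mul]; exact Submodule.zero_mem _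
  | add a b _ _ ha hb => rw [add_mul]; exact Submodule.add_mem _ ha hb
  | smul c a _ ha => rw [smul_mul_assoc]; exact Submodule.smul_mem _ _ ha

/-- the subalgebra `Q` -/
def Qa (hr : 0 < r) (hζ : ζ ≠ 0) (h : SymRel r ζ α β u v) : Subalgebra F R :=
  (P F r u v).toSubalgebra (by simpa using mon_mem hr h 0 0) (fun _ _ => mul_mem_P hr hζ h)

omit [CharZero F] in
theorem mem_Qa (hr : 0 < r) (hζ : ζ ≠ 0) (h : SymRel r ζ α β u v) (i j : ℕ) :
    u ^ i * v ^ j ∈ Qa hr hζ h := mon_mem hr h i j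

omit [CharZero F] in
/-- the basis of `Q` -/
theorem exists_basis_Qa (hr : 0 < r) (hζ : ζ ≠ 0) (h : SymRel r ζ α β u v)
    (hli : LinearIndependent F (fun p : Fin r × Fin r => u ^ (p.1 : ℕ) * v ^ (p.2 : ℕ))) :
    ∃ b : Module.Basis (Fin r × Fin r) F (Qa hr hζ h),
      ∀ p, (b p : R) = u ^ (p.1 : ℕ) * v ^ (p.2 : ℕ) := by
  let bP : Module.Basis (Fin r × Fin r) F (P F r u v) := Module.Basis.span hli
  have hbP : ∀ p, ((bP p : P F r u v) : R) = u ^ (p.1 : ℕ) * v ^ (p.2 : ℕ) := by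
    intro p
    exact congrArg Subtype.val (Module.Basis.span_apply hli p)
  let e : P F r u v ≃ₗ[F] (Qa hr hζ h) := LinearEquiv.refl F _
  refine ⟨bP.map e, ?_⟩
  intro p
  rw [Module.Basis.map_apply]
  exact hbP p

omit [CharZero F] in
/-- trace of the monomials -/
theorem tr_mon [FiniteDimensional F R] (hr : 0 < r) (hζ : IsPrimitiveRoot ζ r)
    (h : SymRel r ζ α β u v) (hu : u ≠ 0) (hv : v ≠ 0) (p : Fin r × Fin r) :
    tr F R (u ^ (p.1 : ℕ) * v ^ (p.2 : ℕ)) =
      tr F R 1 * (if (p.1 : ℕ) = 0 ∧ (p.2 : ℕ) = 0 then 1 else 0) := by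
  have hζ0 := hζ.ne_zero hr.ne'
  have key : ∀ (x m : R) (c : F), x ≠ 0 → c ≠ 1 → x * m = c • (m * x) → tr F R m = 0 := by
    intro x m c hx hc hxm
    have h1 : tr F R (x * m * x⁻¹) = tr F R m := by
      rw [Tr.tr_mul_comm, ← mul_assoc, inv_mul_cancel₀ hx, one_mul]
    rw [hxm, smul_mul_assoc, mul_assoc, mul_inv_cancel₀ hx, mul_one, map_smul, smul_eq_mul] at h1
    have h2 : (c - 1) * tr F R m = 0 := by rw [sub_mul, h1, one_mul, sub_self]
    exact (mul_eq_zero.1 h2).resolve_left (sub_ne_zero.2 hc)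
  by_cases h2 : (p.2 : ℕ) = 0
  · by_cases h1 : (p.1 : ℕ) = 0
    · rw [if_pos ⟨h1, h2⟩, h1, h2, pow_zero, pow_zero, mul_one, mul_one]
    · rw [if_neg (fun hh => h1 hh.1), mul_zero, h2, pow_zero, mul_one]
      refine key v _ (ζ⁻¹ ^ (p.1 : ℕ)) hv ?_ ?_
      · intro hh
        rw [inv_pow, inv_eq_one] at hh
        exact h1 (Nat.eq_zero_of_dvd_of_lt (hζ.dvd_of_pow_eq_one _ hh) p.1.isLt)
      · have := h.v_pow_u_pow hζ0 1 (p.1 : ℕ)
        rw [pow_one, one_mul] at this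
        exact this
  · rw [if_neg (fun hh => h2 hh.2), mul_zero]
    refine key u _ (ζ ^ (p.2 : ℕ)) hu ?_ ?_
    · intro hh
      exact h2 (Nat.eq_zero_of_dvd_of_lt (hζ.dvd_of_pow_eq_one _ hh) p.2.isLt)
    · have h3 := h.v_pow_u hζ0 (p.2 : ℕ)
      have h4 : u * v ^ (p.2 : ℕ) = ζ ^ (p.2 : ℕ) • (v ^ (p.2 : ℕ) * u) := by
        rw [h3, smul_smul, ← mul_pow, mul_inv_cancel₀ hζ0, one_pow, one_smul]
      rw [← mul_assoc, ← pow_succ', pow_succ, mul_assoc, h4, mul_smul_comm, mul_assoc]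

end

end QPI

section

variable {K B : Type} [Field K] [DivisionRing B] [Algebra K B] {r : ℕ} {ζ : K}

theorem QExt.symRel (E : QExt K B r ζ) :
    ∃ α β : E.K1, α ≠ 0 ∧ β ≠ 0 ∧ SymRel r (E.jK ζ) α β E.u E.v := by
  obtain ⟨α, hα, hu⟩ := E.hur
  obtain ⟨β, hβ, hv⟩ := E.hvr
  refine ⟨α, β, hα, hβ, ⟨?_, hu, hv⟩⟩
  rw [E.huv, E.comp, ← Algebra.smul_def]

theorem QExt.li_mon (E : QExt K B r ζ) [FiniteDimensional K B] :
    LinearIndependent E.K1 (fun p : Fin r × Fin r => E.u ^ (p.1 : ℕ) * E.v ^ (p.2 : ℕ)) := by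
  obtain ⟨b1, hb1⟩ := E.basis (Module.finBasis K B)
  have hpos : 0 < Module.finrank K B := Module.finrank_pos
  let i0 : Fin (Module.finrank K B) := ⟨0, hpos⟩
  have h1 : LinearIndependent E.K1 (fun p : Fin r × Fin r => b1 (i0, p.1, p.2)) :=
    b1.linearIndependent.comp (fun p : Fin r × Fin r => (i0, p.1, p.2))
      (by intro p q hpq; simpa [Prod.ext_iff] using hpq)
  have h2 : (fun p : Fin r × Fin r => b1 (i0, p.1, p.2)) =
      (LinearMap.mulLeft E.K1 (E.jB (Module.finBasis K B i0))) ∘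
        (fun p : Fin r × Fin r => E.u ^ (p.1 : ℕ) * E.v ^ (p.2 : ℕ)) := by
    funext p
    exact hb1 (i0, p.1, p.2)
  rw [h2] at h1
  exact LinearIndependent.of_comp _ h1

/-- the list product of `QPI` versus `ev` -/
theorem QPI.ev_list {F R : Type*} [Field F] [Ring R] [Algebra F R] {d : ℕ}
    (h : (Fin d → Fin 2) → F) (V : Fin 2 → R) :
    (∑ w, h w • ((List.ofFn w).map V).prod) = ev h V := by
  simp only [ev, wordProd, List.map_ofFn]
  rfl

/-- generation passes from `Q` to `B1` -/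
theorem QPI.gen_val {F R : Type*} [Field F] [Ring R] [Algebra F R] (Q : Subalgebra F R)
    (V : Fin 2 → Q) (hV : Algebra.adjoin F {V 0, V 1} = ⊤) (x : R) (hx : x ∈ Q) :
    x ∈ Algebra.adjoin F {(V 0 : R), (V 1 : R)} := by
  have h1 : (⟨x, hx⟩ : Q) ∈ Algebra.adjoin F {V 0, V 1} := by rw [hV]; trivial
  have h2 : Q.val ⟨x, hx⟩ ∈ (Algebra.adjoin F {V 0, V 1}).map Q.val := ⟨_, h1, rfl⟩
  rw [AlgHom.map_adjoin, Set.image_pair] at h2
  exact h2

theorem QExt.comm_of_mem (E : QExt K B r ζ) {x : E.B1} (hx : x ∈ QPI.P E.K1 r E.u E.v) (b : B) :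
    E.jB b * x = x * E.jB b := by
  unfold QPI.P at hx
  induction hx using Submodule.span_induction with
  | mem x hx =>
    obtain ⟨p, rfl⟩ := hx
    have h1 : Commute (E.jB b) E.u := E.hu b
    have h2 : Commute (E.jB b) E.v := E.hv b
    exact (h1.pow_right _).mul_right (h2.pow_right _)
  | zero => rw [mul_zero, zero_mul]
  | add a c _ _ ha hc => rw [mul_add, add_mul, ha, hc]
  | smul c a _ ha => rw [mul_smul_comm, smul_mul_assoc, ha]

/-- the subalgebra `Q` of a `QExt`, packaged -/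
theorem QExt.exists_Q (E : QExt K B r ζ) [FiniteDimensional K B] (hr : 0 < r)
    (hζ : IsPrimitiveRoot ζ r) :
    ∃ (Q : Subalgebra E.K1 E.B1) (u' v' : Q) (α β : E.K1)
      (b : Module.Basis (Fin r × Fin r) E.K1 Q), α ≠ 0 ∧ β ≠ 0 ∧ SymRel r (E.jK ζ) α β u' v' ∧
      (∀ p, b p = u' ^ (p.1 : ℕ) * v' ^ (p.2 : ℕ)) ∧ (u' : E.B1) = E.u ∧ (v' : E.B1) = E.v ∧
      (∀ x : Q, ∀ c : B, E.jB c * (x : E.B1) = (x : E.B1) * E.jB c) ∧
      (∀ p, tr E.K1 E.B1 (b p : E.B1) =
        tr E.K1 E.B1 1 * (if (p.1 : ℕ) = 0 ∧ (p.2 : ℕ) = 0 then 1 else 0)) := by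
  obtain ⟨α, β, hα, hβ, hs⟩ := E.symRel
  have hζ1 : IsPrimitiveRoot (E.jK ζ) r := hζ.map_of_injective E.jK.injective
  have hζ0 := hζ1.ne_zero hr.ne'
  obtain ⟨b, hb⟩ := QPI.exists_basis_Qa hr hζ0 hs E.li_mon
  have hu : E.u ∈ QPI.Qa hr hζ0 hs := by
    have := QPI.mem_Qa hr hζ0 hs 1 0
    rwa [pow_one, pow_zero, mul_one] at this
  have hv : E.v ∈ QPI.Qa hr hζ0 hs := by
    have := QPI.mem_Qa hr hζ0 hs 0 1
    rwa [pow_one, pow_zero, one_mul] at this
  have hu0 : E.u ≠ 0 := by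
    intro h0
    have h1 := hs.2
    rw [h0, zero_pow hr.ne'] at h1
    exact hα ((map_eq_zero _).1 h1.symm)
  have hv0 : E.v ≠ 0 := by
    intro h0
    have h1 := hs.3
    rw [h0, zero_pow hr.ne'] at h1
    exact hβ ((map_eq_zero _).1 h1.symm)
  refine ⟨QPI.Qa hr hζ0 hs, ⟨E.u, hu⟩, ⟨E.v, hv⟩, α, β, b, hα, hβ,
    ⟨Subtype.ext hs.1, Subtype.ext hs.2, Subtype.ext hs.3⟩, fun p => Subtype.ext (hb p), rfl, rfl,
    fun x c => E.comm_of_mem x.2 c, fun p => ?_⟩
  rw [hb p]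
  exact QPI.tr_mon hr hζ1 hs hu0 hv0 p

/-- (QPIa) -/
theorem QExt.pi_a {K B : Type} [Field K] [CharZero K] [DivisionRing B] [Algebra K B]
    [FiniteDimensional K B] {r : ℕ} {ζ : K} (E : QExt K B r ζ) (hr : 0 < r)
    (hζ : IsPrimitiveRoot ζ r) (_ : ∀ a : B, (∀ b, a * b = b * a) → ∃ k, algebraMap K B k = a)
    {d : ℕ} (hd : d < r) (h : (Fin d → Fin 2) → E.K1)
    (H : ∀ V : Fin 2 → E.B1, (∀ b m, E.jB b * V m = V m * E.jB b) →
      (E.u ∈ Algebra.adjoin E.K1 {V 0, V 1} ∧ E.v ∈ Algebra.adjoin E.K1 {V 0, V 1}) →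
      ∑ w, h w • ((List.ofFn w).map V).prod = 0) : h = 0 := by
  obtain ⟨Q, u', v', α, β, b, hα, hβ, hs, hb, hu, hv, hc, -⟩ := E.exists_Q hr hζ
  have hζ1 : IsPrimitiveRoot (E.jK ζ) r := hζ.map_of_injective E.jK.injective
  refine sym_a hr hζ1 hα hβ hs b hb hd h ?_
  intro V hV
  apply Subtype.ext
  have h1 : ((ev h V : Q) : E.B1) = ev h (fun i => (V i : E.B1)) := ev_map h Q.val V
  rw [h1, ← QPI.ev_list]
  refine H (fun i => (V i : E.B1)) (fun b' m => hc (V m) b') ⟨?_, ?_⟩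
  · rw [← hu]; exact QPI.gen_val Q V hV _ u'.2
  · rw [← hv]; exact QPI.gen_val Q V hV _ v'.2

/-- (QPIb) -/
theorem QExt.pi_b {K B : Type} [Field K] [CharZero K] [DivisionRing B] [Algebra K B]
    [FiniteDimensional K B] {r : ℕ} {ζ : K} (E : QExt K B r ζ) (hr : 0 < r)
    (hζ : IsPrimitiveRoot ζ r) (_ : ∀ a : B, (∀ b, a * b = b * a) → ∃ k, algebraMap K B k = a)
    {d : ℕ} (hd : d < r) (h : (Fin d → Fin 2) → E.K1)
    (H : ∀ V : Fin 2 → E.B1, (∀ b m, E.jB b * V m = V m * E.jB b) →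
      (E.u ∈ Algebra.adjoin E.K1 {V 0, V 1} ∧ E.v ∈ Algebra.adjoin E.K1 {V 0, V 1}) →
      tr E.K1 E.B1 (∑ w, h w • ((List.ofFn w).map V).prod) = 0) :
    ∃ g : Fin 2 → List (Fin 2) → E.K1, ∀ (w : Fin d → Fin 2) (i j : Fin 2) (l : List (Fin 2)),
      List.ofFn w = i :: (l ++ [j]) → h w = g i (l ++ [j]) - g j (i :: l) := by
  cases d with
  | zero =>
    refine ⟨fun _ _ => 0, ?_⟩
    intro w i j l hw
    have := congrArg List.length hw
    simp at this
  | succ n =>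
    obtain ⟨Q, u', v', α, β, b, hα, hβ, hs, hb, hu, hv, hc, htr⟩ := E.exists_Q hr hζ
    have hζ1 : IsPrimitiveRoot (E.jK ζ) r := hζ.map_of_injective E.jK.injective
    have hcoord : ∀ x : Q, tr E.K1 E.B1 (x : E.B1) =
        tr E.K1 E.B1 1 * b.coord (⟨0, hr⟩, ⟨0, hr⟩) x := by
      have key : (tr E.K1 E.B1).comp Q.val.toLinearMap =
          (tr E.K1 E.B1 1) • b.coord (⟨0, hr⟩, ⟨0, hr⟩) := by
        refine b.ext ?_
        intro p
        rw [LinearMap.comp_apply, LinearMap.smul_apply, Module.Basis.coord_apply,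
          Module.Basis.repr_self, smul_eq_mul]
        refine (htr p).trans ?_
        by_cases hp : (p.1 : ℕ) = 0 ∧ (p.2 : ℕ) = 0
        · have : p = (⟨0, hr⟩, ⟨0, hr⟩) := Prod.ext (Fin.ext hp.1) (Fin.ext hp.2)
          rw [if_pos hp, this, Finsupp.single_eq_same]
        · rw [if_neg hp, Finsupp.single_eq_of_ne]
          intro hh
          apply hp
          rw [← hh]
          exact ⟨rfl, rfl⟩
      intro x
      exact LinearMap.congr_fun key x
    obtain ⟨g, hg⟩ := sym_b hr hζ1 hα hβ hs b hb (n := n) (by omega) h (by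
      intro V hV
      have h1 : ((ev h V : Q) : E.B1) = ev h (fun i => (V i : E.B1)) := ev_map h Q.val V
      have h2 := hcoord (ev h V)
      rw [h1, ← QPI.ev_list, H (fun i => (V i : E.B1)) (fun b' m => hc (V m) b')
        ⟨by rw [← hu]; exact QPI.gen_val Q V hV _ u'.2,
          by rw [← hv]; exact QPI.gen_val Q V hV _ v'.2⟩] at h2
      exact (mul_eq_zero.1 h2.symm).resolve_left Tr.tr_one_ne)
    refine ⟨fun i l => if hl : l.length = n then g i (fun k => l.get (k.cast hl.symm)) else 0, ?_⟩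
    intro w i j l hw
    have hlen : l.length + 1 = n := by
      have := congrArg List.length hw
      simp at this
      omega
    have hget : ∀ k : Fin (n + 1), w k = (i :: (l ++ [j])).get (k.cast (by simp; omega)) := by
      intro k
      have : ∀ (L : List (Fin 2)) (hL : List.ofFn w = L),
          w k = L.get (k.cast (by rw [← hL, List.length_ofFn])) := by
        rintro L rfl
        rw [List.get_eq_getElem, List.getElem_ofFn]
        rfl
      exact this _ hw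
    have h1 : w 0 = i := by rw [hget]; rfl
    have h2 : w (Fin.last n) = j := by
      rw [hget]
      simp [List.get_eq_getElem]
    have h3 : (l ++ [j]).length = n := by simp; omega
    have h4 : (i :: l).length = n := by simp; omega
    show h w = (if hl : (l ++ [j]).length = n then
        g i (fun k => (l ++ [j]).get (k.cast hl.symm)) else 0) -
      (if hl : (i :: l).length = n then g j (fun k => (i :: l).get (k.cast hl.symm)) else 0)
    rw [hg w, dif_pos h3, dif_pos h4, h1, h2]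
    congr 2
    · funext k
      rw [hget]
      simp [List.get_eq_getElem]
    · funext k
      rw [hget]
      have hk := k.isLt
      rcases k with ⟨k, hk'⟩
      cases k with
      | zero => rfl
      | succ k =>
        simp only [List.get_eq_getElem, Fin.val_cast, Fin.val_castSucc, List.getElem_cons_succ]
        rw [List.getElem_append_left]

end

end Vale.P199
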