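import Vale.Agent.P199.BL6b
import Vale.Agent.P199.QPI

/-!
# P199 [L6c] : from the path trick to the obstruction lemma
-/

open HahnSeries

namespace Vale.P199

section TRQ

variable {K B : Type} [Field K] [CharZero K] [DivisionRing B] [Algebra K B]
  [FiniteDimensional K B] {r : ℕ} {ζ : K} (E : QExt K B r ζ)

/-- `dim B · tr (jB b · t) = tr b · tr t` for `t ∈ Q` -/
theorem QExt.tr_jB_mul (hr : 0 < r) (hζ : IsPrimitiveRoot ζ r)
    (central : ∀ a : B, (∀ b, a * b = b * a) → ∃ k, algebraMap K B k = a)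
    (b : B) (t : E.B1) (ht : ∀ b, E.jB b * t = t * E.jB b) :
    (Module.finrank K B : E.K1) * tr E.K1 E.B1 (E.jB b * t) =
      E.jK (tr K B b) * tr E.K1 E.B1 t := by
  obtain ⟨c, rfl⟩ := (E.mem_Q hr central t).mp ht
  rw [Finset.mul_sum, map_sum, map_sum, Finset.mul_sum, Finset.mul_sum]
  refine Finset.sum_congr rfl fun ij _ => ?_
  have h1 := E.tr_mono hr hζ b ij.1 ij.2
  have h2 := E.tr_mono hr hζ 1 ij.1 ij.2
  rw [map_one, one_mul] at h2
  rw [mul_smul_comm, map_smul, map_smul, h1, h2, Tr.tr_one, map_natCast, smul_eq_mul, smul_eq_mul]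
  split_ifs <;> ring

/-- an element of `Q` with all traces `tr (m q) = 0` vanishes -/
theorem QExt.eq_zero_of_tr (hr : 0 < r)
    (central : ∀ a : B, (∀ b, a * b = b * a) → ∃ k, algebraMap K B k = a)
    (q : E.B1) (hq : ∀ b, E.jB b * q = q * E.jB b)
    (h : ∀ i j : Fin r, tr E.K1 E.B1 (E.u ^ (i : ℕ) * E.v ^ (j : ℕ) * q) = 0) : q = 0 := by
  by_contra hne
  have hq' : ∀ b, E.jB b * q⁻¹ = q⁻¹ * E.jB b := fun b =>
    (Commute.inv_right₀ (show Commute (E.jB b) q from hq b)).eq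
  obtain ⟨c, hc⟩ := (E.mem_Q hr central q⁻¹).mp hq'
  have h1 : tr E.K1 E.B1 (q⁻¹ * q) = 0 := by
    rw [hc, Finset.sum_mul, map_sum]
    refine Finset.sum_eq_zero fun ij _ => ?_
    rw [smul_mul_assoc, map_smul, h, smul_zero]
  rw [inv_mul_cancel₀ hne] at h1
  exact Tr.tr_one_ne h1

end TRQ

/-- additive left inverse of a homomorphism of fields -/
theorem exists_left_inv {K L : Type} [Field K] [Field L] (j : K →+* L) :
    ∃ φ : L →+ K, ∀ k, φ (j k) = k := by
  letI : Algebra K L := j.toAlgebra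
  obtain ⟨g, hg⟩ := (Algebra.linearMap K L).exists_leftInverse_of_injective
    (LinearMap.ker_eq_bot.mpr j.injective)
  exact ⟨g.toAddMonoidHom, fun k => LinearMap.congr_fun hg k⟩

namespace Pt

variable {S0 : State} {f0 : NC S0.I S0.B}

theorem goodPair_smul (x : Pt S0 f0) {w1 w2 : x.S.B} (hg : x.GoodPair w1 w2) {c : x.S.K}
    (hc : c ≠ 0) : x.GoodPair (c • w1) w2 := by
  refine ⟨x.W.smul_mem c hg.1, hg.2.1, smul_ne_zero hc hg.2.2.1, hg.2.2.2.1, ?_⟩
  intro β hβ h1 h2
  have h3 : β * w1 ∈ x.C := by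
    have := x.C.smul_mem c⁻¹ h1
    rwa [mul_smul_comm, smul_smul, inv_mul_cancel₀ hc, one_smul] at this
  have h4 := hg.2.2.2.2 β hβ h3 h2
  rw [mul_smul_comm]
  exact x.Coo.smul_mem c h4

/-- **B6, the obstruction lemma.** -/
theorem obstruction_proof (x : Pt S0 f0) (hf0 : f0 ∈ Algebra.adjoin S0.K {S0.X, S0.Y})
    (h : x.XMin) (d : ℕ) (hd : 2 ≤ d) (τ : x.S.I → NC (Fin 2) x.S.K) (h0 : ∀ i, τ i [] = 0)
    (hind : x.S.Indep (fun i => τ i [0]) (fun i => τ i [1]))
    (hlow : ∀ w : List (Fin 2), w ≠ [] → w.length < d → evalS τ x.f w = 0) :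
    (∀ c ∈ x.Coo, ∀ w : List (Fin 2), w.length = d → tr x.S.K x.S.B (c * evalS τ x.f w) = 0) ∧
    (∀ c ∈ x.C, ∃ g : Fin 2 → List (Fin 2) → x.S.K, ∀ (i : Fin 2) (w : List (Fin 2)) (j : Fin 2),
      w.length + 2 = d → tr x.S.K x.S.B (c * evalS τ x.f (i :: (w ++ [j]))) =
        g i (w ++ [j]) - g j (i :: w)) := by
  have hWM : x.W ≤ x.M := W_le_M x hf0 h.1.1.1
  have hWne : x.W ≠ ⊥ := h.1.1.1.1
  have hη := x.η_eq hWne
  have hP := h.1.2
  have hs : x.ξ ≤ (x.s + 1) * x.ξ := Nat.le_mul_of_pos_left _ (Nat.succ_pos _)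
  have hdim : 2 * x.ξ < Module.finrank x.S.K x.W := by
    rw [mul_assoc] at hP; omega
  have hdim2 : 2 ≤ Module.finrank x.S.K x.W := by
    rw [mul_assoc] at hP; omega
  obtain ⟨w1, w2, hg, -⟩ := x.exists_goodPair hWM hdim hdim2
  obtain ⟨r, hdr, hrp⟩ := Nat.exists_infinite_primes (d + 1)
  have hr : 0 < r := hrp.pos
  obtain ⟨ζ, hζ⟩ := x.S.roots r hr
  obtain ⟨E⟩ := exists_QExt x.S.K x.S.B x.S.central r hr ζ hζ
  have hjs : ∀ (k : x.S.K) (b : x.S.B), E.jB (k • b) = E.jK k • E.jB b := by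
    intro k b
    rw [Algebra.smul_def, map_mul, E.comp, ← Algebra.smul_def]
  have hfr : (Module.finrank x.S.K x.S.B : E.K1) ≠ 0 := by
    have : 0 < Module.finrank x.S.K x.S.B := Module.finrank_pos
    exact_mod_cast this.ne'
  -- products of the `V`
  have hVw : ∀ V : Fin 2 → E.B1, (∀ b m, E.jB b * V m = V m * E.jB b) →
      ∀ (w : List (Fin 2)) (b : x.S.B), E.jB b * (w.map V).prod = (w.map V).prod * E.jB b :=
    fun V hV w b => prodV_comm x.S E V hV b w
  -- the traces with a monomial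
  have key : ∀ (c : x.S.B) (m : E.B1), (∀ b, E.jB b * m = m * E.jB b) →
      ∀ V : Fin 2 → E.B1, (∀ b m, E.jB b * V m = V m * E.jB b) →
      (Module.finrank x.S.K x.S.B : E.K1) * tr E.K1 E.B1 (E.jB c * m * ∑ w : Fin d → Fin 2,
        E.jB (evalS τ x.f (List.ofFn w)) * ((List.ofFn w).map V).prod) =
      tr E.K1 E.B1 (m * ∑ w : Fin d → Fin 2,
        E.jK (tr x.S.K x.S.B (c * evalS τ x.f (List.ofFn w))) • ((List.ofFn w).map V).prod) := by
    intro c m hm V hV
    rw [Finset.mul_sum, Finset.mul_sum, map_sum, map_sum, Finset.mul_sum]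
    refine Finset.sum_congr rfl fun w _ => ?_
    have e1 : E.jB c * m * (E.jB (evalS τ x.f (List.ofFn w)) * ((List.ofFn w).map V).prod) =
        E.jB (c * evalS τ x.f (List.ofFn w)) * (m * ((List.ofFn w).map V).prod) := by
      rw [map_mul, mul_assoc (E.jB c) m, ← mul_assoc m, ← hm, mul_assoc, mul_assoc]
    rw [e1, mul_smul_comm, map_smul, smul_eq_mul]
    refine E.tr_jB_mul hr hζ x.S.central _ _ fun b => ?_
    rw [← mul_assoc, hm, mul_assoc, hVw V hV, mul_assoc]
  -- `tr (c E_d(V)) = 0` for `c ∈ C`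
  have h1 : ∀ c ∈ x.C, ∀ V : Fin 2 → E.B1, (∀ b m, E.jB b * V m = V m * E.jB b) →
      (E.u ∈ Algebra.adjoin E.K1 {V 0, V 1} ∧ E.v ∈ Algebra.adjoin E.K1 {V 0, V 1}) →
      tr E.K1 E.B1 (E.jB c * ∑ w : Fin d → Fin 2,
        E.jB (evalS τ x.f (List.ofFn w)) * ((List.ofFn w).map V).prod) = 0 := by
    intro c hc V hV hgen
    exact x.path_trick hf0 h d hd τ h0 hind hlow hr hrp.two_le hζ E V hV hgen (SymPair.self E hζ) w1 w2 hg _
      (x.C_mem_calC hWM hr E _ w1 w2 hg.1 hg.2.1 c hc)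
  constructor
  · -- (i)
    intro c hc w hw
    have hcC : c ∈ x.C := x.Coo_le_C hc
    have hcZ : c ∈ x.Z := hcC.1
    -- all monomials
    have h2 : ∀ (i j : Fin r) (V : Fin 2 → E.B1), (∀ b m, E.jB b * V m = V m * E.jB b) →
        (E.u ∈ Algebra.adjoin E.K1 {V 0, V 1} ∧ E.v ∈ Algebra.adjoin E.K1 {V 0, V 1}) →
        tr E.K1 E.B1 (E.jB c * (E.u ^ (i : ℕ) * E.v ^ (j : ℕ)) * ∑ w : Fin d → Fin 2,
          E.jB (evalS τ x.f (List.ofFn w)) * ((List.ofFn w).map V).prod) = 0 := by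
      intro i j V hV hgen
      by_cases hij : (i : ℕ) = 0 ∧ (j : ℕ) = 0
      · rw [hij.1, hij.2, pow_zero, pow_zero, mul_one, mul_one]
        exact h1 c hcC V hV hgen
      · obtain ⟨P, hPu⟩ := exists_symPair E hrp hζ i j hij
        rw [← hPu]
        set EV := ∑ w : Fin d → Fin 2,
          E.jB (evalS τ x.f (List.ofFn w)) * ((List.ofFn w).map V).prod with hEV
        have hβ : c * w1⁻¹ ∈ x.Z :=
          Tr.mul_mem_cen hcZ (x.inv_mem_Z (x.W_le_Z hg.1))
        have hβw : c * w1⁻¹ * w1 = c := by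
          rw [mul_assoc, inv_mul_cancel₀ hg.2.2.1, mul_one]
        have h3 : ∀ k : x.S.K, k ≠ 0 → E.jK k * tr E.K1 E.B1 (E.jB c * P.u' * EV) +
            tr E.K1 E.B1 (E.jB (c * w1⁻¹) * (E.jB w2 * P.v') * EV) = 0 := by
          intro k hk
          have hg' := x.goodPair_smul hg hk
          have hm := x.βX_mem_calC hWM hr E P (k • w1) w2 hg'.1 hg'.2.1 hg'.2.2.1 (c * w1⁻¹) hβ
            (by rw [mul_smul_comm, hβw]; exact x.Coo.smul_mem k hc)
          have h4 := x.path_trick hf0 h d hd τ h0 hind hlow hr hrp.two_le hζ E V hV hgen P (k • w1) w2 hg'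
            _ hm
          rw [← hEV] at h4
          rw [← h4, hjs, smul_mul_assoc, mul_add, add_mul, map_add, mul_smul_comm,
            smul_mul_assoc, map_smul, smul_eq_mul, ← mul_assoc (E.jB (c * w1⁻¹)) (E.jB w1),
            ← map_mul, hβw]
        have h5 := h3 1 one_ne_zero
        have h6 := h3 2 two_ne_zero
        rw [map_one, one_mul] at h5
        rw [map_ofNat] at h6
        have h7 : tr E.K1 E.B1 (E.jB c * P.u' * EV) =
            (2 * tr E.K1 E.B1 (E.jB c * P.u' * EV) +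
              tr E.K1 E.B1 (E.jB (c * w1⁻¹) * (E.jB w2 * P.v') * EV)) -
            (tr E.K1 E.B1 (E.jB c * P.u' * EV) +
              tr E.K1 E.B1 (E.jB (c * w1⁻¹) * (E.jB w2 * P.v') * EV)) := by ring
        rw [h7, h5, h6, sub_zero]
    have h8 := E.pi_a hr hζ x.S.central (show d < r by omega)
      (fun w => E.jK (tr x.S.K x.S.B (c * evalS τ x.f (List.ofFn w)))) (by
        intro V hV hgen
        refine E.eq_zero_of_tr hr x.S.central _ ?_ ?_
        · intro b
          rw [Finset.mul_sum, Finset.sum_mul]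
          refine Finset.sum_congr rfl fun w _ => ?_
          rw [mul_smul_comm, smul_mul_assoc, hVw V hV]
        · intro i j
          have hm : ∀ b, E.jB b * (E.u ^ (i : ℕ) * E.v ^ (j : ℕ)) =
              E.u ^ (i : ℕ) * E.v ^ (j : ℕ) * E.jB b := by
            intro b
            have h1 : Commute (E.jB b) E.u := E.hu b
            have h2 : Commute (E.jB b) E.v := E.hv b
            exact (h1.pow_right i).mul_right (h2.pow_right j)
          rw [← key c _ hm V hV, h2 i j V hV hgen, mul_zero])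
    subst hw
    have h9 := congrFun h8 (fun i => w.get i)
    simp only [Pi.zero_apply] at h9
    rw [List.ofFn_get] at h9
    exact E.jK.injective (by rw [h9, map_zero])
  · -- (ii)
    intro c hc
    obtain ⟨g, hgg⟩ := E.pi_b hr hζ x.S.central (show d < r by omega)
      (fun w => E.jK (tr x.S.K x.S.B (c * evalS τ x.f (List.ofFn w)))) (by
        intro V hV hgen
        have h2 := key c 1 (by simp) V hV
        rw [mul_one, one_mul, h1 c hc V hV hgen, mul_zero] at h2
        exact h2.symm)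
    obtain ⟨φ, hφ⟩ := exists_left_inv E.jK
    refine ⟨fun i l => φ (g i l), fun i l j hl => ?_⟩
    have hlen : (i :: (l ++ [j])).length = d := by simp; omega
    subst hlen
    have h3 := hgg (fun k => (i :: (l ++ [j])).get k) i j l (List.ofFn_get _)
    rw [List.ofFn_get] at h3
    rw [← map_sub, ← h3, hφ]

end Pt

end Vale.P199
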