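import Vale.Agent.P199.BL5
import Vale.Agent.P199.BEval
import Vale.Agent.P199.BL6c

/-! # B6 : the obstruction lemma (path trick) -/

open HahnSeries

namespace Vale.P199
namespace Pt

variable {S0 : State} {f0 : NC S0.I S0.B}

/-- B6. `h w` is a commutator: `h w = g (head) (tail) - g (last) (init)`. -/
theorem obstruction (x : Pt S0 f0) (hf0 : f0 ∈ Algebra.adjoin S0.K {S0.X, S0.Y}) (h : x.XMin)
    (d : ℕ) (hd : 2 ≤ d) (τ : x.S.I → NC (Fin 2) x.S.K) (h0 : ∀ i, τ i [] = 0)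
    (_hdeg : ∀ i w, d ≤ w.length → τ i w = 0)
    (hind : x.S.Indep (fun i => τ i [0]) (fun i => τ i [1]))
    (hlow : ∀ w : List (Fin 2), w ≠ [] → w.length < d → evalS τ x.f w = 0) :
    (∀ c ∈ x.Coo, ∀ w : List (Fin 2), w.length = d → tr x.S.K x.S.B (c * evalS τ x.f w) = 0) ∧
    (∀ c ∈ x.C, ∃ g : Fin 2 → List (Fin 2) → x.S.K, ∀ (i : Fin 2) (w : List (Fin 2)) (j : Fin 2),
      w.length + 2 = d → tr x.S.K x.S.B (c * evalS τ x.f (i :: (w ++ [j]))) =
        g i (w ++ [j]) - g j (i :: w)) :=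
  obstruction_proof x hf0 h d hd τ h0 hind hlow

end Pt
end Vale.P199
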