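import Vale.Agent.P199.Subst

/-!
# P199 (B6a, B6b): Taylor estimates for substitutions and evaluation `v_m ↦ z^2 V_m`
-/

namespace Vale.P199

namespace SubstAux

/-- the `z`-adic filtration of `R[[z]]` -/
def filtz (R : Type) [Ring R] : Filt (PowerSeries R) where
  F n :=
    { carrier := {x | ∀ k < n, PowerSeries.coeff k x = 0}
      add_mem' := by
        intro x y hx hy k h
        rw [map_add, hx k h, hy k h, add_zero]
      zero_mem' := by intro k _; simp
      neg_mem' := by
        intro x hx k h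
        rw [map_neg, hx k h, neg_zero] }
  top x := by intro k h; omega
  mul := by
    intro m n x y hx hy k h
    rw [PowerSeries.coeff_mul]
    refine Finset.sum_eq_zero fun p hp => ?_
    have hp' : p.1 + p.2 = k := by simpa using hp
    by_cases h1 : p.1 < m
    · rw [hx _ h1, zero_mul]
    · rw [hy _ (by omega), mul_zero]
  anti := by
    intro m n hmn x hx k h
    exact hx k (by omega)
  sep x hx := by
    ext k
    rw [hx (k + 1) k (by omega)]
    simp

theorem mem_filtz {R : Type} [Ring R] {x : PowerSeries R} {n : ℕ} :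
    x ∈ (filtz R).F n ↔ ∀ k < n, PowerSeries.coeff k x = 0 := Iff.rfl

section
variable {I B S : Type} [Fintype I] [DecidableEq I] [Ring B] [Ring S]
variable (𝓕 : Filt S) {c : B →+* S} {x y : I → S}

theorem P_sub_const {a : ℕ} (hc : ∀ b i, c b * y i = y i * c b) (hy : ∀ i, y i ∈ 𝓕.F a) (n : ℕ)
    (g : NC I B) : P c y g n - c (g []) ∈ 𝓕.F a := by
  cases n with
  | zero => rw [P_zero, sub_self]; exact zero_mem _
  | succ n =>
    rw [P_succ c y hc, add_sub_cancel_left]
    exact sum_mem fun i _ => mul_mem_right 𝓕 (hy i) _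

theorem P_diff_mem {m : ℕ} (hcx : ∀ b i, c b * x i = x i * c b) (hcy : ∀ b i, c b * y i = y i * c b)
    (hd : ∀ i, y i - x i ∈ 𝓕.F m) (n : ℕ) :
    ∀ f : NC I B, P c y f n - P c x f n ∈ 𝓕.F m := by
  induction n with
  | zero => intro f; rw [P_zero, P_zero, sub_self]; exact zero_mem _
  | succ n ih =>
    intro f
    rw [P_succ c y hcy, P_succ c x hcx, add_sub_add_left_eq_sub, ← Finset.sum_sub_distrib]
    refine sum_mem fun i _ => ?_
    have e : y i * P c y (NC.sh i f) n - x i * P c x (NC.sh i f) n =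
        (y i - x i) * P c y (NC.sh i f) n + x i * (P c y (NC.sh i f) n - P c x (NC.sh i f) n) := by
      rw [sub_mul, mul_sub]; abel
    rw [e]
    exact add_mem (mul_mem_right 𝓕 (hd i) _) (mul_mem_left 𝓕 _ (ih _))

/-- second order Taylor estimate, partial sums -/
theorem P_taylor {a m : ℕ} (hcx : ∀ b i, c b * x i = x i * c b)
    (hcy : ∀ b i, c b * y i = y i * c b) (hx : ∀ i, x i ∈ 𝓕.F a) (hy : ∀ i, y i ∈ 𝓕.F a)
    (hd : ∀ i, y i - x i ∈ 𝓕.F m) (n : ℕ) (f : NC I B) :
    P c y f (n + 1) - P c x f (n + 1) - ∑ i, c (f [i]) * (y i - x i) ∈ 𝓕.F (m + a) := by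
  rw [P_succ c y hcy, P_succ c x hcx, add_sub_add_left_eq_sub, ← Finset.sum_sub_distrib,
    ← Finset.sum_sub_distrib]
  refine sum_mem fun i _ => ?_
  have e : y i * P c y (NC.sh i f) n - x i * P c x (NC.sh i f) n - c (f [i]) * (y i - x i) =
      (y i - x i) * (P c y (NC.sh i f) n - c ((NC.sh i f) [])) +
        x i * (P c y (NC.sh i f) n - P c x (NC.sh i f) n) := by
    rw [NC.sh_apply, mul_sub (c (f [i])), hcx, hcy]
    generalize P c y (NC.sh i f) n = u1
    generalize P c x (NC.sh i f) n = u2
    generalize c (f [i]) = u3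
    noncomm_ring
  rw [e]
  refine add_mem (𝓕.mul (hd i) (P_sub_const 𝓕 hcy hy n _)) ?_
  rw [add_comm m a]
  exact 𝓕.mul (hx i) (P_diff_mem 𝓕 hcx hcy hd n _)

/-- second order Taylor estimate for the limits -/
theorem lim_taylor {a m : ℕ} (hcx : ∀ b i, c b * x i = x i * c b)
    (hcy : ∀ b i, c b * y i = y i * c b) (hx : ∀ i, x i ∈ 𝓕.F a) (hy : ∀ i, y i ∈ 𝓕.F a)
    (hd : ∀ i, y i - x i ∈ 𝓕.F m) (f : NC I B) {sx sy : S}
    (hsx : ∀ n, sx - P c x f n ∈ 𝓕.F (n + 1)) (hsy : ∀ n, sy - P c y f n ∈ 𝓕.F (n + 1)) :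
    sy - sx - ∑ i, c (f [i]) * (y i - x i) ∈ 𝓕.F (m + a) := by
  have h1 := 𝓕.anti (show m + a ≤ m + a + 1 + 1 by omega) (hsx (m + a + 1))
  have h2 := 𝓕.anti (show m + a ≤ m + a + 1 + 1 by omega) (hsy (m + a + 1))
  have h3 := P_taylor 𝓕 hcx hcy hx hy hd (m + a) f
  have h4 := add_mem (sub_mem h2 h1) h3
  have e : sy - sx - ∑ i, c (f [i]) * (y i - x i) = sy - P c y f (m + a + 1) -
      (sx - P c x f (m + a + 1)) + (P c y f (m + a + 1) - P c x f (m + a + 1) -
        ∑ i, c (f [i]) * (y i - x i)) := by abel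
  rw [e]
  exact h4

end

section
variable {I J B R : Type} [Fintype I] [DecidableEq I] [Ring B] [Ring R]

/-- the constant term (in the letters) of a substitution is the limit of the partial sums of the
constant terms -/
theorem substHom_nil_sub_mem {jB : B →+* R} {Y : I → NC J (PowerSeries R)} (h : SubOK jB Y)
    (f : NC I B) (n : ℕ) :
    substHom jB Y h f [] -
      P ((PowerSeries.C : R →+* PowerSeries R).comp jB) (fun i => Y i []) f n ∈
        (filtz R).F (n + 1) := by
  intro k hk
  have h1 := substFun_sub_mem h f n [] k (by simpa using hk)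
  rw [NC.sub_apply] at h1
  have h2 : (P (cHom J jB) Y f n : NC J (PowerSeries R)) [] =
      P ((PowerSeries.C : R →+* PowerSeries R).comp jB) (fun i => Y i []) f n := by
    show NC.ε (P (cHom J jB) Y f n : NC J (PowerSeries R)) = _
    rw [P, P, map_sum]
    refine Finset.sum_congr rfl fun w _ => ?_
    rw [map_mul, map_list_prod, List.map_map]
    rfl
  rw [h2] at h1
  exact h1

/-- coefficients of a limit are coefficients of the partial sums -/
theorem coeff_lim {c : B →+* PowerSeries R} {x : I → PowerSeries R} {f : NC I B}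
    {s : PowerSeries R} (hs : ∀ n, s - P c x f n ∈ (filtz R).F (n + 1)) {k n : ℕ} (h : k ≤ n) :
    PowerSeries.coeff k s = PowerSeries.coeff k (P c x f n) := by
  have h1 := hs n k (by omega)
  rwa [map_sub, sub_eq_zero] at h1

end

section eval
variable {J B R : Type} [Fintype J] [DecidableEq J] [Ring B] [Ring R]

/-- the letters `z^e V_m` -/
noncomputable def zV (e : ℕ) (V : J → R) (m : J) : PowerSeries R :=
  PowerSeries.monomial e (V m)

theorem zV_mem {e n : ℕ} (V : J → R) (m : J) (h : n ≤ e) : zV e V m ∈ (filtz R).F n := by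
  intro k hk
  rw [zV, PowerSeries.coeff_monomial, if_neg (by omega)]

theorem zV_comm {jB : B →+* R} {V : J → R} (hV : ∀ b m, jB b * V m = V m * jB b) (e : ℕ) (b : B)
    (m : J) : ((PowerSeries.C : R →+* PowerSeries R).comp jB) b * zV e V m =
      zV e V m * ((PowerSeries.C : R →+* PowerSeries R).comp jB) b := by
  ext k
  show PowerSeries.coeff k (PowerSeries.C (jB b) * zV e V m) =
    PowerSeries.coeff k (zV e V m * PowerSeries.C (jB b))
  rw [PowerSeries.coeff_C_mul, PowerSeries.coeff_mul_C, zV, PowerSeries.coeff_monomial]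
  split_ifs
  · exact hV b m
  · simp

/-- product of monomials -/
theorem prod_zV (e : ℕ) (V : J → R) (w : List J) :
    (w.map (zV e V)).prod = PowerSeries.monomial (e * w.length) (w.map V).prod := by
  induction w with
  | nil => simp
  | cons i w ih =>
    rw [List.map_cons, List.prod_cons, ih, zV, PowerSeries.monomial_mul_monomial, List.map_cons,
      List.prod_cons, List.length_cons, show e + e * w.length = e * (w.length + 1) by ring]

/-- the evaluation `v_m ↦ z^e V_m` as a ring homomorphism -/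
theorem zV_subOK {jB : B →+* R} {V : J → R} (hV : ∀ b m, jB b * V m = V m * jB b) {e : ℕ}
    (he : 0 < e) : SubOK (J := Empty) jB (fun m => NC.C (zV e V m)) where
  const m := by
    rw [NC.C_nil, zV, ← PowerSeries.coeff_zero_eq_constantCoeff, PowerSeries.coeff_monomial,
      if_neg (by omega)]
  comm m w n b := by
    rw [NC.C_apply]
    split_ifs
    · rw [zV, PowerSeries.coeff_monomial]
      split_ifs
      · exact hV b m
      · simp
    · simp

/-- the evaluation `v_m ↦ z^e V_m` as a ring homomorphism -/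
noncomputable def evz {jB : B →+* R} {V : J → R} (hV : ∀ b m, jB b * V m = V m * jB b) {e : ℕ}
    (he : 0 < e) : NC J B →+* PowerSeries R :=
  NC.ε.comp (substHom jB _ (zV_subOK hV he))

variable {jB : B →+* R} {V : J → R} (hV : ∀ b m, jB b * V m = V m * jB b) {e : ℕ} (he : 0 < e)

theorem evz_sub_mem (F : NC J B) (n : ℕ) :
    evz hV he F - P ((PowerSeries.C : R →+* PowerSeries R).comp jB) (zV e V) F n ∈
      (filtz R).F (n + 1) :=
  substHom_nil_sub_mem (zV_subOK hV he) F n

@[simp] theorem evz_C (b : B) : evz hV he (NC.C b) = PowerSeries.C (jB b) := by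
  rw [evz, RingHom.comp_apply, substHom_C, NC.ε_apply, NC.C_nil]

/-- coefficients of the evaluation -/
theorem coeff_evz (F : NC J B) (k n : ℕ) (h : k ≤ n) :
    PowerSeries.coeff k (evz hV he F) =
      ∑ w ∈ words J n, if e * w.length = k then jB (F w) * (w.map V).prod else 0 := by
  rw [coeff_lim (evz_sub_mem hV he F) h, P, map_sum]
  refine Finset.sum_congr rfl fun w _ => ?_
  rw [prod_zV]
  show PowerSeries.coeff k (PowerSeries.C (jB (F w)) * _) = _
  rw [PowerSeries.coeff_C_mul, PowerSeries.coeff_monomial]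
  by_cases hk : e * w.length = k
  · rw [if_pos hk, if_pos hk.symm]
  · rw [if_neg hk, if_neg (Ne.symm hk), mul_zero]

/-- coefficients at non-multiples of `e` vanish -/
theorem coeff_evz_of_not_dvd (F : NC J B) (k : ℕ) (h : ¬ e ∣ k) :
    PowerSeries.coeff k (evz hV he F) = 0 := by
  rw [coeff_evz hV he F k k le_rfl]
  refine Finset.sum_eq_zero fun w _ => ?_
  rw [if_neg]
  rintro rfl
  exact h ⟨_, rfl⟩

theorem coeff_evz_mul (F : NC J B) (n : ℕ) :
    PowerSeries.coeff (e * n) (evz hV he F) =
      ∑ w : Fin n → J, jB (F (List.ofFn w)) * ((List.ofFn w).map V).prod := by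
  classical
  rw [coeff_evz hV he F (e * n) (e * n) le_rfl, ← Finset.sum_filter]
  symm
  refine Finset.sum_bij (fun w _ => List.ofFn w) ?_ ?_ ?_ ?_
  · intro w _
    rw [Finset.mem_filter, mem_words, List.length_ofFn]
    exact ⟨Nat.le_mul_of_pos_left n he, rfl⟩
  · intro w _ w' _ h
    exact List.ofFn_injective h
  · intro w hw
    rw [Finset.mem_filter, mem_words] at hw
    have h2 : w.length = n := Nat.eq_of_mul_eq_mul_left he hw.2
    subst h2
    exact ⟨fun i => w.get i, Finset.mem_univ _, List.ofFn_get w⟩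
  · intro w _
    rfl

/-- evaluation is adic -/
theorem evz_mem {F : NC J B} {n : ℕ} (hF : ∀ w : List J, w.length < n → F w = 0) :
    evz hV he F ∈ (filtz R).F (e * n) := by
  intro k hk
  rw [coeff_evz hV he F k k le_rfl]
  refine Finset.sum_eq_zero fun w _ => ?_
  split_ifs with h
  · rw [hF w, map_zero, zero_mul]
    rw [← h] at hk
    exact Nat.lt_of_mul_lt_mul_left hk
  · rfl

end eval

section comp
variable {I J B R : Type} [Fintype I] [DecidableEq I] [Fintype J] [DecidableEq J] [Ring B] [Ring R]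
variable {jB : B →+* R} {V : J → R} (hV : ∀ b m, jB b * V m = V m * jB b) {e : ℕ} (he : 0 < e)

/-- composition: substituting `t_i ↦ θ_i(v)` and then `v_m ↦ z^e V_m` is the limit of the partial
sums at `x_i = θ_i(z^e V)` -/
theorem evz_subst_sub_mem {θ : I → NC J B} (hθ : SubOK0 (RingHom.id B) θ) (f : NC I B) (n : ℕ) :
    evz hV he (subst0Hom (RingHom.id B) θ hθ f) -
      P ((PowerSeries.C : R →+* PowerSeries R).comp jB) (fun i => evz hV he (θ i)) f n ∈
        (filtz R).F (n + 1) := by
  have h1 := subst0Fun_sub_mem hθ f n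
  have h2 : evz hV he (subst0Hom (RingHom.id B) θ hθ f -
      P ((NC.C : B →+* NC J B).comp (RingHom.id B)) θ f n) ∈ (filtz R).F (e * (n + 1)) :=
    evz_mem hV he h1
  rw [map_sub] at h2
  have h3 : evz hV he (P ((NC.C : B →+* NC J B).comp (RingHom.id B)) θ f n) =
      P ((PowerSeries.C : R →+* PowerSeries R).comp jB) (fun i => evz hV he (θ i)) f n := by
    rw [P, P, map_sum]
    refine Finset.sum_congr rfl fun w _ => ?_
    rw [map_mul, map_list_prod, List.map_map, RingHom.comp_id, evz_C]
    rfl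
  rw [h3] at h2
  exact (filtz R).anti (Nat.le_mul_of_pos_left (n + 1) he) h2

end comp

end SubstAux

end Vale.P199
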