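import Vale.Agent.P199.BDefs
import Vale.Agent.P199.BEval
import Vale.Agent.P199.ObstA

/-!
# P199 [L6a] : the move of the path trick, `y = t(z^2 V) + z^(2d-1) δ`
-/

open HahnSeries

namespace Vale.P199

open SubstAux

section PathMove

variable (S : State) (τ : S.I → NC (Fin 2) S.K) (h0 : ∀ i, τ i [] = 0)
  (hind : S.Indep (fun i => τ i [0]) (fun i => τ i [1]))
  {r : ℕ} (hr : 0 < r) {ζ : S.K} (hζ : IsPrimitiveRoot ζ r) (E : QExt S.K S.B r ζ)
  (V : Fin 2 → E.B1) (hV : ∀ b m, E.jB b * V m = V m * E.jB b)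
  (hgen : E.u ∈ Algebra.adjoin E.K1 {V 0, V 1} ∧ E.v ∈ Algebra.adjoin E.K1 {V 0, V 1})
  (d : ℕ) (hd : 2 ≤ d) (δ : S.I → E.B1) (hδ : ∀ i b, E.jB b * δ i = δ i * E.jB b)

/-- `t_i(z^2 V)` -/
noncomputable def pathX (i : S.I) : PowerSeries E.B1 :=
  evz (jB := E.jB) hV (e := 2) two_pos (scal (B := S.B) τ i)

theorem coeff_pathX_zero (i : S.I) (h : τ i [] = 0) :
    PowerSeries.coeff 0 (pathX S τ E V hV i) = 0 := by
  rw [pathX, coeff_evz hV two_pos _ 0 0 le_rfl, words_zero, Finset.sum_singleton]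
  rw [if_pos (by simp), scal, NC.map_apply, h, map_zero, map_zero, zero_mul]

theorem coeff_pathX_one (i : S.I) : PowerSeries.coeff 1 (pathX S τ E V hV i) = 0 :=
  coeff_evz_of_not_dvd hV two_pos _ 1 (by norm_num)

theorem coeff_pathX_two (i : S.I) : PowerSeries.coeff 2 (pathX S τ E V hV i) =
    E.jK (τ i [0]) • V 0 + E.jK (τ i [1]) • V 1 := by
  have h := coeff_evz_mul hV (e := 2) two_pos (scal (B := S.B) τ i) 1
  rw [mul_one] at h
  rw [pathX, h]
  rw [Fintype.sum_equiv (Equiv.funUnique (Fin 1) (Fin 2)) _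
    (fun m => E.jK (τ i [m]) • V m) ?_, Fin.sum_univ_two]
  intro w
  rw [Equiv.funUnique_apply]
  simp only [List.ofFn_succ, List.ofFn_zero, List.map_cons, List.map_nil, List.prod_cons,
    List.prod_nil, mul_one, Fin.default_eq_zero]
  rw [scal, NC.map_apply, E.comp, ← Algebra.smul_def]

include hV in
theorem prodV_comm (b : S.B) (w : List (Fin 2)) :
    E.jB b * (w.map V).prod = (w.map V).prod * E.jB b := by
  induction w with
  | nil => simp
  | cons m w ih =>
    rw [List.map_cons, List.prod_cons, ← mul_assoc, hV, mul_assoc, ih, mul_assoc]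

theorem pathX_comm (i : S.I) (n : ℕ) (b : S.B) :
    E.jB b * PowerSeries.coeff n (pathX S τ E V hV i) =
      PowerSeries.coeff n (pathX S τ E V hV i) * E.jB b := by
  rw [pathX, coeff_evz hV two_pos _ n n le_rfl, Finset.mul_sum, Finset.sum_mul]
  refine Finset.sum_congr rfl fun w _ => ?_
  split_ifs
  · have h1 := prodV_comm S E V hV b w
    rw [scal, NC.map_apply, ← mul_assoc, ← map_mul, mul_assoc, ← h1, ← mul_assoc, ← map_mul,
      Algebra.commutes]
  · simp

/-- the path -/
noncomputable def pathY (i : S.I) : PowerSeries E.B1 :=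
  pathX S τ E V hV i + PowerSeries.monomial (2 * d - 1) (δ i)

/-- the move of the path trick -/
noncomputable abbrev pathMove : MoveData S where
  r := r
  hr := hr
  ζ := ζ
  hζ := hζ
  E := E
  y := pathY S τ E V hV d δ
  yQ i n b := by
    rw [pathY, map_add, mul_add, add_mul, pathX_comm, PowerSeries.coeff_monomial]
    split_ifs
    · rw [hδ]
    · simp
  κ := 2
  hκ := two_pos
  P1 := fun i => τ i [0]
  P2 := fun i => τ i [1]
  indep := hind
  V1 := V 0
  V2 := V 1
  V1Q := fun b => hV b 0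
  V2Q := fun b => hV b 1
  gen := hgen
  low i n hn := by
    rw [pathY, map_add, PowerSeries.coeff_monomial, if_neg (by omega), add_zero]
    rcases (show n = 0 ∨ n = 1 by omega) with h | h
    · rw [h, coeff_pathX_zero _ _ _ _ _ _ (h0 i)]
    · rw [h, coeff_pathX_one]
  lead i := by
    rw [pathY, map_add, PowerSeries.coeff_monomial, if_neg (by omega), add_zero, coeff_pathX_two]

variable (f : NC S.I S.B)

theorem path_shP (k : ℕ) (hk : k ≤ 2 * d) :
    PowerSeries.coeff k ((pathMove S τ h0 hind hr hζ E V hV hgen d hd δ hδ).shP f []) =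
      PowerSeries.coeff k (evz (jB := E.jB) hV (e := 2) two_pos (evalS τ f)) +
        if k = 2 * d - 1 then ∑ i, E.jB (f [i]) * δ i else 0 := by
  have hy : (fun i => (pathMove S τ h0 hind hr hζ E V hV hgen d hd δ hδ).Y i []) =
      pathY S τ E V hV d δ := by
    funext i; rw [MoveData.Y_nil]
  have hsy : ∀ n, ((pathMove S τ h0 hind hr hζ E V hV hgen d hd δ hδ).shP f [] :
      PowerSeries E.B1) -
      P ((PowerSeries.C : E.B1 →+* PowerSeries E.B1).comp E.jB) (pathY S τ E V hV d δ) f n ∈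
        (filtz E.B1).F (n + 1) := by
    intro n
    have := substHom_nil_sub_mem (pathMove S τ h0 hind hr hζ E V hV hgen d hd δ hδ).subOK f n
    rw [hy] at this
    exact this
  have hsx : ∀ n, evz (jB := E.jB) hV (e := 2) two_pos (evalS τ f) -
      P ((PowerSeries.C : E.B1 →+* PowerSeries E.B1).comp E.jB) (pathX S τ E V hV) f n ∈
        (filtz E.B1).F (n + 1) :=
    evz_subst_sub_mem hV two_pos (scal_ok h0) f
  have hcx : ∀ b i, ((PowerSeries.C : E.B1 →+* PowerSeries E.B1).comp E.jB) b *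
      pathX S τ E V hV i = pathX S τ E V hV i *
        ((PowerSeries.C : E.B1 →+* PowerSeries E.B1).comp E.jB) b := by
    intro b i
    ext n
    show PowerSeries.coeff n (PowerSeries.C (E.jB b) * pathX S τ E V hV i) =
      PowerSeries.coeff n (pathX S τ E V hV i * PowerSeries.C (E.jB b))
    rw [PowerSeries.coeff_C_mul, PowerSeries.coeff_mul_C, pathX_comm]
  have hcy : ∀ b i, ((PowerSeries.C : E.B1 →+* PowerSeries E.B1).comp E.jB) b *
      pathY S τ E V hV d δ i = pathY S τ E V hV d δ i *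
        ((PowerSeries.C : E.B1 →+* PowerSeries E.B1).comp E.jB) b := by
    intro b i
    ext n
    show PowerSeries.coeff n (PowerSeries.C (E.jB b) * pathY S τ E V hV d δ i) =
      PowerSeries.coeff n (pathY S τ E V hV d δ i * PowerSeries.C (E.jB b))
    rw [PowerSeries.coeff_C_mul, PowerSeries.coeff_mul_C]
    exact (pathMove S τ h0 hind hr hζ E V hV hgen d hd δ hδ).yQ i n b
  have hx2 : ∀ i, pathX S τ E V hV i ∈ (filtz E.B1).F 2 := by
    intro i k hk
    rcases (show k = 0 ∨ k = 1 by omega) with h | h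
    · rw [h, coeff_pathX_zero _ _ _ _ _ _ (h0 i)]
    · rw [h, coeff_pathX_one]
  have hy2 : ∀ i, pathY S τ E V hV d δ i ∈ (filtz E.B1).F 2 := fun i k hk =>
    (pathMove S τ h0 hind hr hζ E V hV hgen d hd δ hδ).low i k hk
  have hdel : ∀ i, pathY S τ E V hV d δ i - pathX S τ E V hV i =
      PowerSeries.monomial (2 * d - 1) (δ i) := by
    intro i
    rw [pathY, add_sub_cancel_left]
  have hd' : ∀ i, pathY S τ E V hV d δ i - pathX S τ E V hV i ∈ (filtz E.B1).F (2 * d - 1) := by
    intro i k hk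
    rw [hdel, PowerSeries.coeff_monomial, if_neg (by omega)]
  have h1 := lim_taylor (filtz E.B1) hcx hcy hx2 hy2 hd' f hsx hsy k (by omega)
  rw [map_sub, map_sub, map_sum, sub_sub, sub_eq_zero] at h1
  rw [h1]
  congr 1
  rw [Finset.sum_congr rfl fun i _ => by rw [hdel]]
  split_ifs with hk2
  · refine Finset.sum_congr rfl fun i _ => ?_
    show PowerSeries.coeff k (PowerSeries.C (E.jB (f [i])) * _) = _
    rw [PowerSeries.coeff_C_mul, PowerSeries.coeff_monomial, if_pos hk2]
  · refine Finset.sum_eq_zero fun i _ => ?_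
    show PowerSeries.coeff k (PowerSeries.C (E.jB (f [i])) * _) = _
    rw [PowerSeries.coeff_C_mul, PowerSeries.coeff_monomial, if_neg hk2, mul_zero]

theorem path_sh_coeff (k : ℕ) :
    ((pathMove S τ h0 hind hr hζ E V hV hgen d hd δ hδ).sh f []).coeff (k : ℤ) =
      PowerSeries.coeff k ((pathMove S τ h0 hind hr hζ E V hV hgen d hd δ hδ).shP f []) := by
  show (HahnSeries.ofPowerSeries ℤ E.B1 _).coeff (k : ℤ) = _
  exact HahnSeries.ofPowerSeries_apply_coeff _ _

/-- coefficients below `2d-1` -/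
theorem path_low (hlow : ∀ w : List (Fin 2), w ≠ [] → w.length < d → evalS τ f w = 0)
    (n : ℤ) (hn : n < (2 * d - 1 : ℕ)) (hn0 : n ≠ 0) :
    ((pathMove S τ h0 hind hr hζ E V hV hgen d hd δ hδ).sh f []).coeff n = 0 := by
  rcases lt_or_ge n 0 with h | h
  · exact ofPowerSeries_coeff_neg _ _ h
  · obtain ⟨k, rfl⟩ := Int.eq_ofNat_of_zero_le h
    rw [path_sh_coeff, path_shP _ _ _ _ _ _ _ _ _ _ _ _ _ _ _ k (by omega),
      if_neg (by omega), add_zero]
    by_cases h2 : 2 ∣ k
    · obtain ⟨m, rfl⟩ := h2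
      rw [coeff_evz_mul]
      refine Finset.sum_eq_zero fun w _ => ?_
      have h3 : evalS τ f (List.ofFn w) = 0 := by
        apply hlow
        · intro hw
          have := congrArg List.length hw
          rw [List.length_ofFn, List.length_nil] at this
          omega
        · rw [List.length_ofFn]; omega
      rw [h3, map_zero]
      exact zero_mul _
    · exact coeff_evz_of_not_dvd hV two_pos _ k h2

/-- the leading coefficient -/
theorem path_lead :
    ((pathMove S τ h0 hind hr hζ E V hV hgen d hd δ hδ).sh f []).coeff ((2 * d - 1 : ℕ) : ℤ) =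
      ∑ i, E.jB (f [i]) * δ i := by
  rw [path_sh_coeff, path_shP _ _ _ _ _ _ _ _ _ _ _ _ _ _ _ _ (by omega), if_pos rfl,
    coeff_evz_of_not_dvd hV two_pos _ _ (by omega), zero_add]

/-- the next coefficient -/
theorem path_next :
    ((pathMove S τ h0 hind hr hζ E V hV hgen d hd δ hδ).sh f []).coeff
      (((2 * d - 1 : ℕ) : ℤ) + 1) =
      ∑ w : Fin d → Fin 2, E.jB (evalS τ f (List.ofFn w)) * ((List.ofFn w).map V).prod := by
  have e : ((2 * d - 1 : ℕ) : ℤ) + 1 = ((2 * d : ℕ) : ℤ) := by omega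
  rw [e, path_sh_coeff, path_shP _ _ _ _ _ _ _ _ _ _ _ _ _ _ _ _ le_rfl, if_neg (by omega),
    add_zero, coeff_evz_mul]

end PathMove

end Vale.P199
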