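import Vale.Agent.P199.Dz

/-!
# P199 (B6c): the coefficient computation of the path trick
-/

open HahnSeries

namespace Vale.P199

variable {K : Type*} [Field K] [CharZero K] {B : Type*} [DivisionRing B] [Algebra K B]
  [FiniteDimensional K B]

/-- If `a' = a + z^n X + z^(n+1) E + ...`, `b = δ + z b₁ + ...`, `tr (b a'_z) = 0` and
`tr (b₁ X) = 0` then `tr (δ E) = 0`. -/
theorem path_coeff {n : ℕ} {a' b : B⟦ℤ⟧}
    (hlow : ∀ k : ℤ, k ≠ 0 → k < n → a'.coeff k = 0)
    (hb : ∀ k < 0, b.coeff k = 0)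
    (htr : tr K⟦ℤ⟧ B⟦ℤ⟧ (b * dz a') = 0)
    (hX : tr K B (b.coeff 1 * a'.coeff n) = 0) :
    tr K B (b.coeff 0 * a'.coeff (n + 1)) = 0 := by
  have h1 : tr K B ((b * dz a').coeff n) = 0 := by
    rw [← tr_laur_coeff, htr, coeff_zero]
  have h2 : (b * dz a').coeff n =
      ((n : ℤ) + 1) • (b.coeff 0 * a'.coeff (n + 1)) + (n : ℤ) • (b.coeff 1 * a'.coeff n) := by
    rw [mul_coeff, finsum_eq_sum_of_support_subset (s := {0, 1})]
    · rw [Finset.sum_pair (by norm_num), dz_coeff, dz_coeff, sub_zero, mul_smul_comm,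
        mul_smul_comm, sub_add_cancel]
    · intro i hi
      rw [Function.mem_support] at hi
      by_contra hcon
      apply hi
      simp only [Finset.coe_insert, Finset.coe_singleton, Set.mem_insert_iff,
        Set.mem_singleton_iff, not_or] at hcon
      rcases lt_or_ge i 0 with h | h
      · rw [hb i h, zero_mul]
      · rw [dz_coeff]
        by_cases h3 : (n : ℤ) - i + 1 = 0
        · rw [h3, zero_smul, mul_zero]
        · rw [hlow _ h3 (by omega), smul_zero, mul_zero]
  rw [h2, map_add, map_zsmul, map_zsmul, hX, smul_zero, add_zero] at h1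
  rcases smul_eq_zero.mp h1 with h3 | h3
  · exfalso; omega
  · exact h3

end Vale.P199
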