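import Vale.Agent.P199.BL5
import Vale.Agent.P199.BL6a
import Vale.Agent.P199.ObstB
import Vale.Agent.P199.Taylor

/-!
# P199 [L6b] : the path trick, `tr (ε E_d(V)) = 0` for `ε ∈ 𝒞(X)`
-/

open HahnSeries

namespace Vale.P199

namespace MoveData

variable {S : State} (D : MoveData S)

/-- coordinates of a power series with coefficients in `Q` -/
theorem exists_coords (p : PowerSeries D.E.B1)
    (hp : ∀ n b, D.E.jB b * PowerSeries.coeff n p = PowerSeries.coeff n p * D.E.jB b) :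
    ∃ c : Fin D.r × Fin D.r → D.E.K1⟦ℤ⟧, ofPowerSeries ℤ D.E.B1 p =
      ∑ jk : Fin D.r × Fin D.r,
        c jk • (HahnSeries.C (D.E.u ^ (jk.1 : ℕ) * D.E.v ^ (jk.2 : ℕ)) : D.E.B1⟦ℤ⟧) := by
  have h1 : ∀ n, ∃ c : Fin D.r × Fin D.r → D.E.K1,
      PowerSeries.coeff n p = ∑ ij, c ij • (D.E.u ^ (ij.1 : ℕ) * D.E.v ^ (ij.2 : ℕ)) := fun n =>
    (D.E.mem_Q D.hr S.central _).mp (hp n)
  choose c hc using h1
  refine ⟨fun jk => ofPowerSeries ℤ D.E.K1 (PowerSeries.mk fun n => c n jk), ?_⟩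
  ext n
  rw [coeff_sum]
  have h2 : ∀ jk : Fin D.r × Fin D.r, ((ofPowerSeries ℤ D.E.K1 (PowerSeries.mk fun n => c n jk)) •
      (HahnSeries.C (D.E.u ^ (jk.1 : ℕ) * D.E.v ^ (jk.2 : ℕ)) : D.E.B1⟦ℤ⟧)).coeff n =
      (ofPowerSeries ℤ D.E.K1 (PowerSeries.mk fun n => c n jk)).coeff n •
        (D.E.u ^ (jk.1 : ℕ) * D.E.v ^ (jk.2 : ℕ)) := by
    intro jk
    rw [C_apply, smul_single_coeff, sub_zero]
  rw [Finset.sum_congr rfl fun jk _ => h2 jk]
  rcases lt_or_ge n 0 with h | h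
  · rw [ofPS_coeff_neg _ h]
    symm
    refine Finset.sum_eq_zero fun jk _ => ?_
    rw [ofPS_coeff_neg _ h, zero_smul]
  · obtain ⟨k, rfl⟩ := Int.eq_ofNat_of_zero_le h
    rw [ofPS_coeff_nat, hc k]
    refine Finset.sum_congr rfl fun jk _ => ?_
    rw [ofPS_coeff_nat, PowerSeries.coeff_mk]

/-- the derivative of a power series -/
theorem dz_ofPS (p : PowerSeries D.E.B1) : dz (ofPowerSeries ℤ D.E.B1 p) =
    ofPowerSeries ℤ D.E.B1 (PowerSeries.mk fun n => ((n : ℤ) + 1) • PowerSeries.coeff (n + 1) p) := by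
  ext n
  rw [dz_coeff]
  rcases lt_or_ge n 0 with h | h
  · rw [ofPS_coeff_neg _ h]
    rcases eq_or_ne (n + 1) 0 with h1 | h1
    · rw [h1, zero_smul]
    · rw [ofPS_coeff_neg _ (by omega), smul_zero]
  · obtain ⟨k, rfl⟩ := Int.eq_ofNat_of_zero_le h
    rw [ofPS_coeff_nat, PowerSeries.coeff_mk]
    congr 1
    exact ofPS_coeff_nat p (k + 1)

/-- the chain rule with unspecified coordinates -/
theorem exists_chain : ∃ c : D.I' → D.E.K1⟦ℤ⟧, ∀ f : NC S.I S.B,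
    dz (D.sh f []) = ∑ i', c i' • D.sh f [i'] := by
  have h1 : ∀ i, ∃ c : Fin D.r × Fin D.r → D.E.K1⟦ℤ⟧, dz (ofPowerSeries ℤ D.E.B1 (D.y i)) =
      ∑ jk : Fin D.r × Fin D.r,
        c jk • (HahnSeries.C (D.E.u ^ (jk.1 : ℕ) * D.E.v ^ (jk.2 : ℕ)) : D.E.B1⟦ℤ⟧) := by
    intro i
    rw [dz_ofPS]
    refine D.exists_coords _ fun n b => ?_
    rw [PowerSeries.coeff_mk, mul_smul_comm, smul_mul_assoc, D.yQ]
  choose c hc using h1
  exact ⟨fun i' => c i'.1 i'.2, fun f => D.chain f _ fun i => hc i⟩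

end MoveData

namespace Pt

variable {S0 : State} {f0 : NC S0.I S0.B}

/-- elements of `C'` are orthogonal to the derivative of the constant term -/
theorem tr_mul_dz (x : Pt S0 f0) (D : MoveData x.S) {b : D.E.B1⟦ℤ⟧} (hb : b ∈ (x.move D).C) :
    tr D.E.K1⟦ℤ⟧ D.E.B1⟦ℤ⟧ (b * dz (D.sh x.f [])) = 0 := by
  obtain ⟨c, hc⟩ := D.exists_chain
  rw [hc, Finset.mul_sum, map_sum]
  refine Finset.sum_eq_zero fun i _ => ?_
  rw [mul_smul_comm, map_smul, ((mem_C_move x D b).mp hb).2 i, smul_zero]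

/-- coefficient of `z` in `tr (b F₁)` when `κ ≥ 2` -/
theorem tr_coeff_one (x : Pt S0 f0) (D : MoveData x.S) (hκ : 2 ≤ D.κ) {b : D.E.B1⟦ℤ⟧}
    (hb : b ∈ (x.move D).C) (hbi : ∀ n < 0, b.coeff n = 0) (i : x.S.I) (t : D.E.B1)
    (ht : ∀ b, D.E.jB b * t = t * D.E.jB b) :
    tr D.E.K1 D.E.B1 (b.coeff 1 * (D.E.jB (x.f [i]) * t)) = 0 := by
  obtain ⟨c, rfl⟩ := (D.E.mem_Q D.hr x.S.central t).mp ht
  rw [Finset.mul_sum, Finset.mul_sum, map_sum]
  refine Finset.sum_eq_zero fun jk _ => ?_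
  rw [mul_smul_comm, mul_smul_comm, map_smul]
  have h1 := congrArg (fun s => HahnSeries.coeff s 1)
    (((mem_C_move x D b).mp hb).2 (i, jk.1, jk.2))
  simp only [coeff_zero] at h1
  rw [tr_laur_coeff] at h1
  have h2 : (b * D.sh x.f [(i, jk.1, jk.2)]).coeff 1 =
      b.coeff 1 * (D.E.jB (x.f [i]) * (D.E.u ^ (jk.1 : ℕ) * D.E.v ^ (jk.2 : ℕ))) := by
    rw [mul_coeff, finsum_eq_single _ 1]
    · rw [sub_self, D.sh_single_coeff_zero]
    · intro k hk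
      rcases lt_or_ge k 0 with h | h
      · rw [hbi k h, zero_mul]
      · rcases lt_or_ge k 1 with h3 | h3
        · have : k = 0 := by omega
          rw [this, sub_zero, D.sh_coeff_lt _ _ one_pos (by exact_mod_cast hκ), mul_zero]
        · rw [D.sh_coeff_neg _ _ (by omega), mul_zero]
  rw [h2] at h1
  rw [h1, smul_zero]

/-- **The path trick.** -/
theorem path_trick (x : Pt S0 f0) (hf0 : f0 ∈ Algebra.adjoin S0.K {S0.X, S0.Y}) (h : x.XMin)
    (d : ℕ) (hd : 2 ≤ d) (τ : x.S.I → NC (Fin 2) x.S.K) (h0 : ∀ i, τ i [] = 0)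
    (hind : x.S.Indep (fun i => τ i [0]) (fun i => τ i [1]))
    (hlow : ∀ w : List (Fin 2), w ≠ [] → w.length < d → evalS τ x.f w = 0)
    {r : ℕ} (hr : 0 < r) (hr2 : 2 ≤ r) {ζ : x.S.K} (hζ : IsPrimitiveRoot ζ r)
    (E : QExt x.S.K x.S.B r ζ) (V : Fin 2 → E.B1) (hV : ∀ b m, E.jB b * V m = V m * E.jB b)
    (hgen : E.u ∈ Algebra.adjoin E.K1 {V 0, V 1} ∧ E.v ∈ Algebra.adjoin E.K1 {V 0, V 1})
    (P : SymPair E) (w1 w2 : x.S.B) (hg : x.GoodPair w1 w2) (ε : E.B1)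
    (hε : ε ∈ x.calC E (E.jB w1 * P.u' + E.jB w2 * P.v')) :
    tr E.K1 E.B1 (ε * ∑ w : Fin d → Fin 2,
      E.jB (evalS τ x.f (List.ofFn w)) * ((List.ofFn w).map V).prod) = 0 := by
  obtain ⟨p1, hp1⟩ : ∃ p : x.S.I → x.S.K, ∑ i, p i • x.f [i] = w1 :=
    (Submodule.mem_span_range_iff_exists_fun x.S.K).mp hg.1
  obtain ⟨p2, hp2⟩ : ∃ p : x.S.I → x.S.K, ∑ i, p i • x.f [i] = w2 :=
    (Submodule.mem_span_range_iff_exists_fun x.S.K).mp hg.2.1
  have hjs : ∀ (k : x.S.K) (b : x.S.B), E.jB (k • b) = E.jK k • E.jB b := by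
    intro k b
    rw [Algebra.smul_def, map_mul, E.comp, ← Algebra.smul_def]
  set δ : x.S.I → E.B1 := fun i => E.jK (p1 i) • P.u' + E.jK (p2 i) • P.v' with hδdef
  have hδ : ∀ i b, E.jB b * δ i = δ i * E.jB b := by
    intro i b
    rw [hδdef]
    simp only [mul_add, add_mul, mul_smul_comm, smul_mul_assoc, P.hu, P.hv]
  have hX : ∑ i, E.jB (x.f [i]) * δ i = E.jB w1 * P.u' + E.jB w2 * P.v' := by
    rw [← hp1, ← hp2, map_sum, map_sum, Finset.sum_mul, Finset.sum_mul, ← Finset.sum_add_distrib]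
    refine Finset.sum_congr rfl fun i _ => ?_
    rw [hjs, hjs, hδdef]
    simp only [mul_add, mul_smul_comm, smul_mul_assoc]
  have hL : x.Leads (pathMove x.S τ h0 hind hr hζ E V hV hgen d hd δ hδ) (2 * d - 1)
      (E.jB w1 * P.u' + E.jB w2 * P.v') :=
    ⟨fun n hn hn0 => path_low x.S τ h0 hind hr hζ E V hV hgen d hd δ hδ x.f hlow n hn hn0,
      (path_lead x.S τ h0 hind hr hζ E V hV hgen d hd δ hδ x.f).trans hX⟩
  have heq := (persist x hf0 h (pathMove x.S τ h0 hind hr hζ E V hV hgen d hd δ hδ) P hr2 w1 w2 hg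
    (2 * d - 1) (by omega) hL).2.2.2.2
  obtain ⟨b, hbC, hbi, hb0⟩ := lift_calC x (pathMove x.S τ h0 hind hr hζ E V hV hgen d hd δ hδ)
    (2 * d - 1) (by omega) _ hL heq ε hε
  have h1 := path_coeff (K := E.K1) (B := E.B1) (n := 2 * d - 1) (b := b)
    (a' := (pathMove x.S τ h0 hind hr hζ E V hV hgen d hd δ hδ).sh x.f [])
    (fun k hk0 hk => hL.1 k hk hk0) hbi (tr_mul_dz x _ hbC) (by
      rw [path_lead, Finset.mul_sum, map_sum]
      exact Finset.sum_eq_zero fun i _ =>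
        tr_coeff_one x (pathMove x.S τ h0 hind hr hζ E V hV hgen d hd δ hδ) le_rfl hbC hbi i
          (δ i) fun b => hδ i b)
  rw [path_next, hb0] at h1
  exact h1

end Pt

end Vale.P199
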