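import Vale.Agent.P199.B7Asm
import Vale.Agent.P199.B70
import Vale.Agent.P199.B7Lift
import Vale.Agent.P199.B7Elem3
import Vale.Agent.P199.BEval

/-! # B7 : the final base -/

open HahnSeries

namespace Vale.P199
namespace Pt

variable {S0 : State} {f0 : NC S0.I S0.B}

/-- lifting of directions with values in `Q` -/
theorem exists_lift_dir (x : Pt S0 f0) (D : MoveData x.S) (X : D.E.B1) (hL : x.Leads D 1 X)
    (hC : Module.finrank (D.E.K1⟦ℤ⟧) (x.move D).C = Module.finrank D.E.K1 (x.calC D.E X))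
    (P : x.S.I → D.E.B1) (y0 : D.E.B1) (hP : ∀ i b, D.E.jB b * P i = P i * D.E.jB b)
    (hy0 : D.E.jB x.a * y0 = y0 * D.E.jB x.a) (h : linR D.E.jB x.f P = X * y0 - y0 * X) :
    ∃ (p : D.I' → D.E.K1⟦ℤ⟧) (y : D.E.B1⟦ℤ⟧), (∀ i, ∀ n < 0, (p i).coeff n = 0) ∧
      D.dir0 p = P ∧ (∀ n < 0, y.coeff n = 0) ∧ y.coeff 0 = y0 ∧
      State.lin (D.sh x.f) p =
        single (-1) (1 : D.E.B1) * (D.sh x.f [] * y - y * D.sh x.f []) := by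
  choose e he using fun i => (D.E.mem_Q D.hr x.S.central (P i)).mp (hP i)
  have hsum : ∑ i : D.I', e i.1 i.2 •
      (D.E.jB (x.f [i.1]) * (D.E.u ^ (i.2.1 : ℕ) * D.E.v ^ (i.2.2 : ℕ))) = X * y0 - y0 * X := by
    rw [← h, linR, Fintype.sum_prod_type]
    refine Finset.sum_congr rfl fun i _ => ?_
    rw [he i, Finset.mul_sum]
    refine Finset.sum_congr rfl fun jk _ => ?_
    rw [mul_smul_comm]
  obtain ⟨p, y, h1, h2, h3, h4, -, h6⟩ := x.lift_pair D X hL hC (fun i => e i.1 i.2) y0 hy0 hsum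
  refine ⟨p, y, h1, ?_, h3, h4, h6⟩
  funext i
  rw [MoveData.dir0, he i]
  refine Finset.sum_congr rfl fun jk _ => ?_
  rw [h2]

/-- B7 : the final base -/
theorem final_base (x : Pt S0 f0) (hf0 : f0 ∈ Algebra.adjoin S0.K {S0.X, S0.Y}) (h : x.XMin) :
    ∃ x' : Pt S0 f0, x'.XMin ∧
      Module.finrank S0.K S0.B < Module.finrank x'.S.K x'.S.B ∧
      ∃ P1 P2 : x'.S.I → x'.S.K, x'.S.Indep P1 P2 ∧ State.lin x'.f P1 = 0 ∧ State.lin x'.f P2 = 0 ∧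
      (∀ c ∈ x'.C, tr x'.S.K x'.S.B (c * quad x'.f P1 P2) = 0) ∧
      ∀ φ ψ : x'.S.B →ₗ[x'.S.K] x'.S.K, (∀ c ∈ x'.Coo, φ c = 0 ∧ ψ c = 0) →
        ∃ q : x'.S.I → x'.S.K, State.lin x'.f q = 0 ∧
          ∀ c ∈ x'.C, tr x'.S.K x'.S.B (c * quad x'.f P1 q) = φ c ∧
            tr x'.S.K x'.S.B (c * quad x'.f P2 q) = ψ c := by
  obtain ⟨n, w, p, D, -, -, hp, hg, -, hr, hV1, hV2, hP1, hP2, hL, hX', hξ, hC, hWM, hn, hξη, -,
    -, hgrow⟩ := x.exists_base hf0 h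
  obtain ⟨c, hc, P0, y0, q0, z0, e1, e2, e3, e4, e5, e6, e7, e8, e9, e10⟩ :=
    B7.elements' x hWM hξη hn D.hζ D.E hr hg
  obtain ⟨P1, P2, r1, r2, r3, r4, r5⟩ := x.final_assembly hf0 D _ hL hX' hξ hC
    (x.exists_lift_dir D _ hL hC) (ι := Fin x.ξ) (by rw [Fintype.card_fin]) c
    (fun b => x.C_mem_calC hWM D.hr D.E (SymPair.self D.E D.hζ) (w 0) (w 1) hg.1 hg.2.1 (c b) (hc b))
    (P0 0) (P0 1) (y0 0) (y0 1) (e1 0) (e1 1) (e2 0) (e2 1) (e5 0) (e5 1)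
    (q0 0) (q0 1) (z0 0) (z0 1) (e3 0) (e3 1) (e4 0) (e4 1) (e6 0) (e6 1) (e7 0) (e7 1)
    (e8 0 1 (by decide)) (fun b => e9 (c b) 0 1)
    (by
      rw [hP1, hP2, hp, hp, hV1, hV2]
      exact e10)
  exact ⟨x.move D, hX', hgrow, P1, P2, r1, r2, r3, r4, r5⟩

end Pt
end Vale.P199
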