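import Vale.Agent.P199.BL8

/-! # B7, last step : from a basis of `C` modulo `Coo` to all functionals -/

open HahnSeries

namespace Vale.P199
namespace Pt

variable {S0 : State} {f0 : NC S0.I S0.B}

/-- (B8.1) at a point -/
theorem quad_facts (x : Pt S0 f0) (hf0 : f0 ∈ Algebra.adjoin S0.K {S0.X, S0.Y}) (h : x.XMin)
    (P1 P2 : x.S.I → x.S.K) (hi : x.S.Indep P1 P2) (h1 : State.lin x.f P1 = 0)
    (h2 : State.lin x.f P2 = 0) :
    (∀ c ∈ x.C, ∀ p q : x.S.I → x.S.K, State.lin x.f p = 0 → State.lin x.f q = 0 →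
      tr x.S.K x.S.B (c * quad x.f p q) = - tr x.S.K x.S.B (c * quad x.f q p)) ∧
    (∀ c ∈ x.Coo, ∀ p q : x.S.I → x.S.K, State.lin x.f p = 0 → State.lin x.f q = 0 →
      tr x.S.K x.S.B (c * quad x.f p q) = 0) := by
  have H : ∀ p q : x.S.I → x.S.K, B8.linf x.f p = 0 → B8.linf x.f q = 0 → B8.Ind x.Inn p q →
      (∀ y ∈ x.Coo, tr x.S.K x.S.B (y * B8.quad x.f p q) = 0) ∧
      (∀ y ∈ x.C, tr x.S.K x.S.B (y * B8.quad x.f p p) = 0) := by
    intro p q hp hq hpq
    have hm : ∀ m, B8.linf x.f ((![p, q] : Fin 2 → x.S.I → x.S.K) m) = 0 := by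
      intro m; fin_cases m
      · exact hp
      · exact hq
    have hobs := obs_of_obstruction x hf0 h ![p, q] hpq
    rw [Cs_eq] at hobs
    obtain ⟨a1, a2⟩ := B8.obs_two x.f x.C x.Coo ![p, q] hm hobs
    refine ⟨fun y hy => a1 y hy 0 1, fun y hy => ?_⟩
    have h3 := a2 y hy 0 0
    have h4 : (2 : x.S.K) * tr x.S.K x.S.B (y * B8.quad x.f p p) = 0 := by
      have h5 : tr x.S.K x.S.B (y * B8.quad x.f p p) = - tr x.S.K x.S.B (y * B8.quad x.f p p) := h3
      linear_combination h5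
    exact (mul_eq_zero.mp h4).resolve_left two_ne_zero
  exact B8.b81 x.f x.C x.Coo x.Coo_le_C x.Inn (fun p hp => lin_inner x hf0 p hp) P1 P2 h1 h2 hi H

/-- last step of B7 -/
theorem final_base_of (x : Pt S0 f0) (hf0 : f0 ∈ Algebra.adjoin S0.K {S0.X, S0.Y}) (h : x.XMin)
    (P1 P2 : x.S.I → x.S.K) (hi : x.S.Indep P1 P2) (h1 : State.lin x.f P1 = 0)
    (h2 : State.lin x.f P2 = 0) {ι : Type} [Fintype ι] (hι : x.ξ ≤ Fintype.card ι)
    (c : ι → x.S.B) (hc : ∀ b, c b ∈ x.C)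
    (hPP : ∀ b, tr x.S.K x.S.B (c b * quad x.f P1 P2) = 0)
    (honto : ∀ z z' : ι → x.S.K, ∃ q : x.S.I → x.S.K, State.lin x.f q = 0 ∧
      ∀ b, tr x.S.K x.S.B (c b * quad x.f P1 q) = z b ∧
        tr x.S.K x.S.B (c b * quad x.f P2 q) = z' b) :
    (∀ c ∈ x.C, tr x.S.K x.S.B (c * quad x.f P1 P2) = 0) ∧
      ∀ φ ψ : x.S.B →ₗ[x.S.K] x.S.K, (∀ c ∈ x.Coo, φ c = 0 ∧ ψ c = 0) →
        ∃ q : x.S.I → x.S.K, State.lin x.f q = 0 ∧
          ∀ c ∈ x.C, tr x.S.K x.S.B (c * quad x.f P1 q) = φ c ∧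
            tr x.S.K x.S.B (c * quad x.f P2 q) = ψ c := by
  classical
  obtain ⟨-, hoo⟩ := quad_facts x hf0 h P1 P2 hi h1 h2
  have hWM : x.W ≤ x.M := W_le_M x hf0 h.1.1.1
  have hW : x.W ≠ ⊥ := h.1.1.1.1
  -- independence of `c` modulo `Coo`
  have hli : ∀ g : ι → x.S.K, (∑ b, g b • c b) ∈ x.Coo → g = 0 := by
    intro g hg
    funext b0
    obtain ⟨q, hq, hq'⟩ := honto (fun b => if b = b0 then 1 else 0) (fun _ => 0)
    have e := hoo _ hg P1 q h1 hq
    rw [Finset.sum_mul, map_sum] at e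
    simp only [smul_mul_assoc, map_smul, fun b => (hq' b).1, smul_eq_mul, mul_ite, mul_one,
      mul_zero, Finset.sum_ite_eq', Finset.mem_univ, if_true] at e
    exact e
  -- the family spans
  have hspan : x.C ≤ x.Coo ⊔ Submodule.span x.S.K (Set.range c) := by
    have hle : x.Coo ⊔ Submodule.span x.S.K (Set.range c) ≤ x.C :=
      sup_le x.Coo_le_C (Submodule.span_le.mpr (by rintro _ ⟨b, rfl⟩; exact hc b))
    have hLI : LinearIndependent x.S.K c := by
      rw [Fintype.linearIndependent_iff]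
      intro g hg b
      exact congrFun (hli g (by rw [hg]; exact zero_mem _)) b
    have hdisj : x.Coo ⊓ Submodule.span x.S.K (Set.range c) = ⊥ := by
      rw [eq_bot_iff]
      rintro y ⟨hy1, hy2⟩
      obtain ⟨g, rfl⟩ := (Submodule.mem_span_range_iff_exists_fun _).mp hy2
      have := hli g hy1
      subst this
      simp
    have hfs : Module.finrank x.S.K (Submodule.span x.S.K (Set.range c)) = Fintype.card ι :=
      finrank_span_eq_card hLI
    have hsum := Submodule.finrank_sup_add_finrank_inf_eq x.Coo (Submodule.span x.S.K (Set.range c))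
    rw [hdisj, finrank_bot, hfs, add_zero] at hsum
    have hC := Pt.finrank_C_eq hWM hW
    have := Submodule.eq_of_le_of_finrank_le hle (by omega)
    rw [this]
  refine ⟨?_, ?_⟩
  · intro y hy
    obtain ⟨u, hu, v, hv, rfl⟩ := Submodule.mem_sup.mp (hspan hy)
    obtain ⟨g, rfl⟩ := (Submodule.mem_span_range_iff_exists_fun _).mp hv
    rw [add_mul, map_add, hoo u hu P1 P2 h1 h2, zero_add, Finset.sum_mul, map_sum]
    simp only [smul_mul_assoc, map_smul, hPP, smul_zero, Finset.sum_const_zero]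
  · intro φ ψ hφψ
    obtain ⟨q, hq, hq'⟩ := honto (fun b => φ (c b)) (fun b => ψ (c b))
    refine ⟨q, hq, fun y hy => ?_⟩
    obtain ⟨u, hu, v, hv, rfl⟩ := Submodule.mem_sup.mp (hspan hy)
    obtain ⟨g, rfl⟩ := (Submodule.mem_span_range_iff_exists_fun _).mp hv
    constructor
    · rw [add_mul, map_add, hoo u hu P1 q h1 hq, zero_add, Finset.sum_mul, map_sum, map_add,
        (hφψ u hu).1, zero_add, map_sum]
      simp only [smul_mul_assoc, map_smul, fun b => (hq' b).1]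
    · rw [add_mul, map_add, hoo u hu P2 q h2 hq, zero_add, Finset.sum_mul, map_sum, map_add,
        (hφψ u hu).2, zero_add, map_sum]
      simp only [smul_mul_assoc, map_smul, fun b => (hq' b).2]

end Pt
end Vale.P199
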