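import Vale.Agent.P199.BL6
import Vale.Agent.P199.B8

/-! # B8 : the final family -/

open HahnSeries

namespace Vale.P199
namespace Pt

variable {S0 : State} {f0 : NC S0.I S0.B}

theorem linf_eq (x : Pt S0 f0) (p : x.S.I → x.S.K) : B8.linf x.f p = State.lin x.f p := rfl

theorem Ws_eq (x : Pt S0 f0) : B8.Ws x.S.K x.f = x.W := by
  ext b
  rw [LinearMap.mem_range]
  show _ ↔ b ∈ Submodule.span x.S.K (Set.range fun i => x.f [i])
  rw [Submodule.mem_span_range_iff_exists_fun]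
  rfl

theorem Cs_eq (x : Pt S0 f0) : B8.Cs x.S.K x.f = x.C := by
  show Tr.perp (Tr.cen x.S.K (x.f [])) (B8.Ws x.S.K x.f) = Tr.perp x.Z x.W
  rw [Ws_eq]; rfl

theorem f_mem_cen (x : Pt S0 f0) (w : List x.S.I) : x.f w ∈ Tr.cen x.S.K (x.f []) :=
  Tr.mem_cen.mpr (x.norm w).symm

/-- the subspace of inner directions -/
def Inn (x : Pt S0 f0) : Submodule x.S.K (x.S.I → x.S.K) where
  carrier := {p | x.S.Inner p}
  zero_mem' := ⟨0, by simp [State.lin], by simp [State.lin]⟩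
  add_mem' := by
    rintro p q ⟨y, h1, h2⟩ ⟨y', h1', h2'⟩
    refine ⟨y + y', ?_, ?_⟩
    · rw [State.lin_add_dir, h1, h1', add_mul, mul_add]; abel
    · rw [State.lin_add_dir, h2, h2', add_mul, mul_add]; abel
  smul_mem' := by
    rintro c p ⟨y, h1, h2⟩
    refine ⟨c • y, ?_, ?_⟩
    · rw [State.lin_smul_dir, h1, smul_sub, smul_mul_assoc, mul_smul_comm]
    · rw [State.lin_smul_dir, h2, smul_sub, smul_mul_assoc, mul_smul_comm]

theorem ind_iff (x : Pt S0 f0) (p q : x.S.I → x.S.K) : B8.Ind x.Inn p q ↔ x.S.Indep p q := Iff.rfl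

theorem evalS_eq (x : Pt S0 f0) (τ : x.S.I → NC (Fin 2) x.S.K) :
    evalS τ x.f = B8.evF x.f (fun i w => τ i w) := rfl

/-- the obstruction lemma in the form used by `B8.final` -/
theorem obs_of_obstruction (x : Pt S0 f0) (hf0 : f0 ∈ Algebra.adjoin S0.K {S0.X, S0.Y})
    (h : x.XMin) (P' : Fin 2 → x.S.I → x.S.K) (hi : B8.Ind x.Inn (P' 0) (P' 1)) :
    B8.Obs x.f (B8.Cs x.S.K x.f) x.Coo P' := by
  intro d t hd ht0 htl hlow
  let t' : x.S.I → List (Fin 2) → x.S.K := fun i w => if w.length < d then t i w else 0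
  have ht' : ∀ i w, w.length < d → t' i w = t i w := fun i w hw => if_pos hw
  have ht'' : ∀ i w, d ≤ w.length → t' i w = 0 := fun i w hw => if_neg (by omega)
  have ht'0 : ∀ i, t' i [] = 0 := fun i => by rw [ht' i [] (by simp; omega), ht0]
  have hev : ∀ w : List (Fin 2), w.length < d → B8.evF x.f t' w = B8.evF x.f t w :=
    fun w hw => B8.evF_congr x.f t t' ht0 ht'0 d (fun i v hv => ht' i v hv) w hw
  have h0 : ∀ m, (fun i => t' i [m]) = P' m := fun m => funext fun i => by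
    rw [ht' i [m] (by simp; omega), htl]
  obtain ⟨o1, o2⟩ := obstruction x hf0 h d hd (fun i => NC.mk (t' i)) ht'0
    (fun i w hw => ht'' i w hw)
    (by
      show x.S.Indep (fun i => t' i [0]) (fun i => t' i [1])
      rw [h0 0, h0 1]; exact hi)
    (fun w hw hwd => by
      show B8.evF x.f t' w = 0
      rw [hev w hwd]
      exact hlow w (List.length_pos_iff.mpr hw) hwd)
  have key : ∀ y ∈ x.C, ∀ w : List (Fin 2), w.length = d →
      tr x.S.K x.S.B (y * B8.evF x.f t w) = tr x.S.K x.S.B (y * B8.evF x.f t' w) := by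
    intro y hy w hw
    rw [B8.evF_first x.f t' t ht'0 ht0 d (by omega) (fun i v hv => (ht' i v hv).symm) w hw,
      mul_add, map_add]
    have hW : B8.linf x.f (fun i => t i w - t' i w) ∈ x.W := by
      rw [← Ws_eq]; exact LinearMap.mem_range_self _ _
    rw [hy.2 _ hW, add_zero]
  rw [Cs_eq]
  refine ⟨fun y hy w hw => ?_, fun y hy => ?_⟩
  · rw [key y (x.Coo_le_C hy) w hw]
    exact o1 y hy w hw
  · obtain ⟨g, hg⟩ := o2 y hy
    refine ⟨g, fun a u b hu => ?_⟩
    rw [key y hy _ (by simp; omega)]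
    exact hg a u b hu

/-- a family spanning `C` modulo `Coo`, with prescribed values of functionals killing `Coo` -/
theorem exists_family {K B : Type} [Field K] [AddCommGroup B] [Module K B] [FiniteDimensional K B]
    (C Coo : Submodule K B) (hCC : Coo ≤ C) :
    ∃ (n : ℕ) (c : Fin n → B), (∀ b, c b ∈ C) ∧ C ≤ Coo ⊔ Submodule.span K (Set.range c) ∧
      ∀ z : Fin n → K, ∃ φ : B →ₗ[K] K, (∀ y ∈ Coo, φ y = 0) ∧ ∀ b, φ (c b) = z b := by
  obtain ⟨D, hD⟩ := Submodule.exists_isCompl Coo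
  let b := Module.finBasis K (D ⊓ C : Submodule K B)
  refine ⟨_, fun k => (b k : B), fun k => (b k).2.2, ?_, fun z => ?_⟩
  · have h1 : Submodule.span K (Set.range fun k => (b k : B)) = D ⊓ C := by
      have := congrArg (Submodule.map (D ⊓ C).subtype) b.span_eq
      rw [Submodule.map_span, ← Set.range_comp, Submodule.map_subtype_top] at this
      exact this
    rw [h1, ← sup_inf_assoc_of_le D hCC, hD.sup_eq_top, top_inf_eq]
  · let φ0 : (D ⊓ C : Submodule K B) →ₗ[K] K := b.constr K z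
    obtain ⟨φ1, hφ1⟩ := LinearMap.exists_extend φ0
    let π : B →ₗ[K] D := Submodule.projectionOnto D Coo hD.symm
    refine ⟨φ1 ∘ₗ D.subtype ∘ₗ π, fun y hy => ?_, fun k => ?_⟩
    · have : π y = 0 := by
        show Submodule.projectionOnto D Coo hD.symm y = 0
        rw [← LinearMap.mem_ker, Submodule.ker_projectionOnto]; exact hy
      rw [LinearMap.comp_apply, LinearMap.comp_apply, this, map_zero, map_zero]
    · have h2 : π (b k : B) = ⟨(b k : B), (b k).2.1⟩ :=
        Submodule.projectionOnto_apply_left hD.symm ⟨(b k : B), (b k).2.1⟩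
      rw [LinearMap.comp_apply, LinearMap.comp_apply, h2]
      have h3 := LinearMap.congr_fun hφ1 (b k)
      rw [LinearMap.comp_apply] at h3
      show φ1 (b k : B) = z k
      rw [show (b k : B) = (D ⊓ C).subtype (b k) from rfl, h3]
      exact b.constr_basis K z k

/-- B8 : the final family -/
theorem final_family (x : Pt S0 f0) (hf0 : f0 ∈ Algebra.adjoin S0.K {S0.X, S0.Y}) (h : x.XMin)
    (P1 P2 : x.S.I → x.S.K) (hi : x.S.Indep P1 P2) (h1 : State.lin x.f P1 = 0)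
    (h2 : State.lin x.f P2 = 0) (h12 : ∀ c ∈ x.C, tr x.S.K x.S.B (c * quad x.f P1 P2) = 0)
    (honto : ∀ φ ψ : x.S.B →ₗ[x.S.K] x.S.K, (∀ c ∈ x.Coo, φ c = 0 ∧ ψ c = 0) →
        ∃ q : x.S.I → x.S.K, State.lin x.f q = 0 ∧
          ∀ c ∈ x.C, tr x.S.K x.S.B (c * quad x.f P1 q) = φ c ∧
            tr x.S.K x.S.B (c * quad x.f P2 q) = ψ c) :
    ∃ τ : x.S.I → NC (Fin 2) x.S.K, (∀ i, τ i [] = 0) ∧ (∀ i, τ i [0] = P1 i) ∧
      (∀ i, τ i [1] = P2 i) ∧ evalS τ x.f = NC.C x.a := by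
  obtain ⟨n, c, hc, hspan, hφ⟩ := exists_family x.C x.Coo x.Coo_le_C
  obtain ⟨t, ht0, htl, hev⟩ := B8.final x.f (f_mem_cen x) x.Coo
    (by rw [Cs_eq]; exact x.Coo_le_C) c (fun b => by rw [Cs_eq]; exact hc b)
    (by rw [Cs_eq]; exact hspan) x.Inn (fun p hp => lin_inner x hf0 p hp) ![P1, P2]
    (fun m => by
      fin_cases m
      · exact h1
      · exact h2) hi (fun b => h12 _ (hc b))
    (fun z => by
      obtain ⟨φ, hφ1, hφ2⟩ := hφ (z 0)
      obtain ⟨ψ, hψ1, hψ2⟩ := hφ (z 1)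
      obtain ⟨q, hq, hq'⟩ := honto φ ψ (fun y hy => ⟨hφ1 y hy, hψ1 y hy⟩)
      refine ⟨q, hq, fun m b => ?_⟩
      fin_cases m
      · exact (hq' _ (hc b)).1.trans (hφ2 b)
      · exact (hq' _ (hc b)).2.trans (hψ2 b))
    (fun P' hP' => obs_of_obstruction x hf0 h P' hP')
  exact ⟨fun i => NC.mk (t i), ht0, fun i => htl i 0, fun i => htl i 1, hev⟩

end Pt
end Vale.P199
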