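import Vale.Agent.P199.BL9a
import Vale.Agent.P199.BL4
import Vale.Agent.P199.QPI

/-!
# P199, B3.1 : a move with `a' ≠ a` exists as soon as the normalised series is not constant
-/

open HahnSeries

namespace Vale.P199

/-- `Σ_{w : Fin (n+1) → I} = Σ_i Σ_{w : Fin n → I}` for words -/
theorem sum_words_cons {I M : Type*} [Fintype I] [AddCommMonoid M] (n : ℕ) (G : List I → M) :
    ∑ w : Fin (n + 1) → I, G (List.ofFn w) = ∑ i, ∑ w : Fin n → I, G (i :: List.ofFn w) := by
  rw [← (Fin.consEquiv (fun _ : Fin (n + 1) => I)).sum_comp, Fintype.sum_prod_type]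
  refine Finset.sum_congr rfl fun i _ => Finset.sum_congr rfl fun w _ => ?_
  congr 1
  show List.ofFn (Fin.cons i w : Fin (n + 1) → I) = _
  rw [List.ofFn_cons]

theorem coeff_monomial_one_mul {R : Type*} [Ring R] (a : R) (x : PowerSeries R) (n : ℕ) :
    PowerSeries.coeff (n + 1) (PowerSeries.monomial 1 a * x) = a * PowerSeries.coeff n x := by
  rw [PowerSeries.coeff_mul, Finset.sum_eq_single (1, n)]
  · rw [PowerSeries.coeff_monomial, if_pos rfl]
  · intro p hp hne
    rw [Finset.HasAntidiagonal.mem_antidiagonal] at hp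
    rw [PowerSeries.coeff_monomial, if_neg (fun h1 => hne (Prod.ext h1 (by
      show p.2 = n
      omega))), zero_mul]
  · intro h1
    exact absurd (Finset.HasAntidiagonal.mem_antidiagonal.2 (by show 1 + n = n + 1; omega)) h1

section

variable {I J B R : Type} [Fintype I] [DecidableEq I] [Ring B] [Ring R]
  {jB : B →+* R} {Y : I → NC J (PowerSeries R)} (h : SubOK jB Y)

/-- substitution of `z V_i` for `t_i`: the coefficient of `z^n` is the degree `n` part evaluated at `V` -/
theorem substHom_coeff_hom (V : I → R) (hY : ∀ i, Y i [] = PowerSeries.monomial 1 (V i)) (n : ℕ) :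
    ∀ f : NC I B, PowerSeries.coeff n (substHom jB Y h f []) =
      ∑ w : Fin n → I, ((List.ofFn w).map V).prod * jB (f (List.ofFn w)) := by
  induction n with
  | zero =>
    intro f
    rw [substHom_coeff_zero, Fintype.sum_unique]
    simp
  | succ n ih =>
    intro f
    rw [sum_words_cons n fun w => (w.map V).prod * jB (f w), substHom_nil, map_add,
      PowerSeries.coeff_C, if_neg (Nat.succ_ne_zero n), zero_add, map_sum]
    refine Finset.sum_congr rfl fun i _ => ?_
    rw [hY, coeff_monomial_one_mul, ih, Finset.mul_sum]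
    refine Finset.sum_congr rfl fun w _ => ?_
    rw [List.map_cons, List.prod_cons, mul_assoc]
    rfl

end

/-- independence of a basis of `B` over the elements commuting with `B` -/
theorem QExt.eq_zero_of_sum {K B : Type} [Field K] [CharZero K] [DivisionRing B] [Algebra K B]
    [FiniteDimensional K B] {r : ℕ} {ζ : K} (E : QExt K B r ζ) (hr : 0 < r)
    (central : ∀ a : B, (∀ b, a * b = b * a) → ∃ k, algebraMap K B k = a)
    {ι : Type} [Fintype ι] (b : Module.Basis ι K B) (q : ι → E.B1)
    (hq : ∀ l c, E.jB c * q l = q l * E.jB c) (h : ∑ l, E.jB (b l) * q l = 0) : ∀ l, q l = 0 := by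
  choose c hc using fun l => (E.mem_Q hr central (q l)).1 (hq l)
  obtain ⟨b1, hb1⟩ := E.basis b
  have h1 : ∑ x : ι × Fin r × Fin r, c x.1 x.2 • b1 x = 0 := by
    rw [← h, Fintype.sum_prod_type]
    refine Finset.sum_congr rfl fun l _ => ?_
    conv_rhs => rw [hc l, Finset.mul_sum]
    refine Finset.sum_congr rfl fun ij _ => ?_
    rw [hb1, mul_smul_comm]
  have h2 := (Fintype.linearIndependent_iff.1 b1.linearIndependent) (fun x => c x.1 x.2) h1
  intro l
  rw [hc l]
  refine Finset.sum_eq_zero fun ij _ => ?_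
  rw [show c l ij = 0 from h2 (l, ij), zero_smul]

/-- B3.1 -/
theorem exists_W_ne_bot_proof (S0 : Stage) (f0 : NC S0.I S0.B)
    (h : ∃ w, w ≠ [] ∧ (Pt.base S0 f0).f w ≠ 0) : ∃ y : Pt S0.toState f0, y.W ≠ ⊥ := by
  classical
  by_contra hcon
  push Not at hcon
  obtain ⟨w0, hw0, hf⟩ := h
  change List S0.I at w0
  let x := Pt.base S0 f0
  obtain ⟨d, hd⟩ : ∃ d, d = w0.length := ⟨_, rfl⟩
  have hd0 : 0 < d := by
    rw [hd]
    exact List.length_pos_iff.2 hw0
  obtain ⟨ζ, hζ⟩ := S0.roots (d + 1) (Nat.succ_pos d)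
  obtain ⟨E⟩ := exists_QExt S0.K S0.B S0.central (d + 1) (Nat.succ_pos d) ζ hζ
  let f : NC S0.I S0.B := x.f
  -- the degree `d` part vanishes at all generating pairs
  have hV : ∀ V : Fin 2 → E.B1, (∀ b m, E.jB b * V m = V m * E.jB b) →
      (E.u ∈ Algebra.adjoin E.K1 {V 0, V 1} ∧ E.v ∈ Algebra.adjoin E.K1 {V 0, V 1}) →
      ∑ w : Fin d → S0.I, ((List.ofFn w).map (fun i => V (S0.e i))).prod *
        E.jB (f (List.ofFn w)) = 0 := by
    intro V hVQ hgen
    let D : MoveData S0.toState := S0.mv (Nat.succ_pos d) ζ hζ E (V 0) (V 1)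
      (fun b => hVQ b 0) (fun b => hVQ b 1) hgen
    have hy : ∀ i, D.Y i [] = PowerSeries.monomial 1 (V (S0.e i)) := by
      intro i
      rw [D.Y_nil]
      show PowerSeries.monomial 1 (E.jK (if S0.e i = 0 then 1 else 0) • V 0 +
        E.jK (if S0.e i = 1 then 1 else 0) • V 1) = _
      congr 1
      have h01 : S0.e i = 0 ∨ S0.e i = 1 := by
        generalize S0.e i = t
        fin_cases t
        · exact Or.inl rfl
        · exact Or.inr rfl
      rcases h01 with h1 | h1
      · rw [h1]; simp
      · rw [h1]; simp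
    have hsh : D.sh f [] = HahnSeries.C (E.jB (f [])) := by
      by_contra hne
      exact Pt.W_move_ne_bot x D hne (hcon (x.move D))
    have h1 : (D.sh f []).coeff (d : ℤ) = 0 := by
      rw [hsh, HahnSeries.C_apply, HahnSeries.coeff_single_of_ne (by exact_mod_cast hd0.ne')]
      rfl
    have h2 : (D.sh f []).coeff (d : ℤ) = PowerSeries.coeff d (substHom D.E.jB D.Y D.subOK f []) := by
      rw [← HahnSeries.ofPowerSeries_apply_coeff (Γ := ℤ)]
      rfl
    rw [h2, substHom_coeff_hom D.subOK (fun i => V (S0.e i)) hy] at h1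
    exact h1
  -- coordinates
  let b := Module.finBasis S0.K S0.B
  have key : ∀ l, ∀ w : Fin d → Fin 2,
      E.jK (b.repr (f ((List.ofFn w).map S0.e.symm)) l) = 0 := by
    intro l
    have h3 := E.pi_a (Nat.succ_pos d) hζ S0.central (Nat.lt_succ_self d)
      (fun w => E.jK (b.repr (f ((List.ofFn w).map S0.e.symm)) l)) (by
      intro V hVQ hgen
      have h4 := hV V hVQ hgen
      let q : Fin (Module.finrank S0.K S0.B) → E.B1 := fun l =>
        ∑ w : Fin d → Fin 2, E.jK (b.repr (f ((List.ofFn w).map S0.e.symm)) l) •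
          ((List.ofFn w).map V).prod
      have hprod : ∀ (L : List (Fin 2)) (c : S0.B), E.jB c * (L.map V).prod =
          (L.map V).prod * E.jB c := by
        intro L c
        induction L with
        | nil => simp
        | cons i L ih =>
          rw [List.map_cons, List.prod_cons, ← mul_assoc, hVQ, mul_assoc, ih, mul_assoc]
      refine E.eq_zero_of_sum (Nat.succ_pos d) S0.central b q ?_ ?_ l
      · intro l c
        rw [Finset.mul_sum, Finset.sum_mul]
        refine Finset.sum_congr rfl fun w _ => ?_
        rw [mul_smul_comm, smul_mul_assoc, hprod]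
      · rw [← h4, ← ((Equiv.refl (Fin d)).arrowCongr S0.e).symm.sum_comp]
        simp only [q, Finset.mul_sum]
        rw [Finset.sum_comm]
        refine Finset.sum_congr rfl fun w _ => ?_
        have e1 : (List.ofFn (((Equiv.refl (Fin d)).arrowCongr S0.e).symm w)) =
            (List.ofFn w).map S0.e.symm := by
          rw [List.map_ofFn]
          rfl
        have e2 : ((List.ofFn w).map S0.e.symm).map (fun i => V (S0.e i)) = (List.ofFn w).map V := by
          rw [List.map_map]
          congr 1
          funext i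
          simp
        rw [e1, e2, ← hprod]
        conv_rhs => rw [← b.sum_repr (f ((List.ofFn w).map S0.e.symm)), map_sum, Finset.sum_mul]
        refine Finset.sum_congr rfl fun l _ => ?_
        rw [Algebra.smul_def, Algebra.smul_def, map_mul, E.comp, Algebra.commutes, mul_assoc,
          Algebra.commutes, mul_assoc])
    intro w
    exact congrFun h3 w
  refine hf ?_
  show f w0 = 0
  have h5 : ∀ w : Fin d → Fin 2, f ((List.ofFn w).map S0.e.symm) = 0 := by
    intro w
    apply b.repr.injective
    ext l
    rw [map_zero]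
    exact E.jK.injective ((key l w).trans (map_zero _).symm)
  have h6 := h5 (fun k => S0.e (w0.get (k.cast hd)))
  rw [List.map_ofFn] at h6
  have h7 : List.ofFn (S0.e.symm ∘ fun k : Fin d => S0.e (w0.get (k.cast hd))) = w0 := by
    have : (S0.e.symm ∘ fun k : Fin d => S0.e (w0.get (k.cast hd))) =
        fun k : Fin d => w0.get (k.cast hd) := by
      funext k
      exact S0.e.symm_apply_apply _
    rw [this]
    subst hd
    exact List.ofFn_get w0
  rw [h7] at h6
  exact h6

end Vale.P199
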