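import Vale.Agent.P199.BL7
import Vale.Agent.P199.BL8
import Vale.Agent.P199.BL9b

/-! # B3.1, final assembly (Pt.base, keyLemma_const = B3.0 and stage_of_family = B8.3 are in BL9a.lean) -/

open HahnSeries

namespace Vale.P199

/-- B3.1 -/
theorem exists_W_ne_bot (S0 : Stage) (f0 : NC S0.I S0.B)
    (h : ∃ w, w ≠ [] ∧ (Pt.base S0 f0).f w ≠ 0) : ∃ y : Pt S0.toState f0, y.W ≠ ⊥ :=
  exists_W_ne_bot_proof S0 f0 h

/-- B8.3 : final assembly -/
theorem keyLemma : KeyLemma := by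
  intro S f hf
  by_cases h : ∀ w, w ≠ [] → (Pt.base S f).f w = 0
  · exact keyLemma_const S f hf h
  · push Not at h
    obtain ⟨x, hx⟩ := Pt.exists_XMin hf (exists_W_ne_bot S f h)
    obtain ⟨x', hx', hdim, P1, P2, hi, h1, h2, h12, honto⟩ := x.final_base hf hx
    obtain ⟨τ, h0, hτ1, hτ2, hev⟩ := x'.final_family hf hx' P1 P2 hi h1 h2 h12 honto
    have e1 : (fun i => τ i [0]) = P1 := funext hτ1
    have e2 : (fun i => τ i [1]) = P2 := funext hτ2
    obtain ⟨S', m, hfin, P, hP, hP0⟩ := stage_of_family x' τ h0 (by rw [e1, e2]; exact hi) hev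
    exact ⟨S', m, by rw [hfin]; exact hdim, P, hP, hP0⟩

end Vale.P199
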