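import Vale.Agent.P199.BEval
import Vale.Agent.P199.GenBim

/-!
# P199, B3.0 and B8.3 : base point, restriction to two letters
-/

open HahnSeries

namespace Vale.P199

section Subst0

variable {I J B R : Type} [Fintype I] [DecidableEq I] [Ring B] [Ring R]
  {jB : B →+* R} {Y : I → NC J R} (h : SubOK0 jB Y)

theorem subst0Hom_rec (f : NC I B) : subst0Hom jB Y h f =
    NC.C (jB (f [])) + ∑ i, Y i * subst0Hom jB Y h (NC.sh i f) := by
  conv_lhs => rw [NC.eq_C_add_sum f]
  rw [map_add, subst0Hom_C, map_sum]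
  refine congrArg _ (Finset.sum_congr rfl fun i _ => ?_)
  rw [map_mul, subst0Hom_T]

theorem subst0Hom_nil (f : NC I B) : subst0Hom jB Y h f [] = jB (f []) := by
  rw [subst0Hom_rec h f, NC.add_apply, NC.C_nil, NC.sum_apply, Finset.sum_eq_zero, add_zero]
  intro i _
  rw [NC.mul_nil, h.const, zero_mul]

theorem subst0Hom_single (f : NC I B) (j : J) :
    subst0Hom jB Y h f [j] = ∑ i, Y i [j] * jB (f [i]) := by
  conv_lhs => rw [subst0Hom_rec h f]
  rw [NC.add_apply, NC.C_cons, zero_add, NC.sum_apply]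
  refine Finset.sum_congr rfl fun i _ => ?_
  rw [NC.mul_singleton, h.const, zero_mul, zero_add, subst0Hom_nil]
  rfl

end Subst0

/-- `P(u a u⁻¹)= u P(a) u⁻¹` -/
theorem aeval_conj {K A : Type*} [Field K] [Ring A] [Algebra K A] (u : Aˣ) (a : A)
    (P : Polynomial K) :
    Polynomial.aeval ((u : A) * a * (↑u⁻¹ : A)) P = (u : A) * Polynomial.aeval a P * (↑u⁻¹ : A) := by
  induction P using Polynomial.induction_on' with
  | add p q hp hq => rw [map_add, map_add, hp, hq, mul_add, add_mul]
  | monomial n c =>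
    rw [Polynomial.aeval_monomial, Polynomial.aeval_monomial, Units.conj_pow, ← mul_assoc,
      ← mul_assoc, ← mul_assoc, Algebra.commutes c (u : A)]

/-- B8.3 -/
theorem stage_of_family {S0 : State} {f0 : NC S0.I S0.B} (x : Pt S0 f0)
    (τ : x.S.I → NC (Fin 2) x.S.K) (h0 : ∀ i, τ i [] = 0)
    (hind : x.S.Indep (fun i => τ i [0]) (fun i => τ i [1])) (hf : evalS τ x.f = NC.C x.a) :
    ∃ (S' : Stage) (m : Mor S0 S'.toState),
      Module.finrank S'.K S'.B = Module.finrank x.S.K x.S.B ∧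
      ∃ P : Polynomial S'.K, P ≠ 0 ∧ Polynomial.aeval (m.Ψ f0) P = 0 := by
  let hok : SubOK0 (RingHom.id x.S.B) (scal (B := x.S.B) τ) := scal_ok h0
  let Θ : NC x.S.I x.S.B →+* NC (Fin 2) x.S.B := subst0Hom (RingHom.id x.S.B) (scal τ) hok
  have hΘ0 : ∀ g, Θ g [] = g [] := fun g => subst0Hom_nil hok g
  have hΘ1 : ∀ g j, Θ g [j] = State.lin g (fun i => τ i [j]) := by
    intro g j
    have := subst0Hom_single hok g j
    rw [this, State.lin]
    refine Finset.sum_congr rfl fun i _ => ?_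
    rw [Algebra.smul_def]
    rfl
  let S1 : State :=
    { K := x.S.K
      B := x.S.B
      I := Fin 2
      roots := x.S.roots
      central := x.S.central
      X := Θ x.S.X
      Y := Θ x.S.Y
      gen := by rw [hΘ0, hΘ0]; exact x.S.gen }
  have hlin : ∀ (g : NC x.S.I x.S.B) (a b : x.S.K),
      State.lin (Θ g) (fun i : Fin 2 => a * (if i = 0 then 1 else 0) + b * (if i = 1 then 1 else 0)) =
        State.lin g (fun i => a * τ i [0] + b * τ i [1]) := by
    intro g a b
    have h1 : State.lin (Θ g)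
        (fun i : Fin 2 => a * (if i = 0 then 1 else 0) + b * (if i = 1 then 1 else 0)) =
        a • Θ g [0] + b • Θ g [1] := by
      rw [State.lin, Fin.sum_univ_two]
      simp
    have h2 : State.lin g (fun i => a * τ i [0] + b * τ i [1]) =
        a • State.lin g (fun i => τ i [0]) + b • State.lin g (fun i => τ i [1]) := by
      have : (fun i => a * τ i [0] + b * τ i [1]) = a • (fun i => τ i [0]) + b • (fun i => τ i [1]) := rfl
      rw [this, State.lin_add_dir, State.lin_smul_dir, State.lin_smul_dir]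
    rw [h1, h2, hΘ1, hΘ1]
  let S' : Stage :=
    { toState := S1
      e := Equiv.refl (Fin 2)
      ind := by
        intro a b hin
        apply hind a b
        obtain ⟨y, hy1, hy2⟩ := hin
        have hy1' : State.lin (Θ x.S.X)
            (fun i : Fin 2 => a * (if i = 0 then 1 else 0) + b * (if i = 1 then 1 else 0)) =
            y * Θ x.S.X [] - Θ x.S.X [] * y := hy1
        have hy2' : State.lin (Θ x.S.Y)
            (fun i : Fin 2 => a * (if i = 0 then 1 else 0) + b * (if i = 1 then 1 else 0)) =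
            y * Θ x.S.Y [] - Θ x.S.Y [] * y := hy2
        rw [hlin, hΘ0] at hy1' hy2'
        exact ⟨y, hy1', hy2'⟩ }
  let m1 : Mor x.S S1 :=
    { j := RingHom.id _
      Ψ := Θ
      hC := by
        intro k
        exact subst0Hom_C _ _ hok _
      hX := rfl
      hY := rfl
      grow := le_refl _ }
  refine ⟨S', m1.comp x.m, rfl, ?_⟩
  have halg : IsIntegral x.S.K x.a := IsIntegral.of_finite x.S.K x.a
  refine ⟨minpoly x.S.K x.a, minpoly.ne_zero halg, ?_⟩
  -- the image of `f0` is conjugate to the constant `a`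
  let u : (NC (Fin 2) x.S.B)ˣ := Units.map (Θ : NC x.S.I x.S.B →* NC (Fin 2) x.S.B) x.g
  have h1 : (NC.C x.a : NC (Fin 2) x.S.B) = (u : NC (Fin 2) x.S.B) * Θ (x.m.Ψ f0) *
      (↑u⁻¹ : NC (Fin 2) x.S.B) := by
    rw [← hf]
    show Θ x.f = _
    conv_lhs => rw [x.hf]
    rw [map_mul, map_mul]
    rfl
  have h2 : Θ (x.m.Ψ f0) = (↑u⁻¹ : NC (Fin 2) x.S.B) * NC.C x.a * (u : NC (Fin 2) x.S.B) := by
    rw [h1, mul_assoc, mul_assoc, mul_assoc, Units.inv_mul, mul_one, ← mul_assoc, Units.inv_mul,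
      one_mul]
  have h3 : Polynomial.aeval (NC.C x.a : NC (Fin 2) x.S.B) (minpoly x.S.K x.a) = 0 := by
    have h4 : Polynomial.aeval (NC.C x.a : NC (Fin 2) x.S.B) (minpoly x.S.K x.a) =
        NC.C (Polynomial.aeval x.a (minpoly x.S.K x.a)) := by
      rw [Polynomial.aeval_def, Polynomial.aeval_def, Polynomial.hom_eval₂]
      rfl
    rw [h4, minpoly.aeval, map_zero]
  show Polynomial.aeval (Θ (x.m.Ψ f0)) (minpoly x.S.K x.a) = 0
  rw [h2]
  have h5 := aeval_conj (K := x.S.K) u⁻¹ (NC.C x.a : NC (Fin 2) x.S.B) (minpoly x.S.K x.a)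
  rw [inv_inv] at h5
  rw [h5, h3, mul_zero, zero_mul]

/-! ### the base point -/

theorem nrm_nil (K : Type) {B I : Type} [Field K] [CharZero K] [DivisionRing B] [Algebra K B]
    [FiniteDimensional K B] (f : NC I B) : (nrm K f : NC I B) [] = 1 :=
  (Classical.choose_spec (exists_normal (K := K) f)).1

theorem nrm_conj_nil (K : Type) {B I : Type} [Field K] [CharZero K] [DivisionRing B] [Algebra K B]
    [FiniteDimensional K B] (f : NC I B) :
    ((nrm K f : NC I B) * f * (↑(nrm K f)⁻¹ : NC I B)) [] = f [] := by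
  have h : ((nrm K f : NC I B) * (↑(nrm K f)⁻¹ : NC I B)) [] = 1 := by
    rw [Units.mul_inv, NC.one_nil]
  rw [NC.mul_nil, nrm_nil, one_mul] at h
  rw [NC.mul_nil, NC.mul_nil, nrm_nil, one_mul, h, mul_one]

theorem nrm_norm (K : Type) {B I : Type} [Field K] [CharZero K] [DivisionRing B] [Algebra K B]
    [FiniteDimensional K B] (f : NC I B) (w : List I) :
    ((nrm K f : NC I B) * f * (↑(nrm K f)⁻¹ : NC I B)) w *
      ((nrm K f : NC I B) * f * (↑(nrm K f)⁻¹ : NC I B)) [] =
      ((nrm K f : NC I B) * f * (↑(nrm K f)⁻¹ : NC I B)) [] *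
      ((nrm K f : NC I B) * f * (↑(nrm K f)⁻¹ : NC I B)) w := by
  rw [nrm_conj_nil]
  exact (Classical.choose_spec (exists_normal (K := K) f)).2 w

/-- the base point -/
noncomputable def Pt.base (S0 : Stage) (f0 : NC S0.I S0.B) : Pt S0.toState f0 where
  S := S0.toState
  m := Mor.id S0.toState
  f := (nrm S0.K f0 : NC S0.I S0.B) * f0 * (↑(nrm S0.K f0)⁻¹ : NC S0.I S0.B)
  g := nrm S0.K f0
  hf := rfl
  norm := nrm_norm S0.K f0
  g3 := ⟨_, _, S0.ind⟩

/-- a normalised conjugate of a constant is constant -/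
theorem eq_C_of_conj (K : Type) {B I : Type} [Field K] [CharZero K] [DivisionRing B] [Algebra K B]
    [FiniteDimensional K B] (F : NC I B) (G : (NC I B)ˣ) (a : B) (hG : (G : NC I B) [] = 1)
    (hF : F = (G : NC I B) * NC.C a * (↑G⁻¹ : NC I B)) (norm : ∀ w, F w * F [] = F [] * F w) :
    F = NC.C a := by
  have h1 : F * (G : NC I B) = (G : NC I B) * NC.C a := by
    rw [hF, mul_assoc, Units.inv_mul, mul_one]
  have h0 : F [] = a := by
    have := congrArg (fun s : NC I B => s []) h1
    simp only [NC.mul_nil, hG, mul_one, one_mul, NC.C_nil] at this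
    exact this
  have key : ∀ n : ℕ, ∀ w : List I, w.length = n → w ≠ [] → F w = 0 := by
    intro n
    induction n using Nat.strong_induction_on with
    | _ n ih =>
      intro w hw hne
      cases w with
      | nil => exact absurd rfl hne
      | cons i w =>
        have h2 : (F * (G : NC I B) : NC I B) (i :: w) =
            ((G : NC I B) * NC.C a : NC I B) (i :: w) := by rw [h1]
        rw [NC.mul_C_apply, NC.mul_apply_cons, h0, hG, mul_one, Finset.sum_eq_zero, add_zero] at h2
        · have h3 : F (i :: w) = (G : NC I B) (i :: w) * a - a * (G : NC I B) (i :: w) := by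
            rw [← h2]
            abel
          have h4 := norm (i :: w)
          rw [h0, h3] at h4
          rw [h3]
          exact comm_eq_zero K a _ h4
        · intro k hk
          rw [Finset.mem_range] at hk
          rw [ih (k + 1) (by rw [← hw, List.length_cons]; omega) _
            (by rw [List.length_take, List.length_cons]; omega) (by simp), zero_mul]
  ext w
  by_cases hw : w = []
  · rw [hw, h0, NC.C_nil]
  · rw [key _ w rfl hw, NC.C_apply, if_neg hw]

/-- the move `y = z (P₁ u + P₂ v)` at a stage, `P₁, P₂` the two letters -/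
noncomputable def Stage.mv (S : Stage) {r : ℕ} (hr : 0 < r) (ζ : S.K) (hζ : IsPrimitiveRoot ζ r)
    (E : QExt S.K S.B r ζ) (V1 V2 : E.B1) (V1Q : ∀ b, E.jB b * V1 = V1 * E.jB b)
    (V2Q : ∀ b, E.jB b * V2 = V2 * E.jB b)
    (gen : E.u ∈ Algebra.adjoin E.K1 {V1, V2} ∧ E.v ∈ Algebra.adjoin E.K1 {V1, V2}) :
    MoveData S.toState where
  r := r
  hr := hr
  ζ := ζ
  hζ := hζ
  E := E
  y := fun i => PowerSeries.monomial 1
    (E.jK (if S.e i = 0 then 1 else 0) • V1 + E.jK (if S.e i = 1 then 1 else 0) • V2)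
  yQ := by
    intro i n b
    rw [PowerSeries.coeff_monomial]
    by_cases hn : n = 1
    · rw [if_pos hn, mul_add, add_mul, mul_smul_comm, smul_mul_assoc, mul_smul_comm,
        smul_mul_assoc, V1Q, V2Q]
    · rw [if_neg hn, mul_zero, zero_mul]
  κ := 1
  hκ := one_pos
  P1 := fun i => if S.e i = 0 then 1 else 0
  P2 := fun i => if S.e i = 1 then 1 else 0
  indep := S.ind
  V1 := V1
  V2 := V2
  V1Q := V1Q
  V2Q := V2Q
  gen := gen
  low := by
    intro i n hn
    rw [PowerSeries.coeff_monomial, if_neg (by omega)]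
  lead := by
    intro i
    rw [PowerSeries.coeff_monomial, if_pos rfl]

/-- B3.0 : the case where the normalised base series is constant -/
theorem keyLemma_const (S : Stage) (f : NC S.I S.B) (_hf : f ∈ Algebra.adjoin S.K {S.X, S.Y})
    (h : ∀ w, w ≠ [] → (Pt.base S f).f w = 0) :
    ∃ (S' : Stage) (m : Mor S.toState S'.toState),
      Module.finrank S.K S.B < Module.finrank S'.K S'.B ∧
      ∃ P : Polynomial S'.K, P ≠ 0 ∧ Polynomial.aeval (m.Ψ f) P = 0 := by
  obtain ⟨ζ, hζ⟩ := S.roots 2 two_pos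
  obtain ⟨E⟩ := exists_QExt S.K S.B S.central 2 two_pos ζ hζ
  let x := Pt.base S f
  let D : MoveData x.S := S.mv two_pos ζ hζ E E.u E.v E.hu E.hv
    ⟨Algebra.subset_adjoin (Or.inl rfl), Algebra.subset_adjoin (Or.inr rfl)⟩
  have hx : x.f = NC.C x.a := by
    ext w
    by_cases hw : w = []
    · rw [hw, NC.C_nil]; rfl
    · rw [NC.C_apply, if_neg hw]
      exact h w hw
  have hF : (x.move D).f = NC.C (HahnSeries.C (D.E.jB x.a)) := by
    refine eq_C_of_conj D.E.K1⟦ℤ⟧ _ (x.G D) _ (x.G_nil D) ?_ (x.move_norm D)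
    show x.F D = _
    rw [Pt.F, hx, D.sh_C]
  let τ : (x.move D).S.I → NC (Fin 2) (x.move D).S.K := fun i => NC.mk fun w =>
    if w = [0] then (if (i.2.1 : ℕ) = 0 ∧ (i.2.2 : ℕ) = 0 then
      HahnSeries.C (D.E.jK (D.P1 i.1)) else 0)
    else if w = [1] then (if (i.2.1 : ℕ) = 0 ∧ (i.2.2 : ℕ) = 0 then
      HahnSeries.C (D.E.jK (D.P2 i.1)) else 0) else 0
  have h0 : ∀ i, τ i [] = 0 := fun i => by simp [τ]
  obtain ⟨S', m, hdim, P, hP, hP0⟩ := stage_of_family (x.move D) τ h0 (by
    have := D.indep'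
    have e1 : (fun i => τ i [0]) = (fun i : D.I' => if (i.2.1 : ℕ) = 0 ∧ (i.2.2 : ℕ) = 0 then
        HahnSeries.C (D.E.jK (D.P1 i.1)) else 0) := by
      funext i
      simp [τ]
    have e2 : (fun i => τ i [1]) = (fun i : D.I' => if (i.2.1 : ℕ) = 0 ∧ (i.2.2 : ℕ) = 0 then
        HahnSeries.C (D.E.jK (D.P2 i.1)) else 0) := by
      funext i
      simp [τ]
    rw [e1, e2]
    exact this) (by
    have h1 : (x.move D).a = HahnSeries.C (D.E.jB x.a) := by
      show (x.move D).f [] = _
      rw [hF, NC.C_nil]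
    rw [h1, hF]
    exact subst0Hom_C _ _ (scal_ok h0) _)
  refine ⟨S', m, ?_, P, hP, hP0⟩
  rw [hdim]
  have h2 := D.finrank_state
  have h3 : Module.finrank (x.move D).S.K (x.move D).S.B = 2 * 2 * Module.finrank S.K S.B := h2
  rw [h3]
  have h4 : 0 < Module.finrank S.K S.B := Module.finrank_pos
  omega

end Vale.P199
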