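import Vale.Agent.P199.Defs

/-!
P199, part (A), A4: direct limits of sequences of rings.
`tr g h : R n →+* R m` for `h : n ≤ m`, `Lim g` the direct limit, `ι g n : R n →+* Lim g`.
-/

namespace Vale.P199.Chain

variable {R : ℕ → Type} [∀ n, Ring (R n)] (g : ∀ n, R n →+* R (n + 1))

/-- the transition map of the sequence -/
def tr {n m : ℕ} (h : n ≤ m) : R n →+* R m :=
  Nat.leRecOn (C := fun k => R n →+* R k) h (fun {k} φ => (g k).comp φ) (RingHom.id _)

@[simp] theorem tr_self (n : ℕ) (x : R n) : tr g (le_refl n) x = x := by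
  unfold tr
  rw [Nat.leRecOn_self]
  rfl

theorem tr_succ {n m : ℕ} (h : n ≤ m) (h' : n ≤ m + 1) (x : R n) :
    tr g h' x = g m (tr g h x) := by
  unfold tr
  rw [Nat.leRecOn_succ h]
  rfl

theorem tr_one (n : ℕ) (x : R n) : tr g (Nat.le_succ n) x = g n x := by
  rw [tr_succ g (le_refl n), tr_self]

theorem tr_trans {n m l : ℕ} (h : n ≤ m) (h' : m ≤ l) (x : R n) :
    tr g h' (tr g h x) = tr g (h.trans h') x := by
  induction l, h' using Nat.le_induction with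
  | base => rw [tr_self]
  | succ l hl ih => rw [tr_succ g hl, ih, tr_succ g (h.trans hl)]

instance directed : DirectedSystem R (fun _ _ h => tr g h) where
  map_self _ x := tr_self g _ x
  map_map _ _ _ hij hjk x := tr_trans g hij hjk x

/-- the direct limit -/
def Lim : Type := DirectLimit R (fun _ _ h => tr g h)

noncomputable instance : Ring (Lim g) := inferInstanceAs (Ring (DirectLimit R (fun _ _ h => tr g h)))

/-- the map from a stage to the limit -/
noncomputable def ι (n : ℕ) : R n →+* Lim g := DirectLimit.Ring.of R (fun _ _ h => tr g h) n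

theorem ι_tr {n m : ℕ} (h : n ≤ m) (x : R n) : ι g m (tr g h x) = ι g n x :=
  DirectLimit.Ring.of_f h x

theorem ι_succ (n : ℕ) (x : R n) : ι g (n + 1) (g n x) = ι g n x := by
  rw [← tr_one g n x, ι_tr]

theorem exists_ι (r : Lim g) : ∃ n, ∃ x : R n, ι g n x = r := by
  obtain ⟨n, x, hx⟩ := DirectLimit.exists_eq_mk _ r
  exact ⟨n, x, hx.symm⟩

theorem exists_ι_ge (r : Lim g) (N : ℕ) : ∃ n, N ≤ n ∧ ∃ x : R n, ι g n x = r := by
  obtain ⟨n, x, hx⟩ := exists_ι g r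
  exact ⟨max N n, le_max_left _ _, tr g (le_max_right _ _) x, by rw [ι_tr, hx]⟩

theorem exists_ι₂ (r s : Lim g) : ∃ n, ∃ x y : R n, ι g n x = r ∧ ι g n y = s := by
  obtain ⟨n, x, hx⟩ := exists_ι g r
  obtain ⟨m, hm, y, hy⟩ := exists_ι_ge g s n
  exact ⟨m, tr g hm x, y, by rw [ι_tr, hx], hy⟩

theorem ι_eq_iff {n m : ℕ} (x : R n) (y : R m) :
    ι g n x = ι g m y ↔ ∃ k, ∃ (hn : n ≤ k) (hm : m ≤ k), tr g hn x = tr g hm y := by
  constructor
  · intro h
    have h' : (⟦⟨n, x⟩⟧ : DirectLimit R (fun _ _ h => tr g h)) = ⟦⟨m, y⟩⟧ := h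
    obtain ⟨k, h1, h2, h3⟩ := Quotient.exact h'
    exact ⟨k, h1, h2, h3⟩
  · rintro ⟨k, h1, h2, h3⟩
    rw [← ι_tr g h1, h3, ι_tr]

theorem ι_eq_zero {n : ℕ} (x : R n) : ι g n x = 0 ↔ ∃ k, ∃ hn : n ≤ k, tr g hn x = 0 := by
  have h0 : (0 : Lim g) = ι g n 0 := (map_zero _).symm
  rw [h0, ι_eq_iff]
  constructor
  · rintro ⟨k, h1, h2, h3⟩
    exact ⟨k, h1, by rw [h3, map_zero]⟩
  · rintro ⟨k, h1, h2⟩
    exact ⟨k, h1, h1, by rw [h2, map_zero]⟩

instance [∀ n, Nontrivial (R n)] : Nontrivial (Lim g) := by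
  refine ⟨⟨0, 1, fun h => ?_⟩⟩
  have h1 : ι g 0 (1 : R 0) = 0 := by rw [map_one]; exact h.symm
  obtain ⟨k, hk, h2⟩ := (ι_eq_zero g _).1 h1
  rw [map_one] at h2
  exact one_ne_zero h2

instance [∀ n, NoZeroDivisors (R n)] : NoZeroDivisors (Lim g) where
  eq_zero_or_eq_zero_of_mul_eq_zero := by
    intro a b hab
    obtain ⟨n, x, y, rfl, rfl⟩ := exists_ι₂ g a b
    rw [← map_mul] at hab
    obtain ⟨k, hk, h2⟩ := (ι_eq_zero g _).1 hab
    rw [map_mul] at h2
    rcases mul_eq_zero.1 h2 with h | h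
    · exact Or.inl ((ι_eq_zero g _).2 ⟨k, hk, h⟩)
    · exact Or.inr ((ι_eq_zero g _).2 ⟨k, hk, h⟩)

/-- lift of a compatible family -/
noncomputable def lift {A : Type} [Ring A] (φ : ∀ n, R n →+* A)
    (hφ : ∀ n x, φ (n + 1) (g n x) = φ n x) : Lim g →+* A :=
  DirectLimit.Ring.lift R (fun _ _ h => tr g h) A φ (by
    intro i j hij x
    induction j, hij using Nat.le_induction with
    | base => rw [tr_self]
    | succ l hl ih => rw [tr_succ g hl, hφ, ih])

theorem lift_ι {A : Type} [Ring A] (φ : ∀ n, R n →+* A)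
    (hφ : ∀ n x, φ (n + 1) (g n x) = φ n x) (n : ℕ) (x : R n) :
    lift g φ hφ (ι g n x) = φ n x :=
  DirectLimit.Ring.lift_of _ _ _ _ _

end Vale.P199.Chain
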