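import Mathlib

/-!
# P199, T2: derivations of a finite-dimensional central division algebra are inner (char 0)
-/

namespace Vale.P199

namespace DerAux

variable {K B : Type*} [Field K] [DivisionRing B] [Algebra K B]

/-- trace of left multiplication -/
noncomputable def τ (K B : Type*) [Field K] [DivisionRing B] [Algebra K B] : B →ₗ[K] K :=
  (LinearMap.trace K B) ∘ₗ (LinearMap.mul K B)

theorem τ_comm (x y : B) : τ K B (x * y) = τ K B (y * x) := by
  have h : ∀ a b : B, (LinearMap.mul K B) (a * b) = (LinearMap.mul K B a) * (LinearMap.mul K B b) := by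
    intro a b
    ext z
    simp [mul_assoc]
  simp only [τ, LinearMap.comp_apply, h]
  exact LinearMap.trace_mul_comm K _ _

theorem τ_one [FiniteDimensional K B] : τ K B 1 = Module.finrank K B := by
  have h : (LinearMap.mul K B) (1 : B) = LinearMap.id := by
    ext z; simp
  simp only [τ, LinearMap.comp_apply, h]
  rw [LinearMap.trace_id]

/-- the trace form -/
noncomputable def form (K B : Type*) [Field K] [DivisionRing B] [Algebra K B] :
    LinearMap.BilinForm K B :=
  (LinearMap.mul K B).compr₂ (τ K B)

theorem form_apply (x y : B) : form K B x y = τ K B (x * y) := rfl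

theorem form_symm : (form K B).IsSymm := by
  constructor
  intro x y
  simp [form_apply, τ_comm x y]

theorem form_nondeg [CharZero K] [FiniteDimensional K B] : (form K B).Nondegenerate := by
  have hn : (Module.finrank K B : K) ≠ 0 := by
    have : 0 < Module.finrank K B := Module.finrank_pos
    exact_mod_cast this.ne'
  have h1 : ∀ x : B, (∀ y, form K B x y = 0) → x = 0 := by
    intro x hx
    by_contra hne
    have := hx x⁻¹
    rw [form_apply, mul_inv_cancel₀ hne, τ_one] at this
    exact hn this
  refine ⟨fun x hx => h1 x hx, fun y hy => h1 y fun x => ?_⟩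
  rw [form_apply, τ_comm, ← form_apply]
  exact hy x

/-- the Casimir identity -/
theorem casimir [CharZero K] [FiniteDimensional K B] {ι : Type*} [Fintype ι] [DecidableEq ι]
    (b : Module.Basis ι K B) (f : B →ₗ[K] B) (c : B) :
    ∑ i, f (c * b i) * ((form K B).dualBasis form_nondeg b i) =
      (∑ i, f (b i) * ((form K B).dualBasis form_nondeg b i)) * c := by
  set d := (form K B).dualBasis form_nondeg b with hd
  -- expansion in the basis b
  have hb : ∀ x : B, x = ∑ j, τ K B (x * d j) • b j := by
    intro x
    conv_lhs => rw [← b.sum_repr x]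
    refine Finset.sum_congr rfl fun j _ => ?_
    congr 1
    have : x * d j = ∑ i, b.repr x i • (b i * d j) := by
      conv_lhs => rw [← b.sum_repr x, Finset.sum_mul]
      simp
    rw [this, map_sum]
    have h2 : ∀ i, τ K B (b i * d j) = if i = j then 1 else 0 := by
      intro i
      rw [← form_apply, hd]
      exact LinearMap.BilinForm.apply_dualBasis_right form_nondeg form_symm b i j
    simp [map_smul, h2]
  have hd' : ∀ x : B, x = ∑ i, τ K B (x * b i) • d i := by
    intro x
    conv_lhs => rw [← d.sum_repr x]
    refine Finset.sum_congr rfl fun j _ => ?_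
    congr 1
    rw [hd, LinearMap.BilinForm.dualBasis_repr_apply, form_apply]
  have e1 : ∀ i, f (c * b i) * d i = ∑ j, f (b j) * (τ K B (d j * c * b i) • d i) := by
    intro i
    conv_lhs => rw [hb (c * b i), map_sum, Finset.sum_mul]
    refine Finset.sum_congr rfl fun j _ => ?_
    rw [map_smul, smul_mul_assoc, mul_smul_comm]
    congr 1
    rw [τ_comm, mul_assoc]
  rw [Finset.sum_congr rfl fun i _ => e1 i, Finset.sum_comm, Finset.sum_mul]
  refine Finset.sum_congr rfl fun j _ => ?_
  rw [← Finset.mul_sum, mul_assoc, ← hd']

end DerAux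

open DerAux in
/-- T2: a `K`-linear derivation of a finite-dimensional division algebra over the
field `K` of characteristic zero is inner (centrality of `B` over `K` is not needed). -/
theorem der_inner {K B : Type*} [Field K] [CharZero K] [DivisionRing B] [Algebra K B]
    [FiniteDimensional K B]
    (D : B →ₗ[K] B) (hD : ∀ x y, D (x * y) = D x * y + x * D y) :
    ∃ y, ∀ b, D b = y * b - b * y := by
  classical
  let bs := Module.finBasis K B
  set d := (form K B).dualBasis form_nondeg bs with hd
  set κ : B := ∑ i, bs i * d i with hκ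
  set y0 : B := ∑ i, D (bs i) * d i with hy0
  have hκc : ∀ b : B, κ * b = b * κ := by
    intro c
    have := casimir bs LinearMap.id c
    simp only [LinearMap.id_apply] at this
    rw [hκ, ← this, Finset.mul_sum]
    exact Finset.sum_congr rfl fun i _ => by rw [mul_assoc]
  have hκ0 : κ ≠ 0 := by
    intro h0
    have h1 : τ K B κ = Module.finrank K B := by
      rw [hκ, map_sum]
      have h2 : ∀ i, τ K B (bs i * d i) = 1 := by
        intro i
        rw [← form_apply, hd, LinearMap.BilinForm.apply_dualBasis_right form_nondeg form_symm]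
        simp
      simp [h2]
    rw [h0, map_zero] at h1
    have : 0 < Module.finrank K B := Module.finrank_pos
    have h3 : (Module.finrank K B : K) ≠ 0 := by exact_mod_cast this.ne'
    exact h3 h1.symm
  have key : ∀ b, D b * κ = y0 * b - b * y0 := by
    intro c
    have := casimir bs D c
    rw [← hd, ← hy0] at this
    have h2 : ∑ i, D (c * bs i) * d i = D c * κ + c * y0 := by
      rw [hκ, hy0, Finset.mul_sum, Finset.mul_sum, ← Finset.sum_add_distrib]
      refine Finset.sum_congr rfl fun i _ => ?_
      rw [hD, add_mul, mul_assoc, mul_assoc]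
    rw [h2] at this
    rw [← this]; abel
  have hκi : ∀ b : B, κ⁻¹ * b = b * κ⁻¹ := by
    intro b
    have := hκc b
    have h3 : κ⁻¹ * (κ * b) * κ⁻¹ = κ⁻¹ * (b * κ) * κ⁻¹ := by rw [this]
    rw [← mul_assoc, inv_mul_cancel₀ hκ0, one_mul, mul_assoc, mul_assoc, mul_inv_cancel₀ hκ0,
      mul_one] at h3
    exact h3.symm
  refine ⟨y0 * κ⁻¹, fun b => ?_⟩
  have h4 : D b = (D b * κ) * κ⁻¹ := by rw [mul_assoc, mul_inv_cancel₀ hκ0, mul_one]
  rw [h4, key, sub_mul]
  congr 1
  · rw [mul_assoc, ← hκi, mul_assoc]
  · rw [mul_assoc]

end Vale.P199
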