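import Vale.Agent.P199.BL1a

/-!
# P199, B7 [7.6] : linear and quadratic part of the normalised conjugate
-/

open HahnSeries

namespace Vale.P199

theorem NC.mul_pair {I B : Type} [Ring B] (f g : NC I B) (i j : I) :
    (f * g) [i, j] = f [] * g [i, j] + f [i] * g [j] + f [i, j] * g [] := by
  rw [NC.mul_apply]
  simp [Finset.sum_range_succ]

section

variable {K B I : Type} [Field K] [Ring B] [Algebra K B] [Fintype I]

theorem quad_mul (f g : NC I B) (p q : I → K) :
    quad (f * g) p q = f [] * quad g p q + State.lin f p * State.lin g q + quad f p q * g [] := by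
  simp only [quad, State.lin, NC.mul_pair, smul_add, Finset.sum_add_distrib, Finset.mul_sum,
    Finset.sum_mul, mul_smul_comm, smul_mul_assoc]
  congr 2
  rw [Finset.sum_comm]
  refine Finset.sum_congr rfl fun i _ => ?_
  rw [Finset.smul_sum]
  refine Finset.sum_congr rfl fun j _ => ?_
  rw [smul_smul, mul_comm]

theorem quad_add (f g : NC I B) (p q : I → K) : quad (f + g) p q = quad f p q + quad g p q := by
  simp only [quad, NC.add_apply, smul_add, Finset.sum_add_distrib]

theorem quad_add_left (f : NC I B) (p p' q : I → K) :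
    quad f (p + p') q = quad f p q + quad f p' q := by
  simp only [quad, Pi.add_apply, add_mul, add_smul, Finset.sum_add_distrib]

theorem quad_add_right (f : NC I B) (p q q' : I → K) :
    quad f p (q + q') = quad f p q + quad f p q' := by
  simp only [quad, Pi.add_apply, mul_add, add_smul, Finset.sum_add_distrib]

theorem quad_smul_left (f : NC I B) (c : K) (p q : I → K) :
    quad f (c • p) q = c • quad f p q := by
  simp only [quad, Pi.smul_apply, smul_eq_mul, Finset.smul_sum, smul_smul, mul_assoc]

theorem quad_smul_right (f : NC I B) (c : K) (p q : I → K) :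
    quad f p (c • q) = c • quad f p q := by
  simp only [quad, Pi.smul_apply, smul_eq_mul, Finset.smul_sum, smul_smul]
  exact Finset.sum_congr rfl fun i _ => Finset.sum_congr rfl fun j _ => by
    rw [← mul_assoc, mul_comm (p i) c, mul_assoc]

end

section Abs

variable {K B I : Type} [Field K] [CharZero K] [DivisionRing B] [Algebra K B]
  [FiniteDimensional K B] [Fintype I]

omit [CharZero K] [FiniteDimensional K B] in
/-- the linear part of a conjugate -/
theorem lin_conj (h G F : NC I B) (hG : G [] = 1) (hFG : F * G = G * h) (h0 : F [] = h [])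
    (p : I → K) :
    State.lin F p = State.lin h p - (h [] * State.lin G p - State.lin G p * h []) := by
  have h1 : State.lin (F * G) p = State.lin (G * h) p := by rw [hFG]
  rw [State.lin_mul, State.lin_mul, hG, mul_one, one_mul, h0] at h1
  rw [← add_sub_cancel_right (State.lin F p) (h [] * State.lin G p), h1]
  abel

omit [CharZero K] [FiniteDimensional K B] in
/-- the quadratic part of a conjugate -/
theorem quad_conj (h G F : NC I B) (hG : G [] = 1) (hFG : F * G = G * h) (h0 : F [] = h [])
    (p q : I → K) :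
    quad F p q = quad h p q + State.lin G p * State.lin h q -
      (h [] * quad G p q - quad G p q * h []) - State.lin F p * State.lin G q := by
  have h1 : quad (F * G) p q = quad (G * h) p q := by rw [hFG]
  rw [quad_mul, quad_mul, hG, mul_one, one_mul, h0] at h1
  have h2 : quad F p q = quad h p q + State.lin G p * State.lin h q + quad G p q * h [] -
      (h [] * quad G p q + State.lin F p * State.lin G q) := by
    rw [← h1]; abel
  rw [h2]; abel

/-- vanishing of the linear part of the normalised conjugate -/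
theorem lin_conj_eq_zero_iff (h G F : NC I B) (hG : G [] = 1) (hFG : F * G = G * h)
    (h0 : F [] = h []) (hn : ∀ w, F w * F [] = F [] * F w) (p : I → K) :
    State.lin F p = 0 ↔ ∃ y, State.lin h p = h [] * y - y * h [] := by
  have h1 := lin_conj h G F hG hFG h0 p
  constructor
  · intro hF
    rw [hF] at h1
    exact ⟨State.lin G p, (sub_eq_zero.mp h1.symm)⟩
  · rintro ⟨y, hy⟩
    have e : State.lin F p = (State.lin G p - y) * h [] - h [] * (State.lin G p - y) := by
      rw [h1, hy, sub_mul, mul_sub]; abel
    have hc : State.lin F p * h [] = h [] * State.lin F p := by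
      rw [← h0]
      simp only [State.lin, Finset.sum_mul, Finset.mul_sum]
      exact Finset.sum_congr rfl fun i _ => by rw [smul_mul_assoc, mul_smul_comm, hn]
    rw [e] at hc ⊢
    exact comm_eq_zero K (h []) _ hc

omit [CharZero K] [FiniteDimensional K B] in
/-- `tr (z [a, x]) = 0` for `z` commuting with `a` -/
theorem tr_comm_zero {a z : B} (hz : a * z = z * a) (x : B) :
    tr K B (z * (a * x - x * a)) = 0 := by
  rw [Tr.tr_mul_ad, hz, sub_self, zero_mul, map_zero, neg_zero]

omit [CharZero K] [FiniteDimensional K B] in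
/-- the pairing of the quadratic part of the normalised conjugate with the centralizer -/
theorem kks_conj (h G F : NC I B) (hG : G [] = 1) (hFG : F * G = G * h)
    (h0 : F [] = h []) (p q : I → K)
    (hp : State.lin F p = 0) (hq : State.lin F q = 0) (c : B) (hc : h [] * c = c * h []) (y : B)
    (hy : State.lin h p = h [] * y - y * h []) :
    tr K B (c * quad F p q) = tr K B (c * quad h p q) + tr K B (c * (y * State.lin h q)) := by
  have hlp := lin_conj h G F hG hFG h0 p
  have hlq := lin_conj h G F hG hFG h0 q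
  rw [hp] at hlp
  rw [hq] at hlq
  have hlp' : State.lin h p = h [] * State.lin G p - State.lin G p * h [] :=
    sub_eq_zero.mp hlp.symm
  have hlq' : State.lin h q = h [] * State.lin G q - State.lin G q * h [] :=
    sub_eq_zero.mp hlq.symm
  rw [quad_conj h G F hG hFG h0 p q, hp, zero_mul, sub_zero, mul_sub, mul_add, map_sub, map_add,
    tr_comm_zero hc, sub_zero]
  congr 1
  -- difference of the two choices of `y`
  have he : h [] * (State.lin G p - y) = (State.lin G p - y) * h [] := by
    rw [mul_sub, sub_mul]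
    rw [hy] at hlp'
    have : h [] * State.lin G p - State.lin G p * h [] - (h [] * y - y * h []) = 0 := by
      rw [← hlp', sub_self]
    have h5 : h [] * State.lin G p - h [] * y - (State.lin G p * h [] - y * h []) = 0 := by
      rw [← this]; abel
    exact sub_eq_zero.mp h5
  have hce : h [] * (c * (State.lin G p - y)) = c * (State.lin G p - y) * h [] := by
    rw [← mul_assoc, hc, mul_assoc, he, mul_assoc]
  have h6 := tr_comm_zero (K := K) hce (State.lin G q)
  rw [← hlq'] at h6
  have h7 : c * (State.lin G p * State.lin h q) - c * (y * State.lin h q) =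
      c * (State.lin G p - y) * State.lin h q := by
    noncomm_ring
  rw [← h7, map_sub] at h6
  exact sub_eq_zero.mp h6

end Abs

namespace Pt

variable {S0 : State} {f0 : NC S0.I S0.B}

theorem F_mul_G (x : Pt S0 f0) (D : MoveData x.S) :
    x.F D * (x.G D : NC D.I' (D.E.B1⟦ℤ⟧)) = (x.G D : NC D.I' (D.E.B1⟦ℤ⟧)) * D.sh x.f := by
  rw [F, mul_assoc ((x.G D : NC D.I' (D.E.B1⟦ℤ⟧)) * D.sh x.f), Units.inv_mul, mul_one]

/-- [7.6], linear part -/
theorem lin_move_eq_zero_iff (x : Pt S0 f0) (D : MoveData x.S) (p : D.I' → D.E.K1⟦ℤ⟧) :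
    State.lin (x.move D).f p = 0 ↔
      ∃ y, State.lin (D.sh x.f) p = D.sh x.f [] * y - y * D.sh x.f [] :=
  lin_conj_eq_zero_iff (K := D.E.K1⟦ℤ⟧) (D.sh x.f) (x.G D) (x.F D) (x.G_nil D) (x.F_mul_G D)
    (x.F_nil D) (x.move_norm D) p

/-- [7.6], quadratic part -/
theorem kks (x : Pt S0 f0) (D : MoveData x.S) (p q : D.I' → D.E.K1⟦ℤ⟧)
    (hp : State.lin (x.move D).f p = 0) (hq : State.lin (x.move D).f q = 0)
    (c : D.E.B1⟦ℤ⟧) (hc : c ∈ (x.move D).Z) (y : D.E.B1⟦ℤ⟧)
    (hy : State.lin (D.sh x.f) p = D.sh x.f [] * y - y * D.sh x.f []) :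
    tr (D.E.K1⟦ℤ⟧) (D.E.B1⟦ℤ⟧) (c * quad (x.move D).f p q) =
      tr (D.E.K1⟦ℤ⟧) (D.E.B1⟦ℤ⟧) (c * quad (D.sh x.f) p q) +
      tr (D.E.K1⟦ℤ⟧) (D.E.B1⟦ℤ⟧) (c * (y * State.lin (D.sh x.f) q)) :=
  kks_conj (K := D.E.K1⟦ℤ⟧) (D.sh x.f) (x.G D) (x.F D) (x.G_nil D) (x.F_mul_G D)
    (x.F_nil D) p q hp hq c ((x.mem_Z_move D c).mp hc) y hy

end Pt

end Vale.P199
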