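import Mathlib

/-!
# P199 : `V((z))` as a vector space over `K((z))`

`K⟦ℤ⟧ = HahnSeries ℤ K`, `V⟦ℤ⟧ = HahnSeries ℤ V`.  The action is the Cauchy product.
-/

open HahnSeries

namespace Vale.P199

section LMod

variable {K : Type*} [Field K] {V : Type*} [AddCommGroup V] [Module K V]
variable {W : Type*} [AddCommGroup W] [Module K W]

/-- `K((z))` acts on `V((z))`. -/
noncomputable instance (priority := 100) lmodModule : Module K⟦ℤ⟧ V⟦ℤ⟧ :=
  inferInstanceAs (Module K⟦ℤ⟧ (HahnModule ℤ K V))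

theorem smul_coeff' (x : K⟦ℤ⟧) (y : V⟦ℤ⟧) (n : ℤ) :
    (x • y).coeff n = ∑ ij ∈ Finset.VAddAntidiagonal n
        (Set.VAddAntidiagonal.finite_of_isPWO x.isPWO_support y.isPWO_support n),
        x.coeff ij.fst • y.coeff ij.snd := rfl

/-- the coefficients of a product `x • y`, as a finite sum over all integers -/
theorem smul_coeff (x : K⟦ℤ⟧) (y : V⟦ℤ⟧) (n : ℤ) :
    (x • y).coeff n = ∑ᶠ i : ℤ, x.coeff i • y.coeff (n - i) := by
  classical
  rw [smul_coeff']
  have hinj : Set.InjOn (fun ij : ℤ × ℤ => ij.1) (Finset.VAddAntidiagonal n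
        (Set.VAddAntidiagonal.finite_of_isPWO x.isPWO_support y.isPWO_support n)) := by
    intro a ha b hb hab
    simp only [Finset.mem_coe, Finset.mem_vaddAntidiagonal] at ha hb
    have h1 := ha.2.2
    have h2 := hb.2.2
    simp only [vadd_eq_add] at h1 h2
    have hab' : a.1 = b.1 := hab
    ext
    · exact hab'
    · omega
  rw [finsum_eq_sum_of_support_subset (s := (Finset.VAddAntidiagonal n
        (Set.VAddAntidiagonal.finite_of_isPWO x.isPWO_support y.isPWO_support n)).image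
          (fun ij : ℤ × ℤ => ij.1)), Finset.sum_image hinj]
  · refine Finset.sum_congr rfl fun ij hij => ?_
    rw [Finset.mem_vaddAntidiagonal] at hij
    have h1 := hij.2.2
    simp only [vadd_eq_add] at h1
    have : n - ij.1 = ij.2 := by omega
    rw [this]
  · intro i hi
    rw [Function.mem_support] at hi
    simp only [Finset.coe_image, Set.mem_image, Finset.mem_coe, Finset.mem_vaddAntidiagonal]
    refine ⟨(i, n - i), ⟨?_, ?_, ?_⟩, rfl⟩
    · exact fun h => hi (by rw [h, zero_smul])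
    · exact fun h => hi (by rw [h, smul_zero])
    · simp

theorem smul_support_finite (x : K⟦ℤ⟧) (y : V⟦ℤ⟧) (n : ℤ) :
    (Function.support fun i : ℤ => x.coeff i • y.coeff (n - i)).Finite := by
  classical
  have := Set.VAddAntidiagonal.finite_of_isPWO x.isPWO_support y.isPWO_support n
  refine (this.image (fun ij : ℤ × ℤ => ij.1)).subset ?_
  intro i hi
  rw [Function.mem_support] at hi
  refine ⟨(i, n - i), ⟨?_, ?_, ?_⟩, rfl⟩
  · exact fun h => hi (by rw [h, zero_smul])
  · exact fun h => hi (by rw [h, smul_zero])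
  · simp

/-- the module structure on `K((z))` itself is the usual one -/
theorem smul_eq_mul' (x y : K⟦ℤ⟧) : (lmodModule (K := K) (V := K)).smul x y = x * y := rfl

@[simp] theorem single_smul_coeff (m : ℤ) (c : K) (y : V⟦ℤ⟧) (n : ℤ) :
    ((single m c : K⟦ℤ⟧) • y).coeff n = c • y.coeff (n - m) := by
  classical
  rw [smul_coeff, finsum_eq_single _ m]
  · simp
  · intro i hi
    rw [coeff_single_of_ne hi, zero_smul]

@[simp] theorem smul_single_coeff (x : K⟦ℤ⟧) (m : ℤ) (v : V) (n : ℤ) :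
    (x • (single m v : V⟦ℤ⟧)).coeff n = x.coeff (n - m) • v := by
  classical
  rw [smul_coeff, finsum_eq_single _ (n - m)]
  · simp
  · intro i hi
    rw [coeff_single_of_ne (by omega), smul_zero]

theorem C_smul_eq (c : K) (y : V⟦ℤ⟧) : (C c : K⟦ℤ⟧) • y = c • y := by
  ext n
  rw [C_apply, single_smul_coeff, sub_zero, coeff_smul]

instance lmodTower : IsScalarTower K K⟦ℤ⟧ V⟦ℤ⟧ where
  smul_assoc c x y := by
    have : c • x = (C c : K⟦ℤ⟧) * x := by rw [C_mul_eq_smul]
    rw [this, mul_smul, C_smul_eq]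

/-- coefficientwise map, as a `K((z))`-linear map -/
noncomputable def mapL (φ : V →ₗ[K] W) : V⟦ℤ⟧ →ₗ[K⟦ℤ⟧] W⟦ℤ⟧ where
  toFun y := y.map φ
  map_add' x y := by ext n; simp
  map_smul' x y := by
    ext n
    rw [map_coeff, smul_coeff, RingHom.id_apply, smul_coeff]
    have := AddMonoidHom.map_finsum (φ : V →+ W) (smul_support_finite x y n)
    simp only [AddMonoidHom.coe_coe] at this
    refine Eq.trans ?_ (Eq.trans this ?_)
    · rfl
    · refine finsum_congr fun i => ?_
      simp

@[simp] theorem mapL_coeff (φ : V →ₗ[K] W) (y : V⟦ℤ⟧) (n : ℤ) :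
    (mapL φ y).coeff n = φ (y.coeff n) := rfl

/-- coefficientwise linear form -/
noncomputable def mapForm (φ : V →ₗ[K] K) : V⟦ℤ⟧ →ₗ[K⟦ℤ⟧] K⟦ℤ⟧ where
  toFun y := y.map φ
  map_add' x y := by ext n; simp
  map_smul' x y := (mapL φ).map_smul x y

@[simp] theorem mapForm_coeff (φ : V →ₗ[K] K) (y : V⟦ℤ⟧) (n : ℤ) :
    (mapForm φ y).coeff n = φ (y.coeff n) := rfl

theorem mapL_comp {U : Type*} [AddCommGroup U] [Module K U] (ψ : W →ₗ[K] U) (φ : V →ₗ[K] W) :
    mapL (ψ ∘ₗ φ) = mapL ψ ∘ₗ mapL φ := by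
  ext y n; rfl

@[simp] theorem mapL_single (φ : V →ₗ[K] W) (m : ℤ) (v : V) :
    mapL φ (single m v) = single m (φ v) := by
  ext n
  rw [mapL_coeff]
  by_cases h : n = m
  · subst h; simp
  · rw [coeff_single_of_ne h, coeff_single_of_ne h, map_zero]

theorem single_smul_single' (m n : ℤ) (c : K) (v : V) :
    (single m c : K⟦ℤ⟧) • (single n v : V⟦ℤ⟧) = single (m + n) (c • v) := by
  ext l
  rw [single_smul_coeff]
  by_cases h : l = m + n
  · subst h; simp
  · rw [coeff_single_of_ne h, coeff_single_of_ne (by omega), smul_zero]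

/-- coefficientwise coordinates with respect to a finite `K`-basis of `V` -/
noncomputable def lmodEquiv {ι : Type*} [Fintype ι] (b : Module.Basis ι K V) :
    V⟦ℤ⟧ ≃ₗ[K⟦ℤ⟧] (ι → K⟦ℤ⟧) where
  toFun y := fun i => mapForm (b.coord i) y
  map_add' x y := by funext i; simp
  map_smul' x y := by funext i; simp
  invFun f := ∑ i, f i • (single 0 (b i) : V⟦ℤ⟧)
  left_inv y := by
    ext n
    rw [coeff_sum]
    simp only [smul_single_coeff, sub_zero, mapForm_coeff]
    exact b.sum_repr (y.coeff n)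
  right_inv f := by
    classical
    funext i
    ext n
    rw [mapForm_coeff, coeff_sum, map_sum]
    simp only [smul_single_coeff, sub_zero, map_smul, Module.Basis.coord_apply,
      Module.Basis.repr_self, smul_eq_mul]
    rw [Finset.sum_eq_single i]
    · simp
    · intro j _ hj
      rw [Finsupp.single_eq_of_ne (by exact fun h => hj h.symm), mul_zero]
    · simp

/-- a `K`-basis of `V` is a `K((z))`-basis of `V((z))` -/
noncomputable def lmodBasis {ι : Type*} [Fintype ι] (b : Module.Basis ι K V) :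
    Module.Basis ι K⟦ℤ⟧ V⟦ℤ⟧ :=
  Module.Basis.ofEquivFun (lmodEquiv b)

@[simp] theorem lmodBasis_apply {ι : Type*} [Fintype ι] (b : Module.Basis ι K V) (i : ι) :
    lmodBasis b i = single 0 (b i) := by
  classical
  rw [lmodBasis, Module.Basis.coe_ofEquivFun]
  show ∑ j, (Pi.single i (1 : K⟦ℤ⟧) : ι → K⟦ℤ⟧) j • (single 0 (b j) : V⟦ℤ⟧) = _
  rw [Finset.sum_eq_single i]
  · simp
  · intro j _ hj
    rw [Pi.single_eq_of_ne hj, zero_smul]
  · simp

@[simp] theorem lmodBasis_repr_coeff {ι : Type*} [Fintype ι] (b : Module.Basis ι K V)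
    (y : V⟦ℤ⟧) (i : ι) (n : ℤ) :
    ((lmodBasis b).repr y i).coeff n = b.repr (y.coeff n) i := by
  rfl

instance lmodFinite [FiniteDimensional K V] : FiniteDimensional K⟦ℤ⟧ V⟦ℤ⟧ :=
  (lmodBasis (Module.finBasis K V)).finiteDimensional_of_finite

theorem lmod_finrank [FiniteDimensional K V] :
    Module.finrank K⟦ℤ⟧ V⟦ℤ⟧ = Module.finrank K V := by
  rw [Module.finrank_eq_card_basis (lmodBasis (Module.finBasis K V)), Fintype.card_fin]

end LMod

end Vale.P199
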