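import Vale.Agent.P199.A5
import Vale.Agent.P199.A7

/-!
P199, part (A), A9 (first half): from an infinite-dimensional algebraic finitely generated division
algebra over a field to `KuroshFalse`.
-/

namespace Vale.P199

open Polynomial

/-- the centre formulation -/
theorem center_form (k D : Type) [Field k] [DivisionRing D] [Algebra k D]
    (halg : Algebra.IsAlgebraic k D) (hft : Algebra.FiniteType k D)
    (hc : ¬ Module.Finite (Subring.center D) D) :
    (∀ a : D, ∃ p : Polynomial (Subring.center D), p ≠ 0 ∧ Polynomial.aeval a p = 0) ∧
      ∃ S : Finset D, ¬ Module.Finite (Subring.center D)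
        (Algebra.adjoin (Subring.center D) (S : Set D)) := by
  let φ : k →+* Subring.center D := (algebraMap k D).codRestrict (Subring.center D) (fun c =>
    Subring.mem_center_iff.2 fun b => (Algebra.commutes c b).symm)
  have hφ : (algebraMap (Subring.center D) D).comp φ = algebraMap k D := rfl
  have hinj : Function.Injective φ := φ.injective
  refine ⟨fun a => ?_, ?_⟩
  · obtain ⟨p, hp, ha⟩ := halg.isAlgebraic a
    refine ⟨p.map φ, (Polynomial.map_ne_zero_iff hinj).2 hp, ?_⟩
    rw [aeval_def, eval₂_map, hφ]
    exact ha
  · obtain ⟨S, hS⟩ := hft.out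
    refine ⟨S, fun hfin => hc ?_⟩
    have htop : Algebra.adjoin (Subring.center D) (S : Set D) = ⊤ := by
      rw [eq_top_iff]
      intro b _
      have hb : b ∈ Algebra.adjoin k (S : Set D) := by rw [hS]; trivial
      induction hb using Algebra.adjoin_induction with
      | mem x hx => exact Algebra.subset_adjoin hx
      | algebraMap c =>
        have : algebraMap k D c = algebraMap (Subring.center D) D (φ c) := rfl
        rw [this]
        exact Subalgebra.algebraMap_mem _ _
      | add a b _ _ ha hb => exact Subalgebra.add_mem _ (ha trivial) (hb trivial)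
      | mul a b _ _ ha hb => exact Subalgebra.mul_mem _ (ha trivial) (hb trivial)
    rw [htop] at hfin
    exact Module.Finite.equiv (Subalgebra.topEquiv (R := Subring.center D) (A := D)).toLinearEquiv

/-- KuroshFalse from a single division algebra -/
theorem kuroshFalse_of (k D : Type) [Field k] [DivisionRing D] [Algebra k D]
    (halg : Algebra.IsAlgebraic k D) (hft : Algebra.FiniteType k D) (hfin : ¬ Module.Finite k D)
    (hc : ¬ Module.Finite (Subring.center D) D) : KuroshFalse :=
  ⟨⟨D, inferInstance, center_form k D halg hft hc⟩,
    ⟨k, D, inferInstance, inferInstance, inferInstance, halg, hft, hfin⟩⟩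

end Vale.P199
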