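import Vale.Agent.P199.A1
import Vale.Agent.P199.A2
import Vale.Agent.P199.A3
import Vale.Agent.P199.A8
import Vale.Agent.P199.Main0

/-!
P199, part (A), A9 : the key lemma implies the negative answer to Kurosh's problem for division rings.
-/

namespace Vale.P199

theorem kurosh_of_keyLemma (h : KeyLemma) : KuroshFalse := by
  obtain ⟨W⟩ := exists_tower h initStage
  let _D : DivisionRing W.A :=
    divisionRingOfAlgebraic W.kk W.A (fun a => Algebra.IsAlgebraic.isAlgebraic a)
  have hfin := W.not_finite
  exact kuroshFalse_of W.kk W.A inferInstance inferInstance hfin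
    (not_finite_center W.kk W.A hfin)

end Vale.P199
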