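import Mathlib

/-!
# P199 : noncommutative power series with central variables

`NC I B` is the ring `B<<t_i : i ∈ I>>`: the letters `t_i` do not commute with one another but commute
with the coefficients in `B`. An element is the function giving the coefficient of each word.
-/

namespace Vale.P199

/-- Noncommutative power series in letters `I` over `B`. -/
def NC (I : Type) (B : Type) : Type := List I → B

namespace NC

variable {I : Type} {B : Type}

@[ext] theorem ext {f g : NC I B} (h : ∀ w, f w = g w) : f = g := funext h

/-- build a series from its coefficient function -/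
def mk (f : List I → B) : NC I B := f
@[simp] theorem mk_apply (f : List I → B) (w : List I) : mk f w = f w := rfl

/-- left quotient by the letter `i` : `(sh i f) w = f (i :: w)` -/
def sh (i : I) (f : NC I B) : NC I B := mk fun w => f (i :: w)
@[simp] theorem sh_apply (i : I) (f : NC I B) (w : List I) : sh i f w = f (i :: w) := rfl

section Ring
variable [Ring B]

instance : AddCommGroup (NC I B) := inferInstanceAs (AddCommGroup (List I → B))

instance : Mul (NC I B) :=
  ⟨fun f g => mk fun w => ∑ k ∈ Finset.range (w.length + 1), f (w.take k) * g (w.drop k)⟩

instance : One (NC I B) := ⟨mk fun w => if w = [] then 1 else 0⟩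

@[simp] theorem add_apply (f g : NC I B) (w : List I) : (f + g) w = f w + g w := rfl
@[simp] theorem sub_apply (f g : NC I B) (w : List I) : (f - g) w = f w - g w := rfl
@[simp] theorem neg_apply (f : NC I B) (w : List I) : (-f) w = -f w := rfl
@[simp] theorem zero_apply (w : List I) : (0 : NC I B) w = 0 := rfl
theorem mul_apply (f g : NC I B) (w : List I) :
    (f * g) w = ∑ k ∈ Finset.range (w.length + 1), f (w.take k) * g (w.drop k) := rfl
theorem one_apply (w : List I) : (1 : NC I B) w = if w = [] then 1 else 0 := rfl
@[simp] theorem one_nil : (1 : NC I B) [] = 1 := by simp [one_apply]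
@[simp] theorem one_cons (i : I) (w : List I) : (1 : NC I B) (i :: w) = 0 := by simp [one_apply]

@[simp] theorem mul_nil (f g : NC I B) : (f * g) [] = f [] * g [] := by
  simp [mul_apply]

theorem mul_cons (f g : NC I B) (i : I) (w : List I) :
    (f * g) (i :: w) = f [] * g (i :: w) + (sh i f * g) w := by
  rw [mul_apply, List.length_cons, Finset.sum_range_succ']
  simp only [mul_apply, List.take_succ_cons, List.drop_succ_cons, sh_apply, List.take_zero,
    List.drop_zero]
  rw [add_comm]

@[simp] theorem mul_singleton (f g : NC I B) (i : I) :
    (f * g) [i] = f [] * g [i] + f [i] * g [] := by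
  rw [mul_cons, mul_nil, sh_apply]

private theorem add_mul' (f g h : NC I B) : (f + g) * h = f * h + g * h := by
  ext w; simp only [mul_apply, add_apply, add_mul, Finset.sum_add_distrib]

private theorem mul_add' (f g h : NC I B) : f * (g + h) = f * g + f * h := by
  ext w; simp only [mul_apply, add_apply, mul_add, Finset.sum_add_distrib]

/-- left multiplication of all coefficients by `b` -/
private def lm (b : B) (f : NC I B) : NC I B := mk fun w => b * f w

private theorem lm_mul (b : B) (f g : NC I B) : lm b f * g = lm b (f * g) := by
  ext w; simp only [mul_apply, lm, mk_apply, Finset.mul_sum, mul_assoc]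

private theorem sh_mul (i : I) (f g : NC I B) : sh i (f * g) = lm (f []) (sh i g) + sh i f * g := by
  ext w; rw [sh_apply, mul_cons, add_apply]; rfl

private theorem mul_assoc' (f g h : NC I B) : f * g * h = f * (g * h) := by
  ext w
  induction w generalizing f g with
  | nil => simp [mul_assoc]
  | cons i w ih =>
    rw [mul_cons (f * g) h, mul_cons f (g * h), mul_cons g h, sh_mul, add_mul', add_apply, ih,
      lm_mul, mul_nil]
    simp only [lm, mk_apply, mul_add, mul_assoc, add_assoc]

private theorem zero_mul' (f : NC I B) : 0 * f = 0 := by
  ext w; simp only [mul_apply, zero_apply, zero_mul, Finset.sum_const_zero]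

private theorem mul_zero' (f : NC I B) : f * 0 = 0 := by
  ext w; simp only [mul_apply, zero_apply, mul_zero, Finset.sum_const_zero]

instance instRing : Ring (NC I B) :=
  { (inferInstance : AddCommGroup (NC I B)) with
    mul := (· * ·)
    one := 1
    mul_assoc := mul_assoc'
    one_mul := by
      intro f; ext w
      cases w with
      | nil => simp
      | cons i w =>
        rw [mul_cons, one_nil, one_mul]
        have : sh i (1 : NC I B) = 0 := by ext v; simp
        rw [this, zero_mul']; simp
    mul_one := by
      intro f; ext w
      rw [mul_apply, Finset.sum_range_succ, Finset.sum_eq_zero]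
      · simp [one_apply]
      · intro k hk
        have hk' : k < w.length := Finset.mem_range.mp hk
        have : w.drop k ≠ [] := by
          intro h; have := List.drop_eq_nil_iff.mp h; omega
        rw [one_apply, if_neg this, mul_zero]
    left_distrib := mul_add'
    right_distrib := add_mul'
    zero_mul := zero_mul'
    mul_zero := mul_zero' }

/-- constants -/
def C : B →+* NC I B where
  toFun b := mk fun w => if w = [] then b else 0
  map_one' := by ext w; simp [one_apply]
  map_zero' := by ext w; simp
  map_add' a b := by ext w; by_cases h : w = [] <;> simp [h]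
  map_mul' a b := by
    ext w
    rw [mul_apply, Finset.sum_range_succ, Finset.sum_eq_zero]
    · by_cases h : w = [] <;> simp [h]
    · intro k hk
      have hk' : k < w.length := Finset.mem_range.mp hk
      have : w.drop k ≠ [] := by
        intro h; have := List.drop_eq_nil_iff.mp h; omega
      simp [this]

theorem C_apply (b : B) (w : List I) : (C b : NC I B) w = if w = [] then b else 0 := rfl
@[simp] theorem C_nil (b : B) : (C b : NC I B) [] = b := rfl
@[simp] theorem C_cons (b : B) (i : I) (w : List I) : (C b : NC I B) (i :: w) = 0 := by
  simp [C_apply]
@[simp] theorem sh_C (b : B) (i : I) : sh i (C b : NC I B) = 0 := by ext w; simp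

@[simp] theorem C_mul_apply (b : B) (f : NC I B) (w : List I) :
    ((C b : NC I B) * f : NC I B) w = b * f w := by
  cases w with
  | nil => simp
  | cons i w => rw [mul_cons, sh_C, zero_mul]; simp

@[simp] theorem mul_C_apply (b : B) (f : NC I B) (w : List I) :
    (f * (C b : NC I B) : NC I B) w = f w * b := by
  rw [mul_apply, Finset.sum_range_succ, Finset.sum_eq_zero]
  · simp [C_apply]
  · intro k hk
    have hk' : k < w.length := Finset.mem_range.mp hk
    have : w.drop k ≠ [] := by
      intro h; have := List.drop_eq_nil_iff.mp h; omega
    rw [C_apply, if_neg this, mul_zero]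

/-- the letter `t_i` -/
def T [DecidableEq I] (i : I) : NC I B := mk fun w => if w = [i] then 1 else 0

/-- constant term as a ring hom -/
def ε : NC I B →+* B where
  toFun f := f []
  map_one' := by simp
  map_zero' := rfl
  map_add' _ _ := rfl
  map_mul' f g := by simp

@[simp] theorem ε_apply (f : NC I B) : ε f = f [] := rfl

end Ring

section Algebra
variable {K : Type} [Field K] [Ring B] [Algebra K B]

instance instAlgebra : Algebra K (NC I B) where
  smul c f := mk fun w => c • f w
  algebraMap := C.comp (algebraMap K B)
  commutes' c f := by
    ext w
    show ((C (algebraMap K B c) : NC I B) * f) w = (f * (C (algebraMap K B c) : NC I B)) w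
    rw [C_mul_apply, mul_C_apply, Algebra.commutes]
  smul_def' c f := by
    ext w
    show c • f w = ((C (algebraMap K B c) : NC I B) * f) w
    rw [C_mul_apply, Algebra.smul_def]

@[simp] theorem smul_apply (c : K) (f : NC I B) (w : List I) : (c • f) w = c • f w := rfl
theorem algebraMap_eq (c : K) : algebraMap K (NC I B) c = C (algebraMap K B c) := rfl

end Algebra

end NC

end Vale.P199
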