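import Mathlib

/-!
# P199, T6 : homogeneous noncommutative polynomials evaluated on matrices

`h : (Fin d → I) → L` is a homogeneous noncommutative polynomial of degree `d` in letters `I`
(function words of length `d` → coefficients); `ev h V = ∑_w h w • V_{w 0} ⋯ V_{w (d-1)}`.
-/

namespace Vale.P199

open Matrix

variable {I : Type*} [Fintype I] [DecidableEq I] {L : Type*} [Field L]

/-- the product `V (w 0) * ⋯ * V (w (d-1))` -/
def wordProd {A : Type*} [Monoid A] {d : ℕ} (V : I → A) (w : Fin d → I) : A :=
  (List.ofFn fun k => V (w k)).prod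

omit [Fintype I] [DecidableEq I] in
@[simp] theorem wordProd_zero {A : Type*} [Monoid A] (V : I → A) (w : Fin 0 → I) :
    wordProd V w = 1 := by simp [wordProd]

omit [Fintype I] [DecidableEq I] in
theorem wordProd_succ {A : Type*} [Monoid A] {d : ℕ} (V : I → A) (w : Fin (d+1) → I) :
    wordProd V w = V (w 0) * wordProd V (fun k => w k.succ) := by
  simp [wordProd, List.ofFn_succ]

omit [Fintype I] [DecidableEq I] in
theorem wordProd_succ' {A : Type*} [Monoid A] {d : ℕ} (V : I → A) (w : Fin (d+1) → I) :
    wordProd V w = wordProd V (fun k => w k.castSucc) * V (w (Fin.last d)) := by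
  simp only [wordProd]
  rw [List.ofFn_succ']
  simp [List.concat_eq_append]

/-- evaluation of a homogeneous nc polynomial -/
def ev {A : Type*} [Semiring A] [Algebra L A] {d : ℕ} (h : (Fin d → I) → L) (V : I → A) : A :=
  ∑ w : Fin d → I, h w • wordProd V w

/-- a superdiagonal matrix : entry `(a, a+1)` is `c a`, all others `0` -/
def sup (r : ℕ) (c : ℕ → L) : Matrix (Fin r) (Fin r) L :=
  Matrix.of fun a b => if b.val = a.val + 1 then c a.val else 0

theorem sup_prod (r : ℕ) : ∀ (d : ℕ) (c : Fin d → ℕ → L) (a b : Fin r),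
    (List.ofFn fun k => sup r (c k)).prod a b =
      if b.val = a.val + d then ∏ k : Fin d, c k (a.val + k.val) else 0 := by
  intro d
  induction d with
  | zero =>
    intro c a b
    simp only [List.ofFn_zero, List.prod_nil, Matrix.one_apply, add_zero, Finset.univ_eq_empty,
      Finset.prod_empty]
    by_cases h : a = b
    · subst h; simp
    · rw [if_neg h, if_neg]; intro h'; exact h (Fin.ext h'.symm)
  | succ d ih =>
    intro c a b
    rw [List.ofFn_succ, List.prod_cons, Matrix.mul_apply]
    by_cases ha : a.val + 1 < r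
    · rw [Finset.sum_eq_single (⟨a.val + 1, ha⟩ : Fin r)]
      · rw [ih]
        simp only [sup, Matrix.of_apply, if_true]
        by_cases hb : b.val = a.val + (d + 1)
        · rw [if_pos (by omega), if_pos hb, Fin.prod_univ_succ]
          congr 1
          refine Finset.prod_congr rfl ?_
          intro k _
          simp only [Fin.val_succ]
          congr 1
          omega
        · rw [if_neg (by omega), if_neg hb, mul_zero]
      · intro x _ hx
        have : ¬ (x.val = a.val + 1) := fun h => hx (Fin.ext h)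
        simp [sup, this]
      · intro h; exact absurd (Finset.mem_univ _) h
    · have hb : ¬ (b.val = a.val + (d+1)) := by have := b.isLt; omega
      rw [if_neg hb]
      refine Finset.sum_eq_zero ?_
      intro x _
      have : ¬ (x.val = a.val + 1) := by have := x.isLt; omega
      simp [sup, this]

/-- (a) : `M_r(L)` satisfies no polynomial identity of degree `d < r`. -/
theorem pi_a {d r : ℕ} (hr : d < r) (h : (Fin d → I) → L)
    (H : ∀ V : I → Matrix (Fin r) (Fin r) L, ev h V = 0) : h = 0 := by
  funext w₀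
  let V : I → Matrix (Fin r) (Fin r) L := fun i =>
    sup r (fun a => if ha : a < d then (if w₀ ⟨a, ha⟩ = i then 1 else 0) else 0)
  have h1 := H V
  have h2 := congrFun (congrFun h1 ⟨0, by omega⟩) ⟨d, hr⟩
  rw [ev, Matrix.sum_apply] at h2
  rw [Finset.sum_eq_single w₀] at h2
  · rw [Matrix.smul_apply, wordProd, sup_prod] at h2
    rw [if_pos (by simp), Finset.prod_eq_one, smul_eq_mul, mul_one] at h2
    · exact h2
    · intro k _
      simp
  · intro w _ hw
    rw [Matrix.smul_apply, wordProd, sup_prod]
    simp only [zero_add, if_true, smul_eq_mul]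
    obtain ⟨k, hk⟩ := Function.ne_iff.1 hw
    have : (∏ k : Fin d, (if ha : k.val < d then (if w₀ ⟨k.val, ha⟩ = w k then (1:L) else 0) else 0)) = 0 := by
      refine Finset.prod_eq_zero (Finset.mem_univ k) ?_
      rw [dif_pos k.isLt]
      simp only [Fin.eta]
      rw [if_neg (fun h => hk h.symm)]
    rw [this, mul_zero]
  · intro h; exact absurd (Finset.mem_univ _) h

/-- cyclic matrices : on the first `m` coordinates `a ↦ a+1 mod m` with weight `c a` -/
def cyc (r m : ℕ) (c : ℕ → L) : Matrix (Fin r) (Fin r) L :=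
  Matrix.of fun a b => if a.val < m ∧ b.val = (a.val + 1) % m then c a.val else 0

theorem cyc_prod (r m : ℕ) (hm : 0 < m) (hmr : m ≤ r) : ∀ (d : ℕ) (c : Fin d → ℕ → L) (a b : Fin r),
    a.val < m →
    (List.ofFn fun k => cyc r m (c k)).prod a b =
      if b.val = (a.val + d) % m then ∏ k : Fin d, c k ((a.val + k.val) % m) else 0 := by
  intro d
  induction d with
  | zero =>
    intro c a b ha
    simp only [List.ofFn_zero, List.prod_nil, Matrix.one_apply, add_zero, Finset.univ_eq_empty,
      Finset.prod_empty, Nat.mod_eq_of_lt ha]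
    by_cases h : a = b
    · subst h; simp
    · rw [if_neg h, if_neg]; intro h'; exact h (Fin.ext h'.symm)
  | succ d ih =>
    intro c a b ha
    rw [List.ofFn_succ, List.prod_cons, Matrix.mul_apply]
    have hlt : (a.val + 1) % m < m := Nat.mod_lt _ hm
    rw [Finset.sum_eq_single (⟨(a.val + 1) % m, by omega⟩ : Fin r)]
    · rw [ih _ _ _ hlt]
      simp only [cyc, Matrix.of_apply, ha, true_and, if_true]
      have e1 : ((a.val + 1) % m + d) % m = (a.val + (d + 1)) % m := by
        rw [Nat.mod_add_mod]; congr 1; omega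
      rw [e1]
      by_cases hb : b.val = (a.val + (d + 1)) % m
      · rw [if_pos hb, if_pos hb, Fin.prod_univ_succ]
        simp only [Fin.val_zero, add_zero, Nat.mod_eq_of_lt ha]
        congr 1
        refine Finset.prod_congr rfl ?_
        intro k _
        simp only [Fin.val_succ]
        congr 1
        rw [Nat.mod_add_mod]; congr 1; omega
      · rw [if_neg hb, if_neg hb, mul_zero]
    · intro x _ hx
      have : ¬ (a.val < m ∧ x.val = (a.val + 1) % m) := fun h => hx (Fin.ext h.2)
      simp [cyc, this]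
    · intro h; exact absurd (Finset.mem_univ _) h

theorem cyc_prod_zero (r m : ℕ) (d : ℕ) (c : Fin (d+1) → ℕ → L) (a b : Fin r) (ha : ¬ a.val < m) :
    (List.ofFn fun k => cyc r m (c k)).prod a b = 0 := by
  rw [List.ofFn_succ, List.prod_cons, Matrix.mul_apply]
  refine Finset.sum_eq_zero ?_
  intro x _
  simp [cyc, ha]

/-- rotation of a word of length `n+1` by `a` : `(rot a w) k = w (k - a)`; we use `w (a + k)` -/
def rotw {n : ℕ} (a : Fin (n+1)) (w : Fin (n+1) → I) : Fin (n+1) → I := fun k => w (a + k)

/-- (b) : if `tr h(V) = 0` for all `V ∈ M_r(L)^I`, `r ≥ d = n+1`, all rotation sums of `h` vanish. -/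
theorem pi_b {n r : ℕ} (hr : n + 1 ≤ r) (h : (Fin (n+1) → I) → L)
    (H : ∀ V : I → Matrix (Fin r) (Fin r) L, Matrix.trace (ev h V) = 0) (w₀ : Fin (n+1) → I) :
    ∑ a : Fin (n+1), h (rotw a w₀) = 0 := by
  let c : I → ℕ → L := fun i a => if ha : a < n+1 then (if w₀ ⟨a, ha⟩ = i then 1 else 0) else 0
  let V : I → Matrix (Fin r) (Fin r) L := fun i => cyc r (n+1) (c i)
  have h1 := H V
  rw [ev, Matrix.trace_sum] at h1
  -- trace of a word
  have tr : ∀ w : Fin (n+1) → I, Matrix.trace (wordProd V w) =
      ∑ a : Fin (n+1), (if w = rotw a w₀ then (1:L) else 0) := by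
    intro w
    rw [Matrix.trace]
    simp only [Matrix.diag_apply]
    have hsplit : ∀ x : Fin r, (wordProd V w) x x =
        if hx : x.val < n + 1 then (if w = rotw ⟨x.val, hx⟩ w₀ then (1:L) else 0) else 0 := by
      intro x
      by_cases hx : x.val < n+1
      · rw [dif_pos hx, wordProd, cyc_prod r (n+1) (by omega) hr _ _ _ _ hx, if_pos (by
          rw [Nat.add_mod_right, Nat.mod_eq_of_lt hx])]
        by_cases hw : w = rotw ⟨x.val, hx⟩ w₀
        · rw [if_pos hw]
          refine Finset.prod_eq_one ?_
          intro k _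
          have hk : (x.val + k.val) % (n+1) < n+1 := Nat.mod_lt _ (by omega)
          simp only [c]
          rw [dif_pos hk, if_pos]
          rw [hw]
          rfl
        · rw [if_neg hw]
          obtain ⟨k, hk⟩ := Function.ne_iff.1 hw
          refine Finset.prod_eq_zero (Finset.mem_univ k) ?_
          have hk' : (x.val + k.val) % (n+1) < n+1 := Nat.mod_lt _ (by omega)
          simp only [c]
          rw [dif_pos hk', if_neg]
          intro h
          exact hk h.symm
      · rw [dif_neg hx, wordProd, cyc_prod_zero r (n+1) n _ x x hx]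
    simp_rw [hsplit]
    -- sum over Fin r of a function supported on the first n+1
    symm
    refine Finset.sum_bij_ne_zero (fun a _ _ => (⟨a.val, lt_of_lt_of_le a.isLt hr⟩ : Fin r)) ?_ ?_ ?_ ?_
    · intro a _ _; exact Finset.mem_univ _
    · intro a _ _ b _ _ hab
      have := congrArg Fin.val hab
      exact Fin.ext this
    · intro x _ hx
      by_cases hx' : x.val < n+1
      · rw [dif_pos hx'] at hx
        exact ⟨⟨x.val, hx'⟩, Finset.mem_univ _, hx, rfl⟩
      · rw [dif_neg hx'] at hx; exact absurd rfl hx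
    · intro a _ _
      rw [dif_pos a.isLt]
  simp_rw [Matrix.trace_smul, tr] at h1
  rw [← h1]
  simp_rw [Finset.smul_sum]
  rw [Finset.sum_comm]
  refine Finset.sum_congr rfl ?_
  intro a _
  simp

/-- purely combinatorial part: rotation sums `0` ⇒ `h` is a sum of commutators `[t_i, g_i]`. -/
theorem commutator_form [CharZero L] {n : ℕ} (h : (Fin (n+1) → I) → L)
    (H : ∀ w : Fin (n+1) → I, ∑ a : Fin (n+1), h (rotw a w) = 0) :
    ∃ g : I → (Fin n → I) → L, ∀ w : Fin (n+1) → I,
      h w = g (w 0) (fun k => w k.succ) - g (w (Fin.last n)) (fun k => w k.castSucc) := by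
  -- G w = -(1/d) ∑ j h(σ^j w), σ w = (last, init)
  let G : (Fin (n+1) → I) → L := fun w =>
    ((n:L)+1)⁻¹ * ∑ a : Fin (n+1), (a.val : L) * h (rotw (a+1) w)
  refine ⟨fun i v => G (Fin.cons i v), ?_⟩
  intro w
  have e1 : (Fin.cons (w 0) (fun k => w k.succ) : Fin (n+1) → I) = w := by
    funext k; refine Fin.cases ?_ (fun j => ?_) k <;> simp
  have e2 : (Fin.cons (w (Fin.last n)) (fun k => w k.castSucc) : Fin (n+1) → I) = rotw (Fin.last n) w := by
    funext k
    refine Fin.cases ?_ (fun j => ?_) k
    · simp [rotw]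
    · simp only [Fin.cons_succ, rotw]
      congr 1
      have : (Fin.last n : Fin (n+1)) = -1 := by
        rw [eq_neg_iff_add_eq_zero]; simp
      rw [this]
      rw [← Fin.coeSucc_eq_succ, add_comm j.castSucc 1, neg_add_cancel_left]
  change h w = G (Fin.cons (w 0) (fun k => w k.succ)) - G (Fin.cons (w (Fin.last n)) (fun k => w k.castSucc))
  rw [e1, e2]
  -- rotations compose
  have rr : ∀ a b : Fin (n+1), rotw a (rotw b w) = rotw (b + a) w := by
    intro a b; funext k; simp only [rotw]; congr 1; rw [add_assoc]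
  -- S = ∑ h (rotw a w) = 0
  have hS : ∑ a : Fin (n+1), h (rotw (a+1) w) = 0 := by
    rw [← H w]
    exact Fintype.sum_equiv (Equiv.addRight (1 : Fin (n+1))) _ _ (fun a => rfl)
  have hn : ((n:L)+1) ≠ 0 := by exact_mod_cast Nat.succ_ne_zero n
  have key : (∑ a : Fin (n+1), (a.val : L) * h (rotw (a+1) w)) -
      (∑ a : Fin (n+1), (a.val : L) * h (rotw (a+1) (rotw (Fin.last n) w))) = ((n:L)+1) * h w := by
    have e3 : (∑ a : Fin (n+1), (a.val : L) * h (rotw (a+1) (rotw (Fin.last n) w))) =
        ∑ a : Fin (n+1), ((a + 1 : Fin (n+1)).val : L) * h (rotw (a+1) w) := by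
      refine Fintype.sum_equiv (Equiv.addRight (-1 : Fin (n+1))) _ _ ?_
      intro a
      rw [rr]
      have hl : (Fin.last n : Fin (n+1)) = -1 := by
        rw [eq_neg_iff_add_eq_zero]; simp
      simp only [Equiv.coe_addRight, neg_add_cancel_right]
      rw [hl, add_comm a 1, neg_add_cancel_left]
    rw [e3, ← Finset.sum_sub_distrib]
    have e4 : ∀ a : Fin (n+1),
        (a.val : L) * h (rotw (a+1) w) - ((a + 1 : Fin (n+1)).val : L) * h (rotw (a+1) w)
        = - h (rotw (a+1) w) + (if a = Fin.last n then ((n:L)+1) * h w else 0) := by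
      intro a
      by_cases ha : a = Fin.last n
      · subst ha
        have h0 : (Fin.last n + 1 : Fin (n+1)) = 0 := by simp
        rw [h0, if_pos rfl]
        have h1 : rotw (0 : Fin (n+1)) w = w := by funext k; simp [rotw]
        rw [h1]
        simp only [Fin.val_last, Fin.val_zero, Nat.cast_zero, zero_mul, sub_zero]
        ring
      · rw [if_neg ha, add_zero]
        have hv : ((a + 1 : Fin (n+1)).val) = a.val + 1 := by
          have := Fin.val_add_one a
          rw [if_neg ha] at this
          exact this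
        rw [hv]; push_cast; ring
    simp_rw [e4]
    rw [Finset.sum_add_distrib, Finset.sum_neg_distrib, hS, neg_zero, zero_add]
    simp
  change h w = ((n:L)+1)⁻¹ * ∑ a : Fin (n+1), (a.val : L) * h (rotw (a+1) w) -
    ((n:L)+1)⁻¹ * ∑ a : Fin (n+1), (a.val : L) * h (rotw (a+1) (rotw (Fin.last n) w))
  rw [← mul_sub, key, inv_mul_cancel_left₀ hn]

/-- evaluation of `∑ [t_i, g_i]` -/
theorem ev_commutator {A : Type*} [Ring A] [Algebra L A] {n : ℕ} (h : (Fin (n+1) → I) → L)
    (g : I → (Fin n → I) → L)
    (hg : ∀ w : Fin (n+1) → I,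
      h w = g (w 0) (fun k => w k.succ) - g (w (Fin.last n)) (fun k => w k.castSucc))
    (V : I → A) :
    ev h V = ∑ i, (V i * ev (g i) V - ev (g i) V * V i) := by
  have h1 : ∑ w : Fin (n+1) → I, g (w 0) (fun k => w k.succ) • wordProd V w =
      ∑ i, V i * ev (g i) V := by
    rw [← (Fin.consEquiv (fun _ : Fin (n+1) => I)).sum_comp, Fintype.sum_prod_type]
    refine Finset.sum_congr rfl ?_
    intro i _
    rw [ev, Finset.mul_sum]
    refine Finset.sum_congr rfl ?_
    intro v _
    simp [wordProd_succ, Fin.consEquiv]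
  have h2 : ∑ w : Fin (n+1) → I, g (w (Fin.last n)) (fun k => w k.castSucc) • wordProd V w =
      ∑ i, ev (g i) V * V i := by
    rw [← (Fin.snocEquiv (fun _ : Fin (n+1) => I)).sum_comp, Fintype.sum_prod_type]
    refine Finset.sum_congr rfl ?_
    intro i _
    rw [ev, Finset.sum_mul]
    refine Finset.sum_congr rfl ?_
    intro v _
    simp [wordProd_succ', Fin.snocEquiv]
  rw [Finset.sum_sub_distrib, ← h1, ← h2, ← Finset.sum_sub_distrib, ev]
  refine Finset.sum_congr rfl ?_
  intro w _
  rw [hg w, sub_smul]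

/-- T6 (b), final form : `tr h(V) = 0` on `M_r(L)`, `r ≥ deg h = n+1`, char 0 ⇒ `h = ∑ [t_i, g_i]`. -/
theorem pi_b' [CharZero L] {n r : ℕ} (hr : n + 1 ≤ r) (h : (Fin (n+1) → I) → L)
    (H : ∀ V : I → Matrix (Fin r) (Fin r) L, Matrix.trace (ev h V) = 0) :
    ∃ g : I → (Fin n → I) → L, ∀ w : Fin (n+1) → I,
      h w = g (w 0) (fun k => w k.succ) - g (w (Fin.last n)) (fun k => w k.castSucc) :=
  commutator_form h (pi_b hr h H)

end Vale.P199
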