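import Mathlib

/-!
# P199, T10 : extension of a central division algebra by a symbol algebra

`B` a finite-dimensional central division algebra over `K`, `ζ ∈ K` a primitive `r`-th root of unity.
`B1` := the ring of series `∑ b_{mn} u^m v^n` (`(m,n)` in a well-ordered subset of `ℤ ×ₗ ℤ`) with `u v = ζ v u`,
realised inside the Hahn series with coefficients in the matrices over `B`;
`K1 = K((s))((t))` acts by `s = u^r`, `t = v^r`.
-/

open HahnSeries

noncomputable section

namespace Vale.P199.QX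

/-- the value group -/
abbrev G := ℤ ×ₗ ℤ

/-- first exponent -/
def fs (g : G) : ℤ := (ofLex g).1
/-- second exponent -/
def sn (g : G) : ℤ := (ofLex g).2
/-- the exponent `(m,n)` -/
def mkG (m n : ℤ) : G := toLex (m, n)

@[simp] theorem fs_mk (m n : ℤ) : fs (mkG m n) = m := rfl
@[simp] theorem sn_mk (m n : ℤ) : sn (mkG m n) = n := rfl
@[simp] theorem fs_add (a b : G) : fs (a + b) = fs a + fs b := rfl
@[simp] theorem sn_add (a b : G) : sn (a + b) = sn a + sn b := rfl
@[simp] theorem fs_zero : fs 0 = 0 := rfl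
@[simp] theorem sn_zero : sn 0 = 0 := rfl
@[simp] theorem fs_nsmul (n : ℕ) (a : G) : fs (n • a) = n * fs a := by
  induction n with
  | zero => simp
  | succ n ih => rw [succ_nsmul, fs_add, ih]; push_cast; ring
@[simp] theorem sn_nsmul (n : ℕ) (a : G) : sn (n • a) = n * sn a := by
  induction n with
  | zero => simp
  | succ n ih => rw [succ_nsmul, sn_add, ih]; push_cast; ring

theorem G_ext {a b : G} (h1 : fs a = fs b) (h2 : sn a = sn b) : a = b := by
  apply_fun ofLex using ofLex.injective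
  exact Prod.ext h1 h2

theorem le_iff (a b : G) : a ≤ b ↔ fs a < fs b ∨ fs a = fs b ∧ sn a ≤ sn b :=
  Prod.Lex.le_iff

section
variable {K B : Type} [Field K] [DivisionRing B] [Algebra K B] (r : ℕ) [NeZero r] (ζ : K)

theorem zpow_congr {r : ℕ} {ζ : K} (hζ : IsPrimitiveRoot ζ r) [NeZero r] (a x y : ℤ)
    (h : (x : ZMod r) = (y : ZMod r)) : ζ ^ (a * x) = ζ ^ (a * y) := by
  have h0 : ζ ≠ 0 := hζ.ne_zero (NeZero.ne r)
  obtain ⟨t, ht⟩ := (ZMod.intCast_eq_intCast_iff_dvd_sub x y r).1 h
  have : y = x + r * t := by linarith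
  have hz : ζ ^ ((r : ℤ) * (a * t)) = 1 := by
    rw [zpow_mul, zpow_natCast, hζ.pow_eq_one, one_zpow]
  rw [this, mul_add, zpow_add₀ h0, mul_left_comm, hz, mul_one]

/-- the matrix `b D^m P^n` -/
def E (g : G) (b : B) : Matrix (ZMod r) (ZMod r) B :=
  fun i j => if i = j + (sn g : ZMod r) then
    b * algebraMap K B (ζ ^ (fs g * (i.val : ℤ))) else 0

omit [NeZero r] in
theorem E_apply_zero (g : G) (b : B) : E r ζ g b 0 (-(sn g : ZMod r)) = b := by
  simp [E]

omit [NeZero r] in
@[simp] theorem E_zero (g : G) : E r ζ g (0 : B) = 0 := by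
  ext i j; simp [E]

omit [NeZero r] in
theorem E_add (g : G) (b c : B) : E r ζ g (b + c) = E r ζ g b + E r ζ g c := by
  ext i j
  simp only [E, Matrix.add_apply]
  split_ifs
  · rw [add_mul]
  · simp

/-- additive version -/
def EH (g : G) : B →+ Matrix (ZMod r) (ZMod r) B where
  toFun := E r ζ g
  map_zero' := E_zero r ζ g
  map_add' := E_add r ζ g

omit [NeZero r] in
@[simp] theorem EH_apply (g : G) (b : B) : EH r ζ g b = E r ζ g b := rfl

omit [NeZero r] in
theorem E_inj (g : G) {b c : B} (h : E r ζ g b = E r ζ g c) : b = c := by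
  rw [← E_apply_zero r ζ g b, h, E_apply_zero]

omit [NeZero r] in
theorem E_eq_zero (g : G) {b : B} : E r ζ g b = 0 ↔ b = 0 := by
  constructor
  · intro h; exact E_inj r ζ g (h.trans (E_zero r ζ g).symm)
  · rintro rfl; simp

variable {r ζ} in
theorem E_mul (hζ : IsPrimitiveRoot ζ r) (g g' : G) (b b' : B) :
    E r ζ g b * E r ζ g' b' =
      E r ζ (g + g') (b * b' * algebraMap K B (ζ ^ (-(fs g' * sn g)))) := by
  have h0 : ζ ≠ 0 := hζ.ne_zero (NeZero.ne r)
  ext i l
  rw [Matrix.mul_apply, Finset.sum_eq_single (l + (sn g' : ZMod r))]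
  · simp only [E]
    by_cases h : i = l + (sn g' : ZMod r) + (sn g : ZMod r)
    · rw [if_pos h]
      simp only [if_true]
      rw [if_pos (by rw [h, sn_add]; push_cast; ring)]
      have h1 : ζ ^ (fs g' * ((l + (sn g' : ZMod r)).val : ℤ)) =
          ζ ^ (fs g' * ((i.val : ℤ) - sn g)) := by
        apply zpow_congr hζ
        push_cast
        rw [ZMod.natCast_zmod_val, ZMod.natCast_zmod_val, h]
        ring
      have h2 : ζ ^ (fs g * (i.val : ℤ)) * ζ ^ (fs g' * ((i.val : ℤ) - sn g)) =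
          ζ ^ (-(fs g' * sn g)) * ζ ^ (fs (g + g') * (i.val : ℤ)) := by
        rw [← zpow_add₀ h0, ← zpow_add₀ h0, fs_add]
        congr 1; ring
      rw [h1, mul_assoc b, mul_assoc (b * b'), ← map_mul, ← h2, map_mul]
      rw [← mul_assoc (algebraMap K B _) b', Algebra.commutes _ b']
      simp only [mul_assoc]
    · rw [if_neg h, zero_mul, if_neg]
      rw [sn_add]; push_cast
      intro h'; apply h; rw [h']; ring
  · intro j _ hj
    have : E r ζ g' b' j l = 0 := by
      simp only [E]; rw [if_neg hj]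
    rw [this, mul_zero]
  · intro h; exact absurd (Finset.mem_univ _) h

theorem E_algebraMap {r : ℕ} [NeZero r] {ζ : K} (hζ : IsPrimitiveRoot ζ r) (g : G) (k : K) :
    E r ζ (r • g) (algebraMap K B k) = algebraMap K (Matrix (ZMod r) (ZMod r) B) k := by
  ext i j
  have hz : ζ ^ ((r : ℤ) * fs g * (i.val : ℤ)) = 1 := by
    rw [mul_assoc, zpow_mul, zpow_natCast, hζ.pow_eq_one, one_zpow]
  have hs : ((sn (r • g) : ℤ) : ZMod r) = 0 := by
    rw [sn_nsmul]; push_cast
    rw [ZMod.natCast_self, zero_mul]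
  rw [Matrix.algebraMap_matrix_apply]
  simp only [E, fs_nsmul, hs, add_zero, hz, map_one, mul_one]

end

section Ring

variable {K : Type} [Field K] (B : Type) [DivisionRing B] [Algebra K B] {r : ℕ} [NeZero r] {ζ : K}
  (hζ : IsPrimitiveRoot ζ r)

/-- the ring of twisted series -/
def S : Subring (HahnSeries G (Matrix (ZMod r) (ZMod r) B)) where
  carrier := {f | ∀ g, f.coeff g ∈ (EH (B := B) r ζ g).range}
  zero_mem' g := by simp
  one_mem' g := by
    rw [coeff_one]
    split_ifs with h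
    · refine ⟨1, ?_⟩
      have := E_algebraMap (B := B) hζ 0 1
      rw [nsmul_zero, map_one, map_one] at this
      rw [h, EH_apply, this]
    · exact zero_mem _
  add_mem' {a b} ha hb g := by
    rw [coeff_add]; exact add_mem (ha g) (hb g)
  neg_mem' {a} ha g := by
    rw [coeff_neg]; exact neg_mem (ha g)
  mul_mem' {a b} ha hb g := by
    rw [coeff_mul]
    refine sum_mem fun ij hij => ?_
    obtain ⟨x, hx⟩ := ha ij.1
    obtain ⟨y, hy⟩ := hb ij.2
    rw [← hx, ← hy, EH_apply, EH_apply, E_mul hζ]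
    have : ij.1 + ij.2 = g := by
      rw [Finset.mem_antidiagonal] at hij
      exact hij.2.2
    rw [this]
    exact ⟨_, rfl⟩

variable {B}

/-- the coefficient of a twisted series -/
def cf (f : S B hζ) (g : G) : B := (f : HahnSeries G (Matrix (ZMod r) (ZMod r) B)).coeff g 0 (-(sn g : ZMod r))

theorem coeff_eq (f : S B hζ) (g : G) :
    (f : HahnSeries G (Matrix (ZMod r) (ZMod r) B)).coeff g = E r ζ g (cf hζ f g) := by
  obtain ⟨b, hb⟩ := f.2 g
  rw [EH_apply] at hb
  rw [cf, ← hb, E_apply_zero]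

theorem cf_ext {f f' : S B hζ} (h : ∀ g, cf hζ f g = cf hζ f' g) : f = f' := by
  apply Subtype.ext
  ext g : 2
  rw [coeff_eq, coeff_eq, h]

theorem coeff_ne_zero_iff (f : S B hζ) (g : G) :
    (f : HahnSeries G (Matrix (ZMod r) (ZMod r) B)).coeff g = 0 ↔ cf hζ f g = 0 := by
  rw [coeff_eq, E_eq_zero]

theorem cf_add (f f' : S B hζ) (g : G) : cf hζ (f + f') g = cf hζ f g + cf hζ f' g := by
  simp [cf]

/-- monomials -/
def mono (g : G) (b : B) : S B hζ :=
  ⟨single g (E r ζ g b), fun g' => by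
    by_cases h : g' = g
    · subst h; rw [coeff_single_same]; exact ⟨b, rfl⟩
    · rw [coeff_single_of_ne h]; exact zero_mem _⟩

theorem cf_mono (g : G) (b : B) : cf hζ (mono hζ g b) g = b := by
  simp [cf, mono, E_apply_zero]

theorem cf_mono_ne {g g' : G} (h : g' ≠ g) (b : B) : cf hζ (mono hζ g b) g' = 0 := by
  rw [← coeff_ne_zero_iff]
  exact coeff_single_of_ne h

theorem mono_mul (g g' : G) (b b' : B) : mono hζ g b * mono hζ g' b' =
    mono hζ (g + g') (b * b' * algebraMap K B (ζ ^ (-(fs g' * sn g)))) := by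
  apply Subtype.ext
  change single g (E r ζ g b) * single g' (E r ζ g' b') = _
  rw [single_mul_single, E_mul hζ]
  rfl

theorem mono_one : mono hζ 0 (1 : B) = 1 := by
  apply Subtype.ext
  change single 0 (E r ζ 0 1) = 1
  have := E_algebraMap (B := B) hζ 0 1
  rw [nsmul_zero, map_one, map_one] at this
  rw [this]
  rfl

/-- the embedding of `B` -/
def jB : B →+* S B hζ where
  toFun b := mono hζ 0 b
  map_one' := mono_one hζ
  map_zero' := by
    apply Subtype.ext
    change single 0 (E r ζ 0 0) = 0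
    rw [E_zero, single_eq_zero]
  map_add' x y := by
    apply Subtype.ext
    change single 0 (E r ζ 0 (x + y)) = single 0 (E r ζ 0 x) + single 0 (E r ζ 0 y)
    rw [E_add]
    ext g : 2
    rw [coeff_add, coeff_single, coeff_single, coeff_single]
    split_ifs <;> simp
  map_mul' x y := by
    rw [mono_mul]
    simp

variable (B) in
/-- the generator `u` -/
def u : S B hζ := mono hζ (mkG 1 0) 1
variable (B) in
/-- the generator `v` -/
def v : S B hζ := mono hζ (mkG 0 1) 1

theorem u_pow (n : ℕ) : u B hζ ^ n = mono hζ (mkG n 0) 1 := by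
  induction n with
  | zero => rw [pow_zero, ← mono_one]; rfl
  | succ n ih =>
    rw [pow_succ, ih, u, mono_mul]
    have : mkG (n : ℤ) 0 + mkG 1 0 = mkG ((n + 1 : ℕ) : ℤ) 0 := by
      apply G_ext <;> simp
    rw [this]; simp

theorem v_pow (n : ℕ) : v B hζ ^ n = mono hζ (mkG 0 n) 1 := by
  induction n with
  | zero => rw [pow_zero, ← mono_one]; rfl
  | succ n ih =>
    rw [pow_succ, ih, v, mono_mul]
    have : mkG 0 (n : ℤ) + mkG 0 1 = mkG 0 ((n + 1 : ℕ) : ℤ) := by
      apply G_ext <;> simp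
    rw [this]; simp

theorem uv_pow (j k : ℕ) : u B hζ ^ j * v B hζ ^ k = mono hζ (mkG j k) 1 := by
  rw [u_pow, v_pow, mono_mul]
  have : mkG (j : ℤ) 0 + mkG 0 (k : ℤ) = mkG j k := by
    apply G_ext <;> simp
  rw [this]; simp

theorem jB_mul_uv (b : B) (j k : ℕ) :
    jB hζ b * (u B hζ ^ j * v B hζ ^ k) = mono hζ (mkG j k) b := by
  rw [uv_pow]
  change mono hζ 0 b * _ = _
  rw [mono_mul]
  simp

theorem comm_u (b : B) : jB hζ b * u B hζ = u B hζ * jB hζ b := by
  change mono hζ 0 b * mono hζ (mkG 1 0) 1 = mono hζ (mkG 1 0) 1 * mono hζ 0 b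
  rw [mono_mul, mono_mul]
  simp

theorem comm_v (b : B) : jB hζ b * v B hζ = v B hζ * jB hζ b := by
  change mono hζ 0 b * mono hζ (mkG 0 1) 1 = mono hζ (mkG 0 1) 1 * mono hζ 0 b
  rw [mono_mul, mono_mul]
  simp

theorem u_mul_v : u B hζ * v B hζ = jB hζ (algebraMap K B ζ) * (v B hζ * u B hζ) := by
  have h0 : ζ ≠ 0 := hζ.ne_zero (NeZero.ne r)
  change mono hζ (mkG 1 0) 1 * mono hζ (mkG 0 1) 1 =
    mono hζ 0 _ * (mono hζ (mkG 0 1) 1 * mono hζ (mkG 1 0) 1)
  rw [mono_mul, mono_mul, mono_mul]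
  have : 0 + (mkG 0 1 + mkG 1 0) = mkG 1 0 + mkG 0 1 := by
    apply G_ext <;> simp
  rw [this]
  congr 1
  simp only [fs_mk, sn_mk, sn_zero, mul_zero, neg_zero, zpow_zero, map_one, mul_one, one_mul,
    zpow_neg_one]
  rw [← map_mul, mul_inv_cancel₀ h0, map_one]

/-! ### the base field -/

variable (r) in
/-- multiplication by `r` on the value group -/
def scale : G →+ G := nsmulAddMonoidHom r

theorem scale_inj : Function.Injective (scale r) := by
  intro a b h
  have h1 := congrArg fs h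
  have h2 := congrArg sn h
  change fs (r • a) = fs (r • b) at h1
  change sn (r • a) = sn (r • b) at h2
  rw [fs_nsmul, fs_nsmul] at h1
  rw [sn_nsmul, sn_nsmul] at h2
  have hr : (r : ℤ) ≠ 0 := by exact_mod_cast NeZero.ne r
  exact G_ext (mul_left_cancel₀ hr h1) (mul_left_cancel₀ hr h2)

theorem scale_le (a b : G) : scale r a ≤ scale r b ↔ a ≤ b := by
  change r • a ≤ r • b ↔ _
  have hr : (0 : ℤ) < r := by exact_mod_cast Nat.pos_of_ne_zero (NeZero.ne r)
  rw [le_iff, le_iff, fs_nsmul, fs_nsmul, sn_nsmul, sn_nsmul, mul_lt_mul_iff_right₀ hr,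
    mul_right_inj' hr.ne', mul_le_mul_iff_right₀ hr]

variable (K B r) in
/-- coefficientwise scalar matrices -/
def mapK : HahnSeries G K →+* HahnSeries G (Matrix (ZMod r) (ZMod r) B) where
  toFun x := x.map (algebraMap K (Matrix (ZMod r) (ZMod r) B))
  map_one' := HahnSeries.map_one (algebraMap K (Matrix (ZMod r) (ZMod r) B)).toMonoidWithZeroHom
  map_mul' x y := HahnSeries.map_mul
    (RingHom.toNonUnitalRingHom (algebraMap K (Matrix (ZMod r) (ZMod r) B)))
  map_zero' := by ext; simp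
  map_add' x y := by ext g : 2; simp

variable (K B r) in
/-- the embedding of the base field into matrix-valued series -/
def embM : HahnSeries G K →+* HahnSeries G (Matrix (ZMod r) (ZMod r) B) :=
  (embDomainRingHom (scale r) scale_inj scale_le).comp (mapK K B r)

theorem embM_coeff (x : HahnSeries G K) (g : G) :
    (embM K B r x).coeff (r • g) = algebraMap K (Matrix (ZMod r) (ZMod r) B) (x.coeff g) := by
  change (embDomain ⟨⟨scale r, scale_inj⟩, scale_le _ _⟩ (x.map (algebraMap K (Matrix (ZMod r) (ZMod r) B)))).coeff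
    ((⟨⟨scale r, scale_inj⟩, scale_le _ _⟩ : G ↪o G) g) = _
  rw [embDomain_coeff]
  rfl

theorem embM_coeff_ne (x : HahnSeries G K) (g : G) (hg : ∀ g', g ≠ r • g') :
    (embM K B r x).coeff g = 0 := by
  change (embDomain ⟨⟨scale r, scale_inj⟩, scale_le _ _⟩ (x.map (algebraMap K (Matrix (ZMod r) (ZMod r) B)))).coeff
    g = _
  apply embDomain_of_notMem_range
  rintro ⟨g', hg'⟩
  exact hg g' hg'.symm

theorem embM_coeff_scalar (x : HahnSeries G K) (g : G) :
    ∃ k, (embM K B r x).coeff g = algebraMap K (Matrix (ZMod r) (ZMod r) B) k := by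
  by_cases h : ∃ g', g = r • g'
  · obtain ⟨g', rfl⟩ := h
    exact ⟨_, embM_coeff x g'⟩
  · push Not at h
    exact ⟨0, by rw [embM_coeff_ne x g h, map_zero]⟩

theorem embM_single (g : G) (k : K) :
    embM K B r (single g k) = single (r • g) (algebraMap K (Matrix (ZMod r) (ZMod r) B) k) := by
  ext g' : 2
  by_cases h : ∃ g'', g' = r • g''
  · obtain ⟨g'', rfl⟩ := h
    rw [embM_coeff, coeff_single, coeff_single]
    by_cases h2 : g'' = g
    · subst h2; simp
    · have h3 : r • g'' ≠ r • g := fun h3 => h2 (scale_inj (r := r) h3)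
      rw [if_neg h2, if_neg h3, map_zero]
  · push Not at h
    rw [embM_coeff_ne _ _ h, coeff_single_of_ne (h g)]

theorem comm_of_coeff {M : Type} [Ring M] (x y : HahnSeries G M)
    (h : ∀ i j, x.coeff i * y.coeff j = y.coeff j * x.coeff i) : x * y = y * x := by
  ext g : 2
  simp_rw [coeff_mul, h]
  exact Finset.sum_equiv (Equiv.prodComm _ _) (fun _ ↦ Finset.swap_mem_antidiagonal.symm) <| by simp

variable (B) in
/-- the embedding of the base field -/
def emb : HahnSeries G K →+* S B hζ :=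
  (embM K B r).codRestrict (S B hζ) fun x g => by
    by_cases h : ∃ g', g = r • g'
    · obtain ⟨g', rfl⟩ := h
      rw [embM_coeff, ← E_algebraMap hζ g']
      exact ⟨_, rfl⟩
    · push Not at h
      rw [embM_coeff_ne x g h]
      exact zero_mem _

theorem emb_central (x : HahnSeries G K) (f : S B hζ) : emb B hζ x * f = f * emb B hζ x := by
  apply Subtype.ext
  change embM K B r x * (f : HahnSeries G _) = (f : HahnSeries G _) * embM K B r x
  apply comm_of_coeff
  intro i j
  obtain ⟨k, hk⟩ := embM_coeff_scalar (B := B) (r := r) x i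
  rw [hk]
  exact Algebra.commutes _ _

theorem emb_single (g : G) (k : K) :
    emb B hζ (single g k) = mono hζ (r • g) (algebraMap K B k) := by
  apply Subtype.ext
  change embM K B r (single g k) = single (r • g) (E r ζ (r • g) (algebraMap K B k))
  rw [embM_single, E_algebraMap hζ]

theorem cf_emb (x : HahnSeries G K) (g : G) :
    cf hζ (emb B hζ x) (r • g) = algebraMap K B (x.coeff g) := by
  have h1 := coeff_eq hζ (emb B hζ x) (r • g)
  have h2 : (emb B hζ x : HahnSeries G (Matrix (ZMod r) (ZMod r) B)).coeff (r • g) =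
    algebraMap K (Matrix (ZMod r) (ZMod r) B) (x.coeff g) := embM_coeff x g
  rw [h2, ← E_algebraMap hζ g] at h1
  exact (E_inj r ζ _ h1).symm

theorem cf_emb_ne (x : HahnSeries G K) (g : G) (hg : ∀ g', g ≠ r • g') :
    cf hζ (emb B hζ x) g = 0 := by
  rw [← coeff_ne_zero_iff]
  exact embM_coeff_ne x g hg

theorem cf_mul_mono (f : S B hζ) (g g0 : G) (b : B) : cf hζ (f * mono hζ g0 b) (g + g0) =
    cf hζ f g * b * algebraMap K B (ζ ^ (-(fs g0 * sn g))) := by
  apply E_inj r ζ (g + g0)
  rw [← coeff_eq, ← E_mul hζ, ← coeff_eq]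
  change ((f : HahnSeries G (Matrix (ZMod r) (ZMod r) B)) * single g0 (E r ζ g0 b)).coeff (g + g0) = _
  rw [coeff_mul_single_add]

theorem cf_mono_mul (f : S B hζ) (g g0 : G) (b : B) : cf hζ (mono hζ g0 b * f) (g0 + g) =
    b * cf hζ f g * algebraMap K B (ζ ^ (-(fs g * sn g0))) := by
  apply E_inj r ζ (g0 + g)
  rw [← coeff_eq, ← E_mul hζ, ← coeff_eq]
  change (single g0 (E r ζ g0 b) * (f : HahnSeries G (Matrix (ZMod r) (ZMod r) B))).coeff (g0 + g) = _
  rw [add_comm g0 g, coeff_single_mul_add]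

/-! ### domain -/

instance : Nontrivial (S B hζ) := inferInstance

theorem S_noZeroDivisors : NoZeroDivisors (S B hζ) := by
  constructor
  intro f f' h
  by_contra hc
  push Not at hc
  obtain ⟨h1, h2⟩ := hc
  have h1' : (f : HahnSeries G (Matrix (ZMod r) (ZMod r) B)) ≠ 0 := fun h => h1 (Subtype.ext h)
  have h2' : (f' : HahnSeries G (Matrix (ZMod r) (ZMod r) B)) ≠ 0 := fun h => h2 (Subtype.ext h)
  have h3 := coeff_mul_order_add_order (f : HahnSeries G (Matrix (ZMod r) (ZMod r) B)) (f' : HahnSeries G _)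
  rw [show (f : HahnSeries G (Matrix (ZMod r) (ZMod r) B)) * f' = 0 from congrArg Subtype.val h,
    coeff_zero, leadingCoeff_eq, leadingCoeff_eq, coeff_eq, coeff_eq, E_mul hζ] at h3
  have h4 := (E_eq_zero r ζ _).1 h3.symm
  have h0 : ζ ≠ 0 := hζ.ne_zero (NeZero.ne r)
  have h5 : cf hζ f (f : HahnSeries G (Matrix (ZMod r) (ZMod r) B)).order ≠ 0 := by
    rw [ne_eq, ← coeff_ne_zero_iff, coeff_order_eq_zero]; exact h1'
  have h6 : cf hζ f' (f' : HahnSeries G (Matrix (ZMod r) (ZMod r) B)).order ≠ 0 := by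
    rw [ne_eq, ← coeff_ne_zero_iff, coeff_order_eq_zero]; exact h2'
  refine mul_ne_zero (mul_ne_zero h5 h6) ?_ h4
  rw [ne_eq, map_eq_zero]
  exact zpow_ne_zero _ h0

/-! ### supports -/

/-- restriction of a support along an increasing map -/
theorem isPWO_comap {s : Set G} (hs : s.IsPWO) (φ : G → G) (hφ : ∀ a b, a < b → φ a < φ b) :
    (φ ⁻¹' s).IsPWO := by
  rw [Set.isPWO_iff_isWF] at hs ⊢
  have h1 : (φ ⁻¹' s).WellFoundedOn (Function.onFun (· < ·) φ) :=
    Set.WellFoundedOn.mapsTo φ (fun x hx => hx) hs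
  exact h1.mono (fun a b h => hφ a b h) subset_rfl

theorem scale_lt {a b : G} (h : a < b) : scale r a < scale r b :=
  lt_of_le_of_ne ((scale_le a b).2 h.le) (fun h' => h.ne (scale_inj h'))

/-! ### the algebra structure -/

variable (B) in
/-- `B1` is an algebra over `K1` -/
abbrev algS : Algebra (HahnSeries G K) (S B hζ) := (emb B hζ).toAlgebra' (emb_central hζ)

theorem smul_def' (x : HahnSeries G K) (f : S B hζ) :
    letI := algS B hζ
    x • f = emb B hζ x * f := rfl

/-- additive version of `cf` -/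
def cfH (g : G) : S B hζ →+ B where
  toFun f := cf hζ f g
  map_zero' := by simp [cf]
  map_add' f f' := cf_add hζ f f' g

theorem cf_emb_mul (x : HahnSeries G K) (g g0 : G) (b : B) :
    cf hζ (emb B hζ x * mono hζ g0 b) (r • g + g0) = x.coeff g • b := by
  rw [cf_mul_mono, cf_emb, sn_nsmul]
  have h1 : ζ ^ (-(fs g0 * ((r : ℤ) * sn g))) = 1 := by
    rw [show -(fs g0 * ((r : ℤ) * sn g)) = (r : ℤ) * (-(fs g0 * sn g)) by ring, zpow_mul,
      zpow_natCast, hζ.pow_eq_one, one_zpow]
  rw [h1, map_one, mul_one, Algebra.smul_def]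

theorem cf_emb_mul_ne (x : HahnSeries G K) (g1 g0 : G) (b : B) (h : ∀ g', g1 ≠ r • g' + g0) :
    cf hζ (emb B hζ x * mono hζ g0 b) g1 = 0 := by
  have h1 : g1 = (g1 - g0) + g0 := by abel
  rw [h1, cf_mul_mono, cf_emb_ne, zero_mul, zero_mul]
  intro g' hg'
  exact h g' (by rw [← hg']; abel)

section Basis

variable {ι : Type} [Fintype ι] (b : Module.Basis ι K B)

/-- the candidate basis -/
def tvec (t : ι × Fin r × Fin r) : S B hζ := mono hζ (mkG (t.2.1 : ℕ) (t.2.2 : ℕ)) (b t.1)

theorem cf_sum (c : ι × Fin r × Fin r → HahnSeries G K) (g : G) (j k : Fin r) :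
    cf hζ (∑ t, emb B hζ (c t) * tvec hζ b t) (r • g + mkG (j : ℕ) (k : ℕ)) =
      ∑ i, (c (i, j, k)).coeff g • b i := by
  classical
  have h1 : cf hζ (∑ t, emb B hζ (c t) * tvec hζ b t) (r • g + mkG (j : ℕ) (k : ℕ)) =
      ∑ t, cf hζ (emb B hζ (c t) * tvec hζ b t) (r • g + mkG (j : ℕ) (k : ℕ)) :=
    map_sum (cfH hζ (r • g + mkG (j : ℕ) (k : ℕ))) _ _
  rw [h1, Fintype.sum_prod_type]
  refine Finset.sum_congr rfl fun i _ => ?_
  rw [Finset.sum_eq_single (j, k)]
  · rw [tvec, cf_emb_mul]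
  · rintro ⟨j', k'⟩ _ hne
    rw [tvec]
    apply cf_emb_mul_ne
    intro g' hg'
    apply hne
    have h2 := congrArg fs hg'
    have h3 := congrArg sn hg'
    simp only [fs_add, fs_nsmul, fs_mk, sn_add, sn_nsmul, sn_mk] at h2 h3
    have hr : (0 : ℤ) < r := by exact_mod_cast Nat.pos_of_ne_zero (NeZero.ne r)
    have aux : ∀ (x y : ℤ) (a c : Fin r), (r : ℤ) * x + ((a : ℕ) : ℤ) = (r : ℤ) * y + ((c : ℕ) : ℤ) →
        c = a := by
      intro x y a c h
      have ha := a.2
      have hc := c.2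
      have h4 : ((a : ℕ) : ℤ) % r = ((c : ℕ) : ℤ) % r := by
        have h5 : ((r : ℤ) * x + ((a : ℕ) : ℤ)) % r = ((r : ℤ) * y + ((c : ℕ) : ℤ)) % r := by rw [h]
        rwa [Int.add_comm, Int.add_mul_emod_self_left, Int.add_comm ((r : ℤ) * y),
          Int.add_mul_emod_self_left] at h5
      rw [Int.emod_eq_of_lt (by positivity) (by exact_mod_cast ha),
        Int.emod_eq_of_lt (by positivity) (by exact_mod_cast hc)] at h4
      apply Fin.ext
      exact_mod_cast h4.symm
    exact Prod.ext (aux _ _ _ _ h2) (aux _ _ _ _ h3)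
  · intro h; exact absurd (Finset.mem_univ _) h

theorem exists_rep (g : G) : ∃ (g' : G) (j k : Fin r), g = r • g' + mkG (j : ℕ) (k : ℕ) := by
  have hr : (0 : ℤ) < r := by exact_mod_cast Nat.pos_of_ne_zero (NeZero.ne r)
  have aux : ∀ x : ℤ, ∃ (q : ℤ) (j : Fin r), x = r * q + ((j : ℕ) : ℤ) := by
    intro x
    have h1 := Int.emod_nonneg x hr.ne'
    have h2 := Int.emod_lt_of_pos x hr
    refine ⟨x / r, ⟨(x % r).toNat, by omega⟩, ?_⟩
    simp only
    rw [Int.toNat_of_nonneg h1]
    exact (Int.mul_ediv_add_emod x r).symm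
  obtain ⟨q, j, h1⟩ := aux (fs g)
  obtain ⟨q', k, h2⟩ := aux (sn g)
  refine ⟨mkG q q', j, k, G_ext ?_ ?_⟩
  · rw [fs_add, fs_nsmul, fs_mk, fs_mk, h1]
  · rw [sn_add, sn_nsmul, sn_mk, sn_mk, h2]

theorem tvec_linearIndependent :
    letI := algS B hζ
    LinearIndependent (HahnSeries G K) (tvec hζ b) := by
  letI := algS B hζ
  rw [Fintype.linearIndependent_iff]
  intro c hc t
  obtain ⟨i, j, k⟩ := t
  ext g
  have h1 := cf_sum hζ b c g j k
  have h2 : ∑ t, emb B hζ (c t) * tvec hζ b t = 0 := hc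
  rw [h2] at h1
  have h3 : ∑ i, (c (i, j, k)).coeff g • b i = 0 := by
    rw [← h1]; simp [cf]
  exact Fintype.linearIndependent_iff.1 b.linearIndependent _ h3 i

theorem tvec_span :
    letI := algS B hζ
    ⊤ ≤ Submodule.span (HahnSeries G K) (Set.range (tvec hζ b)) := by
  letI := algS B hζ
  intro f _
  let c : ι × Fin r × Fin r → HahnSeries G K := fun t =>
    { coeff := fun g => b.repr (cf hζ f (r • g + mkG (t.2.1 : ℕ) (t.2.2 : ℕ))) t.1
      isPWO_support' := by
        have h1 := isPWO_comap (f : HahnSeries G (Matrix (ZMod r) (ZMod r) B)).isPWO_support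
          (fun g => scale r g + mkG (t.2.1 : ℕ) (t.2.2 : ℕ))
          (fun a b h => add_lt_add_left (scale_lt h) _)
        refine h1.mono ?_
        intro g hg
        rw [Function.mem_support] at hg
        change (f : HahnSeries G (Matrix (ZMod r) (ZMod r) B)).coeff _ ≠ 0
        rw [ne_eq, coeff_ne_zero_iff]
        intro h
        apply hg
        change cf hζ f (r • g + mkG (t.2.1 : ℕ) (t.2.2 : ℕ)) = 0 at h
        rw [h]; simp }
  have h2 : f = ∑ t, emb B hζ (c t) * tvec hζ b t := by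
    apply cf_ext
    intro g
    obtain ⟨g', j, k, rfl⟩ := exists_rep (r := r) g
    rw [cf_sum]
    exact (b.sum_repr _).symm
  rw [h2]
  refine Submodule.sum_mem _ fun t _ => ?_
  exact Submodule.smul_mem _ (c t) (Submodule.subset_span ⟨t, rfl⟩)

theorem exists_basis :
    letI := algS B hζ
    ∃ b1 : Module.Basis (ι × Fin r × Fin r) (HahnSeries G K) (S B hζ),
      ∀ x, b1 x = jB hζ (b x.1) * (u B hζ ^ (x.2.1 : ℕ) * v B hζ ^ (x.2.2 : ℕ)) := by
  letI := algS B hζ
  refine ⟨Module.Basis.mk (tvec_linearIndependent hζ b) (tvec_span hζ b), fun x => ?_⟩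
  rw [Module.Basis.mk_apply, jB_mul_uv]
  rfl

end Basis

/-! ### the centre -/

theorem central_S (central : ∀ a : B, (∀ b, a * b = b * a) → ∃ k, algebraMap K B k = a)
    (f : S B hζ) (hf : ∀ f', f * f' = f' * f) : ∃ k, emb B hζ k = f := by
  have h0 : ζ ≠ 0 := hζ.ne_zero (NeZero.ne r)
  have hc : ∀ g, ∃ k, algebraMap K B k = cf hζ f g := by
    intro g
    apply central
    intro b
    have h1 := congrArg (fun x => cf hζ x g) (hf (mono hζ 0 b))
    have h2 := cf_mul_mono hζ f g 0 b
    have h3 := cf_mono_mul hζ f g 0 b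
    rw [add_zero] at h2
    rw [zero_add] at h3
    rw [h2, h3] at h1
    simpa using h1
  have hu : ∀ g, (∀ g', g ≠ r • g') → cf hζ f g = 0 := by
    intro g hg
    by_contra hne
    apply hg (mkG (fs g / r) (sn g / r))
    have h1 : ((sn g : ℤ) : ℤ) % r = 0 := by
      have h1 := congrArg (fun x => cf hζ x (g + mkG 1 0)) (hf (mono hζ (mkG 1 0) 1))
      have h2 := cf_mul_mono hζ f g (mkG 1 0) 1
      have h3 := cf_mono_mul hζ f g (mkG 1 0) 1
      rw [add_comm (mkG 1 0) g] at h3
      rw [h2, h3] at h1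
      simp only [fs_mk, sn_mk, mul_zero, neg_zero, zpow_zero, map_one, mul_one, one_mul] at h1
      have h4 := mul_left_cancel₀ hne (h1.trans (mul_one _).symm)
      have h5 : ζ ^ (-(sn g)) = 1 := by
        apply (algebraMap K B).injective
        rw [h4, map_one]
      rw [hζ.zpow_eq_one_iff_dvd] at h5
      exact Int.emod_eq_zero_of_dvd ((dvd_neg).1 h5)
    have h2 : ((fs g : ℤ) : ℤ) % r = 0 := by
      have h1 := congrArg (fun x => cf hζ x (g + mkG 0 1)) (hf (mono hζ (mkG 0 1) 1))
      have h2 := cf_mul_mono hζ f g (mkG 0 1) 1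
      have h3 := cf_mono_mul hζ f g (mkG 0 1) 1
      rw [add_comm (mkG 0 1) g] at h3
      rw [h2, h3] at h1
      simp only [fs_mk, sn_mk, zero_mul, neg_zero, zpow_zero, map_one, mul_one, one_mul] at h1
      have h4 := mul_left_cancel₀ hne (h1.symm.trans (mul_one _).symm)
      have h5 : ζ ^ (-(fs g)) = 1 := by
        apply (algebraMap K B).injective
        rw [h4, map_one]
      rw [hζ.zpow_eq_one_iff_dvd] at h5
      exact Int.emod_eq_zero_of_dvd ((dvd_neg).1 h5)
    apply G_ext
    · rw [fs_nsmul, fs_mk]; exact (Int.mul_ediv_cancel' (Int.dvd_of_emod_eq_zero h2)).symm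
    · rw [sn_nsmul, sn_mk]; exact (Int.mul_ediv_cancel' (Int.dvd_of_emod_eq_zero h1)).symm
  choose k hk using hc
  have hsupp : (Function.support fun g => k (r • g)).IsPWO := by
    have h1 := isPWO_comap (f : HahnSeries G (Matrix (ZMod r) (ZMod r) B)).isPWO_support
      (fun g => scale r g) (fun a b h => scale_lt h)
    refine h1.mono ?_
    intro g hg
    rw [Function.mem_support] at hg
    change (f : HahnSeries G (Matrix (ZMod r) (ZMod r) B)).coeff _ ≠ 0
    rw [ne_eq, coeff_ne_zero_iff]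
    intro h
    apply hg
    change cf hζ f (r • g) = 0 at h
    rw [← hk, map_eq_zero] at h
    exact h
  refine ⟨⟨fun g => k (r • g), hsupp⟩, ?_⟩
  apply cf_ext
  intro g
  by_cases h : ∃ g', g = r • g'
  · obtain ⟨g', rfl⟩ := h
    rw [cf_emb, hk]
  · push Not at h
    rw [cf_emb_ne _ _ _ h, hu g h]

theorem S_isDomain : IsDomain (S B hζ) :=
  haveI := S_noZeroDivisors (B := B) hζ
  NoZeroDivisors.to_isDomain _

theorem S_fin [FiniteDimensional K B] :
    letI := algS B hζ
    FiniteDimensional (HahnSeries G K) (S B hζ) := by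
  letI := algS B hζ
  obtain ⟨b1, -⟩ := exists_basis hζ (Module.finBasis K B)
  exact Module.Finite.of_basis b1

/-- the division ring structure -/
@[reducible] def divS [FiniteDimensional K B] : DivisionRing (S B hζ) :=
  letI := algS B hζ
  haveI := S_isDomain (B := B) hζ
  haveI := S_fin (B := B) hζ
  divisionRingOfFiniteDimensional (HahnSeries G K) (S B hζ)

theorem charZero_K1 [CharZero K] : CharZero (HahnSeries G K) :=
  charZero_of_injective_ringHom (C_injective (Γ := G) (R := K))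


end Ring

end Vale.P199.QX
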