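import Mathlib

/-!
# P199, B4 (abstract part): symbol algebras inside a division ring

`w s = q s w`, `q` a primitive `r`-th root of unity, `w^r` central; eigenprojections of conjugation by `w`.
-/

namespace Vale.P199

open Finset

namespace Sym

variable {F R : Type*} [Field F] [DivisionRing R] [Algebra F R]

/-- `w ≠ 0`, `w^r` central, `q` primitive `r`-th root of unity, `r ≥ 1`. -/
structure Grad (F : Type*) {R : Type*} [Field F] [DivisionRing R] [Algebra F R]
    (r : ℕ) (q : F) (w : R) : Prop where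
  pos : 0 < r
  prim : IsPrimitiveRoot q r
  w0 : w ≠ 0
  wr : ∀ x : R, w ^ r * x = x * w ^ r

/-- the projection on the eigenspace `w x w⁻¹ = q^i x` -/
noncomputable def pj (r : ℕ) (q : F) (w : R) (i : ℕ) (x : R) : R :=
  (r : F)⁻¹ • ∑ t ∈ range r, ((q ^ (i * t))⁻¹ : F) • (w ^ t * x * (w ^ t)⁻¹)

section pj
variable (r : ℕ) (q : F) (w : R) (i : ℕ)

theorem pj_add (x y : R) : pj r q w i (x + y) = pj r q w i x + pj r q w i y := by
  simp only [pj, mul_add, add_mul, smul_add, sum_add_distrib]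

@[simp] theorem pj_zero : pj r q w i (0 : R) = 0 := by simp [pj]

theorem pj_smul (c : F) (x : R) : pj r q w i (c • x) = c • pj r q w i x := by
  simp only [pj, mul_smul_comm, smul_mul_assoc, smul_sum, smul_comm c]

/-- as a linear map -/
noncomputable def pjL : R →ₗ[F] R where
  toFun := pj r q w i
  map_add' := pj_add r q w i
  map_smul' := pj_smul r q w i

@[simp] theorem pjL_apply (x : R) : pjL r q w i x = pj r q w i x := rfl

theorem pj_sum {ι : Type*} (s : Finset ι) (f : ι → R) :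
    pj r q w i (∑ j ∈ s, f j) = ∑ j ∈ s, pj r q w i (f j) := map_sum (pjL r q w i) f s

theorem pj_neg (x : R) : pj r q w i (-x) = - pj r q w i x := map_neg (pjL r q w i) x

theorem pj_sub (x y : R) : pj r q w i (x - y) = pj r q w i x - pj r q w i y :=
  map_sub (pjL r q w i) x y

end pj

variable {r : ℕ} {q : F} {w : R}

theorem Grad.q0 (h : Grad F r q w) : q ≠ 0 := h.prim.ne_zero h.pos.ne'

theorem Grad.r0 [CharZero F] (h : Grad F r q w) : (r : F) ≠ 0 := by
  exact_mod_cast h.pos.ne'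

/-- `w^t s = q^t s w^t` -/
theorem pow_rel {s : R} (hs : w * s = q • (s * w)) (t : ℕ) : w ^ t * s = q ^ t • (s * w ^ t) := by
  induction t with
  | zero => simp
  | succ t ih =>
    rw [pow_succ', mul_assoc, ih, mul_smul_comm, ← mul_assoc, hs, smul_mul_assoc, smul_smul,
      mul_assoc, ← pow_succ', ← pow_succ]

theorem conj_pow_rel {s : R} (hs : w * s = q • (s * w)) (t : ℕ) (x : R) :
    w ^ t * (s * x) * (w ^ t)⁻¹ = q ^ t • (s * (w ^ t * x * (w ^ t)⁻¹)) := by
  rw [← mul_assoc, pow_rel hs, smul_mul_assoc, smul_mul_assoc]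
  simp only [mul_assoc]

theorem conj_pow_rel' (h0 : w ≠ 0) {s : R} (hs : w * s = q • (s * w)) (t : ℕ) (x : R) :
    w ^ t * (x * s) * (w ^ t)⁻¹ = q ^ t • ((w ^ t * x * (w ^ t)⁻¹) * s) := by
  have hw : w ^ t ≠ 0 := pow_ne_zero _ h0
  have h1 : s * (w ^ t)⁻¹ = q ^ t • ((w ^ t)⁻¹ * s) := by
    have h2 := congrArg (fun y => (w ^ t)⁻¹ * y * (w ^ t)⁻¹) (pow_rel hs t)
    simp only [mul_smul_comm, smul_mul_assoc] at h2
    rw [← mul_assoc, inv_mul_cancel₀ hw, one_mul] at h2
    rw [h2]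
    congr 1
    rw [mul_assoc, mul_assoc, mul_inv_cancel₀ hw, mul_one]
  calc w ^ t * (x * s) * (w ^ t)⁻¹ = w ^ t * x * (s * (w ^ t)⁻¹) := by simp only [mul_assoc]
    _ = _ := by rw [h1, mul_smul_comm]; simp only [mul_assoc]

/-- left multiplication by something commuting with `w` -/
theorem pj_mul_left (i : ℕ) {e : R} (he : w * e = e * w) (x : R) :
    pj r q w i (e * x) = e * pj r q w i x := by
  have h : ∀ t : ℕ, w ^ t * (e * x) * (w ^ t)⁻¹ = e * (w ^ t * x * (w ^ t)⁻¹) := by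
    intro t
    have h1 : w ^ t * e = e * w ^ t := ((Commute.pow_left (show Commute w e from he) t)).eq
    rw [← mul_assoc, h1]; simp only [mul_assoc]
  simp only [pj, h, mul_smul_comm, mul_sum]

theorem pj_mul_right (i : ℕ) {e : R} (he : w * e = e * w) (x : R) :
    pj r q w i (x * e) = pj r q w i x * e := by
  have h : ∀ t : ℕ, w ^ t * (x * e) * (w ^ t)⁻¹ = (w ^ t * x * (w ^ t)⁻¹) * e := by
    intro t
    have h1 : Commute (w ^ t) e := Commute.pow_left (show Commute w e from he) t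
    have h2 : Commute ((w ^ t)⁻¹) e := h1.inv_left₀
    calc w ^ t * (x * e) * (w ^ t)⁻¹ = w ^ t * x * (e * (w ^ t)⁻¹) := by simp only [mul_assoc]
      _ = w ^ t * x * ((w ^ t)⁻¹ * e) := by rw [h2.eq]
      _ = _ := by simp only [mul_assoc]
  simp only [pj, h, smul_mul_assoc, sum_mul]

theorem pj_succ_mul_left (hG : Grad F r q w) (i : ℕ) {s : R} (hs : w * s = q • (s * w)) (x : R) :
    pj r q w (i + 1) (s * x) = s * pj r q w i x := by
  simp only [pj, conj_pow_rel hs, mul_smul_comm, mul_sum, smul_smul]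
  congr 1
  refine sum_congr rfl fun t _ => ?_
  congr 1
  rw [add_mul, one_mul, pow_add]
  have := hG.q0
  field_simp

theorem pj_succ_mul_right (hG : Grad F r q w) (i : ℕ) {s : R} (hs : w * s = q • (s * w)) (x : R) :
    pj r q w (i + 1) (x * s) = pj r q w i x * s := by
  simp only [pj, conj_pow_rel' hG.w0 hs, smul_mul_assoc, sum_mul, smul_smul]
  congr 1
  refine sum_congr rfl fun t _ => ?_
  congr 1
  rw [add_mul, one_mul, pow_add]
  have := hG.q0
  field_simp

/-- orthogonality -/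
theorem sum_pow_inv (hG : Grad F r q w) {t : ℕ} (ht : t < r) :
    ∑ i ∈ range r, (q ^ (i * t))⁻¹ = if t = 0 then (r : F) else 0 := by
  split_ifs with h
  · subst h; simp
  · have h1 : (q ^ t)⁻¹ ≠ 1 := by
      intro h2
      rw [inv_eq_one] at h2
      exact hG.prim.pow_ne_one_of_pos_of_lt h ht h2
    have h2 : ∑ i ∈ range r, (q ^ (i * t))⁻¹ = ∑ i ∈ range r, ((q ^ t)⁻¹) ^ i := by
      refine sum_congr rfl fun i _ => ?_
      rw [inv_pow, ← pow_mul, mul_comm]
    rw [h2, geom_sum_eq h1]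
    have h3 : ((q ^ t)⁻¹) ^ r = 1 := by
      rw [inv_pow, ← pow_mul, mul_comm, pow_mul, hG.prim.pow_eq_one, one_pow, inv_one]
    rw [h3, sub_self, zero_div]

theorem sum_pj [CharZero F] (hG : Grad F r q w) (x : R) : ∑ i ∈ range r, pj r q w i x = x := by
  have h1 : ∑ i ∈ range r, pj r q w i x =
      (r : F)⁻¹ • ∑ t ∈ range r, (∑ i ∈ range r, (q ^ (i * t))⁻¹) • (w ^ t * x * (w ^ t)⁻¹) := by
    simp only [pj, ← smul_sum]
    rw [sum_comm]
    simp only [sum_smul]
  rw [h1, sum_eq_single 0]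
  · rw [sum_pow_inv hG hG.pos, if_pos rfl, smul_smul, inv_mul_cancel₀ hG.r0]
    simp
  · intro t ht h0
    rw [sum_pow_inv hG (mem_range.mp ht), if_neg h0, zero_smul]
  · intro h
    exact absurd (mem_range.mpr hG.pos) h

/-- `pj i x` is an eigenvector -/
theorem w_mul_pj (hG : Grad F r q w) (i : ℕ) (x : R) :
    w * pj r q w i x = q ^ i • (pj r q w i x * w) := by
  set g : ℕ → R := fun t => ((q ^ (i * t))⁻¹ : F) • (w ^ t * x * (w ^ t)⁻¹) with hg
  have hq := hG.q0
  have hw := hG.w0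
  have h1 : ∀ t, w * g t = q ^ i • (g (t + 1) * w) := by
    intro t
    have h3 : w * (w ^ t * x * (w ^ t)⁻¹) = (w ^ (t + 1) * x * (w ^ (t + 1))⁻¹) * w := by
      have h4 : (w ^ (t + 1))⁻¹ * w = (w ^ t)⁻¹ := by
        rw [pow_succ', mul_inv_rev, mul_assoc, inv_mul_cancel₀ hw, mul_one]
      calc w * (w ^ t * x * (w ^ t)⁻¹) = (w * w ^ t) * x * (w ^ t)⁻¹ := by simp only [mul_assoc]
        _ = w ^ (t + 1) * x * ((w ^ (t + 1))⁻¹ * w) := by rw [h4, pow_succ']
        _ = _ := by simp only [mul_assoc]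
    simp only [hg, mul_smul_comm, smul_mul_assoc, h3, smul_smul]
    congr 1
    rw [mul_add, mul_one, pow_add]
    field_simp
  have h2 : g r = g 0 := by
    simp only [hg, mul_zero, pow_zero, inv_one, one_smul, one_mul, mul_one]
    have h5 : q ^ (i * r) = 1 := by rw [mul_comm, pow_mul, hG.prim.pow_eq_one, one_pow]
    rw [h5, inv_one, one_smul, hG.wr, mul_assoc, mul_inv_cancel₀ (pow_ne_zero _ hw), mul_one]
  have h3 : ∑ t ∈ range r, g (t + 1) = ∑ t ∈ range r, g t := by
    have h6 := sum_range_succ g r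
    rw [sum_range_succ' g r, h2] at h6
    exact add_right_cancel h6
  have h7 : pj r q w i x = (r : F)⁻¹ • ∑ t ∈ range r, g t := rfl
  rw [h7, mul_smul_comm, mul_sum, sum_congr rfl fun t _ => h1 t, ← smul_sum, ← sum_mul, h3,
    smul_mul_assoc, smul_comm]

/-- `pj` on an eigenvector -/
theorem pj_of_eigen [CharZero F] (hG : Grad F r q w) {i j : ℕ} (hi : i < r) (hj : j < r) {y : R}
    (hy : w * y = q ^ i • (y * w)) : pj r q w j y = if i = j then y else 0 := by
  have hq := hG.q0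
  have hw := hG.w0
  have h1 : ∀ t : ℕ, w ^ t * y * (w ^ t)⁻¹ = q ^ (i * t) • y := by
    intro t
    have h2 : w ^ t * y = q ^ (i * t) • (y * w ^ t) := by
      rw [pow_rel hy t, ← pow_mul]
    rw [h2, smul_mul_assoc, mul_assoc, mul_inv_cancel₀ (pow_ne_zero _ hw), mul_one]
  simp only [pj, h1, smul_smul, ← sum_smul]
  split_ifs with h
  · subst h
    have : ∑ t ∈ range r, (q ^ (i * t))⁻¹ * q ^ (i * t) = (r : F) := by
      rw [sum_congr rfl fun t _ => inv_mul_cancel₀ (pow_ne_zero _ hq)]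
      simp
    rw [this, inv_mul_cancel₀ hG.r0, one_smul]
  · have h2 : ∑ t ∈ range r, (q ^ (j * t))⁻¹ * q ^ (i * t) = 0 := by
      have h3 : ∑ t ∈ range r, (q ^ (j * t))⁻¹ * q ^ (i * t) =
          ∑ t ∈ range r, ((q ^ j)⁻¹ * q ^ i) ^ t := by
        refine sum_congr rfl fun t _ => ?_
        rw [mul_pow, inv_pow, ← pow_mul, ← pow_mul]
      have h4 : (q ^ j)⁻¹ * q ^ i ≠ 1 := by
        intro h5
        have h6 : q ^ j = q ^ i := by
          rwa [inv_mul_eq_one₀ (pow_ne_zero _ hq)] at h5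
        exact h (hG.prim.pow_inj hi hj h6.symm)
      rw [h3, geom_sum_eq h4]
      have h5 : ((q ^ j)⁻¹ * q ^ i) ^ r = 1 := by
        rw [mul_pow, inv_pow, ← pow_mul, ← pow_mul, mul_comm j, mul_comm i, pow_mul, pow_mul,
          hG.prim.pow_eq_one, one_pow, one_pow, inv_one, one_mul]
      rw [h5, sub_self, zero_div]
    rw [h2, mul_zero, zero_smul]

/-- `pj` preserves the eigenvectors of conjugation by an element `s` that commutes with `w` up to a scalar -/
theorem rel_pj {s : R} (h0 : w ≠ 0) {p c : F} (hp : p ≠ 0) (hsw : w * s = p • (s * w)) (i : ℕ) {x : R}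
    (hx : s * x = c • (x * s)) : s * pj r q w i x = c • (pj r q w i x * s) := by
  have h : ∀ t : ℕ, s * (w ^ t * x * (w ^ t)⁻¹) = c • ((w ^ t * x * (w ^ t)⁻¹) * s) := by
    intro t
    have h1 := conj_pow_rel hsw t x
    have h2 := conj_pow_rel' h0 hsw t x
    have h3 : p ^ t ≠ 0 := pow_ne_zero _ hp
    rw [hx, mul_smul_comm, smul_mul_assoc, h2] at h1
    have h4 := congrArg (fun y => (p ^ t)⁻¹ • y) h1
    simp only [smul_smul] at h4
    rw [inv_mul_cancel₀ h3, one_smul] at h4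
    rw [← h4]
    congr 1
    field_simp
  simp only [pj, mul_smul_comm, smul_mul_assoc, mul_sum, sum_mul, h, smul_sum]
  refine sum_congr rfl fun t _ => ?_
  rw [smul_comm c, smul_comm c]

theorem commute_pj {s : R} (hs : w * s = s * w) (i : ℕ) {x : R} (hx : s * x = x * s) :
    s * pj r q w i x = pj r q w i x * s := by
  rw [← pj_mul_left i hs, hx, pj_mul_right i hs]

/-! ### iterated shifts -/

theorem pj_add_mul_pow (hG : Grad F r q w) (i : ℕ) {s : R} (hs : w * s = q • (s * w)) (x : R) (n : ℕ) :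
    pj r q w (i + n) (x * s ^ n) = pj r q w i x * s ^ n := by
  induction n with
  | zero => simp
  | succ n ih =>
    rw [pow_succ, ← mul_assoc, ← add_assoc, pj_succ_mul_right hG _ hs, ih, mul_assoc]

theorem pj_mul_inv_pow (hG : Grad F r q w) {s : R} (h0 : s ≠ 0) (hs : w * s = q • (s * w)) (x : R)
    (n : ℕ) : pj r q w 0 (x * (s ^ n)⁻¹) = pj r q w n x * (s ^ n)⁻¹ := by
  have h1 := pj_add_mul_pow hG 0 hs (x * (s ^ n)⁻¹) n
  have h2 : s ^ n ≠ 0 := pow_ne_zero _ h0
  rw [mul_assoc, inv_mul_cancel₀ h2, mul_one, zero_add] at h1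
  rw [h1, mul_assoc, mul_inv_cancel₀ h2, mul_one]

/-! ### q-binomial formula -/

/-- q-binomial coefficients -/
def qb {F : Type*} [Field F] (q : F) : ℕ → ℕ → F
  | 0, 0 => 1
  | 0, _ + 1 => 0
  | _ + 1, 0 => 1
  | k + 1, i + 1 => qb q k i + q ^ (i + 1) * qb q k (i + 1)

@[simp] theorem qb_zero (q : F) (k : ℕ) : qb q k 0 = 1 := by cases k <;> rfl

theorem qb_succ (q : F) (k i : ℕ) : qb q (k + 1) (i + 1) = qb q k i + q ^ (i + 1) * qb q k (i + 1) := rfl

theorem qb_eq_zero (q : F) : ∀ {k i : ℕ}, k < i → qb q k i = 0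
  | 0, i + 1, _ => rfl
  | k + 1, i + 1, h => by
    rw [qb_succ, qb_eq_zero q (show k < i by omega), qb_eq_zero q (show k < i + 1 by omega), mul_zero,
      add_zero]

/-- q-number -/
def qn {F : Type*} [Field F] (q : F) (m : ℕ) : F := ∑ l ∈ range m, q ^ l
/-- q-factorial -/
def qf {F : Type*} [Field F] (q : F) (m : ℕ) : F := ∏ l ∈ range m, qn q (l + 1)

theorem qn_add (q : F) (i m : ℕ) : qn q (i + m) = qn q i + q ^ i * qn q m := by
  simp only [qn, sum_range_add, mul_sum, pow_add]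

theorem qf_succ (q : F) (m : ℕ) : qf q (m + 1) = qf q m * qn q (m + 1) := prod_range_succ _ _

theorem qb_mul (q : F) : ∀ k i m : ℕ, k = i + m → qb q k i * (qf q i * qf q m) = qf q k := by
  intro k
  induction k with
  | zero =>
    intro i m h
    obtain ⟨rfl, rfl⟩ : i = 0 ∧ m = 0 := by omega
    simp [qf]
  | succ k ih =>
    intro i m h
    cases i with
    | zero =>
      obtain rfl : m = k + 1 := by omega
      simp [qf]
    | succ i =>
      rw [qb_succ, add_mul]
      have h1 := ih i m (by omega)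
      have h2 : qb q k i * (qf q (i + 1) * qf q m) = qn q (i + 1) * qf q k := by
        rw [qf_succ, ← h1]; ring
      rw [h2]
      cases m with
      | zero =>
        obtain rfl : k = i := by omega
        rw [qb_eq_zero q (Nat.lt_succ_self k), mul_zero, zero_mul, add_zero, qf_succ, mul_comm]
      | succ m =>
        have h3 := ih (i + 1) m (by omega)
        have h4 : q ^ (i + 1) * qb q k (i + 1) * (qf q (i + 1) * qf q (m + 1)) =
            q ^ (i + 1) * qn q (m + 1) * qf q k := by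
          rw [qf_succ q m, ← h3]; ring
        have h5 : qn q (k + 1) = qn q (i + 1) + q ^ (i + 1) * qn q (m + 1) := by
          rw [← qn_add, h]
        rw [h4, qf_succ q k, h5]
        ring

theorem qn_ne_zero {q : F} (hq : IsPrimitiveRoot q r) {m : ℕ} (h0 : 0 < m) (hm : m < r) :
    qn q m ≠ 0 := by
  intro h
  have h1 := geom_sum_mul q m
  change qn q m * (q - 1) = q ^ m - 1 at h1
  rw [h, zero_mul] at h1
  exact hq.pow_ne_one_of_pos_of_lt h0.ne' hm (sub_eq_zero.mp h1.symm)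

theorem qf_ne_zero {q : F} (hq : IsPrimitiveRoot q r) {m : ℕ} (hm : m < r) : qf q m ≠ 0 := by
  rw [qf, prod_ne_zero_iff]
  intro l hl
  rw [mem_range] at hl
  exact qn_ne_zero hq (by omega) (by omega)

theorem qb_ne_zero {q : F} (hq : IsPrimitiveRoot q r) {k i : ℕ} (hk : k < r) (hi : i ≤ k) :
    qb q k i ≠ 0 := by
  intro h
  have h1 := qb_mul q k i (k - i) (by omega)
  rw [h, zero_mul] at h1
  exact qf_ne_zero hq hk h1.symm

theorem add_pow_q {q : F} {A B : R} (h : B * A = q • (A * B)) (k : ℕ) :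
    (A + B) ^ k = ∑ i ∈ range (k + 1), qb q k i • (A ^ i * B ^ (k - i)) := by
  induction k with
  | zero => simp
  | succ k ih =>
    have hB : ∀ i, B * A ^ i = q ^ i • (A ^ i * B) := by
      intro i
      induction i with
      | zero => simp
      | succ i ihi =>
        rw [pow_succ, ← mul_assoc, ihi, smul_mul_assoc, mul_assoc, h, mul_smul_comm, smul_smul,
          ← mul_assoc, ← pow_succ q]
    have h1 : ∀ i ∈ range (k + 1), (A + B) * (qb q k i • (A ^ i * B ^ (k - i))) =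
        qb q k i • (A ^ (i + 1) * B ^ (k - i)) + (q ^ i * qb q k i) • (A ^ i * B ^ (k + 1 - i)) := by
      intro i hi
      rw [mem_range] at hi
      rw [add_mul, mul_smul_comm, mul_smul_comm, ← mul_assoc, ← mul_assoc, hB, smul_mul_assoc, smul_smul,
        ← pow_succ', mul_comm (qb q k i) (q ^ i), mul_assoc (A ^ i) B, ← pow_succ',
        show k - i + 1 = k + 1 - i by omega]
    rw [pow_succ', ih, mul_sum, sum_congr rfl h1, sum_add_distrib]
    rw [sum_range_succ' (fun i => qb q (k + 1) i • (A ^ i * B ^ (k + 1 - i)))]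
    have h2 : ∑ i ∈ range (k + 1), qb q (k + 1) (i + 1) • (A ^ (i + 1) * B ^ (k + 1 - (i + 1))) =
        ∑ i ∈ range (k + 1), qb q k i • (A ^ (i + 1) * B ^ (k - i)) +
        ∑ i ∈ range (k + 1), (q ^ (i + 1) * qb q k (i + 1)) • (A ^ (i + 1) * B ^ (k - i)) := by
      rw [← sum_add_distrib]
      refine sum_congr rfl fun i _ => ?_
      rw [qb_succ, add_smul, show k + 1 - (i + 1) = k - i by omega]
    rw [h2, add_assoc]
    congr 1
    rw [sum_range_succ' (fun i => (q ^ i * qb q k i) • (A ^ i * B ^ (k + 1 - i)))]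
    rw [sum_range_succ (fun i => (q ^ (i + 1) * qb q k (i + 1)) • (A ^ (i + 1) * B ^ (k - i)))]
    rw [qb_eq_zero q (Nat.lt_succ_self k), mul_zero, zero_smul, add_zero]
    simp only [qb_zero, pow_zero, one_mul, Nat.sub_zero]
    congr 1
    refine sum_congr rfl fun i hi => ?_
    rw [mem_range] at hi
    rw [show k + 1 - (i + 1) = k - i by omega]

/-! ### symbol pairs -/

/-- a symbol pair: `u v = ζ v u`, `u^r`, `v^r` central -/
structure Pair (F : Type*) {R : Type*} [Field F] [DivisionRing R] [Algebra F R]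
    (r : ℕ) (ζ : F) (u v : R) : Prop where
  pos : 0 < r
  prim : IsPrimitiveRoot ζ r
  u0 : u ≠ 0
  v0 : v ≠ 0
  ur : ∀ x : R, u ^ r * x = x * u ^ r
  vr : ∀ x : R, v ^ r * x = x * v ^ r
  rel : u * v = ζ • (v * u)

variable {ζ : F} {u v : R}

theorem Pair.z0 (h : Pair F r ζ u v) : ζ ≠ 0 := h.prim.ne_zero h.pos.ne'

theorem Pair.gu (h : Pair F r ζ u v) : Grad F r ζ u := ⟨h.pos, h.prim, h.u0, h.ur⟩

theorem Pair.gv (h : Pair F r ζ u v) : Grad F r ζ⁻¹ v := ⟨h.pos, h.prim.inv, h.v0, h.vr⟩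

theorem Pair.rel' (h : Pair F r ζ u v) : v * u = ζ⁻¹ • (u * v) := by
  rw [h.rel, smul_smul, inv_mul_cancel₀ h.z0, one_smul]

theorem Pair.symm (h : Pair F r ζ u v) : Pair F r ζ⁻¹ v u :=
  ⟨h.pos, h.prim.inv, h.v0, h.u0, h.vr, h.ur, h.rel'⟩

/-- the component of degree `(0,0)` -/
noncomputable def P0 (F : Type*) {R : Type*} [Field F] [DivisionRing R] [Algebra F R]
    (r : ℕ) (ζ : F) (u v : R) : R →ₗ[F] R := (pjL r ζ u 0).comp (pjL r ζ⁻¹ v 0)

theorem P0_apply (x : R) : P0 F r ζ u v x = pj r ζ u 0 (pj r ζ⁻¹ v 0 x) := rfl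

/-- the coefficient of `u^i v^j` -/
noncomputable def coef (F : Type*) {R : Type*} [Field F] [DivisionRing R] [Algebra F R]
    (r : ℕ) (ζ : F) (u v : R) (i j : ℕ) (x : R) : R := P0 F r ζ u v (x * (u ^ i * v ^ j)⁻¹)

theorem coef_mul (h : Pair F r ζ u v) (i j : ℕ) (x : R) :
    coef F r ζ u v i j x * (u ^ i * v ^ j) = pj r ζ u j (pj r ζ⁻¹ v i x) := by
  have h1 : pj r ζ⁻¹ v 0 (x * (u ^ i * v ^ j)⁻¹) = pj r ζ⁻¹ v i x * (v ^ j)⁻¹ * (u ^ i)⁻¹ := by
    rw [mul_inv_rev, ← mul_assoc, pj_mul_inv_pow h.gv h.u0 h.rel']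
    congr 1
    exact pj_mul_right i (((Commute.refl v).pow_right j).inv_right₀).eq x
  have h2 : pj r ζ u 0 (pj r ζ⁻¹ v i x * (v ^ j)⁻¹ * (u ^ i)⁻¹) =
      pj r ζ u j (pj r ζ⁻¹ v i x) * (v ^ j)⁻¹ * (u ^ i)⁻¹ := by
    rw [pj_mul_right 0 (((Commute.refl u).pow_right i).inv_right₀).eq, pj_mul_inv_pow h.gu h.v0 h.rel]
  rw [coef, P0_apply, h1, h2, mul_assoc, mul_assoc, ← mul_assoc ((u ^ i)⁻¹),
    inv_mul_cancel₀ (pow_ne_zero _ h.u0), one_mul, inv_mul_cancel₀ (pow_ne_zero _ h.v0), mul_one]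

theorem sum_coef [CharZero F] (h : Pair F r ζ u v) (x : R) :
    ∑ i ∈ range r, ∑ j ∈ range r, coef F r ζ u v i j x * (u ^ i * v ^ j) = x := by
  simp only [coef_mul h, sum_pj h.gu, sum_pj h.gv]

theorem u_mul_P0 (h : Pair F r ζ u v) (x : R) : u * P0 F r ζ u v x = P0 F r ζ u v x * u := by
  rw [P0_apply]
  simpa using w_mul_pj h.gu 0 (pj r ζ⁻¹ v 0 x)

theorem v_mul_P0 (h : Pair F r ζ u v) (x : R) : v * P0 F r ζ u v x = P0 F r ζ u v x * v := by
  rw [P0_apply]
  have h1 : v * pj r ζ⁻¹ v 0 x = (1 : F) • (pj r ζ⁻¹ v 0 x * v) := by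
    simpa using w_mul_pj h.gv 0 x
  simpa using rel_pj h.u0 h.z0 h.rel 0 h1

/-- bimodule property -/
theorem P0_mul_left {e : R} (hu : u * e = e * u) (hv : v * e = e * v) (x : R) :
    P0 F r ζ u v (e * x) = e * P0 F r ζ u v x := by
  rw [P0_apply, pj_mul_left 0 hv, pj_mul_left 0 hu, P0_apply]

theorem P0_mul_right {e : R} (hu : u * e = e * u) (hv : v * e = e * v) (x : R) :
    P0 F r ζ u v (x * e) = P0 F r ζ u v x * e := by
  rw [P0_apply, pj_mul_right 0 hv, pj_mul_right 0 hu, P0_apply]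

theorem coef_mul_left {e : R} (hu : u * e = e * u) (hv : v * e = e * v) (i j : ℕ) (x : R) :
    coef F r ζ u v i j (e * x) = e * coef F r ζ u v i j x := by
  rw [coef, mul_assoc, P0_mul_left hu hv, coef]

theorem coef_commute {a : R} (hu : u * a = a * u) (hv : v * a = a * v) {x : R} (hx : a * x = x * a)
    (i j : ℕ) : a * coef F r ζ u v i j x = coef F r ζ u v i j x * a := by
  have h1 : Commute (u ^ i * v ^ j) a :=
    Commute.mul_left ((show Commute u a from hu).pow_left i) ((show Commute v a from hv).pow_left j)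
  rw [← coef_mul_left hu hv, hx, coef, coef, ← P0_mul_right hu hv, mul_assoc, mul_assoc,
    h1.inv_left₀.eq]

/-- eigenvector property of the monomials -/
theorem v_mul_mono (h : Pair F r ζ u v) {e : R} (hv : v * e = e * v) (i j : ℕ) :
    v * (e * (u ^ i * v ^ j)) = (ζ⁻¹) ^ i • (e * (u ^ i * v ^ j) * v) := by
  have h2 : ∀ i : ℕ, v * u ^ i = (ζ⁻¹) ^ i • (u ^ i * v) := by
    intro i
    induction i with
    | zero => simp
    | succ i ih =>
      rw [pow_succ, ← mul_assoc, ih, smul_mul_assoc, mul_assoc, h.rel', mul_smul_comm, smul_smul,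
        ← mul_assoc, ← pow_succ (ζ⁻¹)]
  calc v * (e * (u ^ i * v ^ j)) = e * ((v * u ^ i) * v ^ j) := by
        rw [← mul_assoc, hv]; simp only [mul_assoc]
    _ = (ζ⁻¹) ^ i • (e * (u ^ i * (v * v ^ j))) := by
        rw [h2 i, smul_mul_assoc, mul_smul_comm]; simp only [mul_assoc]
    _ = _ := by rw [← pow_succ', pow_succ]; simp only [mul_assoc]

theorem u_mul_mono (h : Pair F r ζ u v) {e : R} (hu : u * e = e * u) (i j : ℕ) :
    u * (e * (u ^ i * v ^ j)) = ζ ^ j • (e * (u ^ i * v ^ j) * u) := by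
  have h2 : u * v ^ j = ζ ^ j • (v ^ j * u) := by
    have h3 : ∀ j : ℕ, u * v ^ j = ζ ^ j • (v ^ j * u) := by
      intro j
      induction j with
      | zero => simp
      | succ j ih =>
        rw [pow_succ, ← mul_assoc, ih, smul_mul_assoc, mul_assoc, h.rel, mul_smul_comm, smul_smul,
          ← mul_assoc, ← pow_succ ζ]
    exact h3 j
  calc u * (e * (u ^ i * v ^ j)) = e * (u ^ i * (u * v ^ j)) := by
        rw [← mul_assoc, hu, mul_assoc, ← mul_assoc u, ← pow_succ', pow_succ]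
        simp only [mul_assoc]
    _ = _ := by rw [h2]; simp only [mul_smul_comm, mul_assoc]

theorem coef_mono [CharZero F] (h : Pair F r ζ u v) {e : R} (hu : u * e = e * u) (hv : v * e = e * v)
    {i j k l : ℕ} (hi : i < r) (hj : j < r) (hk : k < r) (hl : l < r) :
    coef F r ζ u v k l (e * (u ^ i * v ^ j)) = if i = k ∧ j = l then e else 0 := by
  have hne : u ^ k * v ^ l ≠ 0 := mul_ne_zero (pow_ne_zero _ h.u0) (pow_ne_zero _ h.v0)
  have h1 := coef_mul h k l (e * (u ^ i * v ^ j))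
  rw [pj_of_eigen h.gv hi hk (v_mul_mono h hv i j)] at h1
  by_cases hik : i = k
  · rw [if_pos hik, pj_of_eigen h.gu hj hl (u_mul_mono h hu i j)] at h1
    by_cases hjl : j = l
    · subst hik; subst hjl
      rw [if_pos rfl] at h1
      rw [if_pos ⟨rfl, rfl⟩]
      exact mul_right_cancel₀ hne h1
    · rw [if_neg hjl] at h1
      rw [if_neg (fun h => hjl h.2)]
      exact (mul_eq_zero.mp h1).resolve_right hne
  · rw [if_neg hik, pj_zero] at h1
    rw [if_neg (fun h => hik h.1)]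
    exact (mul_eq_zero.mp h1).resolve_right hne

/-! ### powers of `X = w₁ u + w₂ v` and its commutant -/

section X
variable {w₁ w₂ : R}

/-- the standing hypotheses on `w₁, w₂` -/
structure Wts (u v w₁ w₂ : R) : Prop where
  u1 : u * w₁ = w₁ * u
  v1 : v * w₁ = w₁ * v
  u2 : u * w₂ = w₂ * u
  v2 : v * w₂ = w₂ * v
  w12 : w₁ * w₂ = w₂ * w₁
  ne1 : w₁ ≠ 0
  ne2 : w₂ ≠ 0

theorem X_pow (h : Pair F r ζ u v) (hw : Wts u v w₁ w₂) (k : ℕ) :
    (w₁ * u + w₂ * v) ^ k =
      ∑ i ∈ range (k + 1), qb ζ⁻¹ k i • ((w₁ ^ i * w₂ ^ (k - i)) * (u ^ i * v ^ (k - i))) := by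
  have h1 : (w₂ * v) * (w₁ * u) = ζ⁻¹ • ((w₁ * u) * (w₂ * v)) := by
    calc (w₂ * v) * (w₁ * u) = w₂ * (v * w₁) * u := by simp only [mul_assoc]
      _ = (w₂ * w₁) * (v * u) := by rw [hw.v1]; simp only [mul_assoc]
      _ = ζ⁻¹ • ((w₁ * w₂) * (u * v)) := by rw [h.rel', mul_smul_comm, hw.w12]
      _ = ζ⁻¹ • (w₁ * (u * w₂) * v) := by rw [hw.u2]; simp only [mul_assoc]
      _ = _ := by simp only [mul_assoc]
  rw [add_pow_q h1 k]
  refine sum_congr rfl fun i _ => ?_
  congr 1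
  have h2 : (w₁ * u) ^ i = w₁ ^ i * u ^ i := (show Commute w₁ u from hw.u1.symm).mul_pow i
  have h3 : (w₂ * v) ^ (k - i) = w₂ ^ (k - i) * v ^ (k - i) :=
    (show Commute w₂ v from hw.v2.symm).mul_pow _
  have h4 : u ^ i * w₂ ^ (k - i) = w₂ ^ (k - i) * u ^ i :=
    ((show Commute u w₂ from hw.u2).pow_pow i (k - i)).eq
  rw [h2, h3]
  calc w₁ ^ i * u ^ i * (w₂ ^ (k - i) * v ^ (k - i)) = w₁ ^ i * (u ^ i * w₂ ^ (k - i)) * v ^ (k - i) := by
        simp only [mul_assoc]
    _ = _ := by rw [h4]; simp only [mul_assoc]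

theorem Wts.uc (hw : Wts u v w₁ w₂) (i j : ℕ) : u * (w₁ ^ i * w₂ ^ j) = (w₁ ^ i * w₂ ^ j) * u :=
  (Commute.mul_right ((show Commute u w₁ from hw.u1).pow_right i)
    ((show Commute u w₂ from hw.u2).pow_right j)).eq

theorem Wts.vc (hw : Wts u v w₁ w₂) (i j : ℕ) : v * (w₁ ^ i * w₂ ^ j) = (w₁ ^ i * w₂ ^ j) * v :=
  (Commute.mul_right ((show Commute v w₁ from hw.v1).pow_right i)
    ((show Commute v w₂ from hw.v2).pow_right j)).eq

/-- the coefficients of `β X^k`, `k < r` -/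
theorem coef_X_pow [CharZero F] (h : Pair F r ζ u v) (hw : Wts u v w₁ w₂) {β : R} (hu : u * β = β * u)
    (hv : v * β = β * v) {k i j : ℕ} (hk : k < r) (hi : i < r) (hj : j < r) :
    coef F r ζ u v i j (β * (w₁ * u + w₂ * v) ^ k) =
      if i + j = k then qb ζ⁻¹ k i • (β * (w₁ ^ i * w₂ ^ j)) else 0 := by
  have hc : ∀ (a b : R), coef F r ζ u v i j (a + b) = coef F r ζ u v i j a + coef F r ζ u v i j b := by
    intro a b; rw [coef, add_mul, map_add, coef, coef]
  have hs : ∀ (c : F) (b : R), coef F r ζ u v i j (c • b) = c • coef F r ζ u v i j b := by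
    intro c b; rw [coef, smul_mul_assoc, map_smul, coef]
  have hsum : ∀ (s : Finset ℕ) (f : ℕ → R), coef F r ζ u v i j (∑ m ∈ s, f m) =
      ∑ m ∈ s, coef F r ζ u v i j (f m) := by
    intro s f
    simp only [coef, sum_mul, map_sum]
  rw [coef_mul_left hu hv, X_pow h hw, hsum]
  have h1 : ∀ m ∈ range (k + 1), coef F r ζ u v i j
      (qb ζ⁻¹ k m • ((w₁ ^ m * w₂ ^ (k - m)) * (u ^ m * v ^ (k - m)))) =
      if m = i ∧ k - m = j then qb ζ⁻¹ k m • (w₁ ^ m * w₂ ^ (k - m)) else 0 := by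
    intro m hm
    rw [mem_range] at hm
    rw [hs, coef_mono h (hw.uc _ _) (hw.vc _ _) (show m < r by omega) (show k - m < r by omega) hi hj]
    split_ifs <;> simp
  rw [sum_congr rfl h1]
  split_ifs with hk'
  · rw [sum_eq_single i]
    · rw [if_pos ⟨rfl, by omega⟩, show k - i = j by omega, mul_smul_comm]
    · intro m _ hm
      rw [if_neg (fun h => hm h.1)]
    · intro hi'
      exact absurd (mem_range.mpr (by omega)) hi'
  · rw [sum_eq_zero, mul_zero]
    intro m hm
    rw [mem_range] at hm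
    rw [if_neg]
    rintro ⟨rfl, h2⟩
    exact hk' (by omega)

/-- an element commuting with `X` and `w₂` without component of degree `0` in `u` vanishes -/
theorem eq_zero_of_comm (h : Pair F r ζ u v) [CharZero F] (hw : Wts u v w₁ w₂) {x : R}
    (hX : (w₁ * u + w₂ * v) * x = x * (w₁ * u + w₂ * v)) (h2 : w₂ * x = x * w₂)
    (h0 : pj r ζ⁻¹ v 0 x = 0) : x = 0 := by
  have hall : ∀ i, i < r → pj r ζ⁻¹ v i x = 0 := by
    intro i
    induction i with
    | zero => intro _; exact h0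
    | succ i ih =>
      intro hi
      have hz := ih (by omega)
      set y := pj r ζ⁻¹ v (i + 1) x with hy
      have e1 := congrArg (pj r ζ⁻¹ v (i + 1)) hX
      rw [add_mul, mul_add, pj_add, pj_add, mul_assoc, mul_assoc, pj_mul_left _ hw.v1,
        pj_succ_mul_left h.gv _ h.rel', hz, mul_zero, mul_zero, zero_add, pj_mul_left _ hw.v2,
        pj_mul_left _ rfl, ← mul_assoc x, ← mul_assoc x, pj_succ_mul_right h.gv _ h.rel',
        pj_mul_right _ hw.v1, hz, zero_mul, zero_mul, zero_add, pj_mul_right _ rfl,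
        pj_mul_right _ hw.v2, ← hy] at e1
      have e2 : w₂ * y = y * w₂ := commute_pj hw.v2 _ h2
      rw [← e2, mul_assoc] at e1
      have e3 : v * y = y * v := mul_left_cancel₀ hw.ne2 e1
      have e4 := w_mul_pj h.gv (i + 1) x
      rw [← hy, e3] at e4
      have e5 : (1 - (ζ⁻¹) ^ (i + 1)) • (y * v) = 0 := by
        rw [sub_smul, one_smul, sub_eq_zero]; exact e4
      rcases smul_eq_zero.mp e5 with h5 | h5
      · exact absurd (sub_eq_zero.mp h5).symm
          (h.gv.prim.pow_ne_one_of_pos_of_lt (Nat.succ_ne_zero i) hi)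
      · exact (mul_eq_zero.mp h5).resolve_right h.v0
  rw [← sum_pj h.gv x]
  exact sum_eq_zero fun i hi => hall i (mem_range.mp hi)

end X

end Sym

end Vale.P199
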