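import Vale.Agent.P199.Chain

/-!
P199, part (A): the tower of stages (output of A3, input of A4, A6, A7).
-/

namespace Vale.P199

open Polynomial

/-- the subring of `B<<I>>` generated by the constants of a subfield `k ≤ K` and `X`, `Y` -/
def State.adj (S : State) (k : Subfield S.K) : Subring (NC S.I S.B) :=
  Subring.closure ((fun c : S.K => (NC.C (algebraMap S.K S.B c) : NC S.I S.B)) '' (k : Set S.K) ∪
    {S.X, S.Y})

/-- A sequence of stages (with two letters and so on), with the connecting morphisms and a subfield of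
the centre at each stage, such that everything generated at a stage by the subfield and `X`, `Y`
becomes algebraic (over the subfield) later on. -/
structure Tower where
  S : ℕ → State
  m : ∀ n, Mor (S n) (S (n + 1))
  k : ∀ n, Subfield (S n).K
  hk : ∀ n, ∀ c ∈ k n, (m n).j c ∈ k (n + 1)
  rank : ∀ n, n ≤ Module.finrank (S n).K (S n).B
  alg : ∀ n, ∀ f ∈ (S n).adj (k n), ∃ N, ∃ h : n ≤ N, ∃ P : Polynomial (S N).K, P.Monic ∧
    (∀ i, P.coeff i ∈ k N) ∧
    aeval (Chain.tr (R := fun n => NC (S n).I (S n).B) (fun n => (m n).Ψ) h f) P = 0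

namespace Tower

variable (W : Tower)

/-- the rings of the tower -/
abbrev R (n : ℕ) : Type := NC (W.S n).I (W.S n).B

/-- the connecting maps -/
abbrev g (n : ℕ) : W.R n →+* W.R (n + 1) := (W.m n).Ψ

/-- transition between two stages -/
noncomputable abbrev tr {n m : ℕ} (h : n ≤ m) : W.R n →+* W.R m := Chain.tr (R := W.R) W.g h

/-- the limit ring -/
abbrev L : Type := Chain.Lim (R := W.R) W.g

/-- the map from a stage to the limit ring -/
noncomputable abbrev ι (n : ℕ) : W.R n →+* W.L := Chain.ι (R := W.R) W.g n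

/-- connecting maps of the subfields -/
def kg (n : ℕ) : W.k n →+* W.k (n + 1) :=
  ((W.m n).j.comp (W.k n).subtype).codRestrict (W.k (n + 1)) (fun c => W.hk n c c.2)

/-- transition of the subfields -/
noncomputable abbrev ktr {n m : ℕ} (h : n ≤ m) : W.k n →+* W.k m :=
  Chain.tr (R := fun n => W.k n) W.kg h

/-- the limit field -/
def kk : Type := DirectLimit (fun n => W.k n) (fun _ _ h => W.ktr h)

noncomputable instance : Field W.kk :=
  inferInstanceAs (Field (DirectLimit (fun n => W.k n) (fun _ _ h => W.ktr h)))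

/-- the map from a subfield to the limit field -/
noncomputable def κ (n : ℕ) : W.k n →+* W.kk :=
  DirectLimit.Ring.of (fun n => W.k n) (fun _ _ h => W.ktr h) n

theorem exists_κ (c : W.kk) : ∃ n, ∃ x : W.k n, W.κ n x = c := by
  obtain ⟨n, x, hx⟩ := DirectLimit.exists_eq_mk _ c
  exact ⟨n, x, hx.symm⟩

theorem κ_ktr {n m : ℕ} (h : n ≤ m) (x : W.k n) : W.κ m (W.ktr h x) = W.κ n x :=
  DirectLimit.Ring.of_f (G := fun n => W.k n) (f := fun _ _ h => W.ktr h) h x

/-- constants -/
noncomputable def cst (n : ℕ) : W.k n →+* W.R n :=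
  (NC.C.comp (algebraMap (W.S n).K (W.S n).B)).comp (W.k n).subtype

theorem g_cst (n : ℕ) (c : W.k n) : W.g n (W.cst n c) = W.cst (n + 1) (W.kg n c) :=
  (W.m n).hC c

theorem tr_cst {n m : ℕ} (h : n ≤ m) (c : W.k n) : W.tr h (W.cst n c) = W.cst m (W.ktr h c) := by
  induction m, h using Nat.le_induction with
  | base =>
    show Chain.tr (R := W.R) W.g (le_refl n) _ = W.cst n (Chain.tr (R := fun n => W.k n) W.kg (le_refl n) c)
    rw [Chain.tr_self, Chain.tr_self]
  | succ l hl ih =>
    show Chain.tr (R := W.R) W.g _ _ = W.cst (l + 1) (Chain.tr (R := fun n => W.k n) W.kg _ c)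
    rw [Chain.tr_succ (R := W.R) W.g hl, Chain.tr_succ (R := fun n => W.k n) W.kg hl]
    rw [← g_cst]
    exact congrArg _ ih

theorem tr_X {n m : ℕ} (h : n ≤ m) : W.tr h (W.S n).X = (W.S m).X := by
  induction m, h using Nat.le_induction with
  | base => exact Chain.tr_self _ _ _
  | succ l hl ih =>
    show Chain.tr (R := W.R) W.g _ _ = _
    rw [Chain.tr_succ (R := W.R) W.g hl]
    exact (congrArg _ ih).trans (W.m l).hX

theorem tr_Y {n m : ℕ} (h : n ≤ m) : W.tr h (W.S n).Y = (W.S m).Y := by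
  induction m, h using Nat.le_induction with
  | base => exact Chain.tr_self _ _ _
  | succ l hl ih =>
    show Chain.tr (R := W.R) W.g _ _ = _
    rw [Chain.tr_succ (R := W.R) W.g hl]
    exact (congrArg _ ih).trans (W.m l).hY

/-- the limit field maps to the limit ring -/
noncomputable def κL : W.kk →+* W.L :=
  DirectLimit.Ring.lift (fun n => W.k n) (fun _ _ h => W.ktr h) W.L
    (fun n => (W.ι n).comp (W.cst n)) (by
      intro i j hij x
      show W.ι j (W.cst j (W.ktr hij x)) = W.ι i (W.cst i x)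
      rw [← W.tr_cst hij, Chain.ι_tr])

theorem κL_κ (n : ℕ) (c : W.k n) : W.κL (W.κ n c) = W.ι n (W.cst n c) :=
  DirectLimit.Ring.lift_of _ _ _ _ _

theorem cst_comm (n : ℕ) (c : W.k n) (f : W.R n) : W.cst n c * f = f * W.cst n c := by
  ext w
  show ((NC.C (algebraMap (W.S n).K (W.S n).B c) : W.R n) * f) w =
    (f * (NC.C (algebraMap (W.S n).K (W.S n).B c) : W.R n)) w
  rw [NC.C_mul_apply, NC.mul_C_apply, Algebra.commutes]

theorem κL_comm (c : W.kk) (r : W.L) : W.κL c * r = r * W.κL c := by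
  obtain ⟨n, x, rfl⟩ := W.exists_κ c
  obtain ⟨m, hm, f, rfl⟩ := Chain.exists_ι_ge (R := W.R) W.g r n
  rw [← W.κ_ktr hm x, κL_κ]
  show W.ι m _ * W.ι m f = W.ι m f * W.ι m _
  rw [← map_mul, cst_comm, map_mul]

noncomputable instance : Algebra W.kk W.L := W.κL.toAlgebra' W.κL_comm

theorem algebraMap_κ (n : ℕ) (c : W.k n) : algebraMap W.kk W.L (W.κ n c) = W.ι n (W.cst n c) :=
  W.κL_κ n c

/-- the two generators -/
noncomputable def x : W.L := W.ι 0 (W.S 0).X
noncomputable def y : W.L := W.ι 0 (W.S 0).Y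

theorem ι_X (n : ℕ) : W.ι n (W.S n).X = W.x := by
  rw [← W.tr_X (Nat.zero_le n)]
  exact Chain.ι_tr _ _ _

theorem ι_Y (n : ℕ) : W.ι n (W.S n).Y = W.y := by
  rw [← W.tr_Y (Nat.zero_le n)]
  exact Chain.ι_tr _ _ _

/-- the algebra -/
noncomputable def A : Subalgebra W.kk W.L := Algebra.adjoin W.kk {W.x, W.y}

end Tower

end Vale.P199
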